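import Vale.Agent.P217.Hom

/-! Endomorphisms of the Honda law, translation, and logarithms of homomorphisms. -/

namespace Vale.Agent.P217

open MvPowerSeries

variable {R S T K : Type*} [CommRing R] [CommRing S] [CommRing T] [CommRing K] {σ τ : Type*}
variable {p : ℕ} [hp' : Fact p.Prime] {n m : ℕ}

open HomAux

namespace Hom2Aux

theorem exists_frob (hp : (p : S) = 0) (t : ℕ) : ∃ ψ : S →+* S, (∀ a, ψ a = a ^ p ^ t) ∧
    ∀ (σ : Type) (f : MvPowerSeries σ S),
      f ^ p ^ t = expand (p ^ t) (pow_ne_zero t hp'.out.ne_zero) (MvPowerSeries.map ψ f) := by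
  rcases subsingleton_or_nontrivial S with hS | hS
  · refine ⟨RingHom.id S, fun a => Subsingleton.elim _ _, fun σ f => ?_⟩
    ext d; exact Subsingleton.elim _ _
  · have : CharP S p := (CharP.charP_iff_prime_eq_zero hp'.out).mpr hp
    refine ⟨iterateFrobenius S p t, fun a => iterateFrobenius_def .., fun σ f => ?_⟩
    rw [← map_iterateFrobenius_expand p hp'.out.ne_zero f t, map_expand]

theorem C_eH (h : ℕ) : (fun j => (C (eH S h j) : MvPowerSeries σ S)) = eH (MvPowerSeries σ S) h :=
  map_eH (C : S →+* MvPowerSeries σ S) h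

omit hp' in
theorem p_eq_zero (hp : (p : S) = 0) : (p : MvPowerSeries σ S) = 0 := by
  rw [← map_natCast (C : S →+* MvPowerSeries σ S), hp, map_zero]

theorem pow_mem_rad {I : Ideal S} {a : S} (ha : a ∈ I.radical) (t : ℕ) : a ^ p ^ t ∈ I.radical :=
  Ideal.pow_mem_of_mem _ ha _ (pow_pos hp'.out.pos t)

/-- Frobenius commutes with the Honda law. -/
theorem fadd_pow (hp : (p : S) = 0) (I : Ideal S) [IsAdicComplete I S] {h : ℕ} {a b : S}
    (ha : a ∈ I.radical) (hb : b ∈ I.radical) (t : ℕ) :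
    fadd p n (eH S h) a b ^ p ^ t = fadd p n (eH S h) (a ^ p ^ t) (b ^ p ^ t) := by
  obtain ⟨ψ, hψ, -⟩ := exists_frob hp t
  have := map_fadd (p := p) (n := n) I (eH S h) ψ I ha hb (by rw [hψ]; exact pow_mem_rad ha t)
    (by rw [hψ]; exact pow_mem_rad hb t)
  rwa [map_eH, hψ, hψ, hψ] at this

theorem ev1_X0 [Finite τ] {a : MvPowerSeries τ S} (ha : constantCoeff a = 0) :
    ev1 C a (PowerSeries.X : PowerSeries S) = a :=
  ev1_X _ (ok_one (PI τ (⊥ : Ideal S)) (rad0 ha))

theorem ev1_C0 [Finite τ] {a : MvPowerSeries τ S} (ha : constantCoeff a = 0) (r : S) :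
    ev1 C a (C r : PowerSeries S) = C r :=
  ev_C _ (ok_one (PI τ (⊥ : Ideal S)) (rad0 ha)) r

theorem isHomS_X_pow (hp : (p : S) = 0) (t : ℕ) :
    IsHomS p n (eH S n) n (eH S n) (PowerSeries.X ^ p ^ t) := by
  refine isHomS_of (by rw [map_pow, const_X1, zero_pow (pow_ne_zero t hp'.out.ne_zero)]) ?_
  rw [map_pow, map_pow, map_pow, ev1_X0 (constantCoeff_X 0), ev1_X0 (constantCoeff_X 1),
    ev1_X0 (const_fadd _ (constantCoeff_X 0) (constantCoeff_X 1)), C_eH]
  exact fadd_pow (p_eq_zero hp) (PI (Fin 2) (⊥ : Ideal S)) (radX 0) (radX 1) t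

omit hp' in
theorem pow_pow_of_dvd {a : S} (ha : a ^ p ^ n = a) {t : ℕ} (ht : n ∣ t) : a ^ p ^ t = a := by
  obtain ⟨s, rfl⟩ := ht
  induction s with
  | zero => simp
  | succ s ih => rw [Nat.mul_succ, pow_add, pow_mul, ih, ha]

theorem Lg_eH_mul [Finite σ] (hp : IsUnit (p : K)) (hn : 1 ≤ n) {a : K} (ha : a ^ p ^ n = a)
    {Z : MvPowerSeries σ K} (hZ : constantCoeff Z = 0) :
    Lg p (ll p (eH K n)) (C a * Z) = C a * Lg p (ll p (eH K n)) Z := by
  refine eq_of_sub_mem_pow (PI σ (⊥ : Ideal K)) fun k => ?_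
  have hk : k ≤ p ^ k := (Nat.lt_pow_self hp'.out.one_lt).le
  have h1 := Lg_sub_sum_mem (p := p) (ll p (eH K n)) (ψ := C a * Z) (by rw [map_mul, hZ, mul_zero]) k
  have h2 := Ideal.mul_mem_left _ (C a) (Lg_sub_sum_mem (p := p) (ll p (eH K n)) hZ k)
  have e : ∑ t ∈ Finset.range k, C (ll p (eH K n) t) * (C a * Z) ^ p ^ t =
      C a * ∑ t ∈ Finset.range k, C (ll p (eH K n) t) * Z ^ p ^ t := by
    rw [Finset.mul_sum]
    refine Finset.sum_congr rfl fun t _ => ?_
    rw [ll_eH hp hn]
    split_ifs with ht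
    · rw [mul_pow, ← map_pow C a, pow_pow_of_dvd ha ht]; ring
    · simp
  rw [e] at h1
  have := Ideal.pow_le_pow_right hk (sub_mem h1 h2)
  convert this using 1
  ring

theorem isHomS_C_mul_X_unit (hp : IsUnit (p : K)) (hn : 1 ≤ n) {a : K} (ha : a ^ p ^ n = a) :
    IsHomS p n (eH K n) n (eH K n) (C a * PowerSeries.X) := by
  have hc : ∀ Z : MvPowerSeries (Fin 2) K, constantCoeff Z = 0 → constantCoeff (C a * Z) = 0 :=
    fun Z hZ => by rw [map_mul, hZ, mul_zero]
  have he : ∀ j, n < j → eH K n j = 0 := fun j hj => by simp [eH, hj.ne']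
  have hF := const_fadd (p := p) (n := n) (fun j => (C (eH K n j) : MvPowerSeries (Fin 2) K))
    (constantCoeff_X 0) (constantCoeff_X 1)
  refine isHomS_of (by rw [map_mul, const_X1, mul_zero]) ?_
  rw [map_mul, map_mul, map_mul, ev1_X0 (constantCoeff_X 0), ev1_X0 (constantCoeff_X 1),
    ev1_X0 hF, ev1_C0 hF, ev1_C0 (constantCoeff_X 0), ev1_C0 (constantCoeff_X 1)]
  refine Lg_inj (p := p) (ll_zero (p := p) (eH K n)) (hc _ hF)
    (const_fadd _ (hc _ (constantCoeff_X 0)) (hc _ (constantCoeff_X 1))) ?_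
  rw [Lg_fadd hp he (hc _ (constantCoeff_X 0)) (hc _ (constantCoeff_X 1)), Lg_eH_mul hp hn ha hF,
    Lg_eH_mul hp hn ha (constantCoeff_X 0), Lg_eH_mul hp hn ha (constantCoeff_X 1),
    Lg_fadd hp he (constantCoeff_X 0) (constantCoeff_X 1), mul_add]

theorem map_C_mul_X (ψ : S →+* T) (a : S) :
    MvPowerSeries.map ψ (C a * PowerSeries.X : PowerSeries S) = C (ψ a) * PowerSeries.X := by
  rw [map_mul, map_C]
  congr 1
  exact map_X ψ ()

theorem IsHomS.of_map {v w : ℕ → S} {k : PowerSeries S} (ψ : S →+* T)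
    (hψ : Function.Injective ψ) (h0 : constantCoeff k = 0)
    (h : IsHomS p n (fun j => ψ (v j)) m (fun j => ψ (w j)) (MvPowerSeries.map ψ k)) :
    IsHomS p n v m w k := by
  refine ⟨h0, ?_⟩
  have := h.err
  rw [← map_homErr ψ h0] at this
  ext d
  apply hψ
  have h2 := congrArg (coeff d) this
  rw [coeff_map] at h2
  simpa using h2

theorem isHomS_C_mul_X (hn : 1 ≤ n) {a : S} (ha : a ^ p ^ n = a) :
    IsHomS p n (eH S n) n (eH S n) (C a * PowerSeries.X) := by
  let f : Polynomial ℤ := Polynomial.X ^ p ^ n - Polynomial.X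
  have hq : 1 < p ^ n := Nat.one_lt_pow (by omega) hp'.out.one_lt
  have hf : f.Monic := by
    refine Polynomial.monic_X_pow_sub ?_
    rw [Polynomial.degree_X]
    exact_mod_cast hq
  have := hf.free_adjoinRoot
  have hreg : (p : AdjoinRoot f) ∈ nonZeroDivisors (AdjoinRoot f) := by
    rw [mem_nonZeroDivisors_iff_right]
    intro x hx
    have h1 : (p : ℤ) • x = 0 := by rw [zsmul_eq_mul, Int.cast_natCast, mul_comm, hx]
    rcases smul_eq_zero.mp h1 with h | h
    · exact absurd (by exact_mod_cast h) hp'.out.ne_zero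
    · exact h
  have hr : AdjoinRoot.root f ^ p ^ n = AdjoinRoot.root f := by
    have := AdjoinRoot.eval₂_root f
    simp only [f, Polynomial.eval₂_sub, Polynomial.eval₂_pow, Polynomial.eval₂_X] at this
    exact sub_eq_zero.mp this
  let ι := algebraMap (AdjoinRoot f) (Localization.Away (p : AdjoinRoot f))
  have hι : Function.Injective ι :=
    IsLocalization.injective _ (M := Submonoid.powers (p : AdjoinRoot f))
      (Submonoid.powers_le.mpr hreg)
  have hu : IsUnit (p : Localization.Away (p : AdjoinRoot f)) := by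
    have := IsLocalization.Away.algebraMap_isUnit (S := Localization.Away (p : AdjoinRoot f))
      (p : AdjoinRoot f)
    rwa [map_natCast] at this
  have hA : IsHomS p n (eH (AdjoinRoot f) n) n (eH (AdjoinRoot f) n)
      (C (AdjoinRoot.root f) * PowerSeries.X) := by
    refine IsHomS.of_map ι hι (by rw [map_mul, const_X1, mul_zero]) ?_
    rw [map_eH, map_C_mul_X]
    exact isHomS_C_mul_X_unit hu hn (by rw [← map_pow, hr])
  have hroot : f.eval₂ (Int.castRingHom S) a = 0 := by
    simp only [f, Polynomial.eval₂_sub, Polynomial.eval₂_pow, Polynomial.eval₂_X]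
    exact sub_eq_zero.mpr ha
  have := hA.map (AdjoinRoot.lift (Int.castRingHom S) a hroot)
  rwa [map_eH, map_C_mul_X, AdjoinRoot.lift_root] at this

theorem coeff_single_of_mem [Finite σ] {g : MvPowerSeries σ S} (hg : g ∈ PI σ (⊥ : Ideal S) ^ 2)
    (j : σ) : coeff (Finsupp.single j 1) g = 0 :=
  mem_PI_bot_pow.mp hg _ (by simp)

theorem coeff_single_X_mul [Finite σ] [DecidableEq σ] (i j : σ) (W : MvPowerSeries σ S) :
    coeff (Finsupp.single j 1) (X i * W) = if i = j then constantCoeff W else 0 := by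
  have h1 : X i * (W - C (constantCoeff W)) ∈ PI σ (⊥ : Ideal S) ^ 2 := by
    rw [pow_two]
    exact Ideal.mul_mem_mul (mem_PI_bot.mpr (constantCoeff_X i)) (mem_PI_bot.mpr (by simp))
  have e : X i * W = X i * (W - C (constantCoeff W)) + X i * C (constantCoeff W) := by ring
  rw [e, map_add, coeff_single_of_mem h1, zero_add, coeff_mul_C, coeff_index_single_X]
  split_ifs with h h' h'
  · rw [one_mul]
  · exact absurd h.symm h'
  · exact absurd h'.symm h
  · rw [zero_mul]

theorem mem_PI1_pow {f : PowerSeries S} {k : ℕ} :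
    f ∈ PI Unit (⊥ : Ideal S) ^ k ↔ ∀ d, d < k → PowerSeries.coeff d f = 0 := by
  rw [mem_PI_bot_pow]
  constructor
  · intro h d hd
    exact h (Finsupp.single () d) (by simpa using hd)
  · intro h d hd
    have e : d = Finsupp.single () (d ()) := by ext; simp
    rw [e] at hd ⊢
    exact h _ (by simpa using hd)

theorem isUnit_natCast (hp : (p : S) = 0) {d : ℕ} (hd : ¬ p ∣ d) : IsUnit (d : S) := by
  have h1 : IsCoprime (d : S) (p : S) :=
    Nat.Coprime.cast ((Nat.Prime.coprime_iff_not_dvd hp'.out).mpr hd).symm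
  rwa [hp, isCoprime_zero_right] at h1

end Hom2Aux

open Hom2Aux

/-- `a X ^ (p ^ t)` with `a ^ (p ^ n) = a` is an endomorphism of the Honda law. -/
theorem isHomS_eH (hp : (p : S) = 0) (hn : 1 ≤ n) {a : S} (ha : a ^ p ^ n = a) (t : ℕ) :
    IsHomS p n (eH S n) n (eH S n) (C a * PowerSeries.X ^ p ^ t) := by
  have := (isHomS_X_pow (n := n) hp t).comp (isHomS_C_mul_X hn ha)
  have h0 : constantCoeff (PowerSeries.X ^ p ^ t : PowerSeries S) = 0 := by
    rw [map_pow, const_X1, zero_pow (pow_ne_zero t hp'.out.ne_zero)]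
  rwa [map_mul, ev1_C0 h0, ev1_X0 h0] at this

/-- The linear term of a translate is a unit times the derivative. -/
theorem coeff_ev_translate [Finite σ] (c : R →+* S) (I : Ideal S) [IsAdicComplete I S]
    (v : ℕ → S) {x : σ → S} (hx : ∀ i, x i ∈ I.radical) (f : MvPowerSeries σ R) (j : σ) :
    ∃ u : S, IsUnit u ∧
      coeff (Finsupp.single j 1) (ev ((C : S →+* MvPowerSeries σ S).comp c)
        (fun i => fadd p n (fun l => C (v l)) (C (x i)) (X i)) f) =
      u * ev c x (pderiv R j f) := by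
  classical
  have := Fintype.ofFinite σ
  have hCx : ∀ i, (C (x i) : MvPowerSeries σ S) ∈ (PI σ I).radical := fun i => by
    rw [mem_PI_radical, constantCoeff_C]; exact hx i
  have hX : ∀ i, (X i : MvPowerSeries σ S) ∈ (PI σ I).radical := fun i =>
    mem_PI_radical_of_zero I (constantCoeff_X i)
  choose g hg using fun i => fadd_eq (p := p) (n := n) (PI σ I) (fun l => C (v l)) (hCx i) (hX i)
  let b : σ → MvPowerSeries σ S := fun i => X i * (1 + C (x i) * g i)
  have hb0 : ∀ i, constantCoeff (b i) = 0 := fun i => by simp [b]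
  have e : (fun i => fadd p n (fun l => C (v l)) (C (x i)) (X i)) = fun i => C (x i) + b i :=
    funext fun i => by rw [hg]; simp only [b]; ring
  have hC : ∀ f' : MvPowerSeries σ R, ev ((C : S →+* MvPowerSeries σ S).comp c)
      (fun i => C (x i)) f' = C (ev c x f') := fun f' =>
    (map_ev C c (Ok.of_rad I hx) (Ok.of_rad (PI σ I) hCx) f').symm
  have ht := ev_taylor ((C : S →+* MvPowerSeries σ S).comp c) (PI σ I) hCx
    (fun i => mem_PI_radical_of_zero I (hb0 i)) f
  have hle : Ideal.span (Set.range b) ≤ PI σ (⊥ : Ideal S) :=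
    Ideal.span_le.mpr (by rintro _ ⟨i, rfl⟩; exact mem_PI_bot.mpr (hb0 i))
  have h0 := coeff_single_of_mem (Ideal.pow_right_mono hle 2 ht) j
  refine ⟨1 + x j * constantCoeff (g j),
    isUnit_one_add_of_mem_radical I (Ideal.mul_mem_right _ _ (hx j)), ?_⟩
  rw [map_sub, map_sub, hC, map_sum, coeff_C, if_neg (by simp), sub_zero, sub_eq_zero] at h0
  rw [e, h0, Finset.sum_eq_single j]
  · simp only [b]
    rw [hC, mul_assoc, coeff_single_X_mul, if_pos rfl]
    simp
  · intro i _ hi
    simp only [b]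
    rw [mul_assoc, coeff_single_X_mul, if_neg hi]
  · simp

namespace Hom2Aux

theorem coeff_one_fadd_C (I : Ideal S) [IsAdicComplete I S] (w : ℕ → PowerSeries S) {a : S}
    (ha : a ∈ I.radical) {B : PowerSeries S} (hB : B ∈ PI Unit (⊥ : Ideal S) ^ 2) :
    coeff (Finsupp.single () 1) (fadd p n w (C a) B) = 0 := by
  have hB0 : constantCoeff B = 0 := mem_PI_bot.mp (Ideal.pow_le_self two_ne_zero hB)
  have hCa : (C a : PowerSeries S) ∈ (PI Unit I).radical := by
    rw [mem_PI_radical, constantCoeff_C]; exact ha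
  obtain ⟨g, hg⟩ := fadd_eq (p := p) (n := n) (PI Unit I) w hCa (mem_PI_radical_of_zero I hB0)
  rw [hg, map_add, map_add, coeff_single_of_mem hB,
    coeff_single_of_mem (Ideal.mul_mem_right g _ (Ideal.mul_mem_left _ (C a) hB)), coeff_C,
    if_neg (by simp), add_zero, add_zero]

theorem map_mem_PI1_sq (c : S →+* T) {e : PowerSeries S} (h0 : constantCoeff e = 0)
    (h1 : PowerSeries.coeff 1 e = 0) :
    (MvPowerSeries.map c e : PowerSeries T) ∈ PI Unit (⊥ : Ideal T) ^ 2 :=
  mem_PI1_pow.mpr fun d hd => by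
    have : PowerSeries.coeff d e = 0 := by
      interval_cases d
      · rw [PowerSeries.coeff_zero_eq_constantCoeff_apply]; exact h0
      · exact h1
    exact (coeff_map c _ e).trans (by rw [show coeff _ e = 0 from this, map_zero])

theorem ev_pderiv_eq_zero {v w : ℕ → S} {e : PowerSeries S} (he : IsHomS p n v m w e)
    (h1 : PowerSeries.coeff 1 e = 0) (c : S →+* T) (I : Ideal T) [IsAdicComplete I T] {x : T}
    (hx : x ∈ I.radical) : ev1 c x (pderiv S () e) = 0 := by
  obtain ⟨u, hu, hd⟩ := coeff_ev_translate (p := p) (n := n) (σ := Unit) c I (fun l => c (v l))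
    (x := fun _ => x) (fun _ => hx) e ()
  have hCX : (C x : PowerSeries T) ∈ (PI Unit I).radical := by
    rw [mem_PI_radical, constantCoeff_C]; exact hx
  have hY : (X () : PowerSeries T) ∈ (PI Unit I).radical :=
    mem_PI_radical_of_zero _ (constantCoeff_X ())
  have h2 := he.ev_fadd ((C : T →+* PowerSeries T).comp c) (PI Unit I) hCX hY
  have e1 : ev1 ((C : T →+* PowerSeries T).comp c) (C x) e = C (ev1 c x e) :=
    (map_ev (C : T →+* PowerSeries T) c (ok_one I hx) (ok_one (PI Unit I) hCX) e).symm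
  have e2 : ev1 ((C : T →+* PowerSeries T).comp c) (X ()) e = MvPowerSeries.map c e :=
    ev_C_comp_X c e
  rw [e1, e2] at h2
  have h3 := coeff_one_fadd_C (p := p) (n := m) I
    (fun j => ((C : T →+* PowerSeries T).comp c) (w j)) (ev1_rad c I hx he.const)
    (map_mem_PI1_sq c he.const h1)
  rw [← h2] at h3
  exact (hu.mul_right_eq_zero).mp (hd.symm.trans h3)

theorem exists_expand_of_pderiv (hp : (p : S) = 0) {e : PowerSeries S} (h4 : pderiv S () e = 0) :
    ∃ e', e = expand p hp'.out.ne_zero e' := by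
  refine Vale.Agent.P217.exists_expand hp'.out.ne_zero (f := e) ?_
  rintro d ⟨⟨⟩, hd⟩
  have hd0 : d () ≠ 0 := fun h => hd (h ▸ dvd_zero p)
  obtain ⟨s, hs⟩ := Nat.exists_eq_succ_of_ne_zero hd0
  have h6 := coeff_pderiv (i := ()) e (Finsupp.single () s)
  have e3 : Finsupp.single () s + Finsupp.single () 1 = d := by ext; simp [hs]
  rw [h4, map_zero, e3] at h6
  have h7 := isUnit_natCast hp hd
  rw [hs] at h7
  refine (h7.mul_left_eq_zero).mp ?_
  simpa using h6.symm

theorem isHomS_of_expand (hp : (p : S) = 0) {e' : PowerSeries S}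
    (he : IsHomS p n (eH S n) n (eH S n) (expand p hp'.out.ne_zero e')) :
    IsHomS p n (eH S n) n (eH S n) e' := by
  have h0 : constantCoeff e' = 0 := by
    have := he.const
    rwa [constantCoeff_expand] at this
  refine isHomS_of h0 (expand_inj hp'.out.ne_zero ?_)
  have hXp : ∀ i, (X i ^ p : MvPowerSeries (Fin 2) S) ∈ (PI (Fin 2) (⊥ : Ideal S)).radical :=
    fun i => Ideal.pow_mem_of_mem _ (radX i) _ hp'.out.pos
  have hF := const_fadd (p := p) (n := n) (fun j => (C (eH S n j) : MvPowerSeries (Fin 2) S))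
    (constantCoeff_X 0) (constantCoeff_X 1)
  have hE : ∀ a : MvPowerSeries (Fin 2) S, constantCoeff a = 0 →
      ev1 C a (expand p hp'.out.ne_zero e') = ev1 C (a ^ p) e' := fun a ha =>
    ev_expand C (PI (Fin 2) (⊥ : Ideal S)) (a := fun _ : Unit => a) (fun _ => rad0 ha) _ e'
  have h8 := he.ev_fadd C (PI (Fin 2) (⊥ : Ideal S)) (radX 0) (radX 1)
  rw [hE _ hF, hE _ (constantCoeff_X 0), hE _ (constantCoeff_X 1)] at h8
  have h9 := fadd_pow (n := n) (h := n) (p_eq_zero hp) (PI (Fin 2) (⊥ : Ideal S)) (radX 0)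
    (radX 1) 1
  rw [pow_one, ← C_eH] at h9
  rw [expand_eq_ev, expand_eq_ev, ev_ev1 C (PI (Fin 2) (⊥ : Ideal S)) hXp hF,
    ev_fadd_C C (PI (Fin 2) (⊥ : Ideal S)) hXp _ (constantCoeff_X 0) (constantCoeff_X 1),
    ev_fadd_C C (PI (Fin 2) (⊥ : Ideal S)) hXp _ (const_ev1 (constantCoeff_X 0) h0)
      (const_ev1 (constantCoeff_X 1) h0),
    ev_ev1 C (PI (Fin 2) (⊥ : Ideal S)) hXp (constantCoeff_X 0),
    ev_ev1 C (PI (Fin 2) (⊥ : Ideal S)) hXp (constantCoeff_X 1),
    ev_X _ (Ok.of_rad (PI (Fin 2) (⊥ : Ideal S)) hXp),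
    ev_X _ (Ok.of_rad (PI (Fin 2) (⊥ : Ideal S)) hXp), ← h9]
  exact h8

end Hom2Aux

/-- An endomorphism of the Honda law without linear term factors through Frobenius. -/
theorem IsHomS.exists_expand (hp : (p : S) = 0) {e : PowerSeries S}
    (he : IsHomS p n (eH S n) n (eH S n) e) (h1 : PowerSeries.coeff 1 e = 0) :
    ∃ e', IsHomS p n (eH S n) n (eH S n) e' ∧ e = expand p hp'.out.ne_zero e' := by
  have h4 := ev_pderiv_eq_zero he h1 C (PI Unit (⊥ : Ideal S)) (rad0 const_X1)
  rw [ev1_C_X] at h4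
  obtain ⟨e', rfl⟩ := exists_expand_of_pderiv hp h4
  exact ⟨e', isHomS_of_expand hp he, rfl⟩

/-- Homomorphisms intertwine the logarithms. -/
theorem IsHomS.Lg_eq [IsDomain K] [CharZero K] (hp : IsUnit (p : K)) {v w : ℕ → K}
    (hv : ∀ j, n < j → v j = 0) (hw : ∀ j, m < j → w j = 0) {k : PowerSeries K}
    (hk : IsHomS p n v m w k) :
    Lg p (ll p w) k = C (PowerSeries.coeff 1 k) * lser p (ll p v) := by
  have hP := constantCoeff_pser (p := p) (n := n) v
  have hL : ∀ {k : PowerSeries K}, constantCoeff k = 0 → ∀ c : ℕ → K,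
      ev1 C (pser p n v) (Lg p c k) = Lg p c (ev1 C (pser p n v) k) := fun {k} h0 c =>
    hom_Lg (ev1 C (pser p n v)) (RingHom.id K) (fun r => ev1_C0 hP r) c h0 (const_ev1 hP h0)
  have h1 : ev1 C (pser p n v) (Lg p (ll p w) k) = (p : PowerSeries K) * Lg p (ll p w) k := by
    rw [hL hk.const, sub_eq_zero.mp hk.pErr_eq, ← fp_C w hk.const, Lg_fp hp hw hk.const]
  have h2 : ev1 C (pser p n v) (lser p (ll p v)) = (p : PowerSeries K) * lser p (ll p v) := by
    have := Lg_fp (n := n) hp hv (const_X1 (S := K))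
    rw [← pser_eq, Lg_X] at this
    exact this
  set G := Lg p (ll p w) k - C (PowerSeries.coeff 1 k) * lser p (ll p v) with hG
  have h3 : ev1 C (pser p n v) G = (p : PowerSeries K) * G := by
    rw [hG, map_sub, map_mul, h1, h2, ev1_C0 hP]; ring
  have hl : ∀ c : ℕ → K, PowerSeries.coeff 1 (lser p c) = c 0 := fun c => by
    have := coeff_lser (p := p) c 0
    rwa [pow_zero] at this
  have hG0 : PowerSeries.coeff 0 G = 0 := by
    rw [PowerSeries.coeff_zero_eq_constantCoeff_apply]
    change constantCoeff G = 0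
    rw [hG, map_sub, map_mul, constantCoeff_Lg _ hk.const, ← Lg_X, constantCoeff_Lg _ const_X1]
    simp
  have hG1 : PowerSeries.coeff 1 G = 0 := by
    have e1 : PowerSeries.coeff 1 (C (PowerSeries.coeff 1 k) * lser p (ll p v)) =
        PowerSeries.coeff 1 k * PowerSeries.coeff 1 (lser p (ll p v)) :=
      PowerSeries.coeff_C_mul 1 _ _
    rw [hG, map_sub, e1, Lg, coeff_one_ev1 hk.const, hl, hl, ll_zero, ll_zero]; ring
  obtain ⟨P, hPX⟩ : (PowerSeries.X : PowerSeries K) ∣ pser p n v := PowerSeries.X_dvd_iff.mpr hP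
  have hP0 : PowerSeries.constantCoeff P = p := by
    have := coeff_one_pser (p := p) (n := n) v
    rwa [hPX, PowerSeries.coeff_succ_X_mul, PowerSeries.coeff_zero_eq_constantCoeff_apply] at this
  have key : ∀ d, PowerSeries.coeff d G = 0 := fun d => by
    induction d using Nat.strong_induction_on with
    | _ d ih =>
      rcases Nat.lt_or_ge d 2 with hd | hd
      · interval_cases d
        · exact hG0
        · exact hG1
      obtain ⟨H, hH⟩ : (PowerSeries.X : PowerSeries K) ^ d ∣ G := PowerSeries.X_pow_dvd_iff.mpr ih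
      have hc : ∀ W : PowerSeries K,
          PowerSeries.coeff d (PowerSeries.X ^ d * W) = PowerSeries.constantCoeff W := fun W => by
        have := PowerSeries.coeff_X_pow_mul W d 0
        rwa [zero_add, PowerSeries.coeff_zero_eq_constantCoeff_apply] at this
      have h4 : ev1 C (pser p n v) G =
          PowerSeries.X ^ d * (P ^ d * ev1 C (pser p n v) H) := by
        rw [hH, map_mul, map_pow, ev1_X0 hP, ← mul_assoc, ← mul_pow, ← hPX]
      have h5 : (p : PowerSeries K) * G = PowerSeries.X ^ d * ((p : PowerSeries K) * H) := by rw [hH]; ring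
      have h6 := congrArg (PowerSeries.coeff d) (h4.symm.trans (h3.trans h5))
      have h7 : PowerSeries.constantCoeff (ev1 C (pser p n v) H) = PowerSeries.constantCoeff H :=
        (constantCoeff_ev C (fun _ => hP) H).trans (constantCoeff_C _)
      rw [hc, hc, map_mul, map_mul, map_pow, hP0, h7, map_natCast] at h6
      have h8 : (p : K) ^ d ≠ p := by
        intro h
        have h' : p ^ d = p ^ 1 := by rw [pow_one]; exact_mod_cast h
        have := Nat.pow_right_injective hp'.out.two_le h'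
        omega
      rw [hH, hc]
      exact (mul_eq_mul_right_iff.mp h6).resolve_left h8
  exact sub_eq_zero.mp (PowerSeries.ext fun d => by rw [map_zero]; exact key d)

end Vale.Agent.P217
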