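import Vale.Agent.P217.LTU

/-! Lubin-Tate existence. -/

namespace Vale.Agent.P217

open MvPowerSeries

variable {S : Type*} [CommRing S]
variable {p : ℕ} [hp' : Fact p.Prime] {n : ℕ}

namespace LTEAux

theorem frob {σ : Type*} {I : Ideal S} (hp : (p : S) ∈ I) {f : MvPowerSeries σ S}
    (hf : constantCoeff f = 0) : ∃ g : MvPowerSeries σ S, constantCoeff g = 0 ∧
      f ^ p ^ n - expand (p ^ n) (pow_ne_zero n hp'.out.ne_zero) g ∈ cI σ I := by
  obtain ⟨g, hg⟩ : ∃ g : MvPowerSeries σ S, ∀ d, coeff d g = coeff d f ^ p ^ n :=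
    ⟨fun d => coeff d f ^ p ^ n, fun _ => rfl⟩
  refine ⟨g, ?_, ?_⟩
  · rw [← coeff_zero_eq_constantCoeff, hg, coeff_zero_eq_constantCoeff, hf,
      zero_pow (pow_ne_zero n hp'.out.ne_zero)]
  rcases subsingleton_or_nontrivial (S ⧸ I) with h | h
  · exact mem_cI.2 fun d => Ideal.Quotient.eq_zero_iff_mem.1 (Subsingleton.elim _ _)
  have : CharP (S ⧸ I) p :=
    (CharP.charP_iff_prime_eq_zero hp'.out).2 (Pser2Aux.p_zero hp)
  rw [cI, RingHom.mem_ker, map_sub, map_pow, ← map_iterateFrobenius_expand p hp'.out.ne_zero,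
    map_expand, map_expand, sub_eq_zero]
  congr 1
  ext d
  rw [coeff_map, coeff_map, coeff_map, iterateFrobenius_def, ← map_pow, hg]

/-- The part of a series supported on multiples of `q`. -/
theorem split {q : ℕ} (hq : q ≠ 0) {N : Ideal S} {ψ : PowerSeries S}
    (hψ0 : constantCoeff ψ = 0) (hψ : ψ ∈ cI Unit N) : ∃ b : PowerSeries S,
      constantCoeff b = 0 ∧ b ∈ cI Unit N ∧ ∀ j, PowerSeries.coeff j (ψ - expand q hq b) =
        if q ∣ j then 0 else PowerSeries.coeff j ψ := by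
  refine ⟨PowerSeries.mk fun j => PowerSeries.coeff (q * j) ψ, ?_, mem_cI1.2 fun j => ?_,
    fun j => ?_⟩
  · change PowerSeries.constantCoeff _ = 0
    rw [← PowerSeries.coeff_zero_eq_constantCoeff_apply, PowerSeries.coeff_mk, mul_zero,
      PowerSeries.coeff_zero_eq_constantCoeff_apply]
    exact hψ0
  · rw [PowerSeries.coeff_mk]
    exact mem_cI1.1 hψ _
  · rw [map_sub]
    change _ - PowerSeries.coeff j (PowerSeries.expand q hq _) = _
    rw [PowerSeries.coeff_expand]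
    split_ifs with h
    · rw [PowerSeries.coeff_mk, Nat.mul_div_cancel' h, sub_self]
    · rw [sub_zero]

theorem expand_ev1 {τ : Type*} [Finite τ] {q : ℕ} (hq : q ≠ 0) {a : MvPowerSeries τ S}
    (ha : constantCoeff a = 0) (b : PowerSeries S) :
    expand q hq (ev1 C a b) = ev1 C (expand q hq a) b := by
  rw [expand_eq_ev, expand_eq_ev, LTUAux.ev_ev (fun _ => ha) fun i => by simp [hq]]

theorem ev1_expand {τ : Type*} [Finite τ] {q : ℕ} (hq : q ≠ 0) {a : MvPowerSeries τ S}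
    (ha : constantCoeff a = 0) (b : PowerSeries S) :
    ev1 C a (expand q hq b) = ev1 C (a ^ q) b := by
  have ha' : ∀ _ : Unit, a ∈ (PI τ (⊥ : Ideal S)).radical := fun _ => HomAux.rad0 ha
  exact ev_expand (C : S →+* MvPowerSeries τ S) (PI τ (⊥ : Ideal S)) ha' hq b

theorem Fv_pow (w : ℕ → S) (d : ℕ) :
    Fv p n w ^ d - (X 0 + X 1) ^ d ∈ PI (Fin 2) (⊥ : Ideal S) ^ (d + 1) := by
  have h0 : (X 0 : MvPowerSeries (Fin 2) S) ∈ PI (Fin 2) (⊥ : Ideal S) :=
    mem_PI_bot.2 (constantCoeff_X _)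
  have h1 : (X 1 : MvPowerSeries (Fin 2) S) ∈ PI (Fin 2) (⊥ : Ideal S) :=
    mem_PI_bot.2 (constantCoeff_X _)
  obtain ⟨g, hg⟩ := fadd_eq (p := p) (n := n) (PI (Fin 2) (⊥ : Ideal S)) (fun j => C (w j))
    (Ideal.le_radical h0) (Ideal.le_radical h1)
  rw [← Fv_eq] at hg
  induction d with
  | zero => simp
  | succ d ih =>
    have k1 := Ideal.mul_mem_mul ih (mem_PI_bot.2 (HomAux.const_Fv (p := p) (n := n) w))
    have k2 := Ideal.mul_mem_mul (Ideal.pow_mem_pow (add_mem h0 h1) d)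
      (Ideal.mul_mem_right g _ (Ideal.mul_mem_mul h0 h1))
    rw [← pow_succ] at k1
    rw [← sq, ← pow_add] at k2
    convert add_mem k1 k2 using 1
    linear_combination (X 0 + X 1) ^ d * hg

theorem coeff_mixed {i j : ℕ} (hi : i ≠ 0) (hj : j ≠ 0) (c : S) :
    coeff (Finsupp.single (0 : Fin 2) i + Finsupp.single 1 j)
      (C c * ((X 0 + X 1) ^ (i + j) - X 0 ^ (i + j) - X 1 ^ (i + j))) =
        c * (i + j).choose i := by
  rw [coeff_C_mul, map_sub, map_sub, coeff_X_pow, coeff_X_pow, if_neg, if_neg, sub_zero, sub_zero,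
    ← MvPolynomial.coe_X, ← MvPolynomial.coe_X, ← MvPolynomial.coe_add, ← MvPolynomial.coe_pow,
    MvPolynomial.coeff_coe, MvPolynomial.coeff_add_pow, if_pos (by simp)]
  · simp
  · intro h
    simpa [hi] using DFunLike.congr_fun h 0
  · intro h
    simpa [hj] using DFunLike.congr_fun h 1

end LTEAux

/-- The binomial coefficient argument. -/
theorem bin_lemma (hn : 1 ≤ n) {I N N' : Ideal S} {w : ℕ → S} (hw : LTp p n I w)
    (hIN : I * N ≤ N') (hu : ∀ m : ℕ, ¬ p ∣ m → IsUnit (m : S)) {ψ : PowerSeries S}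
    (hψ0 : constantCoeff ψ = 0) (hψ : ψ ∈ cI Unit N) (Δ : MvPowerSeries (Fin 2) S)
    (h : ev1 C (Fv p n w) ψ - ev1 C (X 0) ψ - ev1 C (X 1) ψ -
      expand (p ^ n) (pow_ne_zero n hp'.out.ne_zero) Δ ∈ cI (Fin 2) N')
    (hi : ∀ i, i < n → PowerSeries.coeff (p ^ i) ψ ∈ N') (d : ℕ) (hd : ¬ p ^ n ∣ d) :
    PowerSeries.coeff d ψ ∈ N' := by
  have hq := pow_ne_zero n hp'.out.ne_zero
  have hF := HomAux.const_Fv (p := p) (n := n) w
  obtain ⟨b, hb0, hb, hbc⟩ := LTEAux.split hq hψ0 hψ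
  obtain ⟨G, hG0, hG⟩ := LTEAux.frob (n := n) hw.hp hF
  set ρ := ψ - expand (p ^ n) hq b with hρ
  have k1 : ev1 C (Fv p n w) (expand (p ^ n) hq b) - expand (p ^ n) hq (ev1 C G b) ∈
      cI (Fin 2) N' := by
    rw [LTEAux.ev1_expand hq hF, LTEAux.expand_ev1 hq hG0]
    exact cI_mono hIN (ev_sub_ev_mem_cI_mul (fun _ => by rw [map_pow, hF, zero_pow hq])
      (fun _ => by rw [constantCoeff_expand, hG0]) (fun _ => hG) hb)
  have k2 : ∀ i : Fin 2, ev1 C (X i : MvPowerSeries (Fin 2) S) (expand (p ^ n) hq b) =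
      expand (p ^ n) hq (ev1 C (X i) b) := fun i => by
    rw [LTEAux.ev1_expand hq (constantCoeff_X i), LTEAux.expand_ev1 hq (constantCoeff_X i),
      expand_X]
  have k3 : ev1 C (Fv p n w) ρ - ev1 C (X 0) ρ - ev1 C (X 1) ρ - expand (p ^ n) hq
      (Δ - ev1 C G b + ev1 C (X 0) b + ev1 C (X 1) b) ∈ cI (Fin 2) N' := by
    convert sub_mem h k1 using 1
    simp only [hρ, map_sub, map_add, k2]
    ring
  induction d using Nat.strong_induction_on with
  | _ d ih =>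
    by_cases hc : ∀ i ∈ Finset.Icc 1 (d - 1), d.choose i ≡ 0 [MOD p]
    · have hd0 : 0 < d := Nat.pos_of_ne_zero fun h => hd (h ▸ dvd_zero _)
      have e := Choose.eq_pow_multiplicity_of_choose_modEq_zero_nat hd0 hc
      rw [e] at hd ⊢
      exact hi _ (not_le.1 fun h => hd (pow_dvd_pow p h))
    push Not at hc
    obtain ⟨i, hi1, hc⟩ := hc
    rw [Finset.mem_Icc] at hi1
    obtain ⟨j, rfl⟩ := Nat.exists_eq_add_of_le (show i ≤ d by omega)
    rw [Nat.modEq_zero_iff_dvd] at hc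
    set d := i + j with hd'
    -- decomposition of `ρ`
    set ρ0 : PowerSeries S := PowerSeries.mk fun t => if t < d then PowerSeries.coeff t ρ else 0
    have h0 : ρ0 ∈ cI Unit N' := mem_cI1.2 fun t => by
      rw [PowerSeries.coeff_mk]
      split_ifs with ht
      · rw [hbc]
        split_ifs with ht'
        · exact zero_mem _
        · exact ih t ht ht'
      · exact zero_mem _
    obtain ⟨g, hg⟩ : PowerSeries.X ^ (d + 1) ∣
        ρ - ρ0 - PowerSeries.C (PowerSeries.coeff d ψ) * PowerSeries.X ^ d := by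
      rw [PowerSeries.X_pow_dvd_iff]
      intro t ht
      rw [map_sub, map_sub, PowerSeries.coeff_mk, PowerSeries.coeff_C_mul, PowerSeries.coeff_X_pow]
      rcases (Nat.lt_succ_iff.1 ht).lt_or_eq with h | rfl
      · simp [h, h.ne]
      · rw [hbc]
        simp [hd]
    have e : ∀ a : MvPowerSeries (Fin 2) S, constantCoeff a = 0 → ev1 C a ρ =
        ev1 C a ρ0 + C (PowerSeries.coeff d ψ) * a ^ d + a ^ (d + 1) * ev1 C a g := fun a ha => by
      have := congrArg (ev1 C a) hg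
      rw [map_sub, map_sub, map_mul, map_mul, map_pow, map_pow, LTUAux.ev1_X' ha] at this
      rw [← this, ← LTUAux.ev1_C' ha]
      change _ = _ + _ + (_ - _ - ev1 C a (C _) * _)
      ring
    have m0 : ∀ a : MvPowerSeries (Fin 2) S, constantCoeff a = 0 → ev1 C a ρ0 ∈ cI (Fin 2) N' :=
      fun a ha => ev_C_mem_cI (fun _ => ha) h0
    have m1 : ∀ a : MvPowerSeries (Fin 2) S, constantCoeff a = 0 →
        a ^ (d + 1) * ev1 C a g ∈ PI (Fin 2) (⊥ : Ideal S) ^ (d + 1) :=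
      fun a ha => Ideal.mul_mem_right _ _ (Ideal.pow_mem_pow (mem_PI_bot.2 ha) _)
    have k4 := mem_cI.1 (sub_mem k3 (sub_mem (sub_mem (m0 _ hF) (m0 _ (constantCoeff_X 0)))
      (m0 _ (constantCoeff_X 1)))) (Finsupp.single 0 i + Finsupp.single 1 j)
    have k5 := mem_PI_bot_pow.1 (add_mem (sub_mem (sub_mem (m1 _ hF) (m1 _ (constantCoeff_X 0)))
      (m1 _ (constantCoeff_X 1))) (Ideal.mul_mem_left _ (C (PowerSeries.coeff d ψ))
      (LTEAux.Fv_pow (p := p) (n := n) w d))) (Finsupp.single 0 i + Finsupp.single 1 j)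
      (by simp [hd'])
    have k6 : coeff (Finsupp.single (0 : Fin 2) i + Finsupp.single 1 j) (expand (p ^ n) hq
        (Δ - ev1 C G b + ev1 C (X 0) b + ev1 C (X 1) b)) = 0 := by
      by_cases hi' : p ^ n ∣ i
      · exact coeff_expand_of_not_dvd _ _ _ (i := 1) (by simpa using fun h => hd (dvd_add hi' h))
      · exact coeff_expand_of_not_dvd _ _ _ (i := 0) (by simpa using hi')
    rw [← Ideal.mul_unit_mem_iff_mem _ (hu _ hc),
      ← LTEAux.coeff_mixed (by omega) (by omega : j ≠ 0), ← add_zero (coeff _ _), ← k5,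
      ← sub_zero (coeff _ _ + _), ← k6, ← map_add, ← map_sub]
    convert k4 using 2
    rw [e _ hF, e _ (constantCoeff_X 0), e _ (constantCoeff_X 1)]
    ring

namespace LTEAux

omit hp' in
theorem ltp {I N : Ideal S} {w w' : ℕ → S} (hw : LTp p n I w) (hNI : N ≤ I)
    (h1 : ∀ j, w' j - w j ∈ N) (h2 : ∀ j, j = 0 ∨ n ≤ j → w' j = w j) : LTp p n I w' :=
  ⟨hw.hp, fun j hj hj' => by simpa using add_mem (hNI (h1 j)) (hw.low j hj hj'),
    (h2 n (Or.inr le_rfl)).trans hw.top⟩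

theorem map_eq {N : Ideal S} {w w' : ℕ → S} {k k' : PowerSeries S} (h1 : ∀ j, w' j - w j ∈ N)
    (h2 : k' - k ∈ cI Unit N) :
    (fun j => Ideal.Quotient.mk N (w' j)) = (fun j => Ideal.Quotient.mk N (w j)) ∧
      MvPowerSeries.map (Ideal.Quotient.mk N) k' = MvPowerSeries.map (Ideal.Quotient.mk N) k :=
  ⟨funext fun j => Ideal.Quotient.eq.2 (h1 j), by
    rwa [cI, RingHom.mem_ker, map_sub, sub_eq_zero] at h2⟩

theorem pErr_congr {N : Ideal S} {v w w' : ℕ → S} {k k' : PowerSeries S}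
    (hk : constantCoeff k = 0) (hk' : constantCoeff k' = 0) (h1 : ∀ j, w' j - w j ∈ N)
    (h2 : k' - k ∈ cI Unit N) (h : pErr p n w n v k ∈ cI Unit N) :
    pErr p n w' n v k' ∈ cI Unit N := by
  rw [cI, RingHom.mem_ker] at h ⊢
  rw [map_pErr _ hk', (map_eq h1 h2).1, (map_eq h1 h2).2, ← map_pErr _ hk, h]

theorem homErr_congr {N : Ideal S} {v w w' : ℕ → S} {k k' : PowerSeries S}
    (hk : constantCoeff k = 0) (hk' : constantCoeff k' = 0) (h1 : ∀ j, w' j - w j ∈ N)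
    (h2 : k' - k ∈ cI Unit N) (h : homErr p n w n v k ∈ cI (Fin 2) N) :
    homErr p n w' n v k' ∈ cI (Fin 2) N := by
  rw [cI, RingHom.mem_ker] at h ⊢
  rw [map_homErr _ hk', (map_eq h1 h2).1, (map_eq h1 h2).2, ← map_homErr _ hk, h]

theorem pErr_of_homErr {N : Ideal S} {v w : ℕ → S} {k : PowerSeries S}
    (hk : constantCoeff k = 0) (h : homErr p n w n v k ∈ cI (Fin 2) N) :
    pErr p n w n v k ∈ cI Unit N := by
  rw [cI, RingHom.mem_ker] at h ⊢
  rw [map_homErr _ hk] at h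
  rw [map_pErr _ hk]
  exact IsHomS.pErr_eq ⟨HomAux.const_map _ hk, h⟩

end LTEAux

/-- First half of the lifting step: adjust the parameters. -/
theorem lt_kill (hn : 1 ≤ n) {I N N' : Ideal S} {v w : ℕ → S} (hw : LTp p n I w)
    (hNI : N ≤ I) (hIN : I * N ≤ N') {k : PowerSeries S} (hk0 : constantCoeff k = 0)
    (hk1 : IsUnit (PowerSeries.coeff 1 k)) (he : pErr p n w n v k ∈ cI Unit N) :
    ∃ w' : ℕ → S, (∀ j, w' j - w j ∈ N) ∧ (∀ j, j = 0 ∨ n ≤ j → w' j = w j) ∧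
      pErr p n w' n v k ∈ cI Unit N ∧
      ∀ i, i < n → PowerSeries.coeff (p ^ i) (pErr p n w' n v k) ∈ N' := by
  have hE : ∀ w' : ℕ → S, (∀ j, w' j - w j ∈ N) → pErr p n w' n v k ∈ cI Unit N := fun w' h =>
    LTEAux.pErr_congr hk0 hk0 h (by rw [sub_self]; exact zero_mem _) he
  suffices H : ∀ m, m ≤ n → ∃ w' : ℕ → S, (∀ j, w' j - w j ∈ N) ∧
      (∀ j, j = 0 ∨ n ≤ j → w' j = w j) ∧
      ∀ i, i < m → PowerSeries.coeff (p ^ i) (pErr p n w' n v k) ∈ N' by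
    obtain ⟨w', h1, h2, h3⟩ := H n le_rfl
    exact ⟨w', h1, h2, hE w' h1, h3⟩
  intro m
  induction m with
  | zero => exact fun _ => ⟨w, fun j => by simp, fun _ _ => rfl, fun i hi => absurd hi (by omega)⟩
  | succ m ih =>
    intro hm
    obtain ⟨w', h1, h2, h3⟩ := ih (by omega)
    rcases Nat.eq_zero_or_pos m with rfl | hm0
    · refine ⟨w', h1, h2, fun i hi => ?_⟩
      obtain rfl : i = 0 := by omega
      rw [pow_zero, pErr, map_sub, coeff_one_ev1 (constantCoeff_pser w'), coeff_one_ev1 hk0,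
        coeff_one_pser, coeff_one_pser, mul_comm, sub_self]
      exact zero_mem _
    obtain ⟨u, hu⟩ := hk1.exists_right_inv
    set c := PowerSeries.coeff (p ^ m) (pErr p n w' n v k) with hc
    have hcN : c ∈ N := mem_cI1.1 (hE w' h1) _
    obtain ⟨w'', e1, e2⟩ : ∃ w'' : ℕ → S, w'' m = w' m - u * c ∧ ∀ j, j ≠ m → w'' j = w' j :=
      ⟨Function.update w' m (w' m - u * c), by simp, fun j hj => by simp [hj]⟩
    have a1 : ∀ j, w'' j - w' j ∈ N := fun j => by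
      by_cases hj : j = m
      · rw [hj, e1, sub_sub_cancel_left]
        exact neg_mem (N.mul_mem_left _ hcN)
      · rw [e2 j hj, sub_self]
        exact zero_mem _
    have a2 : ∀ j, w'' j - w j ∈ N := fun j => by simpa using add_mem (a1 j) (h1 j)
    have a3 : ∀ j, j = 0 ∨ n ≤ j → w'' j = w j := fun j hj => (e2 j (by omega)).trans (h2 j hj)
    have l1 := LTEAux.ltp hw hNI h1 h2
    have l2 := LTEAux.ltp hw hNI a2 a3
    obtain ⟨b1, b2⟩ := coeff_pser_sub_mem (n := n) hw.hp hIN hm0 (by omega)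
      (fun j hj hj' => l1.low j hj (by omega)) a1 fun j _ hj' => by
        rw [e2 j hj'.ne, sub_self]
        exact zero_mem _
    refine ⟨w'', a2, a3, fun i hi => ?_⟩
    have b3 := LTUAux.coeff_var hn l2 l1 hIN a1 hk0
      (Nat.pow_lt_pow_right hp'.out.one_lt (show i < n by omega))
    have e : pErr p n w'' n v k = pErr p n w' n v k +
        (ev1 C (pser p n w'') k - ev1 C (pser p n w') k) := by
      rw [pErr, pErr]
      ring
    rw [e, map_add]
    rcases (Nat.lt_succ_iff.1 hi).lt_or_eq with h | rfl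
    · convert add_mem (h3 i h) (add_mem b3 (N'.mul_mem_left (PowerSeries.coeff 1 k)
        (b1 _ (Nat.pow_lt_pow_right hp'.out.one_lt h)))) using 1
      ring
    · convert add_mem b3 (N'.mul_mem_left (PowerSeries.coeff 1 k) b2) using 1
      rw [e1, ← hc]
      linear_combination (-c) * hu

namespace LTEAux

variable {σ τ : Type*} [Finite σ] [Finite τ]

/-- Substitution acts on formal points. -/
noncomputable def sm (v : ℕ → S) {a : σ → MvPowerSeries τ S} (ha : ∀ i, constantCoeff (a i) = 0) :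
    Pt p n (PI σ (⊥ : Ideal S)) (fun j => C (v j)) →+
      Pt p n (PI τ (⊥ : Ideal S)) (fun j => C (v j)) :=
  Pt.map (ev C a) (PserAux.ev_rad C (PI τ (⊥ : Ideal S)) fun i => HomAux.rad0 (ha i))
    fun _ => ev_C C (Ok.of_const ha) _

theorem val_sm (v : ℕ → S) {a : σ → MvPowerSeries τ S} (ha : ∀ i, constantCoeff (a i) = 0)
    (x : Pt p n (PI σ (⊥ : Ideal S)) (fun j => C (v j))) : (sm v ha x).1 = ev C a x.1 := rfl

theorem add_val {I N N' : Ideal S} (hNI : N ≤ I) (hIN : I * N ≤ N') {v : ℕ → MvPowerSeries τ S}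
    {x y : Pt p n (PI τ (⊥ : Ideal S)) v} (hx : x.1 ∈ cI τ N) (hy : y.1 ∈ cI τ N) :
    (x + y).1 - x.1 - y.1 ∈ cI τ N' := by
  obtain ⟨g, hg⟩ := fadd_eq (p := p) (n := n) (PI τ (⊥ : Ideal S)) v x.2 y.2
  rw [Pt.val_add, hg]
  convert Ideal.mul_mem_right g _ (LTUAux.mul_mem hIN (cI_mono hNI hx) hy) using 1
  ring

theorem smul_val {I N N' : Ideal S} (hp : (p : S) ∈ I) (hNI : N ≤ I) (hIN : I * N ≤ N')
    {v : ℕ → MvPowerSeries τ S} {x : Pt p n (PI τ (⊥ : Ideal S)) v} (hx : x.1 ∈ cI τ N) :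
    (p • x).1 ∈ cI τ N' := by
  obtain ⟨g, hg⟩ := fp_eq (p := p) (n := n) (PI τ (⊥ : Ideal S)) v x.2
  rw [Pt.val_p_smul, hg, sq]
  exact add_mem (LTUAux.mul_mem hIN (LTUAux.p_mem hp) hx)
    (Ideal.mul_mem_right g _ (LTUAux.mul_mem hIN (cI_mono hNI hx) hx))

theorem val_err (v w : ℕ → S) (x : Pt p n (PI Unit (⊥ : Ideal S)) (fun j => C (v j)))
    (hx : constantCoeff x.1 = 0) :
    (sm v (fun _ : Unit => constantCoeff_pser (p := p) (n := n) w) x).1 - (p • x).1 =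
      pErr p n w n v x.1 := by
  rw [val_sm, Pt.val_p_smul, fp_C v hx, pErr]

end LTEAux

/-- Second half of the lifting step: adjust the series. -/
theorem lt_fix (hn : 1 ≤ n) {I N N' : Ideal S} {v w : ℕ → S} (hv : LTp p n I v)
    (hw : LTp p n I w) (hNI : N ≤ I) (hIN : I * N ≤ N')
    (hu : ∀ m : ℕ, ¬ p ∣ m → IsUnit (m : S)) {k : PowerSeries S} (hk0 : constantCoeff k = 0)
    (hh : homErr p n w n v k ∈ cI (Fin 2) N) (he : pErr p n w n v k ∈ cI Unit N)
    (hi : ∀ i, i < n → PowerSeries.coeff (p ^ i) (pErr p n w n v k) ∈ N') :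
    ∃ k' : PowerSeries S, constantCoeff k' = 0 ∧ k' - k ∈ cI Unit N ∧
      pErr p n w n v k' ∈ cI Unit N' := by
  have hq := pow_ne_zero n hp'.out.ne_zero
  have hF := HomAux.const_Fv (p := p) (n := n) w
  have hP := constantCoeff_pser (p := p) (n := n) w
  set u := LTEAux.sm (p := p) (n := n) v fun _ : Unit => hP with hu'
  set sF := LTEAux.sm (p := p) (n := n) v fun _ : Unit => hF
  set s := fun i : Fin 2 => LTEAux.sm (p := p) (n := n) v
    fun _ : Unit => constantCoeff_X (R := S) i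
  set t := LTEAux.sm (p := p) (n := n) v
    fun i : Fin 2 => HomAux.const_ev1 (constantCoeff_X (R := S) i) hP
  have c1 : ∀ x, sF (u x) = t (sF x) := fun x => Pt.ext (LTUAux.sub_F w x.1).symm
  have c2 : ∀ i x, s i (u x) = t (s i x) := fun i x => Pt.ext (LTUAux.sub_X w x.1 i).symm
  obtain ⟨κ, rfl⟩ : ∃ κ : Pt p n (PI Unit (⊥ : Ideal S)) (fun j => C (v j)), κ.1 = k :=
    ⟨⟨k, HomAux.rad0 hk0⟩, rfl⟩
  have hE := LTEAux.val_err v w κ hk0
  obtain ⟨ψ, hψ⟩ : ∃ ψ, ψ = u κ - p • κ := ⟨_, rfl⟩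
  obtain ⟨δ, hδ⟩ : ∃ δ, δ = sF κ - (s 0 κ + s 1 κ) := ⟨_, rfl⟩
  have hψN : ψ.1 ∈ cI Unit N := by
    rw [hψ, Pt.sub_mem_iff, hE]
    exact he
  have hψ0 : constantCoeff ψ.1 = 0 := by
    rw [← mem_PI_bot, hψ, Pt.sub_mem_iff, hE, mem_PI_bot, pErr, map_sub, HomAux.const_ev1 hP hk0,
      HomAux.const_ev1 hk0 (constantCoeff_pser v), sub_self]
  have hδN : δ.1 ∈ cI (Fin 2) N := by
    rw [hδ, Pt.sub_mem_iff]
    exact hh
  have hs : ∀ a : MvPowerSeries (Fin 2) S, constantCoeff a = 0 → ev1 C a ψ.1 ∈ cI (Fin 2) N :=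
    fun a ha => ev_C_mem_cI (fun _ => ha) hψN
  have m0 : (s 0 ψ).1 ∈ cI (Fin 2) N := hs _ (constantCoeff_X 0)
  have m1 : (s 1 ψ).1 ∈ cI (Fin 2) N := hs _ (constantCoeff_X 1)
  have mF : (sF ψ).1 ∈ cI (Fin 2) N := hs _ hF
  have mt : (t δ).1 ∈ cI (Fin 2) N :=
    ev_C_mem_cI (fun i => HomAux.const_ev1 (constantCoeff_X i) hP) hδN
  have id1 : sF ψ + p • δ = s 0 ψ + s 1 ψ + t δ := by
    simp only [hψ, hδ, map_sub, map_add, map_nsmul, c1, c2, smul_sub, smul_add]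
    abel
  have k1 : ev1 C (Fv p n w) ψ.1 - ev1 C (X 0) ψ.1 - ev1 C (X 1) ψ.1 -
      expand (p ^ n) hq δ.1 ∈ cI (Fin 2) N' := by
    have a1 := LTEAux.add_val hNI hIN mF ((Pt.sub p n _ _ (cI (Fin 2) N)).nsmul_mem hδN p)
    have a2 := LTEAux.add_val hNI hIN ((Pt.sub p n _ _ (cI (Fin 2) N)).add_mem m0 m1) mt
    have a3 := LTEAux.add_val hNI hIN m0 m1
    have a4 := LTEAux.smul_val hv.hp hNI hIN hδN
    have a5 : (t δ).1 - _ ∈ _ := LTUAux.sub_expand hn hw hIN hδN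
    rw [id1] at a1
    change (sF ψ).1 - (s 0 ψ).1 - (s 1 ψ).1 - _ ∈ _
    convert add_mem (sub_mem (add_mem (sub_mem a2 a1) a3) a4) a5 using 1
    ring
  have k2 : ∀ i, i < n → PowerSeries.coeff (p ^ i) ψ.1 ∈ N' := fun i hi' => by
    obtain ⟨g, hg⟩ := fadd_eq (p := p) (n := n) (PI Unit (⊥ : Ideal S)) (fun j => C (v j))
      (p • κ).2 ψ.2
    rw [← Pt.val_add, hψ, add_sub_cancel, ← hψ] at hg
    have a1 := mem_cI1.1 (Ideal.mul_mem_right g _
      (LTUAux.mul_mem hIN (LTUAux.pser_ev hn hv hk0) hψN)) (p ^ i)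
    obtain ⟨h, hh⟩ : PowerSeries.X ∣ (κ.1 : PowerSeries S) := PowerSeries.X_dvd_iff.2 hk0
    have a2 := PowerSeries.X_pow_dvd_iff.1 (dvd_mul_right (PowerSeries.X ^ p ^ n)
      (h ^ p ^ n * ψ.1 * g)) _ (Nat.pow_lt_pow_right hp'.out.one_lt hi')
    have a3 := sub_mem (hi i hi') a1
    rw [← sub_zero (_ - _), ← a2, ← map_sub, ← map_sub] at a3
    convert a3 using 2
    rw [← hE, ← hu', hg, Pt.val_p_smul, fp_C v hk0, ← mul_assoc, ← mul_assoc, ← mul_pow, ← hh]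
    ring
  obtain ⟨b, hb0, hb, hbc⟩ := LTEAux.split hq hψ0 hψN
  have k3 : ψ.1 - expand (p ^ n) hq b ∈ cI Unit N' := mem_cI1.2 fun j => by
    rw [hbc]
    split_ifs with hj
    · exact zero_mem _
    · exact bin_lemma hn hw hIN hu hψ0 hψN δ.1 k1 k2 j hj
  obtain ⟨β, rfl⟩ : ∃ β : Pt p n (PI Unit (⊥ : Ideal S)) (fun j => C (v j)), β.1 = b :=
    ⟨⟨b, HomAux.rad0 hb0⟩, rfl⟩
  have h0 : constantCoeff (κ - β).1 = 0 := by
    rw [← mem_PI_bot, Pt.sub_mem_iff, mem_PI_bot, map_sub, hk0, hb0, sub_self]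
  refine ⟨(κ - β).1, h0, ?_, ?_⟩
  · rw [← Pt.sub_mem_iff, sub_sub_cancel_left]
    exact (Pt.sub p n _ _ (cI Unit N)).neg_mem hb
  · have id2 : u (κ - β) - p • (κ - β) = ψ + p • β - u β := by
      rw [hψ, map_sub, smul_sub]
      abel
    rw [← LTEAux.val_err v w _ h0, ← Pt.sub_mem_iff, ← hu', id2, Pt.sub_mem_iff]
    have a1 := LTEAux.add_val hNI hIN hψN ((Pt.sub p n _ _ (cI Unit N)).nsmul_mem hb p)
    have a2 := LTEAux.smul_val hv.hp hNI hIN hb
    have a3 : (u β).1 - _ ∈ _ := LTUAux.sub_expand1 hn hw hIN hb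
    convert sub_mem (add_mem (add_mem a1 a2) k3) a3 using 1
    ring

theorem lt_exists (hn : 1 ≤ n) (I : Ideal S) [IsAdicComplete I S] {v : ℕ → S}
    (hv : LTp p n I v) {g : PowerSeries S} (hg0 : constantCoeff g = 0)
    (hg1 : IsUnit (PowerSeries.coeff 1 g)) (hg : homErr p n v n v g ∈ cI (Fin 2) I) :
    ∃ (w : ℕ → S) (k : PowerSeries S), (∀ j, w j - v j ∈ I) ∧
      (∀ j, j = 0 ∨ n ≤ j → w j = v j) ∧ k - g ∈ cI Unit I ∧ IsHomS p n w n v k := by
  have hu : ∀ m : ℕ, ¬ p ∣ m → IsUnit (m : S) := fun m hm => by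
    obtain ⟨a, b, hab⟩ : IsCoprime (p : S) (m : S) :=
      ((Nat.Prime.coprime_iff_not_dvd hp'.out).2 hm).cast
    refine isUnit_of_mul_isUnit_right (x := b) (isUnit_of_sub_mem_radical I isUnit_one ?_)
    rw [← hab, sub_add_cancel_right]
    exact Ideal.le_radical (neg_mem (I.mul_mem_left _ hv.hp))
  obtain ⟨K, hK⟩ : ∃ K : (ℕ ⊕ (Unit →₀ ℕ) → S) → PowerSeries S,
      ∀ x d, coeff d (K x) = x (Sum.inr d) := ⟨fun x d => x (Sum.inr d), fun _ _ => rfl⟩
  have hK' : ∀ (w : ℕ → S) (k : PowerSeries S), K (Sum.elim w fun d => coeff d k) = k :=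
    fun w k => MvPowerSeries.ext fun d => hK _ d
  have hK2 : ∀ x y (N : Ideal S), (∀ i, x i - y i ∈ N) → K x - K y ∈ cI Unit N :=
    fun x y N h => mem_cI.2 fun d => by
      rw [map_sub, hK, hK]
      exact h _
  have hle : ∀ r, I ^ (r + 1) ≤ I := fun r => Ideal.pow_le_self (Nat.succ_ne_zero r)
  have key : ∀ r (w : ℕ → S) (k : PowerSeries S), (∀ j, w j - v j ∈ I) →
      (∀ j, j = 0 ∨ n ≤ j → w j = v j) → constantCoeff k = 0 → k - g ∈ cI Unit I →
      pErr p n w n v k ∈ cI Unit (I ^ (r + 1)) → homErr p n w n v k ∈ cI (Fin 2) (I ^ (r + 1)) :=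
    fun r w k h1 h2 h3 h4 h5 => by
      simpa using homErr_mem hn hv (LTEAux.ltp hv le_rfl h1 h2) (hle r) h3
        (LTEAux.homErr_congr hg0 h3 h1 h4 hg) h5 r
  obtain ⟨L, hL0, hL⟩ := exists_approx I (fun r x => (∀ j, x (Sum.inl j) - v j ∈ I) ∧
      (∀ j, j = 0 ∨ n ≤ j → x (Sum.inl j) = v j) ∧ constantCoeff (K x) = 0 ∧
      K x - g ∈ cI Unit I ∧ pErr p n (fun j => x (Sum.inl j)) n v (K x) ∈ cI Unit (I ^ (r + 1)))
    (Sum.elim v fun d => coeff d g) (by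
      rw [hK', sub_self, zero_add, pow_one]
      exact ⟨fun j => by simp, fun _ _ => rfl, hg0, zero_mem _, LTEAux.pErr_of_homErr hg0 hg⟩)
    (fun r x ⟨h1, h2, h3, h4, h5⟩ => by
      have hIN : I * I ^ (r + 1) ≤ I ^ (r + 1 + 1) := (pow_succ' I (r + 1)).ge
      obtain ⟨w', a1, a2, a3, a4⟩ := lt_kill hn (LTEAux.ltp hv le_rfl h1 h2) (hle r) hIN h3
        (isUnit_of_sub_mem_radical I hg1 (Ideal.le_radical (by simpa using mem_cI1.1 h4 1))) h5
      have b1 : ∀ j, w' j - v j ∈ I := fun j => by simpa using add_mem (hle r (a1 j)) (h1 j)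
      have b2 : ∀ j, j = 0 ∨ n ≤ j → w' j = v j := fun j hj => (a2 j hj).trans (h2 j hj)
      obtain ⟨k', c1, c2, c3⟩ := lt_fix hn hv (LTEAux.ltp hv le_rfl b1 b2) (hle r) hIN hu h3
        (key r w' _ b1 b2 h3 h4 a3) a3 a4
      refine ⟨Sum.elim w' fun d => coeff d k', ?_, ?_⟩
      · rw [hK']
        exact ⟨b1, b2, c1, by simpa using add_mem (cI_mono (hle r) c2) h4, c3⟩
      · rintro (j | d)
        · exact a1 j
        · simpa [hK] using mem_cI.1 c2 d)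
  have hz : ∀ y : S, (∀ r, y ∈ I ^ (r + 1)) → y = 0 := fun y h =>
    eq_zero_of_mem_pow I fun r => Ideal.pow_le_pow_right (Nat.le_succ r) (h r)
  have h0 : constantCoeff (K L) = 0 := hz _ fun r => by
    obtain ⟨x, ⟨-, -, h3, -⟩, hx⟩ := hL r
    simpa [h3] using mem_cI.1 (hK2 _ _ _ hx) 0
  refine ⟨fun j => L (Sum.inl j), K L, fun j => hL0 (Sum.inl j), fun j hj => ?_,
    hK' v g ▸ hK2 _ _ _ hL0, h0, MvPowerSeries.ext fun d => hz _ fun r => ?_⟩
  · refine sub_eq_zero.1 (hz _ fun r => ?_)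
    obtain ⟨x, ⟨-, h2, -⟩, hx⟩ := hL r
    exact h2 j hj ▸ hx (Sum.inl j)
  · obtain ⟨x, ⟨h1, h2, h3, h4, h5⟩, hx⟩ := hL r
    exact mem_cI.1 (LTEAux.homErr_congr h3 h0 (fun j => hx (Sum.inl j)) (hK2 _ _ _ hx)
      (key r _ _ h1 h2 h3 h4 h5)) d

end Vale.Agent.P217
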