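import Vale.Agent.P217.Bridge
import Vale.Agent.P217.LTE
import Vale.Agent.P217.Hom2

/-! The action of the Morava stabilizer group on the Lubin-Tate ring. -/

namespace Vale.Agent.P217

open MvPowerSeries

variable {p : ℕ} [hp' : Fact p.Prime] {n : ℕ}

/-- Working version of `Acts` for ring homomorphisms. -/
structure Act (p : ℕ) [Fact p.Prime] (n : ℕ) (σ : GaloisField p n →+* GaloisField p n)
    (g : PowerSeries (GaloisField p n)) (φ : EE p n →+* EE p n) : Prop where
  const : ∀ w, φ (C w) = C (WittVector.map σ w)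
  loc : ∀ f ∈ mE p n, φ f ∈ mE p n
  lift : ∃ k : PowerSeries (EE p n), MvPowerSeries.map (res p n) k = g ∧
    IsHomS p n (fun j => φ (uu p n j)) n (uu p n) k

/-- Automorphisms of the Honda law over the residue field. -/
structure Aut (p : ℕ) [Fact p.Prime] (n : ℕ) (g : PowerSeries (GaloisField p n)) : Prop where
  hom : IsHomS p n (eH (GaloisField p n) n) n (eH (GaloisField p n) n) g
  one : PowerSeries.coeff 1 g ≠ 0

variable {σ σ' : GaloisField p n →+* GaloisField p n} {g g' : PowerSeries (GaloisField p n)}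
  {φ φ' : EE p n →+* EE p n}

namespace ActAux

theorem res_C (w : WittVector p (GaloisField p n)) : res p n (C w) = w.coeff 0 := by
  simp [res]

theorem coeff_map1 {S T : Type*} [CommRing S] [CommRing T] (ψ : S →+* T) (k : PowerSeries S)
    (d : ℕ) : PowerSeries.coeff d (MvPowerSeries.map ψ k) = ψ (PowerSeries.coeff d k) := rfl

theorem mem_cI_mE {τ : Type*} {f : MvPowerSeries τ (EE p n)} :
    f ∈ cI τ (mE p n) ↔ MvPowerSeries.map (res p n) f = 0 := by
  simp only [mem_cI, mem_mE, MvPowerSeries.ext_iff, coeff_map, map_zero]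

theorem res_uu' (hn : 1 ≤ n) : (fun j => res p n (uu p n j)) = eH (GaloisField p n) n :=
  funext (res_uu hn)

theorem coeff_cmp {T : Type*} [CommRing T] {A B k : PowerSeries T} {q : ℕ} (hq : 1 ≤ q)
    (hk0 : constantCoeff k = 0) (hA : PowerSeries.X ^ q ∣ A) (hB : PowerSeries.X ^ (q + 1) ∣ B)
    (h : ev1 C A k = ev1 C k B) : PowerSeries.coeff 1 k * PowerSeries.coeff q A = 0 := by
  have hA0 : constantCoeff A = 0 := PowerSeries.X_dvd_iff.1 ((dvd_pow_self _ (by omega)).trans hA)
  have hk : Ok fun _ : Unit => k := Ok.of_const fun _ => hk0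
  have h1 : PowerSeries.X ^ (q + 1) ∣ ev1 C k B := by
    refine (pow_dvd_pow_of_dvd (PowerSeries.X_dvd_iff.2 hk0) _).trans ?_
    have := map_dvd (ev1 C k) hB
    rwa [map_pow, ev1_X _ hk] at this
  have h2 := ev1_sub_sum_mem C (Ok.of_const fun _ : Unit => hA0) k 2
  rw [Ideal.mem_span_singleton, h, Finset.sum_range_succ, Finset.sum_range_one,
    PowerSeries.coeff_zero_eq_constantCoeff_apply, show PowerSeries.constantCoeff k = 0 from hk0,
    map_zero, zero_mul, zero_add, pow_one] at h2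
  have h3 : PowerSeries.X ^ (q + 1) ∣ A ^ 2 :=
    (pow_dvd_pow _ (by omega)).trans ((pow_mul _ q 2).dvd.trans (pow_dvd_pow_of_dvd hA 2))
  have h4 := dvd_sub h1 (h3.trans h2)
  rw [sub_sub_cancel] at h4
  exact (PowerSeries.coeff_C_mul q A _).symm.trans (PowerSeries.X_pow_dvd_iff.1 h4 q q.lt_succ_self)

theorem map_ht {φ : EE p n →+* EE p n} {k : PowerSeries (EE p n)}
    (hk : IsHomS p n (fun j => φ (uu p n j)) n (uu p n) k) (h1 : IsUnit (PowerSeries.coeff 1 k))
    {i : ℕ} (hi : i ≤ n) : ∀ f ∈ htIdeal p n i, φ f ∈ htIdeal p n i := by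
  have hu : ∀ j, j < i → uu p n j ∈ htIdeal p n i := fun j hj => Ideal.subset_span ⟨j, hj, rfl⟩
  have key : ∀ j, j < i → φ (uu p n j) ∈ htIdeal p n i := fun j => by
    induction j using Nat.strong_induction_on with
    | _ j ih =>
      intro hj
      have hp : (p : EE p n) ∈ htIdeal p n i := uu_zero (p := p) (n := n) ▸ hu 0 (by omega)
      rcases Nat.eq_zero_or_pos j with rfl | h0
      · rwa [uu_zero, map_natCast]
      obtain ⟨a1, a2⟩ := coeff_pser_mem (n := n) hp h0 (by omega) (v := fun j => φ (uu p n j))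
        fun l _ hl => ih l hl (by omega)
      obtain ⟨b1, -⟩ := coeff_pser_mem (n := n) hp (by omega) hi (v := uu p n) fun l _ hl => hu l hl
      let ψ := Ideal.Quotient.mk (htIdeal p n i)
      have hk' := hk.map ψ
      have hlt : p ^ j < p ^ i := Nat.pow_lt_pow_right hp'.out.one_lt hj
      have e := coeff_cmp (q := p ^ j) (Nat.one_le_pow _ _ hp'.out.pos) hk'.const
        (PowerSeries.X_pow_dvd_iff.2 fun d hd => ?_) (PowerSeries.X_pow_dvd_iff.2 fun d hd => ?_)
        (sub_eq_zero.1 hk'.pErr_eq)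
      · rw [← map_pser ψ, coeff_map1, coeff_map1, (h1.map ψ).mul_right_eq_zero,
          Ideal.Quotient.eq_zero_iff_mem] at e
        simpa using sub_mem e a2
      · rw [← map_pser ψ, coeff_map1, Ideal.Quotient.eq_zero_iff_mem]
        exact a1 d hd
      · rw [← map_pser ψ, coeff_map1, Ideal.Quotient.eq_zero_iff_mem]
        exact b1 d (by omega)
  have h2 : htIdeal p n i ≤ (htIdeal p n i).comap φ := Ideal.span_le.2 (by
    rintro _ ⟨j, hj, rfl⟩
    exact key j hj)
  exact fun f hf => h2 hf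

theorem isUnit_lift (hg : Aut p n g) {k : PowerSeries (EE p n)}
    (hk : MvPowerSeries.map (res p n) k = g) : IsUnit (PowerSeries.coeff 1 k) := by
  rw [isUnit_iff_res, ← coeff_map1, hk]
  exact hg.one

theorem aut_X : Aut p n PowerSeries.X := ⟨isHomS_X, by simp⟩

end ActAux

theorem Act.res_eq (h : Act p n σ g φ) (f : EE p n) : res p n (φ f) = σ (res p n f) := by
  have h1 : f - C (constantCoeff f) ∈ mE p n := mem_PI_of_zero _ (by simp)
  have h2 := mem_mE.1 (h.loc _ h1)
  rw [map_sub, map_sub, sub_eq_zero, h.const, ActAux.res_C] at h2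
  rw [h2]
  rfl

theorem Aut.map (hg : Aut p n g) (σ : GaloisField p n →+* GaloisField p n) :
    Aut p n (MvPowerSeries.map σ g) := by
  refine ⟨?_, ?_⟩
  · have := hg.hom.map σ
    rwa [map_eH] at this
  · rw [ActAux.coeff_map1]
    exact (map_ne_zero σ).2 hg.one

theorem Aut.comp (hg : Aut p n g) (hg' : Aut p n g') : Aut p n (ev1 C g g') := by
  refine ⟨hg.hom.comp hg'.hom, ?_⟩
  rw [coeff_one_ev1 hg.hom.const]
  exact mul_ne_zero hg'.one hg.one

theorem Act.comp (h : Act p n σ g φ) (h' : Act p n σ' g' φ') :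
    Act p n (σ'.comp σ) (ev1 C (MvPowerSeries.map σ' g) g') (φ'.comp φ) := by
  refine ⟨fun w => ?_, fun f hf => h'.loc _ (h.loc f hf), ?_⟩
  · rw [RingHom.comp_apply, h.const, h'.const]
    rfl
  · obtain ⟨k, rfl, hk⟩ := h.lift
    obtain ⟨k', hk1, hk'⟩ := h'.lift
    refine ⟨ev1 C (MvPowerSeries.map φ' k) k', ?_, (hk.map φ').comp hk'⟩
    have e : (res p n).comp φ' = σ'.comp (res p n) := RingHom.ext h'.res_eq
    rw [map_ev_C _ fun _ => (hk.map φ').const, hk1, map_map, map_map, e]

theorem act_id : Act p n (RingHom.id _) PowerSeries.X (RingHom.id (EE p n)) := by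
  refine ⟨fun w => ?_, fun _ hf => hf, PowerSeries.X, map_X _ _, isHomS_X⟩
  rw [WittVector.map_id]
  rfl

theorem act_map (σ : GaloisField p n →+* GaloisField p n) :
    Act p n σ PowerSeries.X (MvPowerSeries.map (WittVector.map σ)) := by
  refine ⟨fun w => map_C _ _, fun f hf => ?_, PowerSeries.X, map_X _ _, ?_⟩
  · rw [mem_mE] at hf ⊢
    exact (congrArg σ hf).trans (map_zero σ)
  · have e : (fun j => MvPowerSeries.map (WittVector.map σ) (uu p n j)) = uu p n := by
      funext j
      rw [uu]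
      split_ifs <;> simp
    rw [e]
    exact isHomS_X

theorem act_unique (hn : 1 ≤ n) (hg : Aut p n g) (h : Act p n σ g φ) (h' : Act p n σ g φ') :
    φ = φ' := by
  obtain ⟨k, hk1, hk⟩ := h.lift
  obtain ⟨k', hk1', hk'⟩ := h'.lift
  have hl : ∀ {ψ : EE p n →+* EE p n}, Act p n σ g ψ → LTp p n (mE p n) fun j => ψ (uu p n j) :=
    fun hψ => ⟨(ltp_uu hn).hp, fun j _ hj => hψ.loc _ (uu_mem j hj), by rw [uu_top hn, map_one]⟩
  have key := fun r => (lt_unique hn (N0 := ⊥) (ltp_uu hn) (hl h) (hl h') bot_le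
    (fun j => by rw [mem_mE, map_sub, h.res_eq, h'.res_eq, sub_self])
    (fun j hj => by
      obtain ⟨w, hw⟩ := BridgeAux.uu_const (p := p) hj
      rw [hw, h.const, h'.const])
    hk.const hk'.const (ActAux.isUnit_lift hg hk1)
    (by rw [ActAux.mem_cI_mE, map_sub, hk1, hk1', sub_self])
    (by rw [hk.pErr_eq]; exact zero_mem _) (by rw [hk'.pErr_eq]; exact zero_mem _) r).1
  refine hom_ext (Ok.of_rad (mE p n) fun i => Ideal.le_radical (h.loc _ ?_))
    (fun w => by rw [h.const, h'.const]) fun i => ?_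
  · rw [← uu_succ]
    exact uu_mem _ (by omega)
  · rw [← uu_succ]
    refine eq_of_sub_mem_pow (mE p n) fun r => Ideal.pow_le_pow_right r.le_succ ?_
    have := key r (i + 1)
    rwa [sup_bot_eq] at this

theorem exists_act (hn : 1 ≤ n) (hg : Aut p n g) : ∃ φ, Act p n (RingHom.id _) g φ := by
  let g0 : PowerSeries (EE p n) :=
    PowerSeries.mk fun d => C (WittVector.teichmuller p (PowerSeries.coeff d g))
  have h0 : MvPowerSeries.map (res p n) g0 = g := PowerSeries.ext fun d => by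
    rw [ActAux.coeff_map1, PowerSeries.coeff_mk, ActAux.res_C, WittVector.teichmuller_coeff_zero]
  have h1 : constantCoeff g0 = 0 := by
    have : PowerSeries.coeff 0 g = 0 :=
      (PowerSeries.coeff_zero_eq_constantCoeff_apply g).trans hg.hom.const
    refine (PowerSeries.coeff_zero_eq_constantCoeff_apply g0).symm.trans ?_
    rw [PowerSeries.coeff_mk, this, WittVector.teichmuller_zero, map_zero]
  obtain ⟨w, k, hw, hw', hk, hk'⟩ := lt_exists hn (mE p n) (ltp_uu hn) h1 (ActAux.isUnit_lift hg h0)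
    (by rw [ActAux.mem_cI_mE, map_homErr _ h1, ActAux.res_uu' hn, h0, hg.hom.err])
  have hm : ∀ i : Fin (n - 1), w (i + 1) ∈ mE p n := fun i => by
    simpa using add_mem (hw (i + 1)) (uu_mem (i + 1) (by omega))
  have hok : Ok fun i : Fin (n - 1) => w (i + 1) := Ok.of_rad (mE p n) fun i =>
    Ideal.le_radical (hm i)
  refine ⟨ev C fun i : Fin (n - 1) => w (i + 1), fun c => ?_, fun f hf => ?_, k, ?_, ?_⟩
  · rw [ev_C _ hok, WittVector.map_id, RingHom.id_apply]
  · refine ev_mem_of_const _ hok hm ?_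
    rwa [mE, mem_PI, constantCoeff_C]
  · rwa [ActAux.mem_cI_mE, map_sub, sub_eq_zero, h0] at hk
  · have e : (fun j => ev C (fun i : Fin (n - 1) => w (i + 1)) (uu p n j)) = w := by
      funext j
      rcases BridgeAux.uu_cases (n := n) j with hj | ⟨i, rfl⟩
      · obtain ⟨c, hc⟩ := BridgeAux.uu_const (p := p) hj
        rw [hw' j hj, hc, ev_C _ hok]
      · rw [uu_succ, ev_X _ hok]
    rwa [e]

theorem Act.bijective (hn : 1 ≤ n) (hg : Aut p n g) (h : Act p n (RingHom.id _) g φ) :
    Function.Bijective φ := by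
  obtain ⟨g', h0, h1, h2⟩ := exists_inv g hg.hom.const hg.one.isUnit
  have hg' : Aut p n g' := by
    refine ⟨hg.hom.inv h0 h1 h2, fun h3 => ?_⟩
    have := coeff_one_ev1 hg.hom.const g'
    rw [h1, h3, zero_mul, PowerSeries.coeff_one_X] at this
    exact one_ne_zero this
  obtain ⟨φ', h'⟩ := exists_act hn hg'
  have a1 := h.comp h'
  have a2 := h'.comp h
  rw [MvPowerSeries.map_id, RingHom.id_apply, RingHom.comp_id] at a1 a2
  rw [h1] at a1
  rw [h2] at a2
  exact Function.bijective_iff_has_inverse.2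
    ⟨φ', DFunLike.congr_fun (act_unique hn ActAux.aut_X a1 act_id),
      DFunLike.congr_fun (act_unique hn ActAux.aut_X a2 act_id)⟩

theorem Act.map_htIdeal (hn : 1 ≤ n) (hg : Aut p n g) (h : Act p n σ g φ) {i : ℕ} (hi : i ≤ n) :
    ∀ f ∈ htIdeal p n i, φ f ∈ htIdeal p n i := by
  obtain ⟨k, hk1, hk⟩ := h.lift
  exact ActAux.map_ht hk (ActAux.isUnit_lift hg hk1) hi

section

variable {F : FormalGroup (EE p n)}

theorem isAut_iff (hn : 1 ≤ n) (hF : IsLT p n F) : IsAut p n F g ↔ Aut p n g := by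
  have e : (F.map (res p n)).toPowerSeries = Fv p n (eH (GaloisField p n) n) := by
    rw [FormalGroup.map_toPowerSeries, (isLT_iff F).1 hF, map_Fv, ActAux.res_uu' hn]
  rw [IsAut, isFGHom_iff e e]
  exact ⟨fun h => ⟨h.1, h.2⟩, fun h => ⟨h.1, h.2⟩⟩

theorem acts_iff (hF : IsLT p n F) (σ : GaloisField p n ≃+* GaloisField p n)
    (φ : EE p n ≃+* EE p n) :
    Acts p n F σ g φ ↔ Act p n (σ : GaloisField p n →+* GaloisField p n) g
      (φ : EE p n →+* EE p n) := by
  have e0 := (isLT_iff F).1 hF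
  have e : (F.map (φ : EE p n →+* EE p n)).toPowerSeries =
      Fv p n fun j => (φ : EE p n →+* EE p n) (uu p n j) := by
    rw [FormalGroup.map_toPowerSeries, e0, map_Fv]
  simp only [Acts, isFGHom_iff e e0]
  refine ⟨fun h => ⟨h.1, fun f hf => ?_, h.2⟩, fun h => ⟨h.1, h.3⟩⟩
  rw [mem_mE] at hf ⊢
  by_contra hne
  exact isUnit_iff_res.1 ((MulEquiv.isUnit_map (f := φ)).1 (isUnit_iff_res.2 hne)) hf

theorem existsUnique_acts (hn : 1 ≤ n) (hF : IsLT p n F)
    (σ : GaloisField p n ≃+* GaloisField p n) (hg : IsAut p n F g) :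
    ∃! φ : EE p n ≃+* EE p n, Acts p n F σ g φ := by
  have hg' := (isAut_iff hn hF).1 hg
  obtain ⟨φ0, h0⟩ := exists_act hn hg'
  have h1 := (act_map (σ : GaloisField p n →+* GaloisField p n)).comp h0
  rw [MvPowerSeries.map_id, RingHom.id_apply, ev1_C_X, RingHom.id_comp] at h1
  have hinv : ∀ (a b : GaloisField p n →+* GaloisField p n), (∀ x, a (b x) = x) → ∀ f : EE p n,
      MvPowerSeries.map (WittVector.map a) (MvPowerSeries.map (WittVector.map b) f) = f :=
    fun a b hab f => by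
      ext d e
      simp only [coeff_map, WittVector.map_coeff, hab]
  have hb : Function.Bijective (φ0.comp (MvPowerSeries.map
      (WittVector.map (σ : GaloisField p n →+* GaloisField p n)))) :=
    (h0.bijective hn hg').comp (Function.bijective_iff_has_inverse.2
      ⟨MvPowerSeries.map (WittVector.map (σ.symm : GaloisField p n →+* GaloisField p n)),
        hinv _ _ σ.symm_apply_apply, hinv _ _ σ.apply_symm_apply⟩)
  refine ⟨RingEquiv.ofBijective _ hb, (acts_iff hF _ _).2 h1, fun φ hφ => ?_⟩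
  have e := act_unique hn hg' ((acts_iff hF _ _).1 hφ) h1
  exact RingEquiv.ext fun f => DFunLike.congr_fun e f

theorem invariant_htIdeal (hn : 1 ≤ n) (hF : IsLT p n F) {i : ℕ} (hi : i ≤ n) :
    Invariant p n F (htIdeal p n i) := by
  intro σ g φ hg hφ
  obtain ⟨k, hk1, hk⟩ := ((acts_iff hF _ _).1 hφ).lift
  have hu := ActAux.isUnit_lift ((isAut_iff hn hF).1 hg) hk1
  refine le_antisymm (Ideal.map_le_iff_le_comap.2 (ActAux.map_ht hk hu hi)) fun f hf => ?_
  obtain ⟨k', h0, h1, h2⟩ := exists_inv k hk.const hu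
  have h3 := (hk.inv h0 h1 h2).map (φ.symm : EE p n →+* EE p n)
  simp only [RingHom.coe_coe, RingEquiv.symm_apply_apply] at h3
  have h4 := coeff_one_ev1 hk.const k'
  rw [h1, PowerSeries.coeff_one_X] at h4
  have h5 := ActAux.map_ht (φ := (φ.symm : EE p n →+* EE p n)) h3
    ((IsUnit.of_mul_eq_one _ h4.symm).map (φ.symm : EE p n →+* EE p n)) hi f hf
  have h6 := Ideal.mem_map_of_mem (φ : EE p n →+* EE p n) h5
  rwa [RingHom.coe_coe, RingHom.coe_coe, RingEquiv.apply_symm_apply] at h6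

theorem Invariant.map_mem (hn : 1 ≤ n) (hF : IsLT p n F) {J : Ideal (EE p n)}
    (hJ : Invariant p n F J) (hg : Aut p n g) (h : Act p n (RingHom.id _) g φ) :
    ∀ f ∈ J, φ f ∈ J := by
  intro f hf
  have e := hJ (RingEquiv.refl _) g (RingEquiv.ofBijective φ (h.bijective hn hg))
    ((isAut_iff hn hF).2 hg) ((acts_iff hF _ _).2 h)
  rw [← e]
  exact Ideal.mem_map_of_mem _ hf

end

end Vale.Agent.P217
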