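import Vale.Agent.P217.Ev2

/-! Formal inverse function theorem and zero counting. -/

namespace Vale.Agent.P217

open MvPowerSeries

variable {R S : Type*} [CommRing R] [CommRing S]

/-- Substitution of a family with invertible Jacobian is surjective. -/
theorem ev_surjective {σ : Type*} [Fintype σ] [DecidableEq σ] (w : σ → MvPowerSeries σ R)
    (hw : ∀ i, constantCoeff (w i) = 0)
    (hJ : IsUnit (Matrix.of fun i j => coeff (Finsupp.single j 1) (w i)).det) :
    Function.Surjective (ev (C : R →+* MvPowerSeries σ R) w) := by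
  intro G
  set M : Matrix σ σ R := Matrix.of fun i j => coeff (Finsupp.single j 1) (w i) with hM
  let Y : σ → MvPowerSeries σ R := fun i => ∑ j, C (M⁻¹ i j) * X j
  have hY : ∀ i, constantCoeff (Y i) = 0 := fun i => by simp [Y]
  have hok := Ok.of_const hw
  have hwr : ∀ i, w i ∈ (PI σ (⊥ : Ideal R)).radical := fun i =>
    mem_PI_radical_of_zero _ (hw i)
  let z : σ → MvPowerSeries σ R := fun i => ev C w (Y i)
  have hz : ∀ i, z i = ∑ j, C (M⁻¹ i j) * w j := fun i => by
    simp only [z, Y, map_sum, map_mul, ev_C _ hok, ev_X _ hok]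
  have hz0 : ∀ i, constantCoeff (z i) = 0 := fun i => constantCoeff_ev_eq_zero _ hw (hY i)
  have hz2 : ∀ i, z i - X i ∈ PI σ (⊥ : Ideal R) ^ 2 := fun i => by
    refine mem_PI_bot_pow.mpr fun d hd => ?_
    by_cases h0 : d = 0
    · subst h0
      simp [hz0]
    · have h1 : d.degree = 1 := by
        have : d.degree ≠ 0 := fun h => h0 ((Finsupp.degree_eq_zero_iff d).mp h)
        omega
      obtain ⟨l, rfl⟩ : ∃ l, d = Finsupp.single l 1 := (Finsupp.sum_eq_one_iff d).mp h1
      have h2 := congrFun (congrFun (Matrix.nonsing_inv_mul M hJ) i) l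
      rw [Matrix.mul_apply, Matrix.one_apply] at h2
      rw [map_sub, hz, map_sum, coeff_X]
      simp only [coeff_C_mul, Finsupp.single_left_inj one_ne_zero]
      rw [sub_eq_zero, if_congr eq_comm rfl rfl]
      exact h2
  have h2 : ∀ f, ev C z f - f ∈ PI σ (⊥ : Ideal R) ^ 2 := fun f => by
    have := ev_sub_ev_mem (C : R →+* MvPowerSeries σ R) (PI σ ⊥)
      (fun i => mem_PI_radical_of_zero _ (hz0 i))
      (fun i => mem_PI_radical_of_zero _ (constantCoeff_X i)) hz2 f
    rwa [ev_C_X] at this
  have h1 : ∀ f, ev C z f - f ∈ PI σ (⊥ : Ideal R) := fun f =>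
    Ideal.pow_le_self two_ne_zero (h2 f)
  have hk : ∀ k, ∀ f ∈ PI σ (⊥ : Ideal R) ^ k, ev C z f - f ∈ PI σ (⊥ : Ideal R) ^ (k + 1) := by
    intro k
    induction k with
    | zero => intro f _; simpa using h1 f
    | succ k ih =>
      intro f hf
      rw [pow_succ] at hf
      refine Submodule.mul_induction_on hf (fun u hu v hv => ?_) fun u v hu hv => ?_
      · have e : ev C z (u * v) - u * v =
            (ev C z u - u) * ((ev C z v - v) + v) + u * (ev C z v - v) := by
          rw [map_mul]; ring
        rw [e]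
        refine add_mem ?_ ?_
        · rw [pow_succ]
          exact Ideal.mul_mem_mul (ih u hu) (add_mem (h1 v) hv)
        · rw [add_assoc, pow_add]
          exact Ideal.mul_mem_mul hu (h2 v)
      · have e : ev C z (u + v) - (u + v) = (ev C z u - u) + (ev C z v - v) := by
          rw [map_add]; ring
        rw [e]
        exact add_mem hu hv
  obtain ⟨a, -, ha⟩ := exists_fix (ι := Unit) (PI σ (⊥ : Ideal R))
    (fun a _ => G + a () - ev C z (a ())) (fun _ => G)
    (fun _ => by
      have e : G + G - ev C z G - G = -(ev C z G - G) := by ring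
      simpa only [e] using neg_mem (h1 G))
    (fun k a b _ _ hab _ => by
      have e : G + a () - ev C z (a ()) - (G + b () - ev C z (b ())) =
          -(ev C z (a () - b ()) - (a () - b ())) := by rw [map_sub]; ring
      simpa only [e] using neg_mem (hk _ _ (hab ())))
  refine ⟨ev C Y (a ()), ?_⟩
  rw [ev_ev_C C (PI σ ⊥) hwr hY]
  have := congrFun ha ()
  linear_combination -this

/-- Compositional inverse of a one variable series. -/
theorem exists_inv (g : PowerSeries R) (h0 : constantCoeff g = 0)
    (h1 : IsUnit (PowerSeries.coeff 1 g)) :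
    ∃ g' : PowerSeries R, constantCoeff g' = 0 ∧ ev1 C g g' = PowerSeries.X ∧
      ev1 C g' g = PowerSeries.X := by
  refine ⟨g.substInvOfIsUnit h1, g.constantCoeff_substInvOfIsUnit h1, ?_, ?_⟩
  · exact (ev_eq_subst (fun _ : Unit => h0) _).trans (g.subst_substInvOfIsUnit_left h0 h1)
  · exact (ev_eq_subst (fun _ : Unit => g.constantCoeff_substInvOfIsUnit h1) _).trans
      (g.subst_substInvOfIsUnit_right h0 h1)

theorem Ev3Aux.exists_factor (I : Ideal S) [IsAdicComplete I S] {g : PowerSeries S} {y : S}
    (hy : y ∈ I.radical) (h0 : ev1 (RingHom.id S) y g = 0) :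
    ∃ h, g = (PowerSeries.X - PowerSeries.C y) * h := by
  have hC : ∀ _ : Unit, (C y : PowerSeries S) ∈ (PI Unit I).radical := fun _ =>
    mem_PI_radical.mpr (by simpa using hy)
  have h1 := ev_sub_ev_mem (C : S →+* PowerSeries S) (PI Unit I) (a := X) (b := fun _ => C y)
    (fun i => mem_PI_radical_of_zero _ (constantCoeff_X i)) hC
    (N := Ideal.span {PowerSeries.X - PowerSeries.C y})
    (fun _ => Ideal.mem_span_singleton_self _) g
  have h2 := map_ev (C : S →+* PowerSeries S) (RingHom.id S) (a := fun _ : Unit => y)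
    (Ok.of_rad I fun _ => hy) (Ok.of_rad _ hC) g
  rw [RingHom.comp_id] at h2
  rw [ev_C_X, ← h2, h0, map_zero, sub_zero] at h1
  exact Ideal.mem_span_singleton.mp h1

/-- A series with a coefficient of index `e` that is not topologically nilpotent has at most `e`
zeros. -/
theorem card_zeros_le [IsDomain S] (I : Ideal S) [IsAdicComplete I S] (g : PowerSeries S) (e : ℕ)
    (he : PowerSeries.coeff e g ∉ I.radical) (Z : Finset S)
    (hZ : ∀ y ∈ Z, y ∈ I.radical ∧ ev1 (RingHom.id S) y g = 0) : Z.card ≤ e := by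
  classical
  induction e generalizing g Z with
  | zero =>
    rcases Z.eq_empty_or_nonempty with rfl | ⟨y, hy⟩
    · simp
    obtain ⟨h, rfl⟩ := Ev3Aux.exists_factor I (hZ y hy).1 (hZ y hy).2
    refine (he ?_).elim
    simpa using Ideal.mul_mem_right _ _ (hZ y hy).1
  | succ e ih =>
    rcases Z.eq_empty_or_nonempty with rfl | ⟨y, hy⟩
    · simp
    obtain ⟨h, rfl⟩ := Ev3Aux.exists_factor I (hZ y hy).1 (hZ y hy).2
    rw [← Finset.card_erase_add_one hy]
    refine Nat.succ_le_succ (ih h (fun hh => he ?_) _ fun x hx => ?_)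
    · rw [sub_mul, map_sub, PowerSeries.coeff_succ_X_mul, PowerSeries.coeff_C_mul]
      exact sub_mem hh (Ideal.mul_mem_right _ _ (hZ y hy).1)
    · obtain ⟨hxy, hx⟩ := Finset.mem_erase.mp hx
      refine ⟨(hZ x hx).1, ?_⟩
      have hok : Ok fun _ : Unit => x := Ok.of_rad I fun _ => (hZ x hx).1
      have h1 := (hZ x hx).2
      have h2 : ev1 (RingHom.id S) x (PowerSeries.C y) = y := ev_C _ hok y
      rw [map_mul, map_sub, ev1_X _ hok, h2] at h1
      exact (mul_eq_zero.mp h1).resolve_left (sub_ne_zero.mpr hxy)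

/-- Weierstrass preparation in the form we need. -/
theorem exists_monic_factor [Nontrivial S] (π : S) [IsAdicComplete (Ideal.span {π}) S] (g : PowerSeries S)
    (e : ℕ) (hg : g - PowerSeries.X ^ e ∈ cI Unit (Ideal.span {π})) :
    ∃ (D : Polynomial S) (U : PowerSeries S), D.Monic ∧ D.natDegree = e ∧
      (∀ i, i < e → D.coeff i ∈ Ideal.span {π}) ∧ IsUnit U ∧ g = (D : PowerSeries S) * U := by
  set I := Ideal.span {π} with hI
  have hI1 : I ≠ ⊤ := fun h =>
    one_ne_zero (eq_zero_of_mem_pow I (x := 1) fun k => by simp [h, Ideal.top_pow])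
  have := Ideal.Quotient.nontrivial_iff.mpr hI1
  have hm : g.map (Ideal.Quotient.mk I) = PowerSeries.X ^ e := by
    have h : PowerSeries.map (Ideal.Quotient.mk I) (g - PowerSeries.X ^ e) = 0 := hg
    rwa [map_sub, map_pow, PowerSeries.map_X, sub_eq_zero] at h
  have ho : (g.map (Ideal.Quotient.mk I)).order.toNat = e := by
    rw [hm, PowerSeries.order_X_pow, ENat.toNat_natCast]
  have H : g.IsWeierstrassDivisorAt I := by
    rw [PowerSeries.IsWeierstrassDivisorAt, ho]
    refine isUnit_of_sub_mem_radical I isUnit_one (Ideal.le_radical ?_)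
    simpa using mem_cI1.mp hg e
  have HD := H.isWeierstrassDivisionAt_div_mod (PowerSeries.X ^ e)
  generalize H.div (PowerSeries.X ^ e) = q at HD
  generalize H.mod (PowerSeries.X ^ e) = r at HD
  have hr : r.degree < e := by rw [← ho]; exact HD.1
  have hr' : r.degree < (Polynomial.X (R := S) ^ e).degree := by rwa [Polynomial.degree_X_pow]
  have hq : IsUnit q := by
    rw [PowerSeries.isUnit_iff_constantCoeff]
    refine isUnit_of_sub_mem_radical I isUnit_one (Ideal.le_radical ?_)
    have h2 := congrArg (fun f => PowerSeries.coeff e (PowerSeries.map (Ideal.Quotient.mk I) f))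
      HD.2
    have h3 := PowerSeries.coeff_X_pow_mul (q.map (Ideal.Quotient.mk I)) e 0
    rw [zero_add] at h3
    simp only [map_add, map_mul, map_pow, PowerSeries.map_X, hm, h3, PowerSeries.coeff_map,
      Polynomial.coeff_coe, Polynomial.coeff_eq_zero_of_degree_lt hr, map_zero, add_zero,
      PowerSeries.coeff_X_pow_self, PowerSeries.coeff_zero_eq_constantCoeff] at h2
    rw [← Ideal.Quotient.eq, map_one]
    exact h2.symm
  obtain ⟨u, rfl⟩ := hq
  refine ⟨Polynomial.X ^ e - r, ↑u⁻¹, .sub_of_left (Polynomial.monic_X_pow _) hr', ?_,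
    fun i hi => ?_, Units.isUnit _, ?_⟩
  · rw [Polynomial.natDegree_eq_of_degree_eq (Polynomial.degree_sub_eq_left_of_degree_lt hr'),
      Polynomial.natDegree_X_pow]
  · have := HD.coeff_f_sub_r_mem (i := i) (by rwa [ho])
    rw [← Polynomial.coeff_coe, Polynomial.coe_sub, Polynomial.coe_pow, Polynomial.coe_X]
    exact this
  · rw [Polynomial.coe_sub, Polynomial.coe_pow, Polynomial.coe_X, HD.2, add_sub_cancel_right,
      Units.mul_inv_cancel_right]

theorem ev1_coe_poly {y : S} (h : Ok fun _ : Unit => y) (D : Polynomial S) :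
    ev1 (RingHom.id S) y (D : PowerSeries S) = D.eval y := by
  have : (ev1 (RingHom.id S) y).comp Polynomial.coeToPowerSeries.ringHom =
      Polynomial.evalRingHom y :=
    Polynomial.ringHom_ext
      (fun a => by
        rw [RingHom.comp_apply, Polynomial.coeToPowerSeries.ringHom_apply, Polynomial.coe_C,
          Polynomial.coe_evalRingHom, Polynomial.eval_C]
        exact ev_C _ h a)
      (by
        rw [RingHom.comp_apply, Polynomial.coeToPowerSeries.ringHom_apply, Polynomial.coe_X,
          Polynomial.coe_evalRingHom, Polynomial.eval_X]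
        exact ev1_X _ h)
  exact DFunLike.congr_fun this D

end Vale.Agent.P217
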