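import Vale.Agent.P217.Pser2
import Vale.Agent.P217.Ev3

/-! Homomorphisms of formal group laws. -/

namespace Vale.Agent.P217

open MvPowerSeries

variable {R S T K : Type*} [CommRing R] [CommRing S] [CommRing T] [CommRing K] {σ τ : Type*}

/-- The defect of `k` to be a homomorphism `F_v → F_w`. -/
noncomputable def homErr (p : ℕ) [Fact p.Prime] (n : ℕ) (v : ℕ → S) (m : ℕ) (w : ℕ → S)
    (k : PowerSeries S) : MvPowerSeries (Fin 2) S :=
  ev1 C (Fv p n v) k - fadd p m (fun j => C (w j)) (ev1 C (X 0) k) (ev1 C (X 1) k)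

/-- The defect of `k` to commute with the `p`-series. -/
noncomputable def pErr (p : ℕ) [Fact p.Prime] (n : ℕ) (v : ℕ → S) (m : ℕ) (w : ℕ → S)
    (k : PowerSeries S) : PowerSeries S :=
  ev1 C (pser p n v) k - ev1 C k (pser p m w)

/-- `k` is a homomorphism `F_v → F_w`. -/
structure IsHomS (p : ℕ) [Fact p.Prime] (n : ℕ) (v : ℕ → S) (m : ℕ) (w : ℕ → S)
    (k : PowerSeries S) : Prop where
  const : constantCoeff k = 0
  err : homErr p n v m w k = 0

variable {p : ℕ} [hp' : Fact p.Prime] {n m l : ℕ} {v w u : ℕ → S} {k k' : PowerSeries S}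

namespace HomAux

theorem rad0 [Finite τ] {a : MvPowerSeries τ S} (h : constantCoeff a = 0) :
    a ∈ (PI τ (⊥ : Ideal S)).radical := mem_PI_radical_of_zero _ h

theorem const_ev1 [Finite τ] {a : MvPowerSeries τ S} (ha : constantCoeff a = 0)
    (hk : constantCoeff k = 0) : constantCoeff (ev1 C a k) = 0 :=
  constantCoeff_ev_eq_zero C (fun _ => ha) hk

theorem const_fadd [Finite τ] (x : ℕ → MvPowerSeries τ S) {a b : MvPowerSeries τ S}
    (ha : constantCoeff a = 0) (hb : constantCoeff b = 0) :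
    constantCoeff (fadd p n x a b) = 0 :=
  mem_PI_bot.mp (fadd_mem (PI τ ⊥) x (rad0 ha) (rad0 hb) (mem_PI_bot.mpr ha) (mem_PI_bot.mpr hb))

theorem const_fneg [Finite τ] (x : ℕ → MvPowerSeries τ S) {a : MvPowerSeries τ S}
    (ha : constantCoeff a = 0) : constantCoeff (fneg p n x a) = 0 :=
  mem_PI_bot.mp (fneg_mem (PI τ ⊥) x (rad0 ha) (mem_PI_bot.mpr ha))

theorem const_fp [Finite τ] (x : ℕ → MvPowerSeries τ S) {a : MvPowerSeries τ S}
    (ha : constantCoeff a = 0) : constantCoeff (fp p n x a) = 0 :=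
  mem_PI_bot.mp (fp_mem (PI τ ⊥) x (rad0 ha) (mem_PI_bot.mpr ha))

theorem const_fp_iter [Finite τ] (x : ℕ → MvPowerSeries τ S) {a : MvPowerSeries τ S}
    (ha : constantCoeff a = 0) (r : ℕ) : constantCoeff ((fp p n x)^[r] a) = 0 :=
  mem_PI_bot.mp (fp_iter_mem (PI τ ⊥) x (rad0 ha) (mem_PI_bot.mpr ha) r).2

theorem const_Fv (v : ℕ → S) : constantCoeff (Fv p n v) = 0 := by
  rw [Fv, constantCoeff_map, constantCoeff_Fu, map_zero]

theorem const_map (ψ : S →+* T) {a : MvPowerSeries τ S} (ha : constantCoeff a = 0) :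
    constantCoeff (MvPowerSeries.map ψ a) = 0 := by
  rw [constantCoeff_map, ha, map_zero]

theorem const_X1 : constantCoeff (PowerSeries.X : PowerSeries S) = 0 :=
  MvPowerSeries.constantCoeff_X ()

theorem map_ev1 [Finite τ] (ψ : S →+* T) {a : MvPowerSeries τ S} (ha : constantCoeff a = 0)
    (f : PowerSeries S) :
    MvPowerSeries.map ψ (ev1 C a f) = ev1 C (MvPowerSeries.map ψ a) (MvPowerSeries.map ψ f) :=
  map_ev_C ψ (a := fun _ : Unit => a) (fun _ => ha) f

theorem map_fadd_C [Finite τ] (ψ : S →+* T) (w : ℕ → S) {a b : MvPowerSeries τ S}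
    (ha : constantCoeff a = 0) (hb : constantCoeff b = 0) :
    MvPowerSeries.map ψ (fadd p n (fun j => C (w j)) a b) =
      fadd p n (fun j => C (ψ (w j))) (MvPowerSeries.map ψ a) (MvPowerSeries.map ψ b) := by
  rw [map_fadd (PI τ ⊥) _ (MvPowerSeries.map ψ) (PI τ ⊥) (rad0 ha) (rad0 hb)
    (rad0 (const_map ψ ha)) (rad0 (const_map ψ hb))]
  simp only [map_C]

theorem map_fp_iter_C [Finite τ] (ψ : S →+* T) (w : ℕ → S) {a : MvPowerSeries τ S}
    (ha : constantCoeff a = 0) (r : ℕ) :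
    MvPowerSeries.map ψ ((fp p n fun j => C (w j))^[r] a) =
      (fp p n fun j => C (ψ (w j)))^[r] (MvPowerSeries.map ψ a) := by
  rw [map_fp_iter (PI τ ⊥) _ (MvPowerSeries.map ψ) (PI τ ⊥) (rad0 ha) (rad0 (const_map ψ ha))]
  simp only [map_C]

/-- Evaluation of a one variable substitution. -/
theorem ev_ev1 [Finite τ] (c : S →+* T) {b : τ → T} (J : Ideal T) [IsAdicComplete J T]
    (hb : ∀ j, b j ∈ J.radical) {a : MvPowerSeries τ S} (ha : constantCoeff a = 0)
    (f : PowerSeries S) : ev c b (ev1 C a f) = ev1 c (ev c b a) f :=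
  ev_ev_C c J hb (a := fun _ : Unit => a) (fun _ => ha) f

theorem ev_rad [Finite τ] (c : S →+* T) {b : τ → T} (J : Ideal T) [IsAdicComplete J T]
    (hb : ∀ j, b j ∈ J.radical) {a : MvPowerSeries τ S} (ha : constantCoeff a = 0) :
    ev c b a ∈ J.radical := ev_mem c (Ok.of_rad J hb) hb ha

theorem ev_fadd_C [Finite τ] (c : S →+* T) {b : τ → T} (J : Ideal T) [IsAdicComplete J T]
    (hb : ∀ j, b j ∈ J.radical) (w : ℕ → S) {x y : MvPowerSeries τ S}
    (hx : constantCoeff x = 0) (hy : constantCoeff y = 0) :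
    ev c b (fadd p n (fun j => C (w j)) x y) =
      fadd p n (fun j => c (w j)) (ev c b x) (ev c b y) := by
  rw [map_fadd (PI τ ⊥) _ (ev c b) J (rad0 hx) (rad0 hy) (ev_rad c J hb hx) (ev_rad c J hb hy)]
  simp only [ev_C c (Ok.of_rad J hb)]

theorem ev_fneg_C [Finite τ] (c : S →+* T) {b : τ → T} (J : Ideal T) [IsAdicComplete J T]
    (hb : ∀ j, b j ∈ J.radical) (w : ℕ → S) {x : MvPowerSeries τ S}
    (hx : constantCoeff x = 0) :
    ev c b (fneg p n (fun j => C (w j)) x) = fneg p n (fun j => c (w j)) (ev c b x) := by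
  rw [map_fneg (PI τ ⊥) _ (ev c b) J (rad0 hx) (ev_rad c J hb hx)]
  simp only [ev_C c (Ok.of_rad J hb)]

theorem ev_fp_iter_C [Finite τ] (c : S →+* T) {b : τ → T} (J : Ideal T) [IsAdicComplete J T]
    (hb : ∀ j, b j ∈ J.radical) (w : ℕ → S) {x : MvPowerSeries τ S}
    (hx : constantCoeff x = 0) (r : ℕ) :
    ev c b ((fp p n fun j => C (w j))^[r] x) = (fp p n fun j => c (w j))^[r] (ev c b x) := by
  rw [map_fp_iter (PI τ ⊥) _ (ev c b) J (rad0 hx) (ev_rad c J hb hx)]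
  simp only [ev_C c (Ok.of_rad J hb)]

theorem ev1_ev1 (c : S →+* T) (J : Ideal T) [IsAdicComplete J T] {b : T} (hb : b ∈ J.radical)
    {a : PowerSeries S} (ha : constantCoeff a = 0) (f : PowerSeries S) :
    ev1 c b (ev1 C a f) = ev1 c (ev1 c b a) f :=
  ev_ev1 c (b := fun _ : Unit => b) J (fun _ => hb) ha f

theorem ev1_rad (c : S →+* T) (J : Ideal T) [IsAdicComplete J T] {b : T} (hb : b ∈ J.radical)
    {a : PowerSeries S} (ha : constantCoeff a = 0) : ev1 c b a ∈ J.radical :=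
  ev_rad c (b := fun _ : Unit => b) J (fun _ => hb) ha

theorem ev1_fadd_C (c : S →+* T) (J : Ideal T) [IsAdicComplete J T] {b : T} (hb : b ∈ J.radical)
    (w : ℕ → S) {x y : PowerSeries S} (hx : constantCoeff x = 0) (hy : constantCoeff y = 0) :
    ev1 c b (fadd p n (fun j => C (w j)) x y) =
      fadd p n (fun j => c (w j)) (ev1 c b x) (ev1 c b y) :=
  ev_fadd_C c (b := fun _ : Unit => b) J (fun _ => hb) w hx hy

theorem ev1_fneg_C (c : S →+* T) (J : Ideal T) [IsAdicComplete J T] {b : T} (hb : b ∈ J.radical)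
    (w : ℕ → S) {x : PowerSeries S} (hx : constantCoeff x = 0) :
    ev1 c b (fneg p n (fun j => C (w j)) x) = fneg p n (fun j => c (w j)) (ev1 c b x) :=
  ev_fneg_C c (b := fun _ : Unit => b) J (fun _ => hb) w hx

theorem ev1_fp_iter_C (c : S →+* T) (J : Ideal T) [IsAdicComplete J T] {b : T}
    (hb : b ∈ J.radical) (w : ℕ → S) {x : PowerSeries S} (hx : constantCoeff x = 0) (r : ℕ) :
    ev1 c b ((fp p n fun j => C (w j))^[r] x) = (fp p n fun j => c (w j))^[r] (ev1 c b x) :=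
  ev_fp_iter_C c (b := fun _ : Unit => b) J (fun _ => hb) w hx r

theorem ev_Fv (c : S →+* T) (J : Ideal T) [IsAdicComplete J T] {a b : T} (ha : a ∈ J.radical)
    (hb : b ∈ J.radical) (v : ℕ → S) :
    ev c ![a, b] (Fv p n v) = fadd p n (fun j => c (v j)) a b := by
  rw [Fv, ev_map _ c (ok_pair J ha hb), comp_spec, fadd]

theorem ev_pser (c : S →+* T) (J : Ideal T) [IsAdicComplete J T] {a : T} (ha : a ∈ J.radical)
    (v : ℕ → S) : ev1 c a (pser p n v) = fp p n (fun j => c (v j)) a := by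
  rw [pser, fp, ← comp_spec]
  exact ev_map _ c (ok_one J ha) _

theorem pser_eq (v : ℕ → S) :
    pser p n v = fp p n (fun j => (C (v j) : PowerSeries S)) PowerSeries.X := by
  rw [fp_C v const_X1, ev1_C_X]

/-- A criterion for being a homomorphism. -/
theorem isHomS_of (h0 : constantCoeff k = 0)
    (h : ev1 C (fadd p n (fun j => (C (v j) : MvPowerSeries (Fin 2) S)) (X 0) (X 1)) k =
      fadd p m (fun j => C (w j)) (ev1 C (X 0) k) (ev1 C (X 1) k)) : IsHomS p n v m w k :=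
  ⟨h0, by rw [homErr, Fv_eq, h, sub_self]⟩

theorem radX (i : Fin 2) : (X i : MvPowerSeries (Fin 2) S) ∈ (PI (Fin 2) (⊥ : Ideal S)).radical :=
  rad0 (constantCoeff_X i)

theorem isHomS_of_pt (h0 : constantCoeff k = 0)
    (P : Pt p n (PI (Fin 2) (⊥ : Ideal S)) (fun j => C (v j)) →+
      Pt p m (PI (Fin 2) (⊥ : Ideal S)) (fun j => C (w j)))
    (hP : ∀ a, (P a).1 = ev1 C a.1 k) : IsHomS p n v m w k := by
  refine isHomS_of h0 ?_
  have h := hP (⟨X 0, radX 0⟩ + ⟨X 1, radX 1⟩)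
  rw [map_add, Pt.val_add, Pt.val_add, hP, hP] at h
  exact h.symm

end HomAux

open HomAux

theorem map_homErr (ψ : S →+* T) (hk : constantCoeff k = 0) :
    MvPowerSeries.map ψ (homErr p n v m w k) =
      homErr p n (fun j => ψ (v j)) m (fun j => ψ (w j)) (MvPowerSeries.map ψ k) := by
  rw [homErr, homErr, map_sub, map_ev1 ψ (const_Fv v), map_Fv,
    map_fadd_C ψ w (const_ev1 (constantCoeff_X 0) hk) (const_ev1 (constantCoeff_X 1) hk),
    map_ev1 ψ (constantCoeff_X 0), map_ev1 ψ (constantCoeff_X 1), map_X, map_X]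

theorem map_pErr (ψ : S →+* T) (hk : constantCoeff k = 0) :
    MvPowerSeries.map ψ (pErr p n v m w k) =
      pErr p n (fun j => ψ (v j)) m (fun j => ψ (w j)) (MvPowerSeries.map ψ k) := by
  rw [pErr, pErr, map_sub, map_ev1 ψ (constantCoeff_pser v), map_pser, map_ev1 ψ hk, map_pser]

theorem IsHomS.map (hk : IsHomS p n v m w k) (ψ : S →+* T) :
    IsHomS p n (fun j => ψ (v j)) m (fun j => ψ (w j)) (MvPowerSeries.map ψ k) := by
  exact ⟨const_map ψ hk.const, by rw [← map_homErr ψ hk.const, hk.err, map_zero]⟩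

theorem IsHomS.ev_fadd (hk : IsHomS p n v m w k) (c : S →+* T) (J : Ideal T) [IsAdicComplete J T]
    {a b : T} (ha : a ∈ J.radical) (hb : b ∈ J.radical) :
    ev1 c (fadd p n (fun j => c (v j)) a b) k =
      fadd p m (fun j => c (w j)) (ev1 c a k) (ev1 c b k) := by
  have hab : ∀ i, ![a, b] i ∈ J.radical := fun i => by fin_cases i <;> simpa
  have h := congrArg (ev c ![a, b]) (sub_eq_zero.mp hk.err)
  rw [ev_ev1 c J hab (const_Fv v), ev_Fv c J ha hb,
    ev_fadd_C c J hab w (const_ev1 (constantCoeff_X 0) hk.const)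
      (const_ev1 (constantCoeff_X 1) hk.const),
    ev_ev1 c J hab (constantCoeff_X 0), ev_ev1 c J hab (constantCoeff_X 1),
    ev_X c (Ok.of_rad J hab), ev_X c (Ok.of_rad J hab)] at h
  exact h

/-- The map on points induced by a homomorphism. -/
noncomputable def IsHomS.pt (hk : IsHomS p n v m w k) (c : S →+* T) (J : Ideal T)
    [IsAdicComplete J T] {v' w' : ℕ → T} (hv : ∀ j, c (v j) = v' j) (hw : ∀ j, c (w j) = w' j) :
    Pt p n J v' →+ Pt p m J w' :=
  AddMonoidHom.mk' (fun a => ⟨ev1 c a.1 k, ev_mem c (ok_one J a.2) (fun _ => a.2) hk.const⟩)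
    fun a b => Pt.ext (by
      have := hk.ev_fadd c J a.2 b.2
      simp only [hv, hw] at this
      exact this)

theorem IsHomS.val_pt (hk : IsHomS p n v m w k) (c : S →+* T) (J : Ideal T)
    [IsAdicComplete J T] {v' w' : ℕ → T} (hv : ∀ j, c (v j) = v' j) (hw : ∀ j, c (w j) = w' j)
    (a : Pt p n J v') : (hk.pt c J hv hw a).1 = ev1 c a.1 k := rfl

theorem IsHomS.ev_fp (hk : IsHomS p n v m w k) (c : S →+* T) (J : Ideal T) [IsAdicComplete J T]
    {a : T} (ha : a ∈ J.radical) :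
    ev1 c (fp p n (fun j => c (v j)) a) k = fp p m (fun j => c (w j)) (ev1 c a k) := by
  have h := (hk.pt c J (fun _ => rfl) fun _ => rfl).map_nsmul p ⟨a, ha⟩
  have h2 := congrArg Pt.val h
  rw [IsHomS.val_pt, Pt.val_p_smul, Pt.val_p_smul, IsHomS.val_pt] at h2
  exact h2

theorem IsHomS.ev_fp_iter (hk : IsHomS p n v m w k) (c : S →+* T) (J : Ideal T)
    [IsAdicComplete J T] {a : T} (ha : a ∈ J.radical) (r : ℕ) :
    ev1 c ((fp p n fun j => c (v j))^[r] a) k = (fp p m fun j => c (w j))^[r] (ev1 c a k) := by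
  have h := (hk.pt c J (fun _ => rfl) fun _ => rfl).map_nsmul (p ^ r) ⟨a, ha⟩
  have h2 := congrArg Pt.val h
  rw [IsHomS.val_pt, Pt.val_pow_smul, Pt.val_pow_smul, IsHomS.val_pt] at h2
  exact h2

theorem IsHomS.pErr_eq (hk : IsHomS p n v m w k) : pErr p n v m w k = 0 := by
  rw [pErr, sub_eq_zero, pser_eq v, hk.ev_fp C (PI Unit (⊥ : Ideal S)) (rad0 const_X1), ev1_C_X,
    fp_C w hk.const]

theorem isHomS_X : IsHomS p n v n v PowerSeries.X := by
  refine isHomS_of const_X1 ?_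
  rw [ev1_X _ (ok_one (PI (Fin 2) (⊥ : Ideal S)) (rad0 (const_fadd _ (constantCoeff_X 0) (constantCoeff_X 1)))),
    ev1_X _ (ok_one (PI (Fin 2) (⊥ : Ideal S)) (radX 0)), ev1_X _ (ok_one (PI (Fin 2) (⊥ : Ideal S)) (radX 1))]

theorem isHomS_zero : IsHomS p n v m w 0 := by
  refine isHomS_of (map_zero _) ?_
  rw [map_zero, map_zero, map_zero, fadd_zero (PI (Fin 2) (⊥ : Ideal S)) _ (zero_mem _)]

theorem IsHomS.comp (hk : IsHomS p n v m w k) (hk' : IsHomS p m w l u k') :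
    IsHomS p n v l u (ev1 C k k') := by
  refine isHomS_of (const_ev1 hk.const hk'.const) ?_
  have e : ∀ a : MvPowerSeries (Fin 2) S, constantCoeff a = 0 →
      ev1 C a (ev1 C k k') = ev1 C (ev1 C a k) k' := fun a ha =>
    ev_ev1 C (PI (Fin 2) (⊥ : Ideal S)) (fun _ => rad0 ha) hk.const k'
  rw [e _ (const_fadd _ (constantCoeff_X 0) (constantCoeff_X 1)), e _ (constantCoeff_X 0),
    e _ (constantCoeff_X 1), hk.ev_fadd C (PI (Fin 2) (⊥ : Ideal S)) (radX 0) (radX 1),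
    hk'.ev_fadd C (PI (Fin 2) (⊥ : Ideal S)) (rad0 (const_ev1 (constantCoeff_X 0) hk.const))
      (rad0 (const_ev1 (constantCoeff_X 1) hk.const))]

theorem IsHomS.add (hk : IsHomS p n v m w k) (hk' : IsHomS p n v m w k') :
    IsHomS p n v m w (fadd p m (fun j => C (w j)) k k') := by
  refine isHomS_of_pt (const_fadd _ hk.const hk'.const)
    (hk.pt C (PI (Fin 2) (⊥ : Ideal S)) (fun _ => rfl) (fun _ => rfl) +
      hk'.pt C (PI (Fin 2) (⊥ : Ideal S)) (fun _ => rfl) fun _ => rfl) fun a => ?_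
  rw [AddMonoidHom.add_apply, Pt.val_add, IsHomS.val_pt, IsHomS.val_pt]
  rw [ev1_fadd_C C (PI (Fin 2) (⊥ : Ideal S)) a.2 w hk.const hk'.const]

theorem IsHomS.neg (hk : IsHomS p n v m w k) :
    IsHomS p n v m w (fneg p m (fun j => C (w j)) k) := by
  refine isHomS_of_pt (const_fneg _ hk.const)
    (-hk.pt C (PI (Fin 2) (⊥ : Ideal S)) (fun _ => rfl) fun _ => rfl) fun a => ?_
  rw [AddMonoidHom.neg_apply, Pt.val_neg, IsHomS.val_pt]
  rw [ev1_fneg_C C (PI (Fin 2) (⊥ : Ideal S)) a.2 w hk.const]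

theorem IsHomS.fp_iter (hk : IsHomS p n v m w k) (r : ℕ) :
    IsHomS p n v m w ((fp p m fun j => C (w j))^[r] k) := by
  refine isHomS_of_pt (const_fp_iter _ hk.const r)
    (p ^ r • hk.pt C (PI (Fin 2) (⊥ : Ideal S)) (fun _ => rfl) fun _ => rfl) fun a => ?_
  rw [AddMonoidHom.nsmul_apply, Pt.val_pow_smul, IsHomS.val_pt]
  rw [ev1_fp_iter_C C (PI (Fin 2) (⊥ : Ideal S)) a.2 w hk.const r]

theorem IsHomS.inv (hk : IsHomS p n v m w k) (h0 : constantCoeff k' = 0)
    (h1 : ev1 C k k' = PowerSeries.X) (h2 : ev1 C k' k = PowerSeries.X) :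
    IsHomS p m w n v k' := by
  refine isHomS_of h0 ?_
  have e1 : ∀ a : MvPowerSeries (Fin 2) S, constantCoeff a = 0 →
      ev1 C (ev1 C a k) k' = a := fun a ha => by
    rw [← ev_ev1 C (PI (Fin 2) (⊥ : Ideal S)) (fun _ : Unit => rad0 ha) hk.const k', h1]
    exact ev1_X _ (ok_one (PI (Fin 2) (⊥ : Ideal S)) (rad0 ha))
  have e2 : ∀ a : MvPowerSeries (Fin 2) S, constantCoeff a = 0 →
      ev1 C (ev1 C a k') k = a := fun a ha => by
    rw [← ev_ev1 C (PI (Fin 2) (⊥ : Ideal S)) (fun _ : Unit => rad0 ha) h0 k, h2]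
    exact ev1_X _ (ok_one (PI (Fin 2) (⊥ : Ideal S)) (rad0 ha))
  have c0 := const_ev1 (constantCoeff_X (R := S) (0 : Fin 2)) h0
  have c1 := const_ev1 (constantCoeff_X (R := S) (1 : Fin 2)) h0
  have h := hk.ev_fadd C (PI (Fin 2) (⊥ : Ideal S)) (rad0 c0) (rad0 c1)
  rw [e2 _ (constantCoeff_X 0), e2 _ (constantCoeff_X 1)] at h
  rw [← h, e1 _ (const_fadd _ c0 c1)]

end Vale.Agent.P217
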