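import Vale.Agent.P217.Stmt
import Vale.Agent.P217.Hom

/-! Translation between the statement and the working definitions. -/

namespace Vale.Agent.P217

open MvPowerSeries

variable {p : ℕ} [hp' : Fact p.Prime] {n : ℕ}

/-- The maximal ideal of the Lubin-Tate ring. -/
noncomputable def mE (p : ℕ) [Fact p.Prime] (n : ℕ) : Ideal (EE p n) :=
  PI (Fin (n - 1)) (Ideal.span {(p : WittVector p (GaloisField p n))})

instance : IsAdicComplete (mE p n) (EE p n) := isAdicComplete_PI _

theorem mem_mE {f : EE p n} : f ∈ mE p n ↔ res p n f = 0 := by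
  rw [mE, mem_PI, WittVector.mem_span_p_iff_coeff_zero_eq_zero]
  rfl

theorem isUnit_iff_res {f : EE p n} : IsUnit f ↔ res p n f ≠ 0 := by
  refine ⟨fun h => (h.map (res p n)).ne_zero, fun h => ?_⟩
  rw [MvPowerSeries.isUnit_iff_constantCoeff]
  exact WittVector.isUnit_of_coeff_zero_ne_zero _ h

theorem mE_radical : (mE p n).radical = mE p n := by
  have e : mE p n = RingHom.ker (res p n) := Ideal.ext fun _ => mem_mE
  rw [e]
  exact (RingHom.ker_isPrime _).radical

theorem uu_zero : uu p n 0 = p := by simp [uu]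

theorem uu_succ (i : Fin (n - 1)) : uu p n (i + 1) = X i := by
  simp [uu, i.2]

theorem uu_top (hn : 1 ≤ n) : uu p n n = 1 := by
  rw [uu, if_neg (by omega), dif_neg (by omega), if_pos rfl]

theorem uu_supp (j : ℕ) (hj : n < j) : uu p n j = 0 := by
  rw [uu, if_neg (by omega), dif_neg (by omega), if_neg (by omega)]

theorem uu_mem (j : ℕ) (hj : j < n) : uu p n j ∈ mE p n := by
  rw [mem_mE]
  rcases j with _ | j
  · rw [uu_zero, map_natCast, CharP.cast_eq_zero]
  · rw [uu_succ ⟨j, by omega⟩]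
    simp [res]

theorem ltp_uu (hn : 1 ≤ n) : LTp p n (mE p n) (uu p n) :=
  ⟨uu_zero (p := p) (n := n) ▸ uu_mem 0 hn, fun j _ hj => uu_mem j hj, uu_top hn⟩

theorem res_uu (hn : 1 ≤ n) (j : ℕ) : res p n (uu p n j) = eH (GaloisField p n) n j := by
  rcases lt_trichotomy j n with h | rfl | h
  · rw [mem_mE.1 (uu_mem j h), eH, if_neg h.ne]
  · rw [uu_top hn, map_one, eH, if_pos rfl]
  · rw [uu_supp j h, map_zero, eH, if_neg h.ne']

theorem mE_eq (hn : 1 ≤ n) : mE p n = htIdeal p n n := by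
  refine le_antisymm (fun f hf => ?_) (Ideal.span_le.2 ?_)
  · obtain ⟨w, hw⟩ := Ideal.mem_span_singleton'.1 (mem_PI.1 hf)
    have h1 : f - C (constantCoeff f) ∈ PI (Fin (n - 1)) ⊥ := mem_PI_of_zero _ (by simp)
    rw [PI_bot] at h1
    have h2 : Ideal.span (Set.range (X : Fin (n - 1) → EE p n)) ≤ htIdeal p n n := by
      refine Ideal.span_mono ?_
      rintro _ ⟨i, rfl⟩
      exact ⟨i + 1, by omega, (uu_succ i).symm⟩
    have h3 : C (constantCoeff f) ∈ htIdeal p n n := by
      rw [← hw, map_mul, map_natCast]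
      exact Ideal.mul_mem_left _ _ (Ideal.subset_span ⟨0, hn, uu_zero.symm⟩)
    simpa using add_mem (h2 h1) h3
  · rintro _ ⟨j, hj, rfl⟩
    exact uu_mem j hj

namespace BridgeAux

theorem uu_const {j : ℕ} (hj : j = 0 ∨ n ≤ j) : ∃ w, uu p n j = C w := by
  rcases Nat.eq_zero_or_pos j with rfl | h0
  · exact ⟨p, by rw [uu_zero, map_natCast]⟩
  · rcases (hj.resolve_left h0.ne').eq_or_lt with rfl | h
    · exact ⟨1, by rw [uu_top h0, map_one]⟩
    · exact ⟨0, by rw [uu_supp j h, map_zero]⟩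

theorem uu_cases (j : ℕ) : (j = 0 ∨ n ≤ j) ∨ ∃ i : Fin (n - 1), j = i + 1 := by
  by_cases hj : j = 0 ∨ n ≤ j
  · exact Or.inl hj
  · exact Or.inr ⟨⟨j - 1, by omega⟩, by simp only; omega⟩

theorem isUnit_p : IsUnit (p : FractionRing (EE p n)) := by
  refine Ne.isUnit fun h => ?_
  rw [← map_natCast (algebraMap (EE p n) (FractionRing (EE p n))),
    map_eq_zero_iff _ (IsFractionRing.injective _ _)] at h
  have h1 := congrArg constantCoeff h
  rw [map_natCast, map_zero] at h1
  exact (WittVector.irreducible p (k := GaloisField p n)).ne_zero h1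

theorem hlog_eq (t : ℕ) :
    hlog p n t = ll p (fun j => algebraMap (EE p n) (FractionRing (EE p n)) (uu p n j)) t := by
  induction t using Nat.strong_induction_on with
  | _ t ih =>
    rcases t with _ | t
    · rw [hlog, ll_zero]
    · have hp := isUnit_p (p := p) (n := n)
      refine mul_left_cancel₀ hp.ne_zero ?_
      rw [ll_succ hp, hlog, mul_inv_cancel_left₀ hp.ne_zero, Finset.sum_range]
      exact Finset.sum_congr rfl fun s _ => by rw [ih s s.2]

theorem subst_eq {S τ : Type*} [CommRing S] [Finite τ] {a : MvPowerSeries τ S}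
    (ha : constantCoeff a = 0) (f : PowerSeries S) : f.subst a = ev1 C a f :=
  (ev_eq_subst (fun _ => ha) f).symm

theorem subst_log {τ : Type*} [Finite τ] {a : MvPowerSeries τ (FractionRing (EE p n))}
    (ha : constantCoeff a = 0) : (logSeries p n).subst a =
      Lg p (ll p fun j => algebraMap (EE p n) (FractionRing (EE p n)) (uu p n j)) a := by
  rw [subst_eq ha, Lg, lser, logSeries]
  simp only [hlog_eq]

theorem const_Fv {S : Type*} [CommRing S] (v : ℕ → S) : constantCoeff (Fv p n v) = 0 := by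
  rw [Fv, constantCoeff_map, constantCoeff_Fu, map_zero]

theorem subst_Fv {S τ : Type*} [CommRing S] [Finite τ] (v : ℕ → S) {a b : MvPowerSeries τ S}
    (ha : constantCoeff a = 0) (hb : constantCoeff b = 0) :
    (Fv p n v).subst ![a, b] = fadd p n (fun j => C (v j)) a b := by
  have h : ∀ i, constantCoeff (![a, b] i) = 0 := fun i => by fin_cases i <;> simpa
  rw [← ev_eq_subst h, Fv, ev_map _ _ (Ok.of_const h), comp_spec, fadd]

theorem const_fadd {S τ : Type*} [CommRing S] [Finite τ] (v : ℕ → MvPowerSeries τ S)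
    {a b : MvPowerSeries τ S} (ha : constantCoeff a = 0) (hb : constantCoeff b = 0) :
    constantCoeff (fadd p n v a b) = 0 :=
  mem_PI_bot.1 (fadd_mem (PI τ ⊥) v (mem_PI_radical_of_zero _ ha) (mem_PI_radical_of_zero _ hb)
    (mem_PI_of_zero _ ha) (mem_PI_of_zero _ hb))

theorem coeff_Fv {S : Type*} [CommRing S] (v : ℕ → S) (i : Fin 2) :
    coeff (Finsupp.single i 1) (Fv p n v) = 1 := by
  obtain ⟨g, hg⟩ := fadd_eq (p := p) (n := n) (PI (Fin 2) ⊥) (fun j => C (v j))
    (mem_PI_radical_of_zero _ (constantCoeff_X 0)) (mem_PI_radical_of_zero _ (constantCoeff_X 1))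
  have h2 : (X 0 * X 1 * g : MvPowerSeries (Fin 2) S) ∈ PI (Fin 2) ⊥ ^ 2 := by
    rw [pow_two]
    exact Ideal.mul_mem_right _ _ (Ideal.mul_mem_mul (mem_PI_of_zero _ (constantCoeff_X 0))
      (mem_PI_of_zero _ (constantCoeff_X 1)))
  rw [Fv_eq, hg, map_add, mem_PI_bot_pow.1 h2 _ (by simp), map_add]
  fin_cases i <;> simp [coeff_index_single_X]

end BridgeAux

theorem isLT_iff (F : FormalGroup (EE p n)) :
    IsLT p n F ↔ F.toPowerSeries = Fv p n (uu p n) := by
  have hp := BridgeAux.isUnit_p (p := p) (n := n)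
  set ι := algebraMap (EE p n) (FractionRing (EE p n))
  have h0 : ∀ G : MvPowerSeries (Fin 2) (EE p n), constantCoeff G = 0 →
      constantCoeff (MvPowerSeries.map ι G) = 0 := fun G hG => by
    rw [constantCoeff_map, hG, map_zero]
  have e := Lg_fadd (p := p) (n := n) (σ := Fin 2) hp (v := fun j => ι (uu p n j))
    (fun j hj => by rw [uu_supp j hj, map_zero]) (constantCoeff_X 0) (constantCoeff_X 1)
  rw [← Fv_eq, ← map_Fv] at e
  rw [IsLT, BridgeAux.subst_log (h0 _ F.zero_constantCoeff),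
    BridgeAux.subst_log (constantCoeff_X 0), BridgeAux.subst_log (constantCoeff_X 1), ← e]
  refine ⟨fun h => ?_, fun h => by rw [h]⟩
  have h1 := Lg_inj (ll_zero _) (h0 _ F.zero_constantCoeff) (h0 _ (BridgeAux.const_Fv _)) h
  ext1 d
  exact IsFractionRing.injective (EE p n) (FractionRing (EE p n)) (congrArg (coeff d) h1)

theorem exists_formalGroup {S : Type} [CommRing S] (v : ℕ → S) :
    ∃ F : FormalGroup S, F.toPowerSeries = Fv p n v := by
  refine ⟨⟨Fv p n v, BridgeAux.const_Fv v, BridgeAux.coeff_Fv v 0, BridgeAux.coeff_Fv v 1, ?_⟩, rfl⟩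
  have hX := fun i : Fin 3 => constantCoeff_X (R := S) i
  rw [BridgeAux.subst_Fv v (hX 0) (hX 1), BridgeAux.subst_Fv v (hX 1) (hX 2),
    BridgeAux.subst_Fv v (BridgeAux.const_fadd _ (hX 0) (hX 1)) (hX 2),
    BridgeAux.subst_Fv v (hX 0) (BridgeAux.const_fadd _ (hX 1) (hX 2))]
  exact fadd_assoc (PI (Fin 3) ⊥) _ (mem_PI_radical_of_zero _ (hX 0))
    (mem_PI_radical_of_zero _ (hX 1)) (mem_PI_radical_of_zero _ (hX 2))

theorem mulSeries_eq {S : Type} [CommRing S] {v : ℕ → S} {F : FormalGroup S}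
    (hF : F.toPowerSeries = Fv p n v) : mulSeries F p = pser p n v := by
  have hX : constantCoeff (PowerSeries.X : PowerSeries S) = 0 := constantCoeff_X ()
  let a : Pt p n (PI Unit ⊥) (fun j => (C (v j) : PowerSeries S)) :=
    ⟨PowerSeries.X, mem_PI_radical_of_zero _ hX⟩
  have key : ∀ m : ℕ, constantCoeff (mulSeries F m) = 0 ∧ mulSeries F m = (m • a).1 := fun m => by
    induction m with
    | zero => exact ⟨map_zero _, by rw [zero_smul]; rfl⟩
    | succ m ih =>
      rw [mulSeries, hF, BridgeAux.subst_Fv v ih.1 hX]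
      exact ⟨BridgeAux.const_fadd _ ih.1 hX, by rw [succ_nsmul, Pt.val_add, ih.2]⟩
  rw [(key p).2, Pt.val_p_smul, fp_C v hX, ev1_C_X]

theorem isFGHom_iff {S : Type} [CommRing S] {v w : ℕ → S} {F G : FormalGroup S}
    (hF : F.toPowerSeries = Fv p n v) (hG : G.toPowerSeries = Fv p n w) (k : PowerSeries S) :
    IsFGHom F G k ↔ IsHomS p n v n w k := by
  have key : constantCoeff k = 0 → (k.subst F.toPowerSeries = G.toPowerSeries.subst
      ![k.subst (X 0 : MvPowerSeries (Fin 2) S), k.subst (X 1 : MvPowerSeries (Fin 2) S)] ↔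
      homErr p n v n w k = 0) := fun h0 => by
    have h1 : ∀ i : Fin 2, constantCoeff (ev1 C (X i : MvPowerSeries (Fin 2) S) k) = 0 := fun i =>
      constantCoeff_ev_eq_zero _ (fun _ => constantCoeff_X i) h0
    rw [BridgeAux.subst_eq F.zero_constantCoeff, BridgeAux.subst_eq (constantCoeff_X 0),
      BridgeAux.subst_eq (constantCoeff_X 1), hF, hG, BridgeAux.subst_Fv w (h1 0) (h1 1), homErr,
      sub_eq_zero]
  exact ⟨fun h => ⟨h.1, (key h.1).1 h.2⟩, fun h => ⟨h.1, (key h.1).2 h.2⟩⟩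

end Vale.Agent.P217
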