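import Mathlib

/-! Linear algebra: Vandermonde, stable subspaces, Moore. -/

namespace Vale.Agent.P217

/-- Independence of the characters `a ↦ [a] ^ (p ^ j)`. -/
theorem vandermonde_zero (p : ℕ) [Fact p.Prime] {n : ℕ} (hn : 1 ≤ n) {B : Type*} [CommRing B]
    (w : WittVector p (GaloisField p n) →+* B) (ω : ℕ → B)
    (h : ∀ a : GaloisField p n,
      ∑ j ∈ Finset.range n, w (WittVector.teichmuller p a) ^ p ^ j * ω j = 0) :
    ∀ j, j < n → ω j = 0 := by
  have hp : p.Prime := Fact.out
  obtain ⟨g, hg⟩ := IsCyclic.exists_ofOrder_eq_natCard (α := (GaloisField p n)ˣ)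
  rw [Nat.card_units, GaloisField.card p n (by omega)] at hg
  let x : Fin n → B := fun j => w (WittVector.teichmuller p (g : GaloisField p n)) ^ p ^ (j : ℕ)
  have hlt : ∀ j, j < n → 2 ≤ n → p ^ j < p ^ n - 1 := fun j hj h2 => by
    obtain ⟨m, rfl⟩ : ∃ m, n = m + 1 := ⟨n - 1, by omega⟩
    have h3 : p ^ j ≤ p ^ m := Nat.pow_le_pow_right hp.pos (by omega)
    have h4 : p ≤ p ^ m := Nat.le_self_pow (by omega) p
    have h5 := hp.two_le
    have h6 : p ^ m * 2 ≤ p ^ (m + 1) := by rw [pow_succ]; exact Nat.mul_le_mul_left _ h5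
    omega
  have hx : ∀ i j : Fin n, i < j → IsUnit (x j - x i) := fun i j hij => by
    have hij' : (i : ℕ) < j := hij
    have h2 : 2 ≤ n := by have := j.2; omega
    have h1 : IsUnit (WittVector.teichmuller p (g : GaloisField p n) ^ p ^ (j : ℕ) -
        WittVector.teichmuller p (g : GaloisField p n) ^ p ^ (i : ℕ)) := by
      refine WittVector.isUnit_of_coeff_zero_ne_zero _ ?_
      rw [← WittVector.constantCoeff_apply, map_sub, map_pow, map_pow,
        WittVector.constantCoeff_apply, WittVector.teichmuller_coeff_zero, sub_ne_zero]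
      intro h3
      have h4 : g ^ p ^ (j : ℕ) = g ^ p ^ (i : ℕ) := Units.ext (by simpa using h3)
      have h5 := pow_injOn_Iio_orderOf (x := g) (by rw [hg]; exact hlt j j.2 h2)
        (by rw [hg]; exact hlt i i.2 h2) h4
      have := Nat.pow_right_injective hp.two_le h5
      omega
    simpa only [map_sub, map_pow] using h1.map w
  have hV : IsUnit (Matrix.vandermonde x) := by
    rw [Matrix.isUnit_iff_isUnit_det, Matrix.det_vandermonde]
    exact IsUnit.prod_iff.mpr fun i _ => IsUnit.prod_iff.mpr fun j hj => hx i j (Finset.mem_Ioi.mp hj)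
  have h0 : (fun j : Fin n => ω j) = 0 := by
    refine Matrix.vecMul_injective_of_isUnit hV ?_
    funext e
    have h1 := h ((g : GaloisField p n) ^ (e : ℕ))
    rw [Finset.sum_range (fun j =>
      w (WittVector.teichmuller p ((g : GaloisField p n) ^ (e : ℕ))) ^ p ^ j * ω j)] at h1
    simp only [Matrix.zero_vecMul, Pi.zero_apply]
    rw [← h1, Matrix.vecMul, dotProduct]
    refine Finset.sum_congr rfl fun j _ => ?_
    rw [Matrix.vandermonde_apply, map_pow, map_pow, mul_comm, ← pow_mul, ← pow_mul, mul_comm (e : ℕ)]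
  intro j hj
  exact congrFun h0 ⟨j, hj⟩

/-- A subspace stable under a field endomorphism is spanned by its fixed vectors. -/
theorem stable_le_span {L : Type*} [Field L] {D : Type*} [Finite D] (τ : L →+* L)
    (V : Submodule L (D → L)) (hV : ∀ c ∈ V, (fun d => τ (c d)) ∈ V) :
    V ≤ Submodule.span L {c | c ∈ V ∧ ∀ d, τ (c d) = c d} := by
  classical
  have hQ : ∀ s : Finset D, ∀ c ∈ V, c ≠ 0 → (∀ d, d ∉ s → c d = 0) →
      ∃ w ∈ V, w ≠ 0 ∧ (∀ d, τ (w d) = w d) ∧ ∀ d, d ∉ s → w d = 0 := by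
    intro s
    induction s using Finset.strongInduction with
    | _ s ih =>
      intro c hc hc0 hs
      obtain ⟨d0, hd0⟩ := Function.ne_iff.mp hc0
      have hd0' : c d0 ≠ 0 := hd0
      have hd0s : d0 ∈ s := by by_contra h; exact hd0' (hs d0 h)
      set c' : D → L := (c d0)⁻¹ • c with hc'
      have h1 : c' ∈ V := V.smul_mem _ hc
      have h2 : c' d0 = 1 := by simp [hc', hd0']
      have h3 : ∀ d, d ∉ s → c' d = 0 := fun d hd => by simp [hc', hs d hd]
      by_cases h4 : (fun d => τ (c' d)) - c' = 0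
      · exact ⟨c', h1, fun h => by simp [h] at h2, fun d => sub_eq_zero.mp (congrFun h4 d), h3⟩
      · obtain ⟨w, hw, hw0, hw1, hw2⟩ := ih (s.erase d0) (Finset.erase_ssubset hd0s) _
          (V.sub_mem (hV c' h1) h1) h4 fun d hd => by
            rw [Finset.mem_erase, not_and_or, not_not] at hd
            rcases hd with rfl | hd
            · simp [h2]
            · simp [h3 d hd]
        exact ⟨w, hw, hw0, hw1, fun d hd => hw2 d fun h => hd (Finset.mem_of_mem_erase h)⟩
  have hP : ∀ s : Finset D, ∀ c ∈ V, (∀ d, d ∉ s → c d = 0) →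
      c ∈ Submodule.span L {c | c ∈ V ∧ ∀ d, τ (c d) = c d} := by
    intro s
    induction s using Finset.strongInduction with
    | _ s ih =>
      intro c hc hs
      by_cases hc0 : c = 0
      · rw [hc0]; exact zero_mem _
      obtain ⟨w, hw, hw0, hw1, hw2⟩ := hQ s c hc hc0 hs
      obtain ⟨d0, hd0⟩ := Function.ne_iff.mp hw0
      have hd0' : w d0 ≠ 0 := hd0
      have hd0s : d0 ∈ s := by by_contra h; exact hd0' (hw2 d0 h)
      have h1 := ih (s.erase d0) (Finset.erase_ssubset hd0s) (c - (c d0 / w d0) • w)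
        (V.sub_mem hc (V.smul_mem _ hw)) fun d hd => by
          rw [Finset.mem_erase, not_and_or, not_not] at hd
          rcases hd with rfl | hd
          · simp [hd0']
          · simp [hs d hd, hw2 d hd]
      have h2 : (c d0 / w d0) • w ∈ Submodule.span L {c | c ∈ V ∧ ∀ d, τ (c d) = c d} :=
        Submodule.smul_mem _ _ (Submodule.subset_span ⟨hw, hw1⟩)
      simpa using add_mem h1 h2
  intro c hc
  have := Fintype.ofFinite D
  exact hP Finset.univ c hc fun d hd => absurd (Finset.mem_univ d) hd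

/-- Moore's determinant does not vanish. -/
theorem moore_zero (p : ℕ) [Fact p.Prime] {O : Type*} [CommRing O] [IsDomain O] [CharP O p]
    {ι : Type*} [Fintype ι] (β : ι → O)
    (hβ : ∀ c : ι → ℕ, ∑ i, (c i : O) * β i = 0 → ∀ i, p ∣ c i) (Γ : ι → O)
    (h : ∀ j : ℕ, ∑ i, Γ i * β i ^ p ^ j = 0) : ∀ i, Γ i = 0 := by
  have hp : p.Prime := Fact.out
  let L := FractionRing O
  let a : O →+* L := algebraMap O L
  have ha : Function.Injective a := IsFractionRing.injective O L
  have : CharP L p := charP_of_injective_ringHom ha p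
  let V : Submodule L (ι → L) :=
    { carrier := {c | ∃ j0, ∀ j, j0 ≤ j → ∑ i, c i * a (β i) ^ p ^ j = 0}
      add_mem' := by
        rintro c c' ⟨j0, h0⟩ ⟨j1, h1⟩
        refine ⟨j0 + j1, fun j hj => ?_⟩
        simp only [Pi.add_apply, add_mul, Finset.sum_add_distrib]
        rw [h0 j (by omega), h1 j (by omega), add_zero]
      zero_mem' := ⟨0, fun j _ => by simp⟩
      smul_mem' := by
        rintro r c ⟨j0, h0⟩
        refine ⟨j0, fun j hj => ?_⟩
        simp only [Pi.smul_apply, smul_eq_mul, mul_assoc, ← Finset.mul_sum]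
        rw [h0 j hj, mul_zero] }
  have hV : ∀ c ∈ V, (fun d => frobenius L p (c d)) ∈ V := by
    rintro c ⟨j0, h0⟩
    refine ⟨j0 + 1, fun j hj => ?_⟩
    obtain ⟨k, rfl⟩ : ∃ k, j = k + 1 := ⟨j - 1, by omega⟩
    have h1 := congrArg (frobenius L p) (h0 k (by omega))
    rw [map_sum, map_zero] at h1
    rw [← h1]
    refine Finset.sum_congr rfl fun i _ => ?_
    simp only [map_mul, frobenius_def, ← pow_mul, ← pow_succ]
  have hfix : {c | c ∈ V ∧ ∀ d, frobenius L p (c d) = c d} ⊆ {0} := by
    rintro c ⟨⟨j0, h0⟩, h1⟩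
    have h2 : ∀ i, ∃ m : ℕ, (m : L) = c i := fun i => by
      have h3 := (Subfield.mem_bot_iff_pow_eq_self L p).mpr (h1 i)
      rw [← ZMod.fieldRange_castHom_eq_bot p] at h3
      obtain ⟨z, hz⟩ := h3
      obtain ⟨m, rfl⟩ := ZMod.natCast_zmod_surjective z
      exact ⟨m, by rw [← hz, map_natCast]⟩
    choose m hm using h2
    have h3 : iterateFrobenius L p j0 (a (∑ i, (m i : O) * β i)) = 0 := by
      rw [← h0 j0 le_rfl, map_sum, map_sum]
      refine Finset.sum_congr rfl fun i _ => ?_
      rw [map_mul, map_mul, map_natCast, map_natCast, hm, iterateFrobenius_def]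
    rw [map_eq_zero, map_eq_zero_iff a ha] at h3
    funext i
    rw [← hm, Pi.zero_apply, CharP.cast_eq_zero_iff L p]
    exact hβ m h3 i
  have hΓ : (fun i => a (Γ i)) ∈ V := ⟨0, fun j _ => by
    have h1 := congrArg a (h j)
    rw [map_sum, map_zero] at h1
    simpa only [map_mul, map_pow] using h1⟩
  have h1 := (Submodule.span_mono hfix) (stable_le_span (frobenius L p) V hV hΓ)
  rw [Submodule.span_zero_singleton, Submodule.mem_bot] at h1
  intro i
  exact (map_eq_zero_iff a ha).mp (congrFun h1 i)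

/-- Fewer than `n` vectors in `K ^ n` are killed by a nonzero functional. -/
theorem exists_functional {B : Type*} [CommRing B] (hB : IsField B) {n : ℕ} {ι : Type*}
    [Fintype ι] (hι : Fintype.card ι < n) (u : ι → ℕ → B) :
    ∃ ξ : ℕ → B, (∃ s, s < n ∧ ξ s ≠ 0) ∧ ∀ i, ∑ s ∈ Finset.range n, ξ s * u i s = 0 := by
  let := hB.toField
  let M : Matrix ι (Fin n) B := Matrix.of fun i s => u i s
  have h1 : LinearMap.ker M.mulVecLin ≠ ⊥ :=
    LinearMap.ker_ne_bot_of_finrank_lt (by simpa using hι)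
  obtain ⟨x, hx, hx0⟩ := Submodule.exists_mem_ne_zero_of_ne_bot h1
  obtain ⟨s, hs⟩ := Function.ne_iff.mp hx0
  refine ⟨fun s => if h : s < n then x ⟨s, h⟩ else 0, ⟨s, s.2, by simpa using hs⟩, fun i => ?_⟩
  have h2 := congrFun (LinearMap.mem_ker.mp hx) i
  rw [Finset.sum_range]
  rw [Matrix.mulVecLin_apply, Matrix.mulVec, dotProduct, Pi.zero_apply] at h2
  rw [← h2]
  refine Finset.sum_congr rfl fun s _ => ?_
  simp [M, mul_comm]

end Vale.Agent.P217
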