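import Vale.Agent.P217.Ch0B
import Vale.Agent.P217.Stab

/-! Characteristic zero: the orbit directions span the tangent space. -/

namespace Vale.Agent.P217

open MvPowerSeries Filter Topology

variable {p n : ℕ} [Fact p.Prime] {O : Type} [CommRing O] [IsDomain O] {ϖ : O} [Good O ϖ]

theorem Ch0Aux.fp_iter_mem_pow_add {S : Type*} [CommRing S] (I : Ideal S) [IsAdicComplete I S]
    (v : ℕ → S) {J : Ideal S} (hp : (p : S) ∈ J) {a : S} (ha : a ∈ I.radical) (haJ : a ∈ J)
    (r : ℕ) : (fp p n v)^[r] a ∈ J ^ (r + 1) := by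
  induction r with
  | zero => simpa using haJ
  | succ r ih =>
    obtain ⟨g, hg⟩ := fp_eq (p := p) (n := n) I v (fp_iter_mem (p := p) (n := n) I v ha haJ r).1
    rw [Function.iterate_succ_apply', hg, pow_succ' J (r + 1)]
    refine add_mem (Ideal.mul_mem_mul hp ih) (Ideal.mul_mem_right _ _ ?_)
    rw [sq]
    exact Ideal.mul_mem_mul (Ideal.pow_le_self (Nat.succ_ne_zero r) ih) ih

omit [IsDomain O] [Good O ϖ] in
theorem fp_iter_mem_char0 (hp : (p : O) ∈ Ideal.span {ϖ}) {e : ℕ}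
    (he : ϖ ^ e ∈ Ideal.span {(p : O)}) (v : ℕ → O) (N : ℕ) (ε : PowerSeries O)
    (h0 : constantCoeff ε = 0) (hε : ε ∈ cI Unit (Ideal.span {ϖ})) :
    (fp p n fun j => C (v j))^[N + e] ε ∈ cI Unit (Ideal.span {(p : O) ^ (N + 1)}) := by
  have hC : ∀ N : Ideal O, (p : O) ∈ N → (p : MvPowerSeries Unit O) ∈ cI Unit N := fun N hN => by
    have := C_mem_cI (σ := Unit) hN
    rwa [map_natCast] at this
  have h1 := mem_PI_radical_of_zero ⊥ h0
  have h2 := Ch0Aux.fp_iter_mem_pow_add (n := n) (PI Unit ⊥) (fun j => C (v j)) (hC _ hp) h1 hε e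
  have h3 : Ideal.span {ϖ} ^ (e + 1) ≤ Ideal.span {(p : O)} := by
    rw [Ideal.span_singleton_pow, Ideal.span_singleton_le_iff_mem, pow_add]
    exact Ideal.mul_mem_right _ _ he
  have h4 := fp_iter_mem (p := p) (n := n) (PI Unit ⊥) (fun j => C (v j)) h1 hε e
  have h5 := cI_pow_le _ _ (Ch0Aux.fp_iter_mem_pow_add (n := n) (PI Unit ⊥) (fun j => C (v j))
    (hC _ (Ideal.mem_span_singleton_self _)) h4.1 (cI_mono h3 (cI_pow_le _ _ h2)) N)
  rw [Ideal.span_singleton_pow] at h5
  rw [Function.iterate_add_apply]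
  exact h5

namespace Ch0Aux

omit [Fact p.Prime] in
theorem exists_field (hp0 : (p : O) ≠ 0) (hp : (p : O) ∈ Ideal.span {ϖ}) {e : ℕ}
    (he : ϖ ^ e ∈ Ideal.span {(p : O)}) :
    ∃ (B : Type) (_ : NormedCommRing B) (_ : CompleteSpace B) (_ : IsUltrametricDist B)
      (_ : PNorm p B) (j : O →+* B),
      (∀ (a : O) (k : ℕ), a ∈ Ideal.span {(p : O) ^ k} → ‖j a‖ ≤ (1 / 2) ^ k) ∧
      Function.Injective j ∧ IsField B ∧ CharZero B := by
  obtain ⟨B, _, _, _, _, j, hj, hs⟩ := exists_pnorm p O (mem_nonZeroDivisors_of_ne_zero hp0)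
  have hc : IsAdicComplete (Ideal.span {(p : O)}) O :=
    isAdicComplete_of_pow_le (Ideal.span {ϖ}) _ (a := e) (b := 1)
      (by rwa [Ideal.span_singleton_pow, Ideal.span_singleton_le_iff_mem])
      (by rwa [pow_one, Ideal.span_singleton_le_iff_mem])
  have hinj : Function.Injective j := (injective_iff_map_eq_zero j).mpr fun a ha =>
    eq_zero_of_mem_pow (Ideal.span {(p : O)}) fun k => by
      rw [Ideal.span_singleton_pow, ← hj, ha, norm_zero]; positivity
  have hdvd : ϖ ∣ (p : O) := Ideal.mem_span_singleton.mp hp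
  have hch : CharZero O := by
    obtain ⟨q, hq⟩ := CharP.exists O
    rcases CharP.char_is_prime_or_zero O q with h | rfl
    · refine absurd (isUnit_of_dvd_unit hdvd ((CharP.isUnit_natCast_iff h).mpr fun hd => ?_))
        (Good.not_isUnit ϖ)
      exact hp0 ((CharP.cast_eq_zero_iff O q p).mpr hd)
    · exact CharP.charP_to_charZero O
  refine ⟨B, inferInstance, inferInstance, inferInstance, inferInstance, j,
    fun a k => (hj a k).mpr, hinj, ⟨⟨j 0, j 1, fun h => zero_ne_one (hinj h)⟩, mul_comm, ?_⟩,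
    charZero_of_injective_ringHom hinj⟩
  intro b hb
  obtain ⟨k, a, hk⟩ := hs hc b
  have ha : a ≠ 0 := by
    rintro rfl
    exact hb (eq_zero_of_p_pow_mul (hk.trans (map_zero j)))
  obtain ⟨r, hr⟩ := Good.dvd (ϖ := ϖ) a ha
  have h1 := map_dvd j (hr.trans (pow_dvd_pow_of_dvd hdvd r))
  rw [map_pow, map_natCast, ← hk] at h1
  exact (isUnit_of_dvd_unit ((dvd_mul_left _ _).trans h1) (PNorm.unit.pow r)).exists_right_inv

variable {B : Type} [NormedCommRing B] [CompleteSpace B] [IsUltrametricDist B] [PNorm p B]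

omit [IsDomain O] [Good O ϖ] in
theorem exists_per (j : O →+* B)
    (hj : ∀ (a : O) (k : ℕ), a ∈ Ideal.span {(p : O) ^ k} → ‖j a‖ ≤ (1 / 2) ^ k) {e : ℕ}
    (he : ϖ ^ e ∈ Ideal.span {(p : O)}) {y : ℕ → O} (hy : GP n ϖ y) :
    ∃ β, IsPer p n (ll p fun i => j (y i)) β ∧ ([Nontrivial B] → ∃ s, s < n ∧ β s ≠ 0) := by
  have hv : ∀ i, 1 ≤ i → i < n → Tendsto (fun m : ℕ => j (y i) ^ m) atTop (𝓝 0) := fun i _ hi =>
    Ch0BAux.tendsto_pow_zero j hj he (hy.low i hi)
  have hrec := Ch0BAux.rec_gp (p := p) j hy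
  have h1 := fun s (hs : s < n) => gh_lim hy.pos hrec hv hs
  choose! β hβ using h1
  refine ⟨β, hβ, ?_⟩
  intro _
  by_contra h
  push Not at h
  have h2 := gh_inj hy.pos hrec hv (fun s hs => h s hs ▸ hβ s hs) 0
  rw [ll_zero] at h2
  exact one_ne_zero h2

omit [Fact p.Prime] [CompleteSpace B] [IsUltrametricDist B] in
theorem eq_zero_of_le {x : B} {K : ℝ} {e : ℕ}
    (h : ∀ N, 1 ≤ N → ‖(p : B) ^ (N + e) * x‖ ≤ K * (1 / 4) ^ N) : x = 0 := by
  refine eq_zero_of_p_pow_mul (p := p) (k := e) (norm_le_zero_iff.mp ?_)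
  refine ge_of_tendsto (Ch0AAux.tendsto_half K) (eventually_atTop.mpr ⟨1, fun N hN => ?_⟩)
  have h1 := h N hN
  rw [pow_add, mul_assoc, norm_p_pow_mul, show (1 / 4 : ℝ) = 1 / 2 * (1 / 2) by norm_num, mul_pow,
    mul_left_comm, mul_comm K] at h1
  exact le_of_mul_le_mul_left h1 (by positivity)

omit [IsDomain O] in
/-- The data attached to one element of the orbit. -/
theorem step [IsDomain B] [CharZero B] (j : O →+* B)
    (hj : ∀ (a : O) (k : ℕ), a ∈ Ideal.span {(p : O) ^ k} → ‖j a‖ ≤ (1 / 2) ^ k)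
    (hp : (p : O) ∈ Ideal.span {ϖ}) {e : ℕ} (he : ϖ ^ e ∈ Ideal.span {(p : O)})
    {y : ℕ → O} (hy : GP n ϖ y) {β : ℕ → B} (hβ : IsPer p n (ll p fun i => j (y i)) β)
    {f : MvPowerSeries (Fin (n - 1)) O} (hf0 : constantCoeff f = 0) {α : O} (hα : α ^ p ^ n = α)
    {t : ℕ} (ht : 1 ≤ t) (N : ℕ) {b : Fin (n - 1) → O} {k : PowerSeries O}
    (hb : ∀ i, b i ∈ Ideal.span {ϖ}) (hk : IsHomS p n (sh n 1 y b) n y k)
    (hkg : k - gD p n (eH O n) (C α * PowerSeries.X ^ p ^ t) (N + e) ∈ cI Unit (Ideal.span {ϖ}))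
    (hf : ev (RingHom.id O) b f = 0) :
    ∃ (a : Fin (n - 1) → O) (β' : ℕ → B) (κ : B), ‖κ‖ ≤ 1 ∧
      IsPer p n (ll p fun i => j (sh n 1 y (fun l => (p : O) ^ (N + 1) * a l) i)) β' ∧
      (∀ s, s < n → κ * β' s = β s + (p : B) ^ (N + e) * ∑ i ∈ Finset.range n,
        β i * j α ^ p ^ i * if (i + t) % n = s then (p : B) ^ ((i + t) / n) else 0) ∧
      ‖(p : B) ^ N * ∑ l, j (a l) * j (coeff (Finsupp.single l 1) f)‖ ≤ (1 / 4) ^ N := by
  have hp0 : p ≠ 0 := (Fact.out : p.Prime).ne_zero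
  have h0 : constantCoeff (C α * PowerSeries.X ^ p ^ t : PowerSeries O) = 0 := by
    rw [map_mul, map_pow, PowerSeries.X, constantCoeff_X, zero_pow (pow_ne_zero _ hp0), mul_zero]
  have h1 : PowerSeries.coeff 1 (C α * PowerSeries.X ^ p ^ t : PowerSeries O) = 0 := by
    rw [show (C α : PowerSeries O) = PowerSeries.C α from rfl, PowerSeries.coeff_C_mul,
      PowerSeries.coeff_X_pow, if_neg (Nat.one_lt_pow (by omega) (Fact.out : p.Prime).one_lt).ne,
      mul_zero]
  have hδ : pErr p n (eH O n) n (eH O n) (C α * PowerSeries.X ^ p ^ t) ∈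
      cI Unit (Ideal.span {ϖ}) := by
    rw [cI, RingHom.mem_ker, map_pErr _ h0, map_eH, map_mul, map_pow, map_C,
      show MvPowerSeries.map (Ideal.Quotient.mk (Ideal.span {ϖ})) PowerSeries.X = PowerSeries.X from
        map_X _ ()]
    refine (isHomS_eH ?_ hy.pos (by rw [← map_pow, hα]) t).pErr_eq
    rw [← map_natCast (Ideal.Quotient.mk (Ideal.span {ϖ})), Ideal.Quotient.eq_zero_iff_mem.mpr hp]
  have h2 := (displacement le_rfl hp hy h0 h1 hδ (N + e) (M' := Ideal.span {(p : O) ^ (N + 1)})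
    (by rw [Ideal.span_singleton_le_iff_mem]; exact Ideal.pow_mem_of_mem _ hp _ (by omega))
    ⟨e * (N + 1), by
      rw [pow_mul, ← Ideal.span_singleton_pow]
      refine Ideal.pow_right_mono ?_ _
      rwa [Ideal.span_singleton_pow, Ideal.span_singleton_le_iff_mem]⟩
    (fp_iter_mem_char0 hp he y N) hb hk hkg).1
  choose a ha using fun l => Ideal.mem_span_singleton.mp (h2 l)
  obtain rfl : b = fun l => (p : O) ^ (N + 1) * a l := funext ha
  have hy' := hy.sh (lo := 1) hb
  obtain ⟨β', hβ', -⟩ := exists_per j hj he hy'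
  refine ⟨a, β', j (PowerSeries.coeff 1 k), by simpa using hj _ 0 (by simp), hβ', fun s hs => ?_, ?_⟩
  · have h3 := isPer_Lg hy.pos j hj hp ⟨e, he⟩ hβ hα t (N + e) hk.const hkg s hs
    rw [(hk.map j).Lg_eq PNorm.unit (fun i hi => by rw [hy'.supp i hi, map_zero])
      fun i hi => by rw [hy.supp i hi, map_zero]] at h3
    refine tendsto_nhds_unique (((hβ' s hs).const_mul _).congr fun m => ?_) h3
    beta_reduce
    rw [show (C (PowerSeries.coeff 1 (MvPowerSeries.map j k)) : PowerSeries B) =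
      PowerSeries.C (j (PowerSeries.coeff 1 k)) from rfl, PowerSeries.coeff_C_mul, coeff_lser,
      mul_left_comm]
  · have h4 := Ch0BAux.taylor_zero (Ideal.span {ϖ}) (fun l => Ideal.le_radical (hb l)) h2 f
    rw [hf, hf0, sub_zero, zero_sub, neg_mem_iff, Ideal.span_singleton_pow, ← pow_mul] at h4
    have h5 := hj _ _ h4
    have h6 : j (∑ l, (p : O) ^ (N + 1) * a l * coeff (Finsupp.single l 1) f) =
        p * ((p : B) ^ N * ∑ l, j (a l) * j (coeff (Finsupp.single l 1) f)) := by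
      simp only [map_sum, map_mul, map_pow, map_natCast, Finset.mul_sum]
      exact Finset.sum_congr rfl fun l _ => by ring
    rw [h6, PNorm.norm_p_mul, mul_comm (N + 1), pow_mul, pow_succ _ N,
      show (1 / 2 : ℝ) ^ 2 = 1 / 4 by norm_num] at h5
    have h7 : (0 : ℝ) ≤ (1 / 4) ^ N := by positivity
    linarith

end Ch0Aux

open Ch0Aux in
theorem tangent (hp0 : (p : O) ≠ 0) (hp : (p : O) ∈ Ideal.span {ϖ})
    (w : WittVector p (GaloisField p n) →+* O) {y : ℕ → O} (hy : GP n ϖ y)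
    (f : MvPowerSeries (Fin (n - 1)) O) (hf0 : constantCoeff f = 0)
    (H : ∀ (a : GaloisField p n) (t N : ℕ), 1 ≤ t →
      ∃ (b : Fin (n - 1) → O) (k : PowerSeries O), (∀ i, b i ∈ Ideal.span {ϖ}) ∧
        IsHomS p n (sh n 1 y b) n y k ∧
        k - gD p n (eH O n) (C (w (WittVector.teichmuller p a)) * PowerSeries.X ^ p ^ t) N ∈
          cI Unit (Ideal.span {ϖ}) ∧
        ev (RingHom.id O) b f = 0) (i : Fin (n - 1)) :
    coeff (Finsupp.single i 1) f = 0 := by
  classical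
  obtain ⟨e, he⟩ := Good.dvd (ϖ := ϖ) (p : O) hp0
  replace he := Ideal.mem_span_singleton.mpr he
  obtain ⟨B, _, _, _, _, j, hj, hinj, hB, _⟩ := exists_field hp0 hp he
  have _ : IsDomain B := hB.isDomain
  obtain ⟨β, hβ, hβ0⟩ := exists_per j hj he hy
  obtain ⟨i0, hi0, hβ0⟩ := hβ0
  obtain ⟨L, K, hL⟩ := per_expansion hp0 j hj hp ⟨e, he⟩ hy hβ
  obtain ⟨c, hc⟩ : ∃ c : Fin (n - 1) → B, c = fun l => j (coeff (Finsupp.single l 1) f) := ⟨_, rfl⟩
  by_contra hci
  have hci' : c i ≠ 0 := fun h => hci (hinj (by rw [map_zero]; rwa [hc] at h))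
  obtain ⟨ξ, ⟨s0, hs0, hξ0⟩, hξ⟩ := exists_functional hB (n := n) (ι := Option {l // l ≠ i})
    (by have := i.2; simp; omega)
    fun o s => o.elim (β s) fun l => c i * L l s - c l * L i s
  have hξ1 : ∑ s ∈ Finset.range n, ξ s * β s = 0 := hξ none
  have hξ2 : ∀ l, c i * ∑ s ∈ Finset.range n, ξ s * L l s =
      c l * ∑ s ∈ Finset.range n, ξ s * L i s := fun l => by
    by_cases h : l = i
    · rw [h]
    · have h1 : ∑ s ∈ Finset.range n, ξ s * (c i * L l s - c l * L i s) = 0 := hξ (some ⟨l, h⟩)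
      rw [← sub_eq_zero, ← h1, Finset.mul_sum, Finset.mul_sum, ← Finset.sum_sub_distrib]
      exact Finset.sum_congr rfl fun s _ => by ring
  have hfix : ∀ a : GaloisField p n, w (WittVector.teichmuller p a) ^ p ^ n =
      w (WittVector.teichmuller p a) := fun a => by
    let _ := Fintype.ofFinite (GaloisField p n)
    have h1 : Fintype.card (GaloisField p n) = p ^ n := by
      rw [← Nat.card_eq_fintype_card, GaloisField.card p n (by omega)]
    rw [← map_pow, ← map_pow, ← h1, FiniteField.pow_card]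
  have key : ∀ a : GaloisField p n, ∑ u ∈ Finset.range n,
      (j.comp w) (WittVector.teichmuller p a) ^ p ^ u *
        (β u * ξ ((u + (n + s0 - i0)) % n) * (p : B) ^ ((u + (n + s0 - i0)) / n)) = 0 := by
    intro a
    obtain ⟨η, hη⟩ : ∃ η : ℕ → B, η = fun s => ∑ u ∈ Finset.range n,
      β u * j (w (WittVector.teichmuller p a)) ^ p ^ u * if (u + (n + s0 - i0)) % n = s then
        (p : B) ^ ((u + (n + s0 - i0)) / n) else 0 := ⟨_, rfl⟩
    have h1 : c i * ∑ s ∈ Finset.range n, ξ s * η s = 0 := by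
      refine eq_zero_of_le (p := p) (e := e) (K := (∑ s ∈ Finset.range n, ‖c i * ξ s‖ * K) +
        ‖∑ s ∈ Finset.range n, ξ s * L i s‖) fun N hN => ?_
      obtain ⟨b, k, hb, hk, hkg, hf⟩ := H a (n + s0 - i0) (N + e) (by omega)
      obtain ⟨α, β', κ, hκ, hβ', h2, h3⟩ := step j hj hp he hy hβ hf0 (hfix a) (by omega) N hb hk
        hkg hf
      have h4 : (p : B) ^ (N + e) * (c i * ∑ s ∈ Finset.range n, ξ s * η s) =
          κ * (c i * ∑ s ∈ Finset.range n, ξ s * β' s) := by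
        have h5 : κ * ∑ s ∈ Finset.range n, ξ s * β' s = ∑ s ∈ Finset.range n, ξ s * β s +
            (p : B) ^ (N + e) * ∑ s ∈ Finset.range n, ξ s * η s := by
          rw [Finset.mul_sum, Finset.mul_sum, ← Finset.sum_add_distrib]
          refine Finset.sum_congr rfl fun s hs => ?_
          rw [mul_left_comm, h2 s (Finset.mem_range.mp hs), hη]; ring
        rw [mul_left_comm κ, h5, hξ1, zero_add, mul_left_comm]
      have h6 : c i * ∑ s ∈ Finset.range n, ξ s * β' s = ∑ s ∈ Finset.range n,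
          c i * ξ s * (β' s - β s - (p : B) ^ N * ∑ l, j (α l) * L l s) +
          (∑ s ∈ Finset.range n, ξ s * L i s) * ((p : B) ^ N * ∑ l, j (α l) * c l) := by
        have h7 : ∑ s ∈ Finset.range n, c i * ξ s * ((p : B) ^ N * ∑ l, j (α l) * L l s) =
            (∑ s ∈ Finset.range n, ξ s * L i s) * ((p : B) ^ N * ∑ l, j (α l) * c l) := by
          calc _ = ∑ l, (p : B) ^ N * j (α l) * (c i * ∑ s ∈ Finset.range n, ξ s * L l s) := by
                simp only [Finset.mul_sum]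
                rw [Finset.sum_comm]
                exact Finset.sum_congr rfl fun l _ => Finset.sum_congr rfl fun s _ => by ring
            _ = _ := by
                simp only [hξ2]
                rw [Finset.mul_sum Finset.univ, Finset.mul_sum Finset.univ]
                exact Finset.sum_congr rfl fun l _ => by ring
        simp only [mul_sub, Finset.sum_sub_distrib, h7]
        simp only [mul_assoc (c i), ← Finset.mul_sum, hξ1]
        ring
      rw [h4, h6, add_mul, Finset.sum_mul _ fun s => ‖c i * ξ s‖ * K]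
      refine (norm_mul_le _ _).trans ((mul_le_of_le_one_left (norm_nonneg _) hκ).trans
        ((norm_add_le _ _).trans (add_le_add ((norm_sum_le _ _).trans
          (Finset.sum_le_sum fun s hs => (norm_mul_le _ _).trans ?_))
          ((norm_mul_le _ _).trans (mul_le_mul_of_nonneg_left ?_ (norm_nonneg _))))))
      · rw [mul_assoc]
        exact mul_le_mul_of_nonneg_left (hL N α β' hN hβ' s (Finset.mem_range.mp hs))
          (norm_nonneg _)
      · rw [hc]; exact h3
    rw [← (mul_eq_zero.mp h1).resolve_left hci', hη]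
    simp only [Finset.mul_sum]
    rw [Finset.sum_comm]
    refine Finset.sum_congr rfl fun u _ => ?_
    rw [Finset.sum_eq_single ((u + (n + s0 - i0)) % n), if_pos rfl, RingHom.comp_apply]
    · ring
    · intro s _ hs
      rw [if_neg hs.symm, mul_zero, mul_zero]
    · exact fun h => absurd (Finset.mem_range.mpr (Nat.mod_lt _ hy.pos)) h
  have h8 := vandermonde_zero p hy.pos (j.comp w) _ key i0 hi0
  rw [show i0 + (n + s0 - i0) = n + s0 by omega, Nat.add_mod_left, Nat.mod_eq_of_lt hs0] at h8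
  exact mul_ne_zero (mul_ne_zero hβ0 hξ0) (PNorm.unit.pow _).ne_zero h8

end Vale.Agent.P217
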