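import Vale.Agent.P217.Ev2

/-! Hazewinkel logarithms: coefficients and formal identities. -/

namespace Vale.Agent.P217

open MvPowerSeries

variable {R S K K' : Type*} [CommRing R] [CommRing S] [CommRing K] [CommRing K'] {σ τ : Type*}

/-- `ml p v t = p ^ t * l_t(v)`, an integral polynomial in `v`. -/
def ml (p : ℕ) (v : ℕ → R) : ℕ → R
  | 0 => 1
  | t + 1 => ∑ s : Fin (t + 1), (p : R) ^ (t - s) * ml p v s * v (t + 1 - s) ^ p ^ (s : ℕ)

/-- The coefficients `l_t(v)` of the logarithm (when `p` is a unit). -/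
noncomputable def ll (p : ℕ) (v : ℕ → K) (t : ℕ) : K := Ring.inverse (p : K) ^ t * ml p v t

variable {p : ℕ}

theorem LogAux.ml_succ (v : ℕ → R) (t : ℕ) : ml p v (t + 1) =
    ∑ s ∈ Finset.range (t + 1), (p : R) ^ (t - s) * ml p v s * v (t + 1 - s) ^ p ^ s := by
  rw [ml, Finset.sum_range]

theorem map_ml (ψ : R →+* S) (v : ℕ → R) (t : ℕ) :
    ψ (ml p v t) = ml p (fun j => ψ (v j)) t := by
  induction t using Nat.strong_induction_on with
  | _ t ih =>
    cases t with
    | zero => simp [ml]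
    | succ t =>
      rw [LogAux.ml_succ, LogAux.ml_succ, map_sum]
      refine Finset.sum_congr rfl fun s hs => ?_
      rw [map_mul, map_mul, map_pow, map_pow, map_natCast, ih s (Finset.mem_range.mp hs)]

theorem map_inverse_p (ψ : K →+* K') (hp : IsUnit (p : K)) :
    ψ (Ring.inverse (p : K)) = Ring.inverse (p : K') := by
  have hp' : IsUnit (p : K') := by simpa using hp.map ψ
  have h1 : ψ (Ring.inverse (p : K)) * (p : K') = 1 := by
    rw [← map_natCast ψ p, ← map_mul, Ring.inverse_mul_cancel _ hp, map_one]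
  calc ψ (Ring.inverse (p : K)) = ψ (Ring.inverse (p : K)) * ((p : K') * Ring.inverse (p : K')) := by
        rw [Ring.mul_inverse_cancel _ hp', mul_one]
    _ = Ring.inverse (p : K') := by rw [← mul_assoc, h1, one_mul]

theorem map_ll (ψ : K →+* K') (hp : IsUnit (p : K)) (v : ℕ → K) (t : ℕ) :
    ψ (ll p v t) = ll p (fun j => ψ (v j)) t := by
  rw [ll, ll, map_mul, map_pow, map_inverse_p ψ hp, map_ml]

theorem ll_zero (v : ℕ → K) : ll p v 0 = 1 := by simp [ll, ml]

theorem pow_mul_ll (hp : IsUnit (p : K)) (v : ℕ → K) (t : ℕ) :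
    (p : K) ^ t * ll p v t = ml p v t := by
  rw [ll, ← mul_assoc, ← mul_pow, Ring.mul_inverse_cancel _ hp, one_pow, one_mul]

theorem ll_succ (hp : IsUnit (p : K)) (v : ℕ → K) (t : ℕ) :
    (p : K) * ll p v (t + 1) = ∑ s ∈ Finset.range (t + 1), ll p v s * v (t + 1 - s) ^ p ^ s := by
  rw [ll, LogAux.ml_succ, Finset.mul_sum, Finset.mul_sum]
  refine Finset.sum_congr rfl fun s hs => ?_
  obtain ⟨r, rfl⟩ := Nat.exists_eq_add_of_le (Nat.lt_succ_iff.mp (Finset.mem_range.mp hs))
  have h1 : (p : K) * Ring.inverse (p : K) = 1 := Ring.mul_inverse_cancel _ hp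
  have h2 : (p : K) * Ring.inverse (p : K) ^ (s + r + 1) * (p : K) ^ r =
      Ring.inverse (p : K) ^ s := by
    calc (p : K) * Ring.inverse (p : K) ^ (s + r + 1) * (p : K) ^ r
        = Ring.inverse (p : K) ^ s * ((p : K) * Ring.inverse (p : K)) ^ (r + 1) := by ring
      _ = _ := by rw [h1, one_pow, mul_one]
  rw [ll, ← h2, Nat.add_sub_cancel_left]
  ring

/-- The recursion read on the other side of the twisted convolution. -/
theorem ll_succ' (hp : IsUnit (p : K)) (v : ℕ → K) (φ : K →+* K) (hφ : ∀ j, φ (v j) = v j ^ p)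
    (t : ℕ) : (p : K) * ll p v (t + 1) =
      ∑ j ∈ Finset.range (t + 1), v (j + 1) * φ^[j + 1] (ll p v (t - j)) := by
  have hit : ∀ s j, φ^[s] (v j) = v j ^ p ^ s := fun s j => by
    induction s with
    | zero => simp
    | succ s ih => rw [Function.iterate_succ_apply', ih, map_pow, hφ, ← pow_mul, ← pow_succ']
  induction t using Nat.strong_induction_on with
  | _ t ih =>
    refine hp.mul_left_cancel ?_
    rw [ll_succ hp, Finset.sum_range_succ', Finset.sum_range_succ, mul_add, mul_add,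
      Finset.mul_sum, Finset.mul_sum]
    congr 1
    · have e1 : ∀ s ∈ Finset.range t,
          (p : K) * (ll p v (s + 1) * v (t + 1 - (s + 1)) ^ p ^ (s + 1)) =
          ∑ j ∈ Finset.range (s + 1), v (j + 1) * φ^[j + 1] (ll p v (s - j)) *
            v (t - j - (s - j)) ^ p ^ (j + 1 + (s - j)) := by
        intro s hs
        rw [← mul_assoc, ih s (Finset.mem_range.mp hs), Finset.sum_mul]
        refine Finset.sum_congr rfl fun j hj => ?_
        have hj' := Finset.mem_range.mp hj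
        have hs' := Finset.mem_range.mp hs
        rw [show t - j - (s - j) = t + 1 - (s + 1) by omega, show j + 1 + (s - j) = s + 1 by omega]
      rw [Finset.sum_congr rfl e1, Finset.sum_range_diag_flip t (fun j r =>
        v (j + 1) * φ^[j + 1] (ll p v r) * v (t - j - r) ^ p ^ (j + 1 + r))]
      refine Finset.sum_congr rfl fun j hj => ?_
      have hj' := Finset.mem_range.mp hj
      obtain ⟨m, hm⟩ : ∃ m, t - j = m + 1 := ⟨t - j - 1, by omega⟩
      have e2 : (p : K) * φ^[j + 1] (ll p v (m + 1)) = (φ ^ (j + 1)) ((p : K) * ll p v (m + 1)) := by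
        rw [map_mul, map_natCast, RingHom.coe_pow]
      rw [hm, mul_left_comm, e2, ll_succ hp, map_sum, Finset.mul_sum]
      refine Finset.sum_congr rfl fun r _ => ?_
      rw [map_mul, map_pow, RingHom.coe_pow, hit, ← pow_mul, ← pow_add, mul_assoc]
    · have e3 : φ^[t + 1] (1 : K) = 1 := by rw [← RingHom.coe_pow, map_one]
      simp [ll_zero, e3]

/-- The parameters of the Honda formal group law of height `h`. -/
def eH (R : Type*) [CommRing R] (h : ℕ) : ℕ → R := fun j => if j = h then 1 else 0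

theorem map_eH (ψ : R →+* S) (h : ℕ) : (fun j => ψ (eH R h j)) = eH S h := by
  funext j; simp only [eH]; split_ifs <;> simp

theorem ll_eH [Fact p.Prime] (hp : IsUnit (p : K)) {h : ℕ} (hh : 1 ≤ h) (t : ℕ) :
    ll p (eH K h) t = if h ∣ t then Ring.inverse (p : K) ^ (t / h) else 0 := by
  have hp0 : p ≠ 0 := (Fact.out : p.Prime).ne_zero
  induction t using Nat.strong_induction_on with
  | _ t ih =>
    cases t with
    | zero => simp [ll_zero]
    | succ t =>
      refine hp.mul_left_cancel ?_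
      rw [ll_succ hp]
      have e1 : ∀ s ∈ Finset.range (t + 1), ll p (eH K h) s * eH K h (t + 1 - s) ^ p ^ s =
          if s + h = t + 1 then ll p (eH K h) s else 0 := by
        intro s hs
        have hs' := Finset.mem_range.mp hs
        simp only [eH]
        by_cases h1 : t + 1 - s = h
        · rw [if_pos h1, if_pos (by omega), one_pow, mul_one]
        · rw [if_neg h1, if_neg (by omega), zero_pow (pow_ne_zero _ hp0), mul_zero]
      rw [Finset.sum_congr rfl e1]
      by_cases h2 : h ≤ t + 1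
      · obtain ⟨s, hs⟩ := Nat.exists_eq_add_of_le' h2
        rw [Finset.sum_eq_single s (fun b _ hb => if_neg (by omega))
          (fun hb => absurd (Finset.mem_range.mpr (by omega)) hb), if_pos hs.symm,
          ih s (by omega), hs]
        by_cases h3 : h ∣ s
        · rw [if_pos h3, if_pos (dvd_add h3 dvd_rfl), Nat.add_div_right _ (by omega), pow_succ',
            ← mul_assoc, Ring.mul_inverse_cancel _ hp, one_mul]
        · rw [if_neg h3, if_neg (fun h4 => h3 ((Nat.dvd_add_self_right).mp h4)), mul_zero]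
      · rw [Finset.sum_eq_zero fun b _ => if_neg (by omega),
          if_neg fun h4 => h2 (Nat.le_of_dvd (by omega) h4), mul_zero]

/-- The series `∑ c_t X ^ (p ^ t)`. -/
noncomputable def lser (p : ℕ) (c : ℕ → K) : PowerSeries K :=
  PowerSeries.mk fun d => if d = p ^ Nat.log p d then c (Nat.log p d) else 0

/-- The series `∑ c_t ψ ^ (p ^ t)`. -/
noncomputable def Lg (p : ℕ) (c : ℕ → K) (ψ : MvPowerSeries σ K) : MvPowerSeries σ K :=
  ev1 C ψ (lser p c)

variable [hp' : Fact p.Prime] [Finite σ] [Finite τ]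

theorem coeff_lser (c : ℕ → K) (t : ℕ) : PowerSeries.coeff (p ^ t) (lser p c) = c t := by
  rw [lser, PowerSeries.coeff_mk, Nat.log_pow hp'.out.one_lt, if_pos rfl]

theorem Lg_X (c : ℕ → K) : Lg p c (PowerSeries.X : PowerSeries K) = lser p c := ev1_C_X _

theorem Lg_sub_sum_mem (c : ℕ → K) {ψ : MvPowerSeries σ K} (hψ : constantCoeff ψ = 0) (T : ℕ) :
    Lg p c ψ - ∑ t ∈ Finset.range T, C (c t) * ψ ^ p ^ t ∈ PI σ (⊥ : Ideal K) ^ p ^ T := by
  have h1 := ev1_sub_sum_mem (C : K →+* MvPowerSeries σ K) (a := ψ)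
    (Ok.of_const fun _ => hψ) (lser p c) (p ^ T)
  have h2 : Ideal.span {ψ ^ p ^ T} ≤ PI σ (⊥ : Ideal K) ^ p ^ T := by
    rw [Ideal.span_singleton_le_iff_mem]
    exact Ideal.pow_mem_pow (mem_PI_bot.mpr hψ) _
  have h3 : ∑ d ∈ Finset.range (p ^ T), (C (PowerSeries.coeff d (lser p c)) : MvPowerSeries σ K) *
      ψ ^ d = ∑ t ∈ Finset.range T, C (c t) * ψ ^ p ^ t := by
    have hinj : Set.InjOn (fun t => p ^ t) (Finset.range T : Set ℕ) := fun a _ b _ hab =>
      Nat.pow_right_injective hp'.out.two_le hab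
    rw [← Finset.sum_subset (s₁ := (Finset.range T).image fun t => p ^ t), Finset.sum_image hinj]
    · exact Finset.sum_congr rfl fun t _ => by rw [coeff_lser]
    · intro d hd
      obtain ⟨t, ht, rfl⟩ := Finset.mem_image.mp hd
      exact Finset.mem_range.mpr (Nat.pow_lt_pow_right hp'.out.one_lt (Finset.mem_range.mp ht))
    · intro d hd hd'
      rw [lser, PowerSeries.coeff_mk, if_neg, map_zero, zero_mul]
      intro h4
      refine hd' (Finset.mem_image.mpr ⟨Nat.log p d, Finset.mem_range.mpr ?_, h4.symm⟩)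
      have h5 := Finset.mem_range.mp hd
      rw [h4] at h5
      exact (Nat.pow_lt_pow_iff_right hp'.out.one_lt).mp h5
  rw [← h3]
  exact h2 h1

theorem constantCoeff_Lg (c : ℕ → K) {ψ : MvPowerSeries σ K} (hψ : constantCoeff ψ = 0) :
    constantCoeff (Lg p c ψ) = 0 := by
  have h1 := Lg_sub_sum_mem (p := p) c hψ 0
  rw [Finset.range_zero, Finset.sum_empty, sub_zero, pow_zero, pow_one] at h1
  exact mem_PI_bot.mp h1

theorem LogAux.eq_Lg (c : ℕ → K) {ψ f : MvPowerSeries σ K} (hψ : constantCoeff ψ = 0)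
    (h : ∀ k, ∃ T, k ≤ T ∧
      f - ∑ t ∈ Finset.range T, C (c t) * ψ ^ p ^ t ∈ PI σ (⊥ : Ideal K) ^ k) :
    f = Lg p c ψ := by
  refine eq_of_sub_mem_pow (PI σ (⊥ : Ideal K)) fun k => ?_
  obtain ⟨T, hT, h1⟩ := h k
  have h2 := Ideal.pow_le_pow_right (hT.trans (Nat.lt_pow_self hp'.out.one_lt).le)
    (Lg_sub_sum_mem (p := p) c hψ T)
  simpa using sub_mem h1 h2

theorem Lg_zero (c : ℕ → K) : Lg p c (0 : MvPowerSeries σ K) = 0 := by
  refine (LogAux.eq_Lg c (map_zero _) fun k => ⟨k, le_rfl, ?_⟩).symm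
  rw [Finset.sum_eq_zero fun t _ => by rw [zero_pow (pow_ne_zero _ hp'.out.ne_zero), mul_zero]]
  simp

theorem Lg_add (c c' : ℕ → K) (ψ : MvPowerSeries σ K) :
    Lg p (fun t => c t + c' t) ψ = Lg p c ψ + Lg p c' ψ := by
  rw [Lg, Lg, Lg, ← map_add]
  congr 1
  ext d
  simp only [lser, map_add, PowerSeries.coeff_mk]
  split_ifs <;> simp

theorem Lg_mul (a : K) (c : ℕ → K) {ψ : MvPowerSeries σ K} (hψ : constantCoeff ψ = 0) :
    Lg p (fun t => a * c t) ψ = C a * Lg p c ψ := by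
  rw [Lg, Lg, ← ev_C (C : K →+* MvPowerSeries σ K) (a := fun _ : Unit => ψ)
    (Ok.of_const fun _ => hψ) a, ← map_mul]
  congr 1
  ext d
  rw [show (C a : MvPowerSeries Unit K) = PowerSeries.C a from rfl, PowerSeries.coeff_C_mul]
  simp only [lser, PowerSeries.coeff_mk]
  split_ifs <;> simp

theorem hom_Lg (Φ : MvPowerSeries σ K →+* MvPowerSeries τ K') (φ : K →+* K')
    (hC : ∀ r, Φ (C r) = C (φ r)) (c : ℕ → K) {ψ : MvPowerSeries σ K}
    (hψ : constantCoeff ψ = 0) (hΦ : constantCoeff (Φ ψ) = 0) :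
    Φ (Lg p c ψ) = Lg p (fun t => φ (c t)) (Φ ψ) := by
  have h1 : Ok fun _ : Unit => Φ ψ := Ok.of_const fun _ => hΦ
  have h2 : Φ.comp C = (C : K' →+* MvPowerSeries τ K').comp φ := RingHom.ext hC
  have h3 : MvPowerSeries.map φ (lser p c) = lser p fun t => φ (c t) := by
    ext d
    rw [show MvPowerSeries.map φ (lser p c) = PowerSeries.map φ (lser p c) from rfl,
      PowerSeries.coeff_map]
    simp only [lser, PowerSeries.coeff_mk]
    split_ifs <;> simp
  rw [Lg, Lg, map_ev Φ C (Ok.of_const fun _ => hψ) h1, h2, ← ev_map φ C h1, h3]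

omit hp' [Finite σ] [Finite τ] in
theorem LogAux.pow_sub_pow_mem {J : Ideal S} {a b : S} (ha : a ∈ J) (hb : b ∈ J) {k : ℕ}
    (hab : a - b ∈ J ^ k) {m : ℕ} (hm : 2 ≤ m) : a ^ m - b ^ m ∈ J ^ (k + 1) := by
  rw [← geom_sum₂_mul, pow_succ']
  refine Ideal.mul_mem_mul (sum_mem fun i _ => ?_) hab
  rcases Nat.eq_zero_or_pos i with rfl | hi
  · exact J.mul_mem_left _ (J.pow_mem_of_mem hb _ (by omega))
  · exact J.mul_mem_right _ (J.pow_mem_of_mem ha _ hi)

theorem LogAux.Lg_sub_sub_mem {c : ℕ → K} {a b : MvPowerSeries σ K}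
    (ha : constantCoeff a = 0) (hb : constantCoeff b = 0) {k : ℕ}
    (hab : a - b ∈ PI σ (⊥ : Ideal K) ^ k) :
    Lg p c a - Lg p c b - C (c 0) * (a - b) ∈ PI σ (⊥ : Ideal K) ^ (k + 1) := by
  have hT : k + 1 ≤ p ^ (k + 1) := (Nat.lt_pow_self hp'.out.one_lt).le
  have h1 := Ideal.pow_le_pow_right hT (Lg_sub_sum_mem (p := p) c ha (k + 1))
  have h2 := Ideal.pow_le_pow_right hT (Lg_sub_sum_mem (p := p) c hb (k + 1))
  have h3 : ∑ t ∈ Finset.range k, (C (c (t + 1)) * a ^ p ^ (t + 1) -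
      C (c (t + 1)) * b ^ p ^ (t + 1)) ∈ PI σ (⊥ : Ideal K) ^ (k + 1) := by
    refine sum_mem fun t _ => ?_
    rw [← mul_sub]
    refine Ideal.mul_mem_left _ _ (LogAux.pow_sub_pow_mem (mem_PI_bot.mpr ha) (mem_PI_bot.mpr hb)
      hab ?_)
    exact hp'.out.two_le.trans (Nat.le_self_pow (by omega) p)
  rw [Finset.sum_range_succ'] at h1 h2
  rw [Finset.sum_sub_distrib] at h3
  have h4 := add_mem (sub_mem h1 h2) h3
  simp only [pow_zero, pow_one] at h4
  convert h4 using 1
  ring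

theorem LogAux.sub_mem_succ {c : ℕ → K} (hc : c 0 = 1) {a b : MvPowerSeries σ K}
    (ha : constantCoeff a = 0) (hb : constantCoeff b = 0) {k : ℕ}
    (hab : a - b ∈ PI σ (⊥ : Ideal K) ^ k)
    (h : Lg p c a - Lg p c b ∈ PI σ (⊥ : Ideal K) ^ (k + 1)) :
    a - b ∈ PI σ (⊥ : Ideal K) ^ (k + 1) := by
  have h1 := LogAux.Lg_sub_sub_mem (p := p) (c := c) ha hb hab
  rw [hc, map_one, one_mul] at h1
  simpa using sub_mem h h1

theorem Lg_inj {c : ℕ → K} (hc : c 0 = 1) {a b : MvPowerSeries σ K} (ha : constantCoeff a = 0)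
    (hb : constantCoeff b = 0) (h : Lg p c a = Lg p c b) : a = b := by
  refine eq_of_sub_mem_pow (PI σ (⊥ : Ideal K)) fun k => ?_
  have hk : ∀ k, a - b ∈ PI σ (⊥ : Ideal K) ^ (k + 1) := fun k => by
    induction k with
    | zero => rw [zero_add, pow_one, mem_PI_bot, map_sub, ha, hb, sub_zero]
    | succ k ih => exact LogAux.sub_mem_succ hc ha hb ih (by rw [h, sub_self]; exact zero_mem _)
  exact Ideal.pow_le_pow_right (Nat.le_succ k) (hk k)

theorem LogAux.Lg_shift (c : ℕ → K) {ψ : MvPowerSeries σ K} (hψ : constantCoeff ψ = 0) (a : K)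
    (j : ℕ) : Lg p c (C a * ψ ^ p ^ j) =
      Lg p (fun t => if j ≤ t then c (t - j) * a ^ p ^ (t - j) else 0) ψ := by
  have h0 : constantCoeff (C a * ψ ^ p ^ j) = 0 := by
    rw [map_mul, map_pow, hψ, zero_pow (pow_ne_zero _ hp'.out.ne_zero), mul_zero]
  refine LogAux.eq_Lg _ hψ fun k => ⟨j + k, by omega, ?_⟩
  have h1 := Ideal.pow_le_pow_right (Nat.lt_pow_self hp'.out.one_lt).le
    (Lg_sub_sum_mem (p := p) c h0 k)
  rw [Finset.sum_range_add, Finset.sum_eq_zero (s := Finset.range j) fun t ht => by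
    rw [if_neg (not_le.mpr (Finset.mem_range.mp ht)), map_zero, zero_mul], zero_add]
  convert h1 using 3 with s
  rw [if_pos (Nat.le_add_right j s), Nat.add_sub_cancel_left, mul_pow, ← pow_mul, ← pow_add,
    map_mul, map_pow, mul_assoc]

theorem LogAux.Lg_single {ψ : MvPowerSeries σ K} (hψ : constantCoeff ψ = 0) (a : K) :
    Lg p (fun t => if t = 0 then a else 0) ψ = C a * ψ := by
  refine (LogAux.eq_Lg _ hψ fun k => ⟨k + 1, by omega, ?_⟩).symm
  rw [Finset.sum_range_succ']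
  simp

theorem LogAux.Lg_sum {α : Type*} (s : Finset α) (c : α → ℕ → K) (ψ : MvPowerSeries σ K) :
    Lg p (fun t => ∑ i ∈ s, c i t) ψ = ∑ i ∈ s, Lg p (c i) ψ := by
  classical
  induction s using Finset.induction_on with
  | empty =>
    have h1 := Lg_add (p := p) (fun _ => (0 : K)) (fun _ => 0) ψ
    simp only [add_zero, left_eq_add] at h1
    simpa using h1
  | insert i s hi ih =>
    simp only [Finset.sum_insert hi]
    rw [Lg_add, ih]

theorem LogAux.FE_aux {n : ℕ} {l : ℕ → K} (F : ℕ → ℕ → K) (hl : l 0 = 1)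
    (hF : ∀ j t, n < j → F j t = 0)
    (hrec : ∀ t, (p : K) * l (t + 1) = ∑ j ∈ Finset.range (t + 1), F (j + 1) (t + 1))
    {ψ : MvPowerSeries σ K} (hψ : constantCoeff ψ = 0) :
    (p : MvPowerSeries σ K) * Lg p l ψ = (p : MvPowerSeries σ K) * ψ +
      ∑ j ∈ Finset.Icc 1 n, Lg p (fun t => if j ≤ t then F j t else 0) ψ := by
  rw [← map_natCast (C : K →+* MvPowerSeries σ K) p, ← Lg_mul _ _ hψ,
    ← LogAux.Lg_single (p := p) hψ, ← LogAux.Lg_sum, ← Lg_add]
  congr 1
  funext t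
  cases t with
  | zero =>
    rw [if_pos rfl, hl, mul_one, Finset.sum_eq_zero, add_zero]
    intro j hj
    exact if_neg (by have := (Finset.mem_Icc.mp hj).1; omega)
  | succ t =>
    rw [if_neg (Nat.succ_ne_zero t), zero_add, hrec, ← Finset.sum_filter,
      Finset.range_eq_Ico, Finset.sum_Ico_add' (fun j => F j (t + 1)) 0 (t + 1) 1]
    symm
    refine Finset.sum_subset (fun j hj => ?_) fun j hj hj' => hF j _ ?_
    · simp only [Finset.mem_filter, Finset.mem_Icc, Finset.mem_Ico] at hj ⊢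
      omega
    · simp only [Finset.mem_filter, Finset.mem_Icc, Finset.mem_Ico] at hj hj'
      omega

theorem Lg_FE1 (hp : IsUnit (p : K)) {n : ℕ} {v : ℕ → K} (hv : ∀ j, n < j → v j = 0)
    {ψ : MvPowerSeries σ K} (hψ : constantCoeff ψ = 0) :
    (p : MvPowerSeries σ K) * Lg p (ll p v) ψ =
      (p : MvPowerSeries σ K) * ψ + ∑ j ∈ Finset.Icc 1 n, Lg p (ll p v) (C (v j) * ψ ^ p ^ j) := by
  have h1 : ∀ j, Lg p (ll p v) (C (v j) * ψ ^ p ^ j) =
      Lg p (fun t => if j ≤ t then ll p v (t - j) * v j ^ p ^ (t - j) else 0) ψ := fun j =>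
    LogAux.Lg_shift _ hψ _ j
  rw [Finset.sum_congr rfl fun j _ => h1 j]
  refine LogAux.FE_aux (fun j t => ll p v (t - j) * v j ^ p ^ (t - j)) (ll_zero v)
    (fun j t hj => by rw [hv j hj, zero_pow (pow_ne_zero _ hp'.out.ne_zero), mul_zero])
    (fun t => ?_) hψ
  rw [ll_succ hp, ← Finset.sum_range_reflect]
  refine Finset.sum_congr rfl fun j hj => ?_
  have hj' := Finset.mem_range.mp hj
  rw [show t + 1 - 1 - j = t + 1 - (j + 1) by omega,
    show t + 1 - (t + 1 - (j + 1)) = j + 1 by omega]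

theorem Lg_FE2 (hp : IsUnit (p : K)) {n : ℕ} {v : ℕ → K} (hv : ∀ j, n < j → v j = 0)
    (φ : K →+* K) (hφ : ∀ j, φ (v j) = v j ^ p)
    {ψ : MvPowerSeries σ K} (hψ : constantCoeff ψ = 0) :
    (p : MvPowerSeries σ K) * Lg p (ll p v) ψ =
      (p : MvPowerSeries σ K) * ψ + ∑ j ∈ Finset.Icc 1 n, C (v j) * Lg p (fun t => φ^[j] (ll p v t)) (ψ ^ p ^ j) := by
  have h1 : ∀ j, C (v j) * Lg p (fun t => φ^[j] (ll p v t)) (ψ ^ p ^ j) =
      Lg p (fun t => if j ≤ t then v j * φ^[j] (ll p v (t - j)) else 0) ψ := fun j => by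
    have h2 := LogAux.Lg_shift (p := p) (fun t => φ^[j] (ll p v t)) hψ 1 j
    rw [map_one, one_mul] at h2
    rw [h2, ← Lg_mul _ _ hψ]
    congr 1
    funext t
    split_ifs <;> simp
  rw [Finset.sum_congr rfl fun j _ => h1 j]
  refine LogAux.FE_aux (fun j t => v j * φ^[j] (ll p v (t - j))) (ll_zero v)
    (fun j t hj => by rw [hv j hj, zero_mul]) (fun t => ?_) hψ
  rw [ll_succ' hp v φ hφ]
  refine Finset.sum_congr rfl fun j _ => ?_
  rw [Nat.add_sub_add_right]

end Vale.Agent.P217
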