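import Vale.Agent.P217.Norm
import Vale.Agent.P217.Log

/-! Gross-Hopkins limits of solutions of the Hazewinkel recursion. -/

namespace Vale.Agent.P217

open Filter Topology

/-- The recursion satisfied by the logarithm coefficients when `v n = 1`. -/
def Rec {K : Type*} [CommRing K] (p n : ℕ) (v c : ℕ → K) : Prop :=
  ∀ t, (p : K) * c (t + n) = c t + ∑ j ∈ Finset.Ico 1 n, c (t + j) * v (n - j) ^ p ^ (t + j)

section

variable {K : Type*} [CommRing K] {p n : ℕ} {v : ℕ → K}

theorem GHAux.rec_of (hp : IsUnit (p : K)) (hn : 1 ≤ n) (hv : ∀ j, n < j → v j = 0)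
    (h1 : v n = 1) {c : ℕ → K} (h : ∀ t, (p : K) * c (t + n) =
      ∑ m ∈ Finset.range (t + n), c m * v (t + n - m) ^ p ^ m) : Rec p n v c := by
  intro t
  rcases Nat.eq_zero_or_pos p with rfl | hp0
  · have : Subsingleton K := subsingleton_of_zero_eq_one (isUnit_zero_iff.mp (by simpa using hp))
    exact Subsingleton.elim _ _
  rw [h, Finset.sum_range_add, Finset.sum_eq_zero (s := Finset.range t), zero_add,
    Finset.range_eq_Ico, Finset.sum_eq_sum_Ico_succ_bot hn]
  · congr 1
    · simp [h1]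
    · refine Finset.sum_congr rfl fun j _ => ?_
      rw [Nat.add_sub_add_left]
  · intro m hm
    rw [hv _ (by have := Finset.mem_range.mp hm; omega), zero_pow (pow_ne_zero _ hp0.ne'), mul_zero]

theorem rec_ll (hp : IsUnit (p : K)) (hn : 1 ≤ n) (hv : ∀ j, n < j → v j = 0) (h1 : v n = 1) :
    Rec p n v (ll p v) := by
  refine GHAux.rec_of hp hn hv h1 fun t => ?_
  obtain ⟨m, hm⟩ : ∃ m, t + n = m + 1 := ⟨t + n - 1, by omega⟩
  rw [hm, ll_succ hp]

theorem rec_shift (hp : IsUnit (p : K)) (hv : ∀ j, n < j → v j = 0) (h1 : v n = 1)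
    (φ : K →+* K) (hφ : ∀ j, φ (v j) = v j ^ p) {s : ℕ} (hs : s < n) :
    Rec p n v fun t => if s ≤ t then φ^[s] (ll p v (t - s)) else 0 := by
  have hit : ∀ j, φ^[s] (v j) = v j ^ p ^ s := fun j => by
    clear hs
    induction s with
    | zero => simp
    | succ s ih => rw [Function.iterate_succ_apply', ih, map_pow, hφ, ← pow_mul, ← pow_succ']
  refine GHAux.rec_of hp (by omega) hv h1 fun t => ?_
  obtain ⟨m, hm⟩ : ∃ m, t + n = s + (m + 1) := ⟨t + n - s - 1, by omega⟩
  have e2 : (p : K) * φ^[s] (ll p v (m + 1)) = (φ ^ s) ((p : K) * ll p v (m + 1)) := by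
    rw [map_mul, map_natCast, RingHom.coe_pow]
  rw [hm, if_pos (Nat.le_add_right _ _), Nat.add_sub_cancel_left, e2, ll_succ hp, map_sum,
    Finset.sum_range_add _ s, Finset.sum_eq_zero (s := Finset.range s), zero_add]
  · refine Finset.sum_congr rfl fun r _ => ?_
    rw [if_pos (Nat.le_add_right _ _), Nat.add_sub_cancel_left, Nat.add_sub_add_left, map_mul,
      map_pow, RingHom.coe_pow, hit, ← pow_mul, ← pow_add]
  · intro r hr
    rw [if_neg (not_le.mpr (Finset.mem_range.mp hr)), zero_mul]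

theorem Rec.sum {α : Type*} (s : Finset α) (ω : α → K) {c : α → ℕ → K}
    (hc : ∀ i ∈ s, Rec p n v (c i)) : Rec p n v fun t => ∑ i ∈ s, ω i * c i t := by
  intro t
  simp only [Finset.mul_sum, Finset.sum_mul]
  rw [Finset.sum_comm, ← Finset.sum_add_distrib]
  refine Finset.sum_congr rfl fun i hi => ?_
  rw [mul_left_comm, hc i hi t, mul_add, Finset.mul_sum]
  simp only [mul_assoc]

end

variable {p n : ℕ} [Fact p.Prime] {B : Type} [NormedCommRing B] [IsUltrametricDist B] [PNorm p B]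
  {v c : ℕ → B} (hn : 1 ≤ n) (hc : Rec p n v c)
  (hv : ∀ j, 1 ≤ j → j < n → Tendsto (fun e : ℕ => v j ^ e) atTop (𝓝 0))

include hn hc hv

theorem GHAux.key (ε : ℝ) (hε : 0 < ε) : ∃ t0, ∀ t, t0 ≤ t → ∀ M : ℝ, 0 ≤ M →
    (∀ j, j < n → ‖(p : B) ^ ((t + j) / n) * c (t + j)‖ ≤ M) →
    ‖(p : B) ^ ((t + n) / n) * c (t + n) - (p : B) ^ (t / n) * c t‖ ≤ ε * M := by
  have h1 : ∀ j ∈ Finset.Ico 1 n, ∀ᶠ e : ℕ in atTop, ‖v (n - j) ^ e‖ ≤ ε / 2 := fun j hj => by
    have hj' := Finset.mem_Ico.mp hj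
    have h2 := (hv (n - j) (by omega) (by omega)).norm
    rw [norm_zero] at h2
    exact h2.eventually (ge_mem_nhds (by positivity))
  obtain ⟨t0, h0⟩ := eventually_atTop.mp ((Finset.eventually_all _).mpr h1)
  refine ⟨t0, fun t ht M hM h => ?_⟩
  rw [Nat.add_div_right _ (by omega), pow_succ, mul_assoc, hc t, mul_add, add_sub_cancel_left,
    Finset.mul_sum]
  refine IsUltrametricDist.norm_sum_le_of_forall_le_of_nonneg (by positivity) fun j hj => ?_
  have hj' := Finset.mem_Ico.mp hj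
  have h2 := h0 (p ^ (t + j))
    (le_trans (by omega) (Nat.lt_pow_self (Fact.out : p.Prime).one_lt).le) j hj
  have h3 : (t + j) / n ≤ t / n + 1 := by
    rw [← Nat.add_div_right _ (by omega)]
    exact Nat.div_le_div_right (by omega)
  have h4 : ‖(p : B) ^ (t / n) * c (t + j)‖ ≤ 2 * M := by
    have h5 := h j hj'.2
    rw [norm_p_pow_mul] at h5 ⊢
    have h6 : (1 / 2 : ℝ) ^ (t / n + 1) ≤ (1 / 2) ^ ((t + j) / n) :=
      pow_le_pow_of_le_one (by norm_num) (by norm_num) h3
    rw [pow_succ] at h6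
    nlinarith [norm_nonneg (c (t + j))]
  rw [← mul_assoc]
  calc _ ≤ ‖(p : B) ^ (t / n) * c (t + j)‖ * ‖v (n - j) ^ p ^ (t + j)‖ := norm_mul_le _ _
    _ ≤ 2 * M * (ε / 2) := mul_le_mul h4 h2 (norm_nonneg _) (by positivity)
    _ = ε * M := by ring

theorem gh_bdd : ∃ C : ℝ, ∀ t, ‖(p : B) ^ (t / n) * c t‖ ≤ C := by
  obtain ⟨t0, h0⟩ := GHAux.key hn hc hv 1 one_pos
  refine ⟨∑ t ∈ Finset.range (t0 + n), ‖(p : B) ^ (t / n) * c t‖, fun t => ?_⟩
  induction t using Nat.strong_induction_on with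
  | _ t ih =>
    by_cases ht : t < t0 + n
    · exact Finset.single_le_sum (f := fun t => ‖(p : B) ^ (t / n) * c t‖)
        (fun _ _ => norm_nonneg _) (Finset.mem_range.mpr ht)
    · obtain ⟨u, rfl⟩ : ∃ u, t = u + n := ⟨t - n, by omega⟩
      have h1 := h0 u (by omega) _ (Finset.sum_nonneg fun _ _ => norm_nonneg _)
        fun j hj => ih (u + j) (by omega)
      have h2 := IsUltrametricDist.norm_add_le_max
        ((p : B) ^ ((u + n) / n) * c (u + n) - (p : B) ^ (u / n) * c u) ((p : B) ^ (u / n) * c u)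
      rw [sub_add_cancel] at h2
      exact h2.trans (max_le (by simpa using h1) (ih u (by omega)))

theorem gh_incr {s : ℕ} (hs : s < n) : Tendsto (fun k : ℕ => (p : B) ^ (k + 1) * c (n * (k + 1) + s) -
    (p : B) ^ k * c (n * k + s)) atTop (𝓝 0) := by
  obtain ⟨C, hC⟩ := gh_bdd hn hc hv
  have hC0 : 0 ≤ C := (norm_nonneg _).trans (hC 0)
  rw [NormedAddGroup.tendsto_nhds_zero]
  intro ε hε
  obtain ⟨t0, h0⟩ := GHAux.key hn hc hv (ε / (C + 1)) (by positivity)
  refine eventually_atTop.mpr ⟨t0, fun k hk => ?_⟩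
  have h1 := h0 (n * k + s) (by nlinarith) C hC0 fun j _ => hC _
  have h2 : (n * k + s) / n = k := by
    rw [Nat.mul_add_div (by omega), Nat.div_eq_of_lt hs, add_zero]
  rw [Nat.add_div_right _ (by omega), h2, show n * k + s + n = n * (k + 1) + s by ring] at h1
  refine h1.trans_lt ?_
  rw [div_mul_eq_mul_div, div_lt_iff₀ (by positivity)]
  nlinarith

theorem gh_lim [CompleteSpace B] {s : ℕ} (hs : s < n) :
    ∃ d, Tendsto (fun k : ℕ => (p : B) ^ k * c (n * k + s)) atTop (𝓝 d) := by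
  exact cauchySeq_tendsto_of_complete
    (NonarchimedeanAddGroup.cauchySeq_of_tendsto_sub_nhds_zero (gh_incr hn hc hv hs))

theorem gh_inj (h : ∀ s, s < n → Tendsto (fun k : ℕ => (p : B) ^ k * c (n * k + s)) atTop (𝓝 0))
    (t : ℕ) : c t = 0 := by
  obtain ⟨C, hC⟩ := gh_bdd hn hc hv
  have hC0 : 0 ≤ C := (norm_nonneg _).trans (hC 0)
  obtain ⟨t0, h0⟩ := GHAux.key hn hc hv (1 / 2) (by norm_num)
  have h1 : ∀ m : ℕ, ∀ t, t0 ≤ t → ‖(p : B) ^ (t / n) * c t‖ ≤ (1 / 2) ^ m * C := by
    intro m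
    induction m with
    | zero => intro t _; simpa using hC t
    | succ m ih =>
      intro t ht
      have h2 : ∀ k : ℕ, ‖(p : B) ^ ((t + n * k) / n) * c (t + n * k) - (p : B) ^ (t / n) * c t‖ ≤
          (1 / 2) ^ (m + 1) * C := by
        intro k
        induction k with
        | zero => simp only [mul_zero, add_zero, sub_self, norm_zero]; positivity
        | succ k ihk =>
          have h3 := h0 (t + n * k) (by omega) ((1 / 2) ^ m * C) (by positivity)
            fun j _ => ih _ (by omega)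
          have h4 := IsUltrametricDist.norm_add_le_max
            ((p : B) ^ ((t + n * k + n) / n) * c (t + n * k + n) -
              (p : B) ^ ((t + n * k) / n) * c (t + n * k))
            ((p : B) ^ ((t + n * k) / n) * c (t + n * k) - (p : B) ^ (t / n) * c t)
          rw [sub_add_sub_cancel] at h4
          rw [show t + n * (k + 1) = t + n * k + n by ring]
          exact h4.trans (max_le (h3.trans_eq (by ring)) ihk)
      have h5 : Tendsto (fun k : ℕ => (p : B) ^ ((t + n * k) / n) * c (t + n * k)) atTop (𝓝 0) := by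
        refine ((h (t % n) (Nat.mod_lt _ (by omega))).comp (tendsto_add_atTop_nat (t / n))).congr
          fun k => ?_
        rw [Function.comp_apply, Nat.add_mul_div_left _ _ (by omega), add_comm k (t / n)]
        congr 2
        have := Nat.div_add_mod t n
        rw [mul_add]
        omega
      have h6 := (h5.sub_const ((p : B) ^ (t / n) * c t)).norm
      rw [zero_sub, norm_neg] at h6
      exact le_of_tendsto' h6 h2
  have h2 : ∀ t, t0 ≤ t → c t = 0 := fun t ht => by
    refine eq_zero_of_p_pow_mul (p := p) (k := t / n) (norm_le_zero_iff.mp ?_)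
    have h3 : Tendsto (fun m : ℕ => (1 / 2 : ℝ) ^ m * C) atTop (𝓝 (0 * C)) :=
      (tendsto_pow_atTop_nhds_zero_of_lt_one (by norm_num) (by norm_num)).mul_const C
    rw [zero_mul] at h3
    exact ge_of_tendsto' h3 fun m => h1 m t ht
  have h3 : ∀ u : ℕ, (∀ t, u ≤ t → c t = 0) → ∀ t, c t = 0 := by
    intro u
    induction u with
    | zero => exact fun h t => h t (Nat.zero_le t)
    | succ u ih =>
      intro h4
      refine ih fun t ht => ?_
      rcases ht.eq_or_lt with rfl | ht
      · have h5 := hc u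
        rw [h4 (u + n) (by omega), mul_zero, Finset.sum_eq_zero, add_zero] at h5
        · exact h5.symm
        · intro j hj
          rw [h4 (u + j) (by have := Finset.mem_Ico.mp hj; omega), zero_mul]
      · exact h4 t ht
  exact h3 t0 h2 t

end Vale.Agent.P217
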