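import Vale.Agent.P217.GP
import Vale.Agent.P217.GH

/-! Characteristic zero: the period of a homomorphism. -/

namespace Vale.Agent.P217

open MvPowerSeries Filter Topology

variable {p n : ℕ} [Fact p.Prime] {O : Type} [CommRing O] {ϖ : O}
  {B : Type} [NormedCommRing B] [IsUltrametricDist B] [PNorm p B]

/-- `β` is the vector of Gross-Hopkins limits of the sequence `c`. -/
def IsPer (p n : ℕ) {B : Type} [NormedCommRing B] (c β : ℕ → B) : Prop :=
  ∀ s, s < n → Tendsto (fun k : ℕ => (p : B) ^ k * c (n * k + s)) atTop (𝓝 (β s))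

namespace Ch0AAux

theorem coeff_Lg {K : Type*} [CommRing K] (c : ℕ → K) {ψ : PowerSeries K}
    (hψ : constantCoeff ψ = 0) (r : ℕ) : PowerSeries.coeff (p ^ r) (Lg p c ψ) =
      ∑ u ∈ Finset.range (r + 1), c u * PowerSeries.coeff (p ^ r) (ψ ^ p ^ u) := by
  have h1 := mem_PI_bot_pow.mp (Lg_sub_sum_mem (p := p) c hψ (r + 1)) (Finsupp.single () (p ^ r))
    (by rw [Finsupp.degree_single]
        exact Nat.pow_lt_pow_right (Fact.out : p.Prime).one_lt (Nat.lt_succ_self r))
  rw [map_sub, map_sum, sub_eq_zero] at h1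
  refine h1.trans (Finset.sum_congr rfl fun u _ => ?_)
  rw [coeff_C_mul]
  rfl

theorem tendsto_half (x : ℝ) : Tendsto (fun m : ℕ => (1 / 2 : ℝ) ^ m * x) atTop (𝓝 0) := by
  simpa using (tendsto_pow_atTop_nhds_zero_of_lt_one (r := (1 / 2 : ℝ)) (by norm_num)
    (by norm_num)).mul_const x

/-- Sequences with vanishing limits contribute nothing. -/
theorem tendsto_err (hn : 1 ≤ n) {e : ℕ → B} (he : IsPer p n e fun _ => 0) {ψ : PowerSeries B}
    (h0 : constantCoeff ψ = 0) (h1 : ∀ u d, ‖PowerSeries.coeff d (ψ ^ u)‖ ≤ 1) {s : ℕ}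
    (hs : s < n) : Tendsto (fun m : ℕ => (p : B) ^ m *
      PowerSeries.coeff (p ^ (n * m + s)) (Lg p e ψ)) atTop (𝓝 0) := by
  rw [NormedAddGroup.tendsto_nhds_zero]
  intro ε hε
  have h2 : ∀ i ∈ Finset.range n, ∀ᶠ k : ℕ in atTop, ‖(p : B) ^ k * e (n * k + i)‖ ≤ ε / 2 :=
    fun i hi => by
      have h3 := (he i (Finset.mem_range.mp hi)).norm
      rw [norm_zero] at h3
      exact h3.eventually (ge_mem_nhds (by positivity))
  obtain ⟨k0, hk0⟩ := eventually_atTop.mp ((Finset.eventually_all _).mpr h2)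
  have h4 : ∀ u ∈ Finset.range (n * k0), ∀ᶠ m : ℕ in atTop, (1 / 2 : ℝ) ^ m * ‖e u‖ ≤ ε / 2 :=
    fun u _ => (tendsto_half _).eventually (ge_mem_nhds (by positivity))
  filter_upwards [(Finset.eventually_all _).mpr h4] with m hm
  rw [coeff_Lg e h0, Finset.mul_sum]
  refine lt_of_le_of_lt (IsUltrametricDist.norm_sum_le_of_forall_le_of_nonneg
    (C := ε / 2) (by positivity) fun u hu => ?_) (by linarith)
  have h5 : ‖(p : B) ^ m * e u‖ ≤ ε / 2 := by
    by_cases h : u < n * k0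
    · rw [norm_p_pow_mul]; exact hm u (Finset.mem_range.mpr h)
    · have h6 : k0 ≤ u / n := (Nat.le_div_iff_mul_le (by omega)).mpr (by rw [mul_comm]; omega)
      have h7 := hk0 (u / n) h6 (u % n) (Finset.mem_range.mpr (Nat.mod_lt _ (by omega)))
      rw [Nat.div_add_mod, norm_p_pow_mul] at h7
      have h8 : u / n ≤ m := by
        have := Finset.mem_range.mp hu
        refine Nat.lt_succ_iff.mp ((Nat.div_lt_iff_lt_mul (by omega)).mpr ?_)
        rw [Nat.succ_mul, mul_comm]; omega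
      rw [norm_p_pow_mul]
      exact le_trans (mul_le_mul_of_nonneg_right
        (pow_le_pow_of_le_one (by norm_num) (by norm_num) h8) (norm_nonneg _)) h7
  rw [← mul_assoc]
  calc _ ≤ ‖(p : B) ^ m * e u‖ * ‖PowerSeries.coeff (p ^ (n * m + s)) (ψ ^ p ^ u)‖ :=
        norm_mul_le _ _
    _ ≤ ε / 2 * 1 := mul_le_mul h5 (h1 _ _) (norm_nonneg _) (by positivity)
    _ = ε / 2 := mul_one _

omit [Fact p.Prime] in
theorem pow_sub_pow_mem (hp : (p : O) ∈ Ideal.span {ϖ}) {e : ℕ}
    (he : ϖ ^ e ∈ Ideal.span {(p : O)}) {a b : PowerSeries O}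
    (hab : a - b ∈ cI Unit (Ideal.span {ϖ})) (u d : ℕ) :
    (p : O) ^ e * PowerSeries.coeff d (a ^ p ^ u - b ^ p ^ u) ∈ Ideal.span {(p : O) ^ u} := by
  rcases le_total u e with h | h
  · obtain ⟨w, rfl⟩ := Nat.exists_eq_add_of_le h
    rw [pow_add, mul_assoc]
    exact Ideal.mul_mem_right _ _ (Ideal.mem_span_singleton_self _)
  · obtain ⟨w, rfl⟩ := Nat.exists_eq_add_of_le h
    have hC : ∀ N : Ideal O, (p : O) ∈ N → (p : PowerSeries O) ∈ cI Unit N := fun N hN => by
      have := C_mem_cI (σ := Unit) hN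
      rwa [map_natCast] at this
    have h1 := pow_p_pow_sub_mem (k := 0) (hC _ hp) (a := a) (b := b)
      (by rwa [zero_add, pow_one]) e
    have h2 : Ideal.span {ϖ} ^ (0 + 1 + e) ≤ Ideal.span {(p : O)} := by
      rw [Ideal.span_singleton_pow, Ideal.span_singleton_le_iff_mem, pow_add]
      exact Ideal.mul_mem_left _ _ he
    have h3 := cI_mono h2 (cI_pow_le _ _ h1)
    have h4 := pow_p_pow_sub_mem (k := 0) (hC _ (Ideal.mem_span_singleton_self _))
      (a := a ^ p ^ e) (b := b ^ p ^ e) (by rwa [zero_add, pow_one]) w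
    have h5 := mem_cI1.mp (cI_pow_le _ _ h4) d
    rw [← pow_mul, ← pow_mul, ← pow_add, Ideal.span_singleton_pow,
      Ideal.mem_span_singleton'] at h5
    obtain ⟨x, hx⟩ := h5
    rw [← hx, Ideal.mem_span_singleton']
    exact ⟨p * x, by ring⟩

/-- Congruent series have the same limits. -/
theorem tendsto_congr (hn : 1 ≤ n) (j : O →+* B)
    (hj : ∀ (a : O) (k : ℕ), a ∈ Ideal.span {(p : O) ^ k} → ‖j a‖ ≤ (1 / 2) ^ k)
    (hp : (p : O) ∈ Ideal.span {ϖ}) {e : ℕ} (he : ϖ ^ e ∈ Ideal.span {(p : O)})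
    {a b : PowerSeries O} (ha : constantCoeff a = 0) (hb : constantCoeff b = 0)
    (hab : a - b ∈ cI Unit (Ideal.span {ϖ})) (s : ℕ) :
    Tendsto (fun m : ℕ => (p : B) ^ m * PowerSeries.coeff (p ^ (n * m + s))
      (Lg p (ll p (eH B n)) (MvPowerSeries.map j a)) - (p : B) ^ m *
      PowerSeries.coeff (p ^ (n * m + s)) (Lg p (ll p (eH B n)) (MvPowerSeries.map j b)))
      atTop (𝓝 0) := by
  refine squeeze_zero_norm (fun m => ?_) (tendsto_half (2 ^ e))
  rw [← mul_sub, norm_p_pow_mul]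
  refine mul_le_mul_of_nonneg_left ?_ (by positivity)
  rw [coeff_Lg _ (by simp [ha]), coeff_Lg _ (by simp [hb]), ← Finset.sum_sub_distrib]
  refine IsUltrametricDist.norm_sum_le_of_forall_le_of_nonneg (by positivity) fun u _ => ?_
  have h1 := hj _ _ (pow_sub_pow_mem hp he hab u (p ^ (n * m + s)))
  rw [map_mul, map_pow, map_natCast, norm_p_pow_mul] at h1
  have h2 : PowerSeries.coeff (p ^ (n * m + s)) ((MvPowerSeries.map j a) ^ p ^ u) -
      PowerSeries.coeff (p ^ (n * m + s)) ((MvPowerSeries.map j b) ^ p ^ u) =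
      j (PowerSeries.coeff (p ^ (n * m + s)) (a ^ p ^ u - b ^ p ^ u)) := by
    rw [← map_pow, ← map_pow, map_sub, map_sub]
    rfl
  rw [← mul_sub, h2, ll_eH PNorm.unit hn]
  split_ifs
  · rw [norm_inv_pow_mul]
    have h3 : (2 : ℝ) ^ (u / n) ≤ 2 ^ u := pow_le_pow_right₀ (by norm_num) (Nat.div_le_self _ _)
    have h4 : (2 : ℝ) ^ u * (1 / 2) ^ u = 1 := by rw [← mul_pow]; norm_num
    have h5 : (2 : ℝ) ^ e * (1 / 2) ^ e = 1 := by rw [← mul_pow]; norm_num
    have h6 := norm_nonneg (j (PowerSeries.coeff (p ^ (n * m + s)) (a ^ p ^ u - b ^ p ^ u)))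
    generalize ‖j (PowerSeries.coeff (p ^ (n * m + s)) (a ^ p ^ u - b ^ p ^ u))‖ = x at h1 h6 ⊢
    calc (2 : ℝ) ^ (u / n) * x = 2 ^ (u / n) * (2 ^ e * ((1 / 2) ^ e * x)) := by
          rw [← mul_assoc (2 ^ e : ℝ), h5, one_mul]
      _ ≤ 2 ^ u * (2 ^ e * (1 / 2) ^ u) := by gcongr
      _ = 2 ^ e := by rw [mul_left_comm, h4, mul_one]
  · rw [zero_mul, norm_zero]; positivity

omit [IsUltrametricDist B] in
/-- The limits for a monomial. -/
theorem tendsto_mono (hn : 1 ≤ n) {a : B} (ha : a ^ p ^ n = a) (u : ℕ) {s : ℕ} (hs : s < n) :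
    Tendsto (fun m : ℕ => (p : B) ^ m * PowerSeries.coeff (p ^ (n * m + s))
      (Lg p (ll p (eH B n)) (C a * PowerSeries.X ^ p ^ u : PowerSeries B))) atTop
      (𝓝 (a * if u % n = s then (p : B) ^ (u / n) else 0)) := by
  have hw : ∀ w, a ^ p ^ (n * w) = a := fun w => by
    induction w with
    | zero => simp
    | succ w ih => rw [mul_add, mul_one, pow_add, pow_mul, ih, ha]
  refine tendsto_const_nhds.congr' (eventually_atTop.mpr ⟨u, fun m hm => ?_⟩)
  have h1 : u ≤ n * m + s := by nlinarith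
  have h2 := Nat.div_add_mod u n
  have h3 : u % n < n := Nat.mod_lt _ (by omega)
  beta_reduce
  rw [LogAux.Lg_shift _ (ψ := (PowerSeries.X : PowerSeries B)) (constantCoeff_X ()), Lg_X,
    coeff_lser, if_pos h1, ll_eH PNorm.unit hn]
  by_cases h : u % n = s
  · obtain ⟨w, rfl⟩ := Nat.exists_eq_add_of_le ((Nat.div_le_self u n).trans hm)
    have h4 : n * (u / n + w) + s - u = n * w := by rw [mul_add]; omega
    rw [h4, if_pos h, if_pos (dvd_mul_right _ _), Nat.mul_div_cancel_left _ (by omega), hw,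
      pow_add, mul_assoc, ← mul_assoc ((p : B) ^ w), ← mul_pow,
      Ring.mul_inverse_cancel _ PNorm.unit, one_pow, one_mul, mul_comm]
  · rw [if_neg h, if_neg, zero_mul, mul_zero, mul_zero]
    intro hd
    have h4 := (Nat.modEq_iff_dvd' h1).mpr hd
    rw [Nat.ModEq, Nat.mul_add_mod, Nat.mod_eq_of_lt hs] at h4
    exact h h4

/-- The series `a +_F [p ^ N]_F b` for the Honda law. -/
noncomputable def gH (p n : ℕ) [Fact p.Prime] {S : Type*} [CommRing S] (N : ℕ) (a b : S) : S :=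
  fadd p n (eH S n) a ((fp p n (eH S n))^[N] b)

theorem map_gH {S T : Type*} [CommRing S] [CommRing T] (Ψ : PowerSeries S →+* PowerSeries T)
    (hΨ : ∀ x, constantCoeff x = 0 → constantCoeff (Ψ x) = 0) (N : ℕ) {a b : PowerSeries S}
    (ha : constantCoeff a = 0) (hb : constantCoeff b = 0) :
    constantCoeff (gH p n N a b) = 0 ∧ Ψ (gH p n N a b) = gH p n N (Ψ a) (Ψ b) := by
  have ha' := mem_PI_radical_of_zero ⊥ ha
  have hb' := mem_PI_radical_of_zero ⊥ hb
  have h1 := fp_iter_mem (p := p) (n := n) (PI Unit ⊥) (eH (PowerSeries S) n) hb'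
    (mem_PI_bot.mpr hb) N
  refine ⟨mem_PI_bot.mp (fadd_mem (PI Unit ⊥) _ ha' h1.1 (mem_PI_bot.mpr ha) h1.2), ?_⟩
  rw [gH, map_fadd (PI Unit ⊥) _ Ψ (PI Unit ⊥) ha' h1.1 (mem_PI_radical_of_zero ⊥ (hΨ _ ha))
    (mem_PI_radical_of_zero ⊥ (hΨ _ (mem_PI_bot.mp h1.2))),
    map_fp_iter (PI Unit ⊥) _ Ψ (PI Unit ⊥) hb' (mem_PI_radical_of_zero ⊥ (hΨ _ hb)), map_eH, gH]

theorem Lg_gH {K : Type*} [CommRing K] (hp : IsUnit (p : K)) (N : ℕ) {a b : MvPowerSeries Unit K}
    (ha : constantCoeff a = 0) (hb : constantCoeff b = 0) :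
    Lg p (ll p (eH K n)) (gH p n N a b) =
      Lg p (ll p (eH K n)) a + C ((p : K) ^ N) * Lg p (ll p (eH K n)) b := by
  have hv : ∀ j, n < j → eH K n j = 0 := fun j hj => if_neg (by omega)
  have h1 : ∀ N, constantCoeff ((fp p n fun j => C (eH K n j))^[N] b) = 0 := fun N => by
    have := fp_iter_mem (p := p) (n := n) (PI Unit ⊥) (fun j => C (eH K n j))
      (mem_PI_radical_of_zero ⊥ hb) (mem_PI_bot.mpr hb) N
    exact mem_PI_bot.mp this.2
  have h2 : ∀ N, Lg p (ll p (eH K n))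
      ((fp p n fun j => C (eH K n j))^[N] b) =
      C ((p : K) ^ N) * Lg p (ll p (eH K n)) b := fun N => by
    induction N with
    | zero => simp
    | succ N ih =>
      rw [Function.iterate_succ_apply', Lg_fp hp hv (h1 N), ih, pow_succ', map_mul, map_natCast,
        mul_assoc]
  have h3 : eH (MvPowerSeries Unit K) n = fun j => C (eH K n j) := (map_eH _ n).symm
  rw [gH, h3, Lg_fadd hp hv ha (h1 N), h2]

/-- The iterated Frobenius of a ring in which `p = 0`. -/
noncomputable def frob {S : Type*} [CommRing S] (hp : (p : S) = 0) (i : ℕ) : S →+* S where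
  toFun x := x ^ p ^ i
  map_one' := one_pow _
  map_mul' x y := mul_pow x y _
  map_zero' := zero_pow (pow_ne_zero _ (Fact.out : p.Prime).ne_zero)
  map_add' x y := by
    obtain ⟨r, hr⟩ := exists_add_pow_prime_pow_eq (Fact.out : p.Prime) x y i
    rw [hr, hp, zero_mul, zero_mul, zero_mul, add_zero]

theorem gH_pow_sub_mem (hp : (p : O) ∈ Ideal.span {ϖ}) (N i : ℕ) {a b : PowerSeries O}
    (ha : constantCoeff a = 0) (hb : constantCoeff b = 0) :
    gH p n N a b ^ p ^ i - gH p n N (a ^ p ^ i) (b ^ p ^ i) ∈ cI Unit (Ideal.span {ϖ}) := by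
  have hz : ∀ {S : Type} [CommRing S] (x : PowerSeries S), constantCoeff x = 0 →
      constantCoeff (x ^ p ^ i) = 0 := fun x hx => by
    rw [map_pow, hx, zero_pow (pow_ne_zero _ (Fact.out : p.Prime).ne_zero)]
  have hq : ∀ x : PowerSeries O, constantCoeff x = 0 → constantCoeff
      (MvPowerSeries.map (Ideal.Quotient.mk (Ideal.span {ϖ})) x) = 0 := fun x hx => by simp [hx]
  have h0 : (p : PowerSeries (O ⧸ Ideal.span {ϖ})) = 0 := by
    rw [← map_natCast (C : (O ⧸ Ideal.span {ϖ}) →+* PowerSeries _),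
      ← map_natCast (Ideal.Quotient.mk (Ideal.span {ϖ})), Ideal.Quotient.eq_zero_iff_mem.mpr hp,
      map_zero]
  rw [cI, RingHom.mem_ker, map_sub, map_pow, (map_gH _ hq N ha hb).2,
    (map_gH _ hq N (hz _ ha) (hz _ hb)).2, map_pow, map_pow, sub_eq_zero]
  exact (map_gH (frob h0 i) hz N (hq _ ha) (hq _ hb)).2

end Ch0AAux

open Ch0AAux in
theorem isPer_Lg (hn : 1 ≤ n) (j : O →+* B)
    (hj : ∀ (a : O) (k : ℕ), a ∈ Ideal.span {(p : O) ^ k} → ‖j a‖ ≤ (1 / 2) ^ k)
    (hp : (p : O) ∈ Ideal.span {ϖ}) (he : ∃ e, ϖ ^ e ∈ Ideal.span {(p : O)})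
    {c β : ℕ → B} (hβ : IsPer p n c β) {α : O} (hα : α ^ p ^ n = α) (t N : ℕ)
    {k : PowerSeries O} (hk0 : constantCoeff k = 0)
    (hk : k - gD p n (eH O n) (C α * PowerSeries.X ^ p ^ t) N ∈ cI Unit (Ideal.span {ϖ})) :
    IsPer p n (fun r => PowerSeries.coeff (p ^ r) (Lg p c (MvPowerSeries.map j k)))
      fun s => β s + (p : B) ^ N * ∑ i ∈ Finset.range n,
        β i * j α ^ p ^ i * if (i + t) % n = s then (p : B) ^ ((i + t) / n) else 0 := by
  intro s hs
  obtain ⟨e, he⟩ := he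
  have hp0 : p ≠ 0 := (Fact.out : p.Prime).ne_zero
  have hK : constantCoeff (MvPowerSeries.map j k) = 0 := by simp [hk0]
  have hX : ∀ {S : Type} [CommRing S] (a : S) (u : ℕ),
      constantCoeff (C a * PowerSeries.X ^ p ^ u : PowerSeries S) = 0 := fun a u => by
    rw [map_mul, map_pow, PowerSeries.X, constantCoeff_X, zero_pow (pow_ne_zero _ hp0), mul_zero]
  have hm : ∀ (a : O) (u : ℕ), MvPowerSeries.map j (C a * PowerSeries.X ^ p ^ u) =
      (C (j a) * PowerSeries.X ^ p ^ u : PowerSeries B) := fun a u => by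
    rw [map_mul, map_pow, map_C, show MvPowerSeries.map j PowerSeries.X = PowerSeries.X from
      map_X j ()]
  obtain ⟨l, hl⟩ : ∃ l, l = ll p (eH B n) := ⟨_, rfl⟩
  obtain ⟨c0, hc0⟩ : ∃ c0 : ℕ → B, c0 = fun u => ∑ i ∈ Finset.range n,
    β i * if i ≤ u then l (u - i) * 1 ^ p ^ (u - i) else 0 := ⟨_, rfl⟩
  have h1 : IsPer p n (fun u => c u - c0 u) fun _ => 0 := fun i hi => by
    refine (tendsto_sub_nhds_zero_iff.mpr (hβ i hi)).congr fun m => ?_
    rw [mul_sub, hc0]
    congr 1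
    beta_reduce
    rw [Finset.sum_eq_single i, if_pos (by omega), Nat.add_sub_cancel, hl, ll_eH PNorm.unit hn,
      if_pos (dvd_mul_right _ _), Nat.mul_div_cancel_left _ (by omega), one_pow, mul_one,
      mul_left_comm, ← mul_pow, Ring.mul_inverse_cancel _ PNorm.unit, one_pow, mul_one]
    · intro i' hi' hne
      split_ifs with h
      · rw [hl, ll_eH PNorm.unit hn, if_neg, zero_mul, mul_zero]
        intro hd
        have h4 := (Nat.modEq_iff_dvd' h).mpr hd
        rw [Nat.ModEq, Nat.mul_add_mod, Nat.mod_eq_of_lt hi,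
          Nat.mod_eq_of_lt (Finset.mem_range.mp hi')] at h4
        exact hne h4
      · exact mul_zero _
    · exact fun h => absurd (Finset.mem_range.mpr hi) h
  have h2 := tendsto_err hn h1 hK (fun u d => by
    have h0 := hj (PowerSeries.coeff d (k ^ u)) 0 (by simp)
    rw [pow_zero] at h0
    rw [← map_pow]
    exact h0) hs
  have h3 : Lg p c (MvPowerSeries.map j k) = Lg p (fun u => c u - c0 u) (MvPowerSeries.map j k) +
      ∑ i ∈ Finset.range n, C (β i) * Lg p l (MvPowerSeries.map j (k ^ p ^ i)) := by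
    have h4 : ∀ i, C (β i) * Lg p l (MvPowerSeries.map j (k ^ p ^ i)) = Lg p (fun u => β i *
        if i ≤ u then l (u - i) * 1 ^ p ^ (u - i) else 0) (MvPowerSeries.map j k) := fun i => by
      rw [Lg_mul _ _ hK, ← LogAux.Lg_shift l hK 1 i, map_one, one_mul, map_pow]
    simp only [h4]
    rw [← LogAux.Lg_sum, ← hc0, ← Lg_add]
    simp only [sub_add_cancel]
  have h5 : ∀ i ∈ Finset.range n, Tendsto (fun m : ℕ => β i * ((p : B) ^ m *
      PowerSeries.coeff (p ^ (n * m + s)) (Lg p l (MvPowerSeries.map j (k ^ p ^ i))))) atTop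
      (𝓝 (β i * ((if i = s then 1 else 0) + (p : B) ^ N * (j α ^ p ^ i *
        if (i + t) % n = s then (p : B) ^ ((i + t) / n) else 0)))) := fun i hi => by
    have hi' := Finset.mem_range.mp hi
    have h6 : gD p n (eH O n) (C α * PowerSeries.X ^ p ^ t) N =
        gH p n N (C 1 * PowerSeries.X ^ p ^ 0) (C α * PowerSeries.X ^ p ^ t) := by
      have h7 : eH (PowerSeries O) n = fun j => C (eH O n j) := (map_eH _ n).symm
      rw [gD, gH, h7, map_one, one_mul, pow_zero, pow_one]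
    have h8 : ∀ (a : O) (u : ℕ), (C a * PowerSeries.X ^ p ^ u : PowerSeries O) ^ p ^ i =
        C (a ^ p ^ i) * PowerSeries.X ^ p ^ (i + u) := fun a u => by
      rw [mul_pow, map_pow, ← pow_mul, ← pow_add, add_comm]
    have h9 := gH_pow_sub_mem (n := n) hp N i (hX (1 : O) 0) (hX α t)
    rw [h8, h8, ← h6, one_pow, add_zero] at h9
    have h10 := add_mem (Ideal.mem_span_singleton_self _ |> Ideal.span_le.mpr
      (Set.singleton_subset_iff.mpr hk) |> fun h => Ideal.mem_of_dvd _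
        (sub_dvd_pow_sub_pow k _ (p ^ i)) h) h9
    rw [sub_add_sub_cancel] at h10
    have h11 := map_gH (p := p) (n := n) (MvPowerSeries.map j) (fun x hx => by simp [hx]) N
      (hX (1 : O) i) (hX (α ^ p ^ i) (i + t))
    have h12 := tendsto_congr hn j hj hp he
      (by rw [map_pow, hk0, zero_pow (pow_ne_zero _ hp0)]) h11.1 h10 s
    rw [h11.2, hm, hm, Lg_gH PNorm.unit N (hX _ _) (hX _ _), map_one j, map_pow j] at h12
    have h13 := tendsto_mono (B := B) hn (one_pow (p ^ n)) i hs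
    have h14 := tendsto_mono (B := B) (a := j α ^ p ^ i) hn
      (by rw [← pow_mul, mul_comm, pow_mul, ← map_pow, hα]) (i + t) hs
    rw [Nat.mod_eq_of_lt hi', Nat.div_eq_of_lt hi', pow_zero, one_mul] at h13
    have h15 := h12.add (h13.add (h14.const_mul ((p : B) ^ N)))
    rw [zero_add] at h15
    refine (h15.const_mul (β i)).congr fun m => ?_
    rw [hl, map_add, show (C ((p : B) ^ N) : PowerSeries B) = PowerSeries.C ((p : B) ^ N) from rfl,
      PowerSeries.coeff_C_mul]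
    ring
  have h16 := h2.add (tendsto_finsetSum _ h5)
  simp only [mul_add, Finset.sum_add_distrib, mul_ite, mul_one, mul_zero, Finset.sum_ite_eq',
    Finset.mem_range, hs, if_true, zero_add] at h16
  refine (h16.congr fun m => ?_).trans (le_of_eq (congrArg _ ?_))
  · beta_reduce
    rw [h3, map_add, map_sum, mul_add, Finset.mul_sum]
    congr 1
    refine Finset.sum_congr rfl fun i _ => ?_
    rw [show (C (β i) : PowerSeries B) = PowerSeries.C (β i) from rfl, PowerSeries.coeff_C_mul]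
    ring
  · beta_reduce
    rw [Finset.mul_sum]
    congr 1
    refine Finset.sum_congr rfl fun i _ => ?_
    split_ifs <;> ring

end Vale.Agent.P217
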