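import Vale.Agent.P217.Ch0A

/-! Characteristic zero: first order expansion of the period map. -/

namespace Vale.Agent.P217

open MvPowerSeries Filter Topology

variable {p n : ℕ} [Fact p.Prime] {O : Type} [CommRing O] {ϖ : O}
  {B : Type} [NormedCommRing B] [CompleteSpace B] [IsUltrametricDist B] [PNorm p B]

namespace Ch0BAux

omit [Fact p.Prime] [CompleteSpace B] [IsUltrametricDist B] [PNorm p B] in
theorem tendsto_pow_zero (j : O →+* B)
    (hj : ∀ (a : O) (k : ℕ), a ∈ Ideal.span {(p : O) ^ k} → ‖j a‖ ≤ (1 / 2) ^ k) {e : ℕ}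
    (he : ϖ ^ e ∈ Ideal.span {(p : O)}) {x : O} (hx : x ∈ Ideal.span {ϖ}) :
    Tendsto (fun m : ℕ => j x ^ m) atTop (𝓝 0) := by
  obtain ⟨a, rfl⟩ := Ideal.mem_span_singleton'.mp hx
  obtain ⟨b, hb⟩ := Ideal.mem_span_singleton'.mp he
  have h1 : Tendsto (fun m : ℕ => (1 / 2 : ℝ) ^ (m / (e + 1))) atTop (𝓝 0) :=
    (tendsto_pow_atTop_nhds_zero_of_lt_one (by norm_num) (by norm_num)).comp
      (Nat.tendsto_div_const_atTop (Nat.succ_ne_zero e))
  refine squeeze_zero_norm (fun m => ?_) h1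
  rw [← map_pow]
  refine hj _ _ (Ideal.mem_span_singleton'.mpr
    ⟨a ^ m * ϖ ^ (m % (e + 1)) * (ϖ * b) ^ (m / (e + 1)), ?_⟩)
  rw [mul_assoc, ← mul_pow, mul_assoc ϖ, hb, ← pow_succ', ← pow_mul, mul_assoc, ← pow_add,
    Nat.mod_add_div, mul_pow]

omit [Fact p.Prime] [CompleteSpace B] [IsUltrametricDist B] in
theorem rec_gp (j : O →+* B) {y : ℕ → O} (hy : GP n ϖ y) :
    Rec p n (fun i => j (y i)) (ll p fun i => j (y i)) :=
  rec_ll PNorm.unit hy.pos (fun i hi => by rw [hy.supp i hi, map_zero]) (by rw [hy.top, map_one])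

/-- Integral models of the normalized logarithm coefficients. -/
theorem exists_model (hp0 : (p : O) ∈ nonZeroDivisors O) {e : ℕ}
    (he : ϖ ^ e ∈ Ideal.span {(p : O)}) {y : ℕ → O} (hy : GP n ϖ y) :
    ∃ (c : ℕ) (D : ℕ → O), (∀ t, D t * (p : O) ^ t = (p : O) ^ (c + t / n) * ml p y t) ∧
      ∀ s, s < n → ∀ r, ∀ᶠ k in atTop,
        D (n * (k + 1) + s) - D (n * k + s) ∈ Ideal.span {(p : O) ^ r} := by
  obtain ⟨B1, _, _, _, _, j, hj, -⟩ := exists_pnorm p O hp0
  have hv : ∀ i, 1 ≤ i → i < n → Tendsto (fun m : ℕ => j (y i) ^ m) atTop (𝓝 0) := fun i _ hi =>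
    tendsto_pow_zero j (fun a k => (hj a k).mpr) he (hy.low i hi)
  have hrec := rec_gp (p := p) j hy
  obtain ⟨C, hC⟩ := gh_bdd hy.pos hrec hv
  obtain ⟨c, hc⟩ := pow_unbounded_of_one_lt C (one_lt_two (α := ℝ))
  have h1 : ∀ t, j ((p : O) ^ (c + t / n) * ml p y t) =
      (p : B1) ^ t * ((p : B1) ^ c * ((p : B1) ^ (t / n) * ll p (fun i => j (y i)) t)) := fun t => by
    rw [map_mul, map_pow, map_natCast, map_ml, ← pow_mul_ll PNorm.unit]; ring
  have h2 : ∀ t, ∃ d : O, d * (p : O) ^ t = (p : O) ^ (c + t / n) * ml p y t := fun t => by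
    refine Ideal.mem_span_singleton'.mp ((hj _ t).mp ?_)
    rw [h1, norm_p_pow_mul, norm_p_pow_mul]
    refine mul_le_of_le_one_right (by positivity) ?_
    calc _ ≤ (1 / 2 : ℝ) ^ c * 2 ^ c := mul_le_mul_of_nonneg_left ((hC t).trans hc.le) (by positivity)
      _ = 1 := by rw [← mul_pow]; norm_num
  choose D hD using h2
  have h3 : ∀ t, j (D t) = (p : B1) ^ c * ((p : B1) ^ (t / n) * ll p (fun i => j (y i)) t) :=
    fun t => by
      refine sub_eq_zero.mp (eq_zero_of_p_pow_mul (p := p) (k := t) ?_)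
      rw [mul_sub, ← h1, ← hD, map_mul, map_pow, map_natCast, mul_comm, sub_self]
  refine ⟨c, D, hD, fun s hs r => ?_⟩
  have h4 := ((gh_incr hy.pos hrec hv hs).const_mul ((p : B1) ^ c)).norm
  rw [mul_zero, norm_zero] at h4
  have h6 : (0 : ℝ) < (1 / 2) ^ r := by positivity
  filter_upwards [h4.eventually (ge_mem_nhds h6)] with k hk
  have h5 : ∀ k, (n * k + s) / n = k := fun k => by
    rw [Nat.mul_add_div hy.pos, Nat.div_eq_of_lt hs, add_zero]
  refine (hj _ r).mp ?_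
  rw [map_sub, h3, h3, h5, h5, ← mul_sub]
  exact hk

omit [Fact p.Prime] in
/-- First order Taylor expansion at the origin. -/
theorem taylor_zero {σ : Type*} [Fintype σ] (I : Ideal O) [IsAdicComplete I O] {b : σ → O}
    (hb : ∀ i, b i ∈ I.radical) {N : Ideal O} (hN : ∀ i, b i ∈ N) (f : MvPowerSeries σ O) :
    ev (RingHom.id O) b f - constantCoeff f - ∑ i, b i * coeff (Finsupp.single i 1) f ∈ N ^ 2 := by
  have h1 := ev_taylor (RingHom.id O) I (a := fun _ => 0) (fun _ => zero_mem _) hb f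
  have h2 : ∀ i, constantCoeff (pderiv O i f) = coeff (Finsupp.single i 1) f := fun i => by
    rw [← coeff_zero_eq_constantCoeff_apply, coeff_pderiv]; simp
  simp only [zero_add, ev_zero, RingHom.id_apply, h2] at h1
  exact Ideal.pow_right_mono (Ideal.span_le.mpr (by rintro _ ⟨i, rfl⟩; exact hN i)) 2 h1

end Ch0BAux

open Ch0BAux in
theorem per_expansion [IsDomain O] [IsAdicComplete (Ideal.span {ϖ}) O] (hp0 : (p : O) ≠ 0)
    (j : O →+* B) (hj : ∀ (a : O) (k : ℕ), a ∈ Ideal.span {(p : O) ^ k} → ‖j a‖ ≤ (1 / 2) ^ k)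
    (hp : (p : O) ∈ Ideal.span {ϖ}) (he : ∃ e, ϖ ^ e ∈ Ideal.span {(p : O)})
    {y : ℕ → O} (hy : GP n ϖ y) {β : ℕ → B} (hβ : IsPer p n (ll p fun i => j (y i)) β) :
    ∃ (L : Fin (n - 1) → ℕ → B) (C : ℝ), ∀ (M : ℕ) (α : Fin (n - 1) → O) (β' : ℕ → B), 1 ≤ M →
      IsPer p n (ll p fun i => j (sh n 1 y (fun l => (p : O) ^ (M + 1) * α l) i)) β' →
      ∀ s, s < n → ‖β' s - β s - (p : B) ^ M * ∑ l, j (α l) * L l s‖ ≤ C * (1 / 4) ^ M := by
  obtain ⟨e, he⟩ := he
  have hC : ∀ {a b : O}, a ∈ Ideal.span {b} → (C a : MvPowerSeries (Fin (n - 1)) O) ∈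
      Ideal.span {C b} := fun h => by rw [← cI_span_singleton]; exact C_mem_cI h
  have hp1 : (p : MvPowerSeries (Fin (n - 1)) O) ∈ nonZeroDivisors _ :=
    mem_nonZeroDivisors_of_ne_zero fun h => hp0 (by simpa using congrArg constantCoeff h)
  have he1 := hC he
  have hp2 := hC hp
  rw [map_pow, map_natCast] at he1
  rw [map_natCast] at hp2
  have hy1 : GP n (C ϖ : MvPowerSeries (Fin (n - 1)) O) fun i => C (y i) :=
    ⟨hy.pos, fun i hi => hC (hy.low i hi), by rw [hy.top, map_one],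
      fun i hi => by rw [hy.supp i hi, map_zero]⟩
  obtain ⟨c, D, hD, hD'⟩ := exists_model hp1 he1
    (hy1.sh (lo := 1) (a := fun l => (p : MvPowerSeries (Fin (n - 1)) O) * X l)
      fun l => Ideal.mul_mem_right _ _ hp2)
  have h1 : ∀ (Φ : MvPowerSeries (Fin (n - 1)) O →+* O) (b : Fin (n - 1) → O),
      (∀ r, Φ (C r) = r) → (∀ l, p * Φ (X l) = b l) → ∀ s, s < n → ∀ k, j (Φ (D (n * k + s))) =
        (p : B) ^ c * ((p : B) ^ k * ll p (fun i => j (sh n 1 y b i)) (n * k + s)) := by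
    intro Φ b h2 h3 s hs k
    have h4 := congrArg (fun x => j (Φ x)) (hD (n * k + s))
    simp only [map_mul, map_pow, map_natCast] at h4
    rw [map_ml, map_sh, map_ml, ← pow_mul_ll PNorm.unit, Nat.mul_add_div hy.pos,
      Nat.div_eq_of_lt hs, add_zero] at h4
    simp only [map_mul, map_natCast, h2, h3] at h4
    refine sub_eq_zero.mp (eq_zero_of_p_pow_mul (p := p) (k := n * k + s) ?_)
    rw [mul_sub, mul_comm, h4]; ring
  have h5 : ∀ (l : Fin (n - 1)) (s : ℕ), ∃ L : B, s < n →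
      Tendsto (fun k => j (coeff (Finsupp.single l 1) (D (n * k + s)))) atTop (𝓝 L) := by
    intro l s
    by_cases hs : s < n
    · refine (cauchySeq_tendsto_of_complete
        (NonarchimedeanAddGroup.cauchySeq_of_tendsto_sub_nhds_zero ?_)).imp fun L hL _ => hL
      rw [NormedAddGroup.tendsto_nhds_zero]
      intro ε hε
      obtain ⟨r, hr⟩ := exists_pow_lt_of_lt_one hε (show (1 / 2 : ℝ) < 1 by norm_num)
      filter_upwards [hD' s hs r] with k hk
      rw [← map_sub, ← map_sub]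
      refine (hj _ r ?_).trans_lt hr
      rw [← map_natCast (C : O →+* MvPowerSeries (Fin (n - 1)) O), ← map_pow,
        ← cI_span_singleton] at hk
      exact mem_cI.mp hk _
    · exact ⟨0, fun h => absurd h hs⟩
  choose L hL using h5
  refine ⟨fun l s => Ring.inverse (p : B) ^ c * L l s, 2 ^ c, fun M α β' hM hβ' s hs => ?_⟩
  have hb : ∀ l, (p : O) ^ M * α l ∈ (Ideal.span {ϖ}).radical := fun l =>
    Ideal.le_radical (Ideal.mul_mem_right _ _ (Ideal.pow_mem_of_mem _ hp _ hM))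
  have hok : Ok fun l => (p : O) ^ M * α l := Ok.of_rad _ hb
  have h6 := h1 (ev (RingHom.id O) fun l => (p : O) ^ M * α l) (fun l => (p : O) ^ (M + 1) * α l)
    (fun r => ev_C _ hok r) (fun l => by rw [ev_X _ hok]; ring) s hs
  have h7 := h1 constantCoeff (fun _ => 0) (fun r => constantCoeff_C r) (fun l => by simp) s hs
  rw [sh_zero] at h7
  have h8 := ((((hβ' s hs).const_mul ((p : B) ^ c)).sub ((hβ s hs).const_mul ((p : B) ^ c))).sub
    (tendsto_finsetSum Finset.univ fun l _ => (hL l s hs).const_mul ((p : B) ^ M * j (α l)))).norm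
  have h9 := le_of_tendsto' (b := (1 / 4 : ℝ) ^ M) h8 fun k => by
    have h10 := taylor_zero (Ideal.span {ϖ}) hb (N := Ideal.span {(p : O) ^ M})
      (fun l => Ideal.mul_mem_right _ _ (Ideal.mem_span_singleton_self _)) (D (n * k + s))
    rw [Ideal.span_singleton_pow, ← pow_mul] at h10
    have h11 := hj _ _ h10
    simp only [map_sub, map_sum, map_mul, map_pow, map_natCast] at h11
    rw [h6, h7, mul_comm M, pow_mul] at h11
    exact h11.trans_eq (by norm_num)
  have h12 : β' s - β s - (p : B) ^ M * ∑ l, j (α l) * (Ring.inverse (p : B) ^ c * L l s) =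
      Ring.inverse (p : B) ^ c * ((p : B) ^ c * β' s - (p : B) ^ c * β s -
        ∑ l, (p : B) ^ M * j (α l) * L l s) := by
    rw [← mul_sub, mul_sub (Ring.inverse (p : B) ^ c), ← mul_assoc, ← mul_pow,
      Ring.inverse_mul_cancel _ PNorm.unit, one_pow, one_mul, Finset.mul_sum, Finset.mul_sum]
    exact congrArg _ (Finset.sum_congr rfl fun l _ => by ring)
  rw [h12, norm_inv_pow_mul]
  exact mul_le_mul_of_nonneg_left h9 (by positivity)

end Vale.Agent.P217
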