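import Vale.Agent.P217.Lim

/-! Complete valuation rings with roots of all monic polynomials. -/

namespace Vale.Agent.P217

/-- The rings in which geometric points take their values. -/
class Good (O : Type) [CommRing O] (ϖ : O) : Prop where
  ne : ϖ ≠ 0
  val : ∀ a b : O, a ∣ b ∨ b ∣ a
  cpl : IsAdicComplete (Ideal.span {ϖ}) O
  dvd : ∀ y : O, y ≠ 0 → ∃ k : ℕ, y ∣ ϖ ^ k
  root : ∀ f : Polynomial O, f.Monic → 0 < f.natDegree → ∃ y, f.IsRoot y

instance Good.isAdicComplete {O : Type} [CommRing O] {ϖ : O} [G : Good O ϖ] :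
    IsAdicComplete (Ideal.span {ϖ}) O := G.cpl

variable {O : Type} [CommRing O] [IsDomain O]

theorem Good.not_isUnit (ϖ : O) [Good O ϖ] : ¬ IsUnit ϖ := fun h =>
  Good.ne (ϖ := ϖ) (eq_zero_of_mem_pow (Ideal.span {ϖ}) fun k => by
    rw [Ideal.span_singleton_pow, Ideal.mem_span_singleton]
    exact (h.pow k).dvd)

theorem Good.perfectRing (ϖ : O) [Good O ϖ] (p : ℕ) [Fact p.Prime] [CharP O p] :
    PerfectRing O p := by
  have hp := (Fact.out : p.Prime)
  refine PerfectRing.ofSurjective O p fun a => ?_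
  obtain ⟨y, hy⟩ := Good.root ϖ (Polynomial.X ^ p - Polynomial.C a)
    (Polynomial.monic_X_pow_sub_C a hp.ne_zero)
    (by rw [Polynomial.natDegree_X_pow_sub_C]; exact hp.pos)
  exact ⟨y, by simpa [sub_eq_zero, frobenius_def] using hy⟩

/-- Every monic polynomial splits. -/
theorem Good.splits (ϖ : O) [Good O ϖ] (f : Polynomial O) (hf : f.Monic) :
    ∃ s : Multiset O, f = (s.map fun y => Polynomial.X - Polynomial.C y).prod := by
  induction h : f.natDegree generalizing f with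
  | zero => exact ⟨0, by simpa using hf.natDegree_eq_zero.1 h⟩
  | succ d ih =>
    obtain ⟨y, hy⟩ := Good.root ϖ f hf (by omega)
    obtain ⟨g, rfl⟩ := Polynomial.dvd_iff_isRoot.2 hy
    have hg : g.Monic := (Polynomial.monic_X_sub_C y).of_mul_monic_left hf
    rw [(Polynomial.monic_X_sub_C y).natDegree_mul hg, Polynomial.natDegree_X_sub_C] at h
    obtain ⟨s, rfl⟩ := ih g hg (by omega)
    exact ⟨y ::ₘ s, by simp⟩

theorem GoodAux.exists_dvd_all {V : Type*} [CommRing V] (hval : ∀ a b : V, a ∣ b ∨ b ∣ a)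
    {ι : Type*} [Finite ι] [Nonempty ι] (c : ι → V) : ∃ i, ∀ j, c i ∣ c j := by
  have := Fintype.ofFinite ι
  have key : ∀ s : Finset ι, s.Nonempty → ∃ i, ∀ j ∈ s, c i ∣ c j := fun s hs => by
    induction hs using Finset.Nonempty.cons_induction with
    | singleton a => exact ⟨a, by simp⟩
    | cons a s _ _ ih =>
      obtain ⟨i, hi⟩ := ih
      rcases hval (c i) (c a) with h | h
      · exact ⟨i, Finset.forall_mem_cons _ _ |>.2 ⟨h, hi⟩⟩
      · exact ⟨a, Finset.forall_mem_cons _ _ |>.2 ⟨dvd_rfl, fun j hj => h.trans (hi j hj)⟩⟩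
  obtain ⟨i, hi⟩ := key Finset.univ Finset.univ_nonempty
  exact ⟨i, fun j => hi j (Finset.mem_univ j)⟩


/-- In a nonzero finite family some member divides all the others. -/
theorem Good.exists_dvd_all (ϖ : O) [Good O ϖ] {ι : Type*} [Finite ι] [Nonempty ι] (c : ι → O) :
    ∃ i, ∀ j, c i ∣ c j :=
  GoodAux.exists_dvd_all (Good.val ϖ) c

/-- Sequences that tend to zero along the hyperfilter. -/
def GoodAux.J {V : Type} [CommRing V] (π : V) : Ideal (ℕ → V) where
  carrier := {s | ∀ k : ℕ, ∀ᶠ i in Filter.hyperfilter ℕ, π ^ k ∣ s i}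
  add_mem' hs ht k := ((hs k).and (ht k)).mono fun _ h => dvd_add h.1 h.2
  zero_mem' _ := Filter.Eventually.of_forall fun _ => dvd_zero _
  smul_mem' c _ hs k := (hs k).mono fun i h => h.mul_left (c i)


/-- Ultraproduct construction of a good ring. -/
theorem exists_good (V : Type) [CommRing V] [IsDomain V] (hval : ∀ a b : V, a ∣ b ∨ b ∣ a)
    (hroot : ∀ f : Polynomial V, f.Monic → 0 < f.natDegree → ∃ y, f.IsRoot y) (π : V)
    (h0 : π ≠ 0) (hπ : ¬ IsUnit π) :
    ∃ (O : Type) (_ : CommRing O) (_ : IsDomain O) (ι : V →+* O), Good O (ι π) ∧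
      ∀ y : V, (∃ k : ℕ, y ∣ π ^ k) → ι y ≠ 0 := by
  classical
  let J := GoodAux.J π
  have hJ : ∀ s, s ∈ J ↔ ∀ k : ℕ, ∀ᶠ i in Filter.hyperfilter ℕ, π ^ k ∣ s i := fun _ => Iff.rfl
  have nd : ∀ k : ℕ, ¬ π ^ (k + 1) ∣ π ^ k := fun k h => hπ <| isUnit_of_dvd_one <| by
    rwa [pow_succ, ← mul_one (π ^ k), mul_assoc, one_mul,
      mul_dvd_mul_iff_left (pow_ne_zero k h0)] at h
  have out : ∀ s, s ∉ J → ∃ k : ℕ, ∀ᶠ i in Filter.hyperfilter ℕ, s i ∣ π ^ k := fun s hs => by
    obtain ⟨k, hk⟩ := not_forall.1 (mt (hJ s).2 hs)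
    exact ⟨k, (Ultrafilter.eventually_not.2 hk).mono fun i hi => (hval _ _).resolve_left hi⟩
  have : J.IsPrime := ⟨fun h => by
    obtain ⟨i, hi⟩ := ((hJ 1).1 (h ▸ Submodule.mem_top) 1).exists
    exact nd 0 (by simpa using hi), fun {s t} h => by
    refine or_iff_not_imp_left.2 fun hs => (hJ t).2 fun m => ?_
    obtain ⟨k, hk⟩ := out s hs
    filter_upwards [hk, (hJ _).1 h (k + m)] with i h1 h2
    have h3 := h2.trans (mul_dvd_mul_right h1 (t i))
    rwa [pow_add, mul_dvd_mul_iff_left (pow_ne_zero k h0)] at h3⟩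
  let ι : V →+* (ℕ → V) ⧸ J := (Ideal.Quotient.mk J).comp (Pi.constRingHom ℕ V)
  have hι : ∀ y k, ι y ^ k = Ideal.Quotient.mk J fun _ => y ^ k := fun y k => by
    rw [← map_pow]
    rfl
  have dv : ∀ s t : ℕ → V, (∀ᶠ i in Filter.hyperfilter ℕ, s i ∣ t i) →
      Ideal.Quotient.mk J s ∣ Ideal.Quotient.mk J t := fun s t h => by
    refine ⟨Ideal.Quotient.mk J fun i => if h : s i ∣ t i then h.choose else 0, ?_⟩
    rw [← map_mul, Ideal.Quotient.eq]
    refine (hJ _).2 fun k => h.mono fun i hi => ?_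
    simp only [Pi.sub_apply, Pi.mul_apply, dif_pos hi, ← hi.choose_spec, sub_self, dvd_zero]
  have nz : ∀ y : V, (∃ k : ℕ, y ∣ π ^ k) → ι y ≠ 0 := by
    rintro y ⟨k, hk⟩ h
    obtain ⟨i, hi⟩ := ((hJ _).1 (Ideal.Quotient.eq_zero_iff_mem.1 h) (k + 1)).exists
    exact nd k (hi.trans hk)
  refine ⟨(ℕ → V) ⧸ J, inferInstance, inferInstance, ι, ⟨nz π ⟨1, by simp⟩, fun a b => ?_,
    isAdicComplete_of _ (fun x hx => ?_) fun x hx => ?_, fun y hy => ?_, fun f hf hd => ?_⟩, nz⟩
  · obtain ⟨s, rfl⟩ := Ideal.Quotient.mk_surjective a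
    obtain ⟨t, rfl⟩ := Ideal.Quotient.mk_surjective b
    exact (Ultrafilter.eventually_or.1 (Filter.Eventually.of_forall fun i =>
      hval (s i) (t i))).imp (dv s t) (dv t s)
  · obtain ⟨s, rfl⟩ := Ideal.Quotient.mk_surjective x
    refine Ideal.Quotient.eq_zero_iff_mem.2 ((hJ s).2 fun k => ?_)
    have h := hx k
    rw [Ideal.span_singleton_pow, Ideal.mem_span_singleton, hι] at h
    obtain ⟨c, hc⟩ := h
    obtain ⟨c, rfl⟩ := Ideal.Quotient.mk_surjective c
    rw [← map_mul, Ideal.Quotient.eq] at hc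
    refine ((hJ _).1 hc k).mono fun i hi => ?_
    simpa using dvd_add hi (dvd_mul_right (π ^ k) (c i))
  · have h : ∀ k, ∃ c : ℕ → V,
        x (k + 1) = x k + Ideal.Quotient.mk J fun i => π ^ k * c i := fun k => by
      have h := hx k
      rw [Ideal.span_singleton_pow, Ideal.mem_span_singleton, hι] at h
      obtain ⟨c, hc⟩ := h
      obtain ⟨c, rfl⟩ := Ideal.Quotient.mk_surjective c
      exact ⟨c, by rw [← map_mul] at hc; exact eq_add_of_sub_eq' hc⟩
    choose c hc using h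
    have e : ∀ k, x k = x 0 + Ideal.Quotient.mk J
        fun i => ∑ j ∈ Finset.range k, π ^ j * c j i := fun k => by
      induction k with
      | zero => exact (add_zero _).symm
      | succ k ih =>
        rw [hc, ih, add_assoc, ← map_add]
        simp only [Finset.sum_range_succ]
        rfl
    refine ⟨x 0 + Ideal.Quotient.mk J fun i => ∑ j ∈ Finset.range i, π ^ j * c j i, fun k => ?_⟩
    rw [e k, add_sub_add_left_eq_sub, ← map_sub, Ideal.span_singleton_pow,
      Ideal.mem_span_singleton, hι]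
    refine dv _ _ (((Filter.eventually_ge_atTop k).filter_mono
      Nat.hyperfilter_le_atTop).mono fun i hi => ?_)
    rw [Pi.sub_apply, ← Finset.sum_Ico_eq_sub _ hi]
    exact Finset.dvd_sum fun j hj =>
      (pow_dvd_pow π (Finset.mem_Ico.1 hj).1).mul_right _
  · obtain ⟨s, rfl⟩ := Ideal.Quotient.mk_surjective y
    obtain ⟨k, hk⟩ := out s (mt Ideal.Quotient.eq_zero_iff_mem.2 hy)
    exact ⟨k, hι π k ▸ dv _ _ hk⟩
  · obtain ⟨q, rfl, hq, hm⟩ := Polynomial.lifts_and_natDegree_eq_and_monic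
      (Polynomial.map_surjective _ Ideal.Quotient.mk_surjective f :
        f ∈ Polynomial.lifts (Ideal.Quotient.mk J)) hf
    choose y hy using fun i => hroot (q.map (Pi.evalRingHom (fun _ => V) i)) (hm.map _)
      (by rw [hm.natDegree_map, hq]; exact hd)
    refine ⟨Ideal.Quotient.mk J y, Polynomial.IsRoot.map (funext fun i => ?_)⟩
    exact (Polynomial.eval₂_at_apply (Pi.evalRingHom (fun _ => V) i) y).symm.trans
      ((Polynomial.eval_map _ _).symm.trans (hy i))

end Vale.Agent.P217
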