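import Vale.Agent.P217.Ev2
import Vale.Agent.P217.Good
import Vale.Agent.P217.Stab

/-! Frobenius descent of asymptotic vanishing. -/

namespace Vale.Agent.P217

open MvPowerSeries

/-- `κ` is the field of elements of `O` fixed by `y ↦ y ^ Q`. -/
structure KD (Q : ℕ) {κ O : Type} [Field κ] [CommRing O] (ι : κ →+* O) : Prop where
  fix : ∀ c : κ, c ^ Q = c
  sur : ∀ y : O, y ^ Q = y → ∃ c, ι c = y

variable {O : Type} [CommRing O] [IsDomain O] {σ : Type} [Finite σ]

theorem exists_KD (p : ℕ) [Fact p.Prime] [CharP O p] {h : ℕ} (hh : 1 ≤ h) :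
    ∃ (κ : Type) (_ : Field κ) (ι : κ →+* O), KD (p ^ h) ι := by
  have hp : p.Prime := Fact.out
  let κ : Subring O := RingHom.eqLocus (iterateFrobenius O p h) (RingHom.id O)
  have hmem : ∀ y : O, y ∈ κ ↔ y ^ p ^ h = y := fun y => by
    simp only [κ, RingHom.mem_eqLocus, iterateFrobenius_def, RingHom.id_apply]
  have hQ : 2 ≤ p ^ h := hp.two_le.trans (Nat.le_self_pow (by omega) p)
  have hF : IsField κ := ⟨exists_pair_ne κ, mul_comm, fun {a} ha => by
    obtain ⟨m, hm⟩ := Nat.exists_eq_add_of_le' hQ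
    refine ⟨a ^ m, Subtype.ext ?_⟩
    have h1 := (hmem a).mp a.2
    have h2 : (a : O) ≠ 0 := fun h => ha (Subtype.ext h)
    rw [hm] at h1
    refine mul_left_cancel₀ h2 ?_
    push_cast
    rw [mul_one]
    conv_rhs => rw [← h1]
    ring⟩
  let _ := hF.toField
  exact ⟨κ, hF.toField, κ.subtype, fun c => Subtype.ext ((hmem c).mp c.2),
    fun y hy => ⟨⟨y, (hmem y).mpr hy⟩, rfl⟩⟩

/-- Asymptotic vanishing of `G` along the points `lam ^ (Q ^ N)`. -/
def AV (Q : ℕ) (ϖ : O) (G : MvPowerSeries σ (FractionRing O)) (lam : σ → O) : Prop :=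
  ∀ T : ℕ, ∃ k : ℕ, ∀ N : ℕ, ∃ o : O,
    algebraMap O (FractionRing O) ϖ ^ k * ∑ d ∈ degLT σ T,
      coeff d G * d.prod (fun i e => algebraMap O (FractionRing O) (lam i ^ Q ^ N) ^ e) =
    algebraMap O (FractionRing O) (ϖ ^ (T * Q ^ N) * o)

variable {ϖ : O} [Good O ϖ]

theorem av_of_ev {Q : ℕ} (hQ : Q ≠ 0) {G : MvPowerSeries σ O} {lam : σ → O}
    (hl : ∀ i, lam i ∈ Ideal.span {ϖ})
    (h : ∀ N : ℕ, ev (RingHom.id O) (fun i => lam i ^ Q ^ N) G = 0) :
    AV Q ϖ (MvPowerSeries.map (algebraMap O (FractionRing O)) G) lam := by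
  intro T
  refine ⟨0, fun N => ?_⟩
  have h1 : ∀ i, lam i ^ Q ^ N ∈ Ideal.span {ϖ} ^ Q ^ N := fun i => Ideal.pow_mem_pow (hl i) _
  have h2 : Ok fun i => lam i ^ Q ^ N := Ok.of_rad (Ideal.span {ϖ}) fun i =>
    Ideal.le_radical (Ideal.pow_le_self (pow_ne_zero _ hQ) (h1 i))
  have h3 := ev_sub_sum_mem (RingHom.id O) h2 G T
  have h4 : Ideal.span (Set.range fun i => lam i ^ Q ^ N) ≤ Ideal.span {ϖ} ^ Q ^ N :=
    Ideal.span_le.mpr (by rintro _ ⟨i, rfl⟩; exact h1 i)
  have h5 := neg_mem (Ideal.pow_right_mono h4 T h3)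
  rw [h N, zero_sub, neg_neg, ← pow_mul, Ideal.span_singleton_pow, Ideal.mem_span_singleton] at h5
  obtain ⟨o, ho⟩ := h5
  refine ⟨o, ?_⟩
  rw [pow_zero, one_mul, mul_comm T, ← ho, map_sum]
  refine Finset.sum_congr rfl fun d _ => ?_
  simp only [coeff_map, RingHom.id_apply, map_mul, Finsupp.prod, map_prod, map_pow]

omit [IsDomain O] in
theorem DescAux.exists_pow_mul (ϖ : O) [Good O ϖ] [IsDomain O] (r : FractionRing O) :
    ∃ (m : ℕ) (x : O), algebraMap O (FractionRing O) ϖ ^ m * r = algebraMap O (FractionRing O) x := by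
  obtain ⟨x, y, hy, rfl⟩ := IsFractionRing.div_surjective (A := O) r
  obtain ⟨m, z, hz⟩ := Good.dvd (ϖ := ϖ) y (nonZeroDivisors.ne_zero hy)
  have hy' : algebraMap O (FractionRing O) y ≠ 0 :=
    (map_ne_zero_iff _ (IsFractionRing.injective O _)).mpr (nonZeroDivisors.ne_zero hy)
  refine ⟨m, z * x, ?_⟩
  rw [← map_pow, hz, map_mul, map_mul]
  field_simp

omit [IsDomain O] in
theorem DescAux.exists_of_fixed (ϖ : O) [Good O ϖ] [IsDomain O] {Q : ℕ} {κ : Type} [Field κ]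
    {ι : κ →+* O} (hκ : KD Q ι) {r : FractionRing O} (hr : r ^ Q = r) :
    ∃ c, algebraMap O (FractionRing O) (ι c) = r := by
  have hinj := IsFractionRing.injective O (FractionRing O)
  have key : ∀ x : O, algebraMap O (FractionRing O) x ^ Q = algebraMap O (FractionRing O) x →
      ∃ c, ι c = x := fun x hx => hκ.sur x (hinj (by rwa [map_pow]))
  obtain ⟨x, y, hy, rfl⟩ := IsFractionRing.div_surjective (A := O) r
  have hy' : algebraMap O (FractionRing O) y ≠ 0 :=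
    (map_ne_zero_iff _ hinj).mpr (nonZeroDivisors.ne_zero hy)
  rcases Good.val (ϖ := ϖ) x y with ⟨z, hz⟩ | ⟨z, hz⟩
  · have hx' : algebraMap O (FractionRing O) x ≠ 0 := fun h => hy' (by rw [hz, map_mul, h, zero_mul])
    have h1 : algebraMap O (FractionRing O) x / algebraMap O (FractionRing O) y =
        (algebraMap O (FractionRing O) z)⁻¹ := by
      rw [hz, map_mul, div_mul_cancel_left₀ hx']
    rw [h1] at hr ⊢
    obtain ⟨c, hc⟩ := key z (by rwa [inv_pow, inv_inj] at hr)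
    exact ⟨c⁻¹, by rw [← hc, ← RingHom.comp_apply, map_inv₀, RingHom.comp_apply]⟩
  · have h1 : algebraMap O (FractionRing O) x / algebraMap O (FractionRing O) y =
        algebraMap O (FractionRing O) z := by
      rw [hz, map_mul, mul_div_cancel_left₀ _ hy']
    rw [h1] at hr ⊢
    obtain ⟨c, hc⟩ := key z hr
    exact ⟨c, by rw [hc]⟩

theorem DescAux.core {p : ℕ} [Fact p.Prime] [CharP O p] {h : ℕ} (hh : 1 ≤ h) {κ : Type} [Field κ]
    {ι : κ →+* O} (hκ : KD (p ^ h) ι) (τ : FractionRing O →+ κ)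
    (hτ : ∀ x y, τ (algebraMap O (FractionRing O) (ι x) * y) = x * τ y)
    {D : Type} [Fintype D] (m : D → O) (c : D → FractionRing O) (T k : ℕ)
    (hc : ∀ N : ℕ, ∃ o : O, algebraMap O (FractionRing O) ϖ ^ k *
      ∑ d, c d * algebraMap O (FractionRing O) (m d) ^ (p ^ h) ^ N =
      algebraMap O (FractionRing O) (ϖ ^ ((T + 1) * (p ^ h) ^ N) * o)) :
    ∑ d, ι (τ (c d)) * m d ∈ Ideal.span {ϖ} ^ T := by
  have hp : p.Prime := Fact.out
  let L := FractionRing O
  let a : O →+* L := algebraMap O L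
  have ha : Function.Injective a := IsFractionRing.injective O L
  have : CharP L p := charP_of_injective_ringHom ha p
  let V : Submodule L (D → L) :=
    { carrier := {c | ∃ k N0 : ℕ, ∀ N, N0 ≤ N → ∃ o : O,
        a ϖ ^ k * ∑ d, c d * a (m d) ^ (p ^ h) ^ N = a (ϖ ^ ((T + 1) * (p ^ h) ^ N) * o)}
      add_mem' := by
        rintro c c' ⟨k, N0, h0⟩ ⟨k', N1, h1⟩
        refine ⟨k + k', N0 + N1, fun N hN => ?_⟩
        obtain ⟨o, ho⟩ := h0 N (by omega)
        obtain ⟨o', ho'⟩ := h1 N (by omega)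
        refine ⟨ϖ ^ k' * o + ϖ ^ k * o', ?_⟩
        simp only [Pi.add_apply, add_mul _ _ (a _ ^ _), Finset.sum_add_distrib, map_mul, map_add,
          map_pow] at ho ho' ⊢
        linear_combination a ϖ ^ k' * ho + a ϖ ^ k * ho'
      zero_mem' := ⟨0, 0, fun N _ => ⟨0, by simp⟩⟩
      smul_mem' := by
        rintro r c ⟨k, N0, h0⟩
        obtain ⟨e, x, hx⟩ := DescAux.exists_pow_mul ϖ r
        refine ⟨k + e, N0, fun N hN => ?_⟩
        obtain ⟨o, ho⟩ := h0 N hN
        refine ⟨x * o, ?_⟩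
        simp only [Pi.smul_apply, smul_eq_mul, mul_assoc r, ← Finset.mul_sum, map_mul,
          map_pow] at ho ⊢
        change a ϖ ^ e * r = a x at hx
        rw [← hx]
        linear_combination a ϖ ^ e * r * ho }
  have hV : ∀ c ∈ V, (fun d => iterateFrobenius L p h (c d)) ∈ V := by
    rintro c ⟨k, N0, h0⟩
    refine ⟨k * p ^ h, N0 + 1, fun N hN => ?_⟩
    obtain ⟨M, rfl⟩ : ∃ M, N = M + 1 := ⟨N - 1, by omega⟩
    obtain ⟨o, ho⟩ := h0 M (by omega)
    refine ⟨o ^ p ^ h, ?_⟩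
    have h1 := congrArg (iterateFrobenius L p h) ho
    rw [map_mul, map_sum] at h1
    simp only [map_mul, map_pow, iterateFrobenius_def, ← pow_mul] at h1 ⊢
    convert h1 using 3
    · rw [mul_comm]
    · congr 2
      ring
    · ring
  have hspan : ∀ c ∈ Submodule.span L {c | c ∈ V ∧ ∀ d, iterateFrobenius L p h (c d) = c d},
      ∀ r : L, (fun d => a (ι (τ (r * c d)))) ∈ V := by
    intro c hc
    induction hc using Submodule.span_induction with
    | mem c hc =>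
      intro r
      have h1 := V.smul_mem (a (ι (τ r))) hc.1
      convert h1 using 1
      funext d
      obtain ⟨x, hx⟩ := DescAux.exists_of_fixed ϖ hκ (hc.2 d)
      rw [Pi.smul_apply, smul_eq_mul, ← hx, mul_comm r, hτ, map_mul, map_mul, mul_comm]
    | zero =>
      intro r
      convert V.zero_mem using 1
      funext d
      simp
    | add c c' _ _ h1 h2 =>
      intro r
      convert V.add_mem (h1 r) (h2 r) using 1
      funext d
      simp only [Pi.add_apply, mul_add, map_add]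
    | smul s c _ h1 =>
      intro r
      simpa only [Pi.smul_apply, smul_eq_mul, mul_assoc] using h1 (r * s)
  obtain ⟨k', N0, h0⟩ := hspan c
    (stable_le_span (iterateFrobenius L p h) V hV ⟨k, 0, fun N _ => hc N⟩) 1
  set S := ∑ d, ι (τ (c d)) * m d with hS
  have hQ : 1 < p ^ h := Nat.one_lt_pow (by omega) hp.one_lt
  obtain ⟨o, ho⟩ := h0 (N0 + k') (by omega)
  have hfix : ∀ (x : κ) (N : ℕ), x ^ (p ^ h) ^ N = x := fun x N => by
    induction N with
    | zero => simp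
    | succ N ih => rw [pow_succ, pow_mul, ih, hκ.fix]
  have h1 : ϖ ^ k' * S ^ (p ^ h) ^ (N0 + k') = ϖ ^ ((T + 1) * (p ^ h) ^ (N0 + k')) * o := by
    apply ha
    rw [← ho, map_mul, map_pow, hS, ← pow_mul, sum_pow_char_pow, map_sum]
    congr 1
    refine Finset.sum_congr rfl fun d _ => ?_
    rw [mul_pow, ← map_pow ι, pow_mul, hfix, map_mul, map_pow]
    simp only [one_mul]
  rw [Ideal.span_singleton_pow, Ideal.mem_span_singleton]
  rcases Good.val (ϖ := ϖ) (ϖ ^ T) S with h2 | h2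
  · exact h2
  · exfalso
    have h3 : k' < (p ^ h) ^ (N0 + k') := lt_of_le_of_lt (by omega) (Nat.lt_pow_self hQ)
    have h4 : ϖ ^ ((T + 1) * (p ^ h) ^ (N0 + k')) ∣ ϖ ^ (k' + T * (p ^ h) ^ (N0 + k')) := by
      refine (Dvd.intro _ h1.symm).trans ?_
      rw [pow_add ϖ, pow_mul ϖ T]
      exact mul_dvd_mul_left _ (pow_dvd_pow_of_dvd h2 _)
    have h5 := (pow_dvd_pow_iff (Good.ne (ϖ := ϖ)) (Good.not_isUnit ϖ)).mp h4
    rw [add_mul, one_mul] at h5
    omega

theorem descent {p : ℕ} [Fact p.Prime] [CharP O p] {h : ℕ} (hh : 1 ≤ h) {κ : Type} [Field κ]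
    {ι : κ →+* O} (hκ : KD (p ^ h) ι) (G : MvPowerSeries σ (FractionRing O)) {d0 : σ →₀ ℕ}
    (hG : coeff d0 G ≠ 0) (Λ : Set (σ → O)) (hΛ : ∀ a ∈ Λ, ∀ i, a i ∈ Ideal.span {ϖ})
    (hAV : ∀ a ∈ Λ, AV (p ^ h) ϖ G a) :
    ∃ f : MvPowerSeries σ κ, coeff d0 f ≠ 0 ∧ ∀ a ∈ Λ, ev ι a f = 0 := by
  let L := FractionRing O
  let _ : Algebra κ L := ((algebraMap O L).comp ι).toAlgebra
  obtain ⟨τ, hτ⟩ : ∃ τ : Module.Dual κ L, τ (coeff d0 G) ≠ 0 := by
    by_contra h1
    exact hG ((Module.forall_dual_apply_eq_zero_iff κ _).mp fun τ => by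
      by_contra h2; exact h1 ⟨τ, h2⟩)
  obtain ⟨f, hf⟩ : ∃ f : MvPowerSeries σ κ, ∀ d, coeff d f = τ (coeff d G) :=
    ⟨fun d => τ (coeff d G), fun _ => rfl⟩
  refine ⟨f, by rwa [hf], fun a ha => eq_zero_of_mem_pow (Ideal.span {ϖ}) fun T => ?_⟩
  have h2 : Ok a := Ok.of_rad (Ideal.span {ϖ}) fun i => Ideal.le_radical (hΛ a ha i)
  have h3 := ev_sub_sum_mem ι h2 f (T + 1)
  have h4 : Ideal.span (Set.range a) ≤ Ideal.span {ϖ} :=
    Ideal.span_le.mpr (by rintro _ ⟨i, rfl⟩; exact hΛ a ha i)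
  have h5 := Ideal.pow_le_pow_right (Nat.le_succ T) (Ideal.pow_right_mono h4 (T + 1) h3)
  obtain ⟨k, hk⟩ := hAV a ha (T + 1)
  have h6 := DescAux.core (ϖ := ϖ) hh hκ τ.toAddMonoidHom
    (fun x y => by
      rw [LinearMap.toAddMonoidHom_coe, ← smul_eq_mul x, ← map_smul]
      rfl)
    (D := degLT σ (T + 1)) (fun d => d.1.prod fun i e => a i ^ e) (fun d => coeff d.1 G) T k
    fun N => by
      obtain ⟨o, ho⟩ := hk N
      refine ⟨o, ?_⟩
      rw [← ho, ← Finset.sum_coe_sort (degLT σ (T + 1))]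
      congr 1
      refine Finset.sum_congr rfl fun d _ => ?_
      congr 1
      simp only [Finsupp.prod, map_prod, map_pow, ← Finset.prod_pow, ← pow_mul, mul_comm]
  rw [← Finset.sum_coe_sort (degLT σ (T + 1))] at h5
  simp only [hf] at h5
  simpa using add_mem h5 h6

end Vale.Agent.P217
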