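import Vale.Agent.P217.GP
import Vale.Agent.P217.Ev3

/-! Torsion points. -/

namespace Vale.Agent.P217

open MvPowerSeries

variable {O : Type} [CommRing O]

/-- `s` is a family of compatible systems of `p`-power torsion points whose `p`-torsion points
are linearly independent over `F_p`. -/
structure TS (p : ℕ) [Fact p.Prime] (n : ℕ) (ϖ : O) [IsAdicComplete (Ideal.span {ϖ}) O]
    (x : ℕ → O) {m : ℕ} (s : Fin m → ℕ → O) : Prop where
  zero : ∀ i, s i 0 = 0
  mem : ∀ i r, s i r ∈ (Ideal.span {ϖ}).radical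
  succ : ∀ i r, fp p n x (s i (r + 1)) = s i r
  ind : ∀ c : Fin m → ℕ, ∑ i, c i • toPt p n (Ideal.span {ϖ}) x (s i 1) = 0 → ∀ i, p ∣ c i

variable {p : ℕ} [Fact p.Prime] [CharP O p] [IsDomain O] {ϖ : O} [Good O ϖ] {n h : ℕ}
  {x : ℕ → O}

omit [IsDomain O] in
theorem TorsAux.root_mem {N : Ideal O} {D : Polynomial O} (hD : D.Monic)
    (hco : ∀ i, i < D.natDegree → D.coeff i ∈ N) {y : O} (hy : D.IsRoot y) : y ∈ N.radical := by
  refine ⟨D.natDegree, ?_⟩
  have h1 := hy.eq_zero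
  rw [Polynomial.eval_eq_sum_range, Finset.sum_range_succ, hD.coeff_natDegree, one_mul,
    add_eq_zero_iff_neg_eq] at h1
  rw [← h1]
  exact neg_mem (sum_mem fun i hi => N.mul_mem_right _ (hco i (Finset.mem_range.mp hi)))

theorem TorsAux.exists_root (h : ℕ) {y : O} (hy : y ∈ (Ideal.span {ϖ}).radical) :
    ∃ s ∈ (Ideal.span {ϖ}).radical, s ^ p ^ h = y := by
  have := Good.perfectRing ϖ p
  obtain ⟨s, hs⟩ := (bijective_iterateFrobenius O p h).2 y
  rw [iterateFrobenius_def] at hs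
  exact ⟨s, Ideal.mem_radical_of_pow_mem (hs ▸ hy), hs⟩

theorem exists_fp_eq (hx : HP n h ϖ x) {c : O} (hc : c ∈ (Ideal.span {ϖ}).radical) :
    ∃ y ∈ (Ideal.span {ϖ}).radical, fp p n x y = c := by
  obtain ⟨π, hπ1, hπ2, hπ3⟩ : ∃ π : O, π ∣ ϖ ∧ π ∣ c ∧ π ∈ (Ideal.span {ϖ}).radical := by
    rcases Good.val (ϖ := ϖ) ϖ c with h1 | h1
    · exact ⟨ϖ, dvd_rfl, h1, Ideal.le_radical (Ideal.mem_span_singleton_self _)⟩
    · exact ⟨c, h1, dvd_rfl, hc⟩
  have hle : Ideal.span {ϖ} ≤ Ideal.span {π} := Ideal.span_singleton_le_span_singleton.mpr hπ1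
  have hrad : (Ideal.span {π}).radical ≤ (Ideal.span {ϖ}).radical :=
    Ideal.radical_le_radical_iff.mpr ((Ideal.span_singleton_le_iff_mem _).mpr hπ3)
  obtain ⟨k, hk⟩ := hπ3
  have : IsAdicComplete (Ideal.span {π}) O :=
    isAdicComplete_of_pow_le (Ideal.span {ϖ}) _ (a := 1) (b := k) (by rwa [pow_one])
      (by rwa [Ideal.span_singleton_pow, Ideal.span_singleton_le_iff_mem])
  have h1 : Pq p n h x - C c - PowerSeries.X ^ p ^ (n - h) ∈ cI Unit (Ideal.span {π}) := by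
    rw [sub_right_comm]
    exact sub_mem (cI_mono hle (Pq_sub_mem hx.hlt.le (fun j _ hj => hx.low j hj) hx.top))
      (C_mem_cI (Ideal.mem_span_singleton.mpr hπ2))
  obtain ⟨D, U, hD, hdeg, hco, -, hDU⟩ := exists_monic_factor π _ _ h1
  obtain ⟨y, hy⟩ := Good.root (ϖ := ϖ) D hD (by rw [hdeg]; exact pow_pos (Fact.out : p.Prime).pos _)
  have hyr := hrad (TorsAux.root_mem hD (hdeg ▸ hco) hy)
  obtain ⟨s, hs, hsy⟩ := TorsAux.exists_root (p := p) h hyr
  refine ⟨s, hs, ?_⟩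
  have hok := ok_one (Ideal.span {ϖ}) hyr
  have h2 := congrArg (ev1 (RingHom.id O) y) hDU
  rw [map_mul, ev1_coe_poly hok, hy.eq_zero, zero_mul, map_sub, ev_C _ hok, sub_eq_zero] at h2
  rw [fp_eq_Pq (Ideal.span {ϖ}) (CharP.cast_eq_zero O p) hx.hpos (fun j _ hj => hx.zero j hj) hs,
    hsy, h2, RingHom.id_apply]

theorem TorsAux.no_double (hx : HP n h ϖ x) {s : O} (hs : s ∈ (Ideal.span {ϖ}).radical)
    (hs0 : fp p n x s = 0) :
    ¬ ((PowerSeries.X - C (s ^ p ^ h) : PowerSeries O) ^ 2 ∣ Pq p n h x) := by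
  rintro ⟨g, hg⟩
  have : CharP (PowerSeries O) p :=
    charP_of_injective_ringHom (f := (C : O →+* PowerSeries O)) C_injective p
  let J : Ideal (PowerSeries O) := PI Unit (Ideal.span {ϖ})
  have hCs : (C s : PowerSeries O) ∈ J.radical := mem_PI_radical.mpr (by simpa using hs)
  have hX : (PowerSeries.X : PowerSeries O) ∈ J.radical :=
    mem_PI_radical_of_zero _ HomAux.const_X1
  let a : Pt p n J fun j => C (x j) := ⟨C s, hCs⟩
  let b : Pt p n J fun j => C (x j) := ⟨PowerSeries.X, hX⟩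
  have ha : p • a = 0 := Pt.ext (by
    rw [Pt.val_p_smul, ← map_fp (Ideal.span {ϖ}) x C J hs hCs, hs0, map_zero, Pt.val_zero])
  have h1 : (p • (a + b)).1 = (p • b).1 := by rw [smul_add, ha, zero_add]
  obtain ⟨w, hw⟩ := fadd_eq (p := p) (n := n) J (fun j => C (x j)) hCs hX
  have hab : (a + b).1 ^ p ^ h = C (s ^ p ^ h) + PowerSeries.X ^ p ^ h * (1 + C s * w) ^ p ^ h := by
    rw [Pt.val_add, hw, map_pow, ← mul_pow, ← add_pow_char_pow]
    congr 1
    ring
  have hok : Ok fun _ : Unit => (a + b).1 ^ p ^ h :=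
    ok_one J (Ideal.pow_mem_of_mem _ (a + b).2 _ (pow_pos (Fact.out : p.Prime).pos _))
  rw [Pt.val_p_smul, Pt.val_p_smul, fp_eq_Pq J (CharP.cast_eq_zero _ p) hx.hpos
    (fun j _ hj => by rw [hx.zero j hj, map_zero]) (a + b).2, ← map_Pq, ev_map _ _ hok,
    ← HomAux.pser_eq, pser_eq_expand (CharP.cast_eq_zero O p) hx.hpos
      (fun j _ hj => hx.zero j hj)] at h1
  have h2 := congrArg (coeff (p ^ h • Finsupp.single () 1)) h1
  rw [coeff_expand_smul] at h2
  have h3 : coeff (Finsupp.single () 1) (Pq p n h x) = x h := coeff_one_Pq hx.hlt.le x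
  rw [h3, hg, map_mul, map_pow, map_sub, ev1_X _ hok, ev_C _ hok, hab, RingHom.id_comp,
    add_sub_cancel_left, mul_pow, ← pow_mul, mul_assoc, Finsupp.smul_single, smul_eq_mul,
    mul_one] at h2
  refine hx.ne (h2.symm.trans ?_)
  refine (PowerSeries.coeff_X_pow_mul' _ _ _).trans (if_neg ?_)
  have := pow_pos (Fact.out : p.Prime).pos h
  omega

theorem exists_torsion_finset (hx : HP n h ϖ x) : ∃ Z : Finset O, Z.card = p ^ (n - h) ∧
    ∀ y ∈ Z, y ∈ (Ideal.span {ϖ}).radical ∧ fp p n x y = 0 := by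
  classical
  obtain ⟨D, U, hD, hdeg, hco, -, hDU⟩ := exists_monic_factor ϖ _ _
    (Pq_sub_mem (p := p) hx.hlt.le (fun j _ hj => hx.low j hj) hx.top)
  obtain ⟨S, hS⟩ := Good.splits ϖ D hD
  have hcard : S.card = p ^ (n - h) := by
    rw [← hdeg, hS, Polynomial.natDegree_multiset_prod_X_sub_C_eq_card]
  have hroot : ∀ y ∈ S, D.IsRoot y := fun y hy => by
    rw [← Polynomial.mem_roots hD.ne_zero, hS, Polynomial.roots_multiset_prod_X_sub_C]
    exact hy
  have hex : ∀ y ∈ S, ∃ s, s ∈ (Ideal.span {ϖ}).radical ∧ s ^ p ^ h = y ∧ fp p n x s = 0 := by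
    intro y hy
    have hyr := TorsAux.root_mem hD (hdeg ▸ hco) (hroot y hy)
    obtain ⟨s, hs, hsy⟩ := TorsAux.exists_root (p := p) h hyr
    refine ⟨s, hs, hsy, ?_⟩
    rw [fp_eq_Pq (Ideal.span {ϖ}) (CharP.cast_eq_zero O p) hx.hpos (fun j _ hj => hx.zero j hj) hs,
      hsy, hDU, map_mul, ev1_coe_poly (ok_one _ hyr), (hroot y hy).eq_zero, zero_mul]
  have hnd : S.Nodup := by
    rw [Multiset.nodup_iff_ne_cons_cons]
    rintro y T rfl
    obtain ⟨s, hs, hsy, hs0⟩ := hex y (Multiset.mem_cons_self _ _)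
    refine TorsAux.no_double hx hs hs0 ⟨((T.map fun y => Polynomial.X - Polynomial.C y).prod :
      Polynomial O) * U, ?_⟩
    rw [hDU, hS, hsy]
    simp only [Multiset.map_cons, Multiset.prod_cons, Polynomial.coe_mul, Polynomial.coe_sub,
      Polynomial.coe_X, Polynomial.coe_C]
    change _ = (PowerSeries.X - PowerSeries.C y) ^ 2 * _
    ring
  choose! t ht using hex
  refine ⟨S.toFinset.image t, ?_, fun y hy => ?_⟩
  · rw [Finset.card_image_of_injOn, Multiset.toFinset_card_of_nodup hnd, hcard]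
    intro a ha b hb hab
    rw [← (ht a (by simpa using ha)).2.1, ← (ht b (by simpa using hb)).2.1, hab]
  · obtain ⟨a, ha, rfl⟩ := Finset.mem_image.mp hy
    exact ⟨(ht a (by simpa using ha)).1, (ht a (by simpa using ha)).2.2⟩

theorem exists_indep {G : Type*} [AddCommGroup G] {m : ℕ} (Z : Finset G) (hZ : p ^ m ≤ Z.card)
    (h0 : ∀ y ∈ Z, p • y = 0) :
    ∃ t : Fin m → G, (∀ i, p • t i = 0) ∧ ∀ c : Fin m → ℕ, ∑ i, c i • t i = 0 → ∀ i, p ∣ c i := by
  classical
  have hp : p.Prime := Fact.out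
  induction m with
  | zero => exact ⟨Fin.elim0, fun i => i.elim0, fun _ _ i => i.elim0⟩
  | succ m ih =>
    have hlt : p ^ m < p ^ (m + 1) := Nat.pow_lt_pow_right hp.one_lt (Nat.lt_succ_self m)
    obtain ⟨t, ht0, ht⟩ := ih (hlt.le.trans hZ)
    obtain ⟨y, hy, hyS⟩ := Finset.exists_mem_notMem_of_card_lt_card (t := Z)
      (s := Finset.univ.image fun c : Fin m → Fin p => ∑ i, (c i : ℕ) • t i)
      (Finset.card_image_le.trans_lt (by simpa using hlt.trans_le hZ))
    refine ⟨Fin.cons y t, fun i => Fin.cases (h0 y hy) ht0 i, fun c hc => ?_⟩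
    rw [Fin.sum_univ_succ] at hc
    simp only [Fin.cons_zero, Fin.cons_succ] at hc
    have h1 : p ∣ c 0 := by
      by_contra h1
      obtain ⟨a, -, ha⟩ := Nat.exists_mul_mod_eq_one_of_coprime
        ((hp.coprime_iff_not_dvd.mpr h1).symm) hp.one_lt
      refine hyS (Finset.mem_image.mpr ⟨fun i => ⟨(p - 1) * a * c i.succ % p, Nat.mod_lt _ hp.pos⟩,
        Finset.mem_univ _, ?_⟩)
      have h2 : ∑ i, ((p - 1) * a * c i.succ % p) • t i = ((p - 1) * a) • ∑ i, c i.succ • t i := by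
        rw [Finset.smul_sum]
        exact Finset.sum_congr rfl fun i _ => by rw [← nsmul_eq_mod_nsmul _ (ht0 i), mul_smul]
      have h3 : (c 0 * a) • y = y := by rw [nsmul_eq_mod_nsmul _ (h0 y hy), ha, one_nsmul]
      have h4 : (p - 1) • y + y = 0 := by
        rw [← succ_nsmul, Nat.sub_add_cancel hp.one_le, h0 y hy]
      simp only
      rw [h2, eq_neg_of_add_eq_zero_right hc, smul_neg, ← mul_smul, mul_assoc, mul_comm a, mul_smul,
        h3, neg_eq_iff_add_eq_zero, h4]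
    obtain ⟨k, hk⟩ := h1
    rw [hk, mul_comm, mul_smul, h0 y hy, smul_zero, zero_add] at hc
    intro i
    exact Fin.cases ⟨k, hk⟩ (ht _ hc) i

theorem exists_TS (p : ℕ) [Fact p.Prime] [CharP O p] (hx : HP n h ϖ x) :
    ∃ s : Fin (n - h) → ℕ → O, TS p n ϖ x s := by
  classical
  obtain ⟨Z, hZ, hZ'⟩ := exists_torsion_finset (p := p) hx
  obtain ⟨t, ht0, ht⟩ := exists_indep (p := p) (m := n - h) (Z.image (toPt p n (Ideal.span {ϖ}) x))
    (by
      rw [Finset.card_image_of_injOn, hZ]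
      intro a ha b hb hab
      rw [← val_toPt (p := p) (n := n) (v := x) (hZ' a ha).1, hab, val_toPt (hZ' b hb).1])
    fun y hy => by
      obtain ⟨a, ha, rfl⟩ := Finset.mem_image.mp hy
      exact Pt.ext (by rw [Pt.val_p_smul, val_toPt (hZ' a ha).1, (hZ' a ha).2, Pt.val_zero])
  have hnx : ∀ c : Pt p n (Ideal.span {ϖ}) x, ∃ y : Pt p n (Ideal.span {ϖ}) x,
      fp p n x y.1 = c.1 := fun c => by
    obtain ⟨y, hy, h1⟩ := exists_fp_eq (p := p) hx c.2
    exact ⟨⟨y, hy⟩, h1⟩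
  choose nx hnx using hnx
  refine ⟨fun i r => Nat.casesOn r 0 fun r => (nx^[r] (t i)).1, fun _ => rfl, fun i r => ?_,
    fun i r => ?_, fun c hc => ht c ?_⟩
  · cases r with
    | zero => exact zero_mem _
    | succ r => exact (nx^[r] (t i)).2
  · cases r with
    | zero =>
      change fp p n x (t i).1 = 0
      rw [← Pt.val_p_smul, ht0, Pt.val_zero]
    | succ r =>
      change fp p n x (nx^[r + 1] (t i)).1 = (nx^[r] (t i)).1
      rw [Function.iterate_succ_apply', hnx]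
  · rw [← hc]
    exact Finset.sum_congr rfl fun i _ => congrArg _ (toPt_val (t i)).symm

end Vale.Agent.P217
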