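import Vale.Agent.P217.PerB
import Vale.Agent.P217.Desc
import Vale.Agent.P217.Tors

/-! Endomorphisms of the Honda group act linearly on periods; periods of torsion points. -/

namespace Vale.Agent.P217

open MvPowerSeries Filter Topology

namespace EndAux

theorem eq_zero_of_norm_le {B : Type} [NormedCommRing B] {b : B} {c : ℝ}
    (h : ∀ k : ℕ, ‖b‖ ≤ (1 / 2) ^ k * c) : b = 0 := by
  have h1 : Tendsto (fun k : ℕ => (1 / 2 : ℝ) ^ k * c) atTop (𝓝 (0 * c)) :=
    (tendsto_pow_atTop_nhds_zero_of_lt_one (by norm_num) (by norm_num)).mul_const c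
  rw [zero_mul] at h1
  exact norm_le_zero_iff.mp (ge_of_tendsto' h1 h)

theorem coeff_one_eq_zero {S : Type*} [CommRing S] {a b : PowerSeries S} (g : PowerSeries S)
    (ha : constantCoeff a = 0) (hb : constantCoeff b = 0) :
    PowerSeries.coeff 1 (a * b * g) = 0 := by
  have h2 : a * b * g ∈ PI Unit (⊥ : Ideal S) ^ 2 := by
    rw [pow_two]
    exact Ideal.mul_mem_right _ _ (Ideal.mul_mem_mul (mem_PI_bot.mpr ha) (mem_PI_bot.mpr hb))
  exact mem_PI_bot_pow.mp h2 (Finsupp.single () 1) (by simp)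

variable {p : ℕ} [Fact p.Prime] {h : ℕ}

/-- Splitting off the linear term of an endomorphism. -/
theorem split {κ : Type} [Field κ] (hp : (p : κ) = 0) (hh : 1 ≤ h) (hκ : ∀ c : κ, c ^ p ^ h = c)
    {e : PowerSeries κ} (he : IsHomS p h (eH κ h) h (eH κ h) e) :
    ∃ e', IsHomS p h (eH κ h) h (eH κ h) e' ∧
      e = fadd p h (fun l => C (eH κ h l)) (C (PowerSeries.coeff 1 e) * PowerSeries.X)
        (expand p (Fact.out : p.Prime).ne_zero e') := by
  have h1 := isHomS_eH hp hh (hκ (PowerSeries.coeff 1 e)) 0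
  rw [pow_zero, pow_one] at h1
  set a : PowerSeries κ := C (PowerSeries.coeff 1 e) * PowerSeries.X with ha
  have har := mem_PI_radical_of_zero (⊥ : Ideal κ) h1.const
  have her := mem_PI_radical_of_zero (⊥ : Ideal κ) he.const
  have hnr := mem_PI_radical_of_zero (⊥ : Ideal κ) h1.neg.const
  obtain ⟨e', he', hee⟩ := (h1.neg.add he).exists_expand hp (by
    obtain ⟨g, hg⟩ := fadd_eq (p := p) (n := h) (PI Unit ⊥) (fun l => C (eH κ h l)) hnr her
    obtain ⟨g', hg'⟩ := fneg_eq (p := p) (n := h) (PI Unit ⊥) (fun l => C (eH κ h l)) har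
    rw [hg, map_add, coeff_one_eq_zero _ h1.neg.const he.const, hg', pow_two, map_add, map_add,
      coeff_one_eq_zero _ h1.const h1.const, map_neg]
    change -PowerSeries.coeff 1 (PowerSeries.C _ * PowerSeries.X) + _ + _ + _ = 0
    simp)
  refine ⟨e', he', ?_⟩
  rw [← hee, ← fadd_assoc _ _ har hnr her, fadd_comm _ _ har hnr, fneg_fadd _ _ har,
    fadd_comm _ _ (zero_mem _) her, fadd_zero _ _ her]

end EndAux

open EndAux

variable {O : Type} [CommRing O] {B : Type} [NormedCommRing B]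
  {p : ℕ} [Fact p.Prime] [CharP O p] [IsDomain O] {ϖ : O} [Good O ϖ] {n h : ℕ} {x : ℕ → O}
  [PerfectRing O p] [CompleteSpace B] [IsUltrametricDist B] [PNorm p B]
  {j : WittVector p O →+* B} {φ : B →+* B} (P : Per p ϖ j φ)

include P

theorem Lam_end_one (hh : 1 ≤ h) {κ : Type} [Field κ] {ι : κ →+* O} (hκ : KD (p ^ h) ι)
    {e : PowerSeries κ} (he : IsHomS p h (eH κ h) h (eH κ h) e) :
    ∃ e', IsHomS p h (eH κ h) h (eH κ h) e' ∧ ∀ y : ℕ → O, AC (p ^ h) ϖ y →
      Lam p j (eH O h) (fun r => ev1 ι (y r) e) =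
        j (WittVector.teichmuller p (ι (PowerSeries.coeff 1 e))) * Lam p j (eH O h) y +
          Lam p j (eH O h) (fun r => ev1 ι (y r ^ p) e') := by
  have hp : (p : κ) = 0 := ι.injective (by rw [map_natCast, CharP.cast_eq_zero, map_zero])
  obtain ⟨e', he', hee⟩ := split hp hh hκ.fix he
  refine ⟨e', he', fun y hy => ?_⟩
  have hg := gp_eH hh ϖ
  have hE : (fun l => ι (eH κ h l)) = eH O h := map_eH ι h
  have ha : ι (PowerSeries.coeff 1 e) ^ p ^ h = ι (PowerSeries.coeff 1 e) := by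
    rw [← map_pow, hκ.fix]
  have h1 := hy.mul_pow ha one_ne_zero
  have h2 : AC (p ^ h) ϖ fun r => y r ^ p := by
    simpa using hy.mul_pow (one_pow _) (Fact.out : p.Prime).ne_zero
  have h3 := AC.hom ι (hE ▸ hg) (hE ▸ hg) he' h2
  have h4 := Lam_eH_mul P hh ha 0 hy
  simp only [pow_zero, Function.iterate_zero, id] at h4
  rw [← h4, ← Lam_fadd P hg h1 h3]
  congr 1; funext r
  have hok := ok_one _ (hy.mem r)
  have hc : constantCoeff (C (PowerSeries.coeff 1 e) * PowerSeries.X : PowerSeries κ) = 0 := by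
    rw [map_mul, show constantCoeff (PowerSeries.X : PowerSeries κ) = 0 from constantCoeff_X (),
      mul_zero]
  have hc' : constantCoeff (expand p (Fact.out : p.Prime).ne_zero e') = 0 := by
    rw [constantCoeff_expand, he'.const]
  conv_lhs => rw [hee]
  rw [map_fadd (PI Unit ⊥) _ (ev1 ι (y r)) (Ideal.span {ϖ}) (mem_PI_radical_of_zero _ hc)
    (mem_PI_radical_of_zero _ hc') (ev_mem _ hok (fun _ => hy.mem r) hc)
    (ev_mem _ hok (fun _ => hy.mem r) hc'), ev_expand ι _ (fun _ => hy.mem r), map_mul,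
    ev1_X _ hok, pow_one]
  simp only [ev_C _ hok, hE]

theorem Lam_end_fin (hh : 1 ≤ h) {κ : Type} [Field κ] {ι : κ →+* O} (hκ : KD (p ^ h) ι)
    {e : PowerSeries κ} (he : IsHomS p h (eH κ h) h (eH κ h) e) (u : ℕ) :
    ∃ (a : ℕ → O) (e' : PowerSeries κ), a 0 = ι (PowerSeries.coeff 1 e) ∧
      IsHomS p h (eH κ h) h (eH κ h) e' ∧ ∀ y : ℕ → O, AC (p ^ h) ϖ y →
      Lam p j (eH O h) (fun r => ev1 ι (y r) e) =
        ∑ i ∈ Finset.range (u + 1), j (WittVector.teichmuller p (a i)) * φ^[i] (Lam p j (eH O h) y) +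
          Lam p j (eH O h) (fun r => ev1 ι (y r ^ p ^ (u + 1)) e') := by
  induction u with
  | zero =>
    obtain ⟨e', he', H⟩ := Lam_end_one P hh hκ he
    exact ⟨fun _ => ι (PowerSeries.coeff 1 e), e', rfl, he', fun y hy => by simpa using H y hy⟩
  | succ u ih =>
    obtain ⟨a, e1, ha, he1, H1⟩ := ih
    obtain ⟨e', he', H⟩ := Lam_end_one P hh hκ he1
    refine ⟨fun i => if i = u + 1 then ι (PowerSeries.coeff 1 e1) else a i, e', by simpa using ha,
      he', fun y hy => ?_⟩
    have h2 : AC (p ^ h) ϖ fun r => y r ^ p ^ (u + 1) := by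
      simpa using hy.mul_pow (one_pow _) (pow_ne_zero (u + 1) (Fact.out : p.Prime).ne_zero)
    have h3 := Lam_eH_mul P hh (one_pow _) (u + 1) hy
    simp only [one_mul, map_one] at h3
    rw [H1 y hy, H _ h2, h3, Finset.sum_range_succ _ (u + 1), add_assoc]
    congr 1
    · refine Finset.sum_congr rfl fun i hi => ?_
      simp only [if_neg (Finset.mem_range.mp hi).ne]
    · simp only [← pow_mul, ← pow_succ, if_true]

theorem Lam_end_step (hh : 1 ≤ h) {κ : Type} [Field κ] {ι : κ →+* O} (hκ : KD (p ^ h) ι)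
    {e : PowerSeries κ} (he : IsHomS p h (eH κ h) h (eH κ h) e) :
    ∃ (a : ℕ → O) (e' : PowerSeries κ), a 0 = ι (PowerSeries.coeff 1 e) ∧
      IsHomS p h (eH κ h) h (eH κ h) e' ∧ ∀ y : ℕ → O, AC (p ^ h) ϖ y →
      Lam p j (eH O h) (fun r => ev1 ι (y r) e) =
        ∑ i ∈ Finset.range h, j (WittVector.teichmuller p (a i)) * φ^[i] (Lam p j (eH O h) y) +
          p * Lam p j (eH O h) (fun r => ev1 ι (y r) e') := by
  obtain ⟨a, e', ha, he', H⟩ := Lam_end_fin P hh hκ he (h - 1)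
  refine ⟨a, e', ha, he', fun y hy => ?_⟩
  have hp0 : (p : O) = 0 := CharP.cast_eq_zero O p
  have hg := gp_eH hh ϖ
  have hE : (fun l => ι (eH κ h l)) = eH O h := map_eH ι h
  have h1 := AC.hom ι (hE ▸ hg) (hE ▸ hg) he' hy
  have h3 := Lam_eH_mul P hh (one_pow _) h h1
  simp only [one_mul, map_one] at h3
  rw [H y hy, Nat.sub_add_cancel hh, ← Lam_eH_phi P hh h1, ← h3]
  congr 2; funext r
  have := he'.ev_fp ι _ (hy.mem r)
  rwa [hE, fp_eH _ hp0 hh (hy.mem r), fp_eH _ hp0 hh (h1.mem r)] at this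

theorem Lam_end (hh : 1 ≤ h) {κ : Type} [Field κ] {ι : κ →+* O} (hκ : KD (p ^ h) ι)
    {e : PowerSeries κ} (he : IsHomS p h (eH κ h) h (eH κ h) e) :
    ∃ c : ℕ → WittVector p O, WittVector.constantCoeff (c 0) = ι (PowerSeries.coeff 1 e) ∧
      ∀ y : ℕ → O, AC (p ^ h) ϖ y →
        Lam p j (eH O h) (fun r => ev1 ι (y r) e) =
          ∑ i ∈ Finset.range h, j (c i) * φ^[i] (Lam p j (eH O h) y) := by
  choose! a nx ha hnx H using fun (e : PowerSeries κ) (he : IsHomS p h (eH κ h) h (eH κ h) e) =>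
    Lam_end_step P hh hκ he
  have hE : ∀ M, IsHomS p h (eH κ h) h (eH κ h) (nx^[M] e) := fun M => by
    induction M with
    | zero => exact he
    | succ M ih => rw [Function.iterate_succ_apply']; exact hnx _ ih
  let c : ℕ → ℕ → WittVector p O := fun i M =>
    ∑ k ∈ Finset.range M, (p : WittVector p O) ^ k * WittVector.teichmuller p (a (nx^[k] e) i)
  have hlim : ∀ i, ∃ L, ∀ M, L - c i M ∈ Ideal.span {(p : WittVector p O)} ^ M := fun i =>
    exists_lim _ (c i) fun M => by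
      simp only [c, Finset.sum_range_succ, add_sub_cancel_left, Ideal.span_singleton_pow]
      exact Ideal.mul_mem_right _ _ (Ideal.mem_span_singleton_self _)
  choose L hL using hlim
  refine ⟨L, ?_, fun y hy => ?_⟩
  · have := hL 0 1
    rw [pow_one, sub_mem_p_iff] at this
    rw [this, ← ha e he]
    simp [c]
  have h1 : ∀ M, Lam p j (eH O h) (fun r => ev1 ι (y r) e) =
      ∑ i ∈ Finset.range h, j (c i M) * φ^[i] (Lam p j (eH O h) y) +
        (p : B) ^ M * Lam p j (eH O h) (fun r => ev1 ι (y r) (nx^[M] e)) := fun M => by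
    induction M with
    | zero => simp [c]
    | succ M ih =>
      rw [ih, H _ (hE M) y hy, Function.iterate_succ_apply']
      simp only [c, Finset.sum_range_succ, map_add, add_mul, Finset.sum_add_distrib, map_mul,
        map_pow, map_natCast, mul_add, Finset.mul_sum, mul_assoc, pow_succ, add_assoc]
  rw [← sub_eq_zero]
  refine eq_zero_of_norm_le (c := 1 / 2 + ∑ i ∈ Finset.range h, ‖φ^[i] (Lam p j (eH O h) y)‖)
    fun M => ?_
  have h2 : ∀ i, ∃ w, L i = c i M + (p : WittVector p O) ^ M * w := fun i => by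
    have := hL i M
    rw [Ideal.span_singleton_pow, Ideal.mem_span_singleton'] at this
    obtain ⟨w, hw⟩ := this
    exact ⟨w, by rw [mul_comm, hw]; ring⟩
  choose w hw using h2
  have h3 : Lam p j (eH O h) (fun r => ev1 ι (y r) e) -
      ∑ i ∈ Finset.range h, j (L i) * φ^[i] (Lam p j (eH O h) y) =
      (p : B) ^ M * (Lam p j (eH O h) (fun r => ev1 ι (y r) (nx^[M] e)) -
        ∑ i ∈ Finset.range h, j (w i) * φ^[i] (Lam p j (eH O h) y)) := by
    rw [h1 M]
    simp only [hw, map_add, map_mul, map_pow, map_natCast, add_mul, Finset.sum_add_distrib,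
      mul_sub, Finset.mul_sum, mul_assoc]
    ring
  have hg := gp_eH hh ϖ
  have hE' : (fun l => ι (eH κ h l)) = eH O h := map_eH ι h
  rw [h3, norm_p_pow_mul]
  refine mul_le_mul_of_nonneg_left ((norm_sub_le _ _).trans (add_le_add
    (norm_Lam_le P hg (AC.hom ι (hE' ▸ hg) (hE' ▸ hg) (hE M) hy)) ((norm_sum_le _ _).trans
      (Finset.sum_le_sum fun i _ => (norm_mul_le _ _).trans ?_)))) (by positivity)
  exact mul_le_of_le_one_left (norm_nonneg _) (P.norm_le_one _)

omit P [PerfectRing O p] in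
theorem TS.ac (hx : GP n ϖ x) {m : ℕ} {s : Fin m → ℕ → O} (hs : TS p n ϖ x s) (i : Fin m) :
    AC (p ^ n) ϖ (s i) := by
  refine ⟨by rw [hs.zero]; exact zero_mem _, fun r => ?_⟩
  have := fp_sub_pow_mem _ hx.pos (hx.ltp (CharP.cast_eq_zero O p ▸ zero_mem _)) (hs.mem i (r + 1))
  rw [hs.succ] at this
  simpa using neg_mem this

theorem exists_beta_one (hx : GP n ϖ x) {s : ℕ → O} (hac : AC (p ^ n) ϖ s) (h0 : s 0 = 0)
    (hs : ∀ r, fp p n x (s (r + 1)) = s r) :
    ∃ β b : WittVector p O, Lam p j x s = p * j β ∧ lT p j x (s 1) = j b ∧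
      WittVector.constantCoeff β = WittVector.constantCoeff b := by
  choose ρ hρ using fun r => lT_fp P hx.supp (hac.mem (r + 1))
  simp only [hs] at hρ
  let b : ℕ → WittVector p O := fun r => ∑ k ∈ Finset.range r, (p : WittVector p O) ^ k * -ρ k
  have h1 : ∀ r, (p : B) ^ r * lT p j x (s r) = p * j (b r) := fun r => by
    induction r with
    | zero => simp [b, h0, lT_zero P]
    | succ r ih =>
      simp only [b, Finset.sum_range_succ, map_add, map_mul, map_pow, map_natCast, map_neg] at ih ⊢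
      rw [mul_add, ← ih]
      linear_combination (-(p : B) ^ r) * hρ r
  obtain ⟨β, hβ⟩ := exists_lim (Ideal.span {(p : WittVector p O)}) b fun M => by
    simp only [b, Finset.sum_range_succ, add_sub_cancel_left, Ideal.span_singleton_pow]
    exact Ideal.mul_mem_right _ _ (Ideal.mem_span_singleton_self _)
  refine ⟨β, b 1, tendsto_nhds_unique (tendsto_Lam P hx hac) ?_, ?_, ?_⟩
  · simp only [h1]
    refine Tendsto.const_mul _ (tendsto_iff_norm_sub_tendsto_zero.mpr (squeeze_zero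
      (fun _ => norm_nonneg _) (fun r => ?_)
      (tendsto_pow_atTop_nhds_zero_of_lt_one (r := (1 / 2 : ℝ)) (by norm_num) (by norm_num))))
    rw [norm_sub_rev, ← map_sub]
    exact P.norm_le r _ (Ideal.pow_right_mono (Ideal.span_mono (by simp)) r (hβ r))
  · rw [← sub_eq_zero]
    refine eq_zero_of_p_pow_mul (p := p) (k := 1) ?_
    rw [mul_sub, h1 1, pow_one, sub_self]
  · have := hβ 1
    rwa [pow_one, sub_mem_p_iff] at this

theorem TS.exists_beta (hx : GP n ϖ x) {m : ℕ} {s : Fin m → ℕ → O} (hs : TS p n ϖ x s) :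
    ∃ β : Fin m → WittVector p O, (∀ i, Lam p j x (s i) = p * j (β i)) ∧
      ∀ c : Fin m → ℕ, ∑ i, (c i : O) * WittVector.constantCoeff (β i) = 0 → ∀ i, p ∣ c i := by
  choose β b hβ hb hβb using fun i => exists_beta_one P hx (hs.ac hx i) (hs.zero i) (hs.succ i)
  refine ⟨β, hβ, fun c hc => hs.ind c (Pt.ext ?_)⟩
  let A : AddSubgroup B := ((AddMonoidHom.mulLeft (p : B)).comp j.toAddMonoidHom).range
  let F : Pt p n (Ideal.span {ϖ}) x →+ B ⧸ A := AddMonoidHom.mk'
    (fun a => QuotientAddGroup.mk (lT p j x a.1)) fun a a' => by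
      obtain ⟨r, hr⟩ := lT_fadd P hx.supp a.2 a'.2
      rw [← QuotientAddGroup.mk_add, QuotientAddGroup.eq_iff_sub_mem, Pt.val_add]
      exact ⟨r, by rw [← sub_sub, hr]; rfl⟩
  have h1 : F (∑ i, c i • toPt p n (Ideal.span {ϖ}) x (s i 1)) =
      QuotientAddGroup.mk (j (∑ i, (c i : WittVector p O) * b i)) := by
    rw [map_sum, map_sum, QuotientAddGroup.mk_sum]
    refine Finset.sum_congr rfl fun i _ => ?_
    rw [map_nsmul, map_mul, map_natCast, ← nsmul_eq_mul, QuotientAddGroup.mk_nsmul, ← hb,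
      ← val_toPt (p := p) (n := n) (v := x) (hs.mem i 1)]
    rw [toPt_val]; rfl
  have h2 : ∑ i, (c i : WittVector p O) * b i - 0 ∈ Ideal.span {(p : WittVector p O)} := by
    rw [sub_mem_p_iff, map_zero, ← hc]
    simp only [map_sum, map_mul, map_natCast, hβb]
  rw [sub_zero, Ideal.mem_span_singleton'] at h2
  obtain ⟨w, hw⟩ := h2
  obtain ⟨r, hr⟩ := QuotientAddGroup.eq_iff_sub_mem.mp h1
  refine eq_zero_of_lT P x (Pt.mem _) (r := r + w) ?_
  have hr' : (p : B) * j r = lT p j x (∑ i, c i • toPt p n (Ideal.span {ϖ}) x (s i 1)).1 -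
    j (∑ i, (c i : WittVector p O) * b i) := hr
  rw [map_add, mul_add, hr', ← hw, map_mul, map_natCast]
  ring

end Vale.Agent.P217
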