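import Vale.Agent.P217.Lim

/-! Evaluation of power series at topologically nilpotent points. -/

namespace Vale.Agent.P217

open MvPowerSeries

variable {R S T : Type*} [CommRing R] [CommRing S] [CommRing T] {σ τ : Type*}

/-- Series whose constant coefficient lies in `I`. -/
noncomputable def PI (σ : Type*) (I : Ideal R) : Ideal (MvPowerSeries σ R) := I.comap constantCoeff

/-- Series all of whose coefficients lie in `N`. -/
noncomputable def cI (σ : Type*) (N : Ideal R) : Ideal (MvPowerSeries σ R) :=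
  RingHom.ker (MvPowerSeries.map (σ := σ) (Ideal.Quotient.mk N))

theorem mem_PI {I : Ideal R} {f : MvPowerSeries σ R} : f ∈ PI σ I ↔ constantCoeff f ∈ I :=
  Iff.rfl

theorem mem_PI_radical {I : Ideal R} {f : MvPowerSeries σ R} :
    f ∈ (PI σ I).radical ↔ constantCoeff f ∈ I.radical := by
  rw [PI, ← Ideal.comap_radical]; rfl

theorem mem_PI_of_zero (I : Ideal R) {f : MvPowerSeries σ R} (h : constantCoeff f = 0) :
    f ∈ PI σ I := by
  rw [mem_PI, h]; exact zero_mem _

theorem mem_PI_radical_of_zero (I : Ideal R) {f : MvPowerSeries σ R} (h : constantCoeff f = 0) :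
    f ∈ (PI σ I).radical := Ideal.le_radical (mem_PI_of_zero I h)

theorem mem_PI_bot {f : MvPowerSeries σ R} : f ∈ PI σ (⊥ : Ideal R) ↔ constantCoeff f = 0 := by
  rw [mem_PI, Ideal.mem_bot]

theorem mem_cI {N : Ideal R} {f : MvPowerSeries σ R} : f ∈ cI σ N ↔ ∀ d, coeff d f ∈ N := by
  simp only [cI, RingHom.mem_ker, MvPowerSeries.ext_iff, coeff_map, map_zero,
    Ideal.Quotient.eq_zero_iff_mem]

namespace EvAux

theorem prod_mem_pow {J : Ideal S} {a : σ → S} (ha : ∀ i, a i ∈ J) (d : σ →₀ ℕ) :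
    d.prod (fun i e => a i ^ e) ∈ J ^ d.degree := by
  rw [Finsupp.degree_apply, ← Finset.prod_pow_eq_pow_sum, Finsupp.prod]
  exact Ideal.prod_mem_prod fun i _ => Ideal.pow_mem_pow (ha i) _

theorem coeff_mul_mem {I : Ideal R} {f g : MvPowerSeries σ R} {k l : ℕ}
    (hf : ∀ d : σ →₀ ℕ, coeff d f ∈ I ^ (k - d.degree))
    (hg : ∀ d : σ →₀ ℕ, coeff d g ∈ I ^ (l - d.degree)) (d : σ →₀ ℕ) :
    coeff d (f * g) ∈ I ^ (k + l - d.degree) := by
  classical
  rw [coeff_mul]
  refine sum_mem fun x hx => ?_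
  have h1 := Ideal.mul_mem_mul (hf x.1) (hg x.2)
  rw [← pow_add] at h1
  refine I.pow_le_pow_right ?_ h1
  rw [← Finset.HasAntidiagonal.mem_antidiagonal.mp hx, map_add]
  omega

theorem coeff_mem_of_mem_pow {I : Ideal R} {k : ℕ} :
    ∀ f ∈ PI σ I ^ k, ∀ d : σ →₀ ℕ, coeff d f ∈ I ^ (k - d.degree) := by
  induction k with
  | zero => intro f _ d; simp
  | succ k ih =>
    intro f hf
    rw [pow_succ] at hf
    refine Submodule.mul_induction_on hf (fun g hg h hh => coeff_mul_mem (ih g hg) fun d => ?_)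
      fun g h hg hh d => by rw [map_add]; exact add_mem (hg d) (hh d)
    by_cases hd : d = 0
    · subst hd
      simpa using mem_PI.mp hh
    · have : d.degree ≠ 0 := fun h => hd ((Finsupp.degree_eq_zero_iff d).mp h)
      rw [show 1 - d.degree = 0 by omega]
      simp

theorem span_X_le (I : Ideal R) :
    Ideal.span (Set.range (X : σ → MvPowerSeries σ R)) ≤ PI σ I :=
  Ideal.span_le.mpr (by rintro _ ⟨i, rfl⟩; exact mem_PI_of_zero I (by simp))

theorem monomial_one_mem (d : σ →₀ ℕ) :
    (monomial d 1 : MvPowerSeries σ R) ∈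
      Ideal.span (Set.range (X : σ → MvPowerSeries σ R)) ^ d.degree := by
  rw [monomial_one_eq]
  exact prod_mem_pow (fun i => Ideal.subset_span (Set.mem_range_self i)) d

theorem exists_pow_le [Finite σ] {I : Ideal S} {a : σ → S} (ha : ∀ i, a i ∈ I.radical) :
    ∃ N, ∀ k, Ideal.span (Set.range a) ^ (N * k) ≤ I ^ k := by
  obtain ⟨N, hN⟩ := Ideal.exists_pow_le_of_le_radical_of_fg (I := Ideal.span (Set.range a))
    (J := I) (Ideal.span_le.mpr (by rintro _ ⟨i, rfl⟩; exact ha i))
    (Submodule.fg_span (Set.finite_range _))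
  exact ⟨N, fun k => by rw [pow_mul]; exact Ideal.pow_right_mono hN k⟩

end EvAux

theorem mem_span_X_pow [Finite σ] {f : MvPowerSeries σ R} {k : ℕ} :
    f ∈ Ideal.span (Set.range (X : σ → MvPowerSeries σ R)) ^ k ↔
      ∀ d : σ →₀ ℕ, d.degree < k → coeff d f = 0 := by
  classical
  constructor
  · intro hf d hd
    have := EvAux.coeff_mem_of_mem_pow f (Ideal.pow_right_mono (EvAux.span_X_le ⊥) k hf) d
    rwa [Ideal.bot_pow (by omega), Ideal.mem_bot] at this
  · intro hf
    have h1 : ∀ d : σ →₀ ℕ, ∃ e : σ →₀ ℕ, k ≤ d.degree → e ≤ d ∧ e.degree = k := fun d => by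
      by_cases hd : k ≤ d.degree
      · obtain ⟨e, he⟩ := Finsupp.exists_le_degree_eq d k hd
        exact ⟨e, fun _ => he⟩
      · exact ⟨0, fun h => (hd h).elim⟩
    choose ε hε using h1
    let E : Finset (σ →₀ ℕ) :=
      (Finsupp.finite_of_degree_lt (k + 1)).toFinset.filter fun e => e.degree = k
    let g : (σ →₀ ℕ) → MvPowerSeries σ R := fun e d =>
      if ε (e + d) = e then coeff (e + d) f else 0
    have hg : ∀ e d, coeff d (g e) = if ε (e + d) = e then coeff (e + d) f else 0 :=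
      fun _ _ => rfl
    have e1 : f = ∑ e ∈ E, monomial e 1 * g e := by
      ext d
      simp only [map_sum, coeff_monomial_mul, one_mul, hg]
      by_cases hd : k ≤ d.degree
      · obtain ⟨h2, h3⟩ := hε d hd
        rw [Finset.sum_eq_single (ε d)]
        · rw [if_pos h2, add_tsub_cancel_of_le h2, if_pos rfl]
        · intro e _ hne
          split_ifs with h4 h5
          · rw [add_tsub_cancel_of_le h4] at h5
            exact (hne h5.symm).elim
          · rfl
          · rfl
        · intro h4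
          refine (h4 ?_).elim
          simp [E, h3]
      · rw [hf d (by omega)]
        refine (Finset.sum_eq_zero fun e _ => ?_).symm
        split_ifs with h4 h5
        · rw [add_tsub_cancel_of_le h4, hf d (by omega)]
        · rfl
        · rfl
    rw [e1]
    refine sum_mem fun e he => Ideal.mul_mem_right _ _ ?_
    rw [← (Finset.mem_filter.mp he).2]
    exact EvAux.monomial_one_mem e

theorem PI_bot [Finite σ] :
    PI σ (⊥ : Ideal R) = Ideal.span (Set.range (X : σ → MvPowerSeries σ R)) := by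
  refine le_antisymm (fun f hf => ?_) (EvAux.span_X_le ⊥)
  rw [← pow_one (Ideal.span _), mem_span_X_pow]
  intro d hd
  rw [(Finsupp.degree_eq_zero_iff d).mp (by omega), coeff_zero_eq_constantCoeff_apply]
  exact mem_PI_bot.mp hf

theorem mem_PI_bot_pow [Finite σ] {f : MvPowerSeries σ R} {k : ℕ} :
    f ∈ PI σ (⊥ : Ideal R) ^ k ↔ ∀ d : σ →₀ ℕ, d.degree < k → coeff d f = 0 := by
  rw [PI_bot, mem_span_X_pow]

theorem EvAux.sub_sum_mem [Finite σ] (f : MvPowerSeries σ R) (k : ℕ) :
    f - ∑ d ∈ (Finsupp.finite_of_degree_lt (σ := σ) k).toFinset, monomial d (coeff d f) ∈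
      Ideal.span (Set.range (X : σ → MvPowerSeries σ R)) ^ k := by
  classical
  refine mem_span_X_pow.mpr fun d hd => ?_
  rw [map_sub, map_sum, Finset.sum_eq_single d, coeff_monomial_same, sub_self]
  · intro e _ hne
    exact coeff_monomial_ne hne.symm _
  · intro h
    exact (h (by simpa using hd)).elim

theorem mem_PI_pow [Finite σ] {I : Ideal R} {f : MvPowerSeries σ R} {k : ℕ} :
    f ∈ PI σ I ^ k ↔ ∀ d : σ →₀ ℕ, coeff d f ∈ I ^ (k - d.degree) := by
  refine ⟨EvAux.coeff_mem_of_mem_pow f, fun hf => ?_⟩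
  have h1 := Ideal.pow_right_mono (EvAux.span_X_le I) k (EvAux.sub_sum_mem f k)
  rw [← sub_add_cancel f
    (∑ d ∈ (Finsupp.finite_of_degree_lt (σ := σ) k).toFinset, monomial d (coeff d f))]
  refine add_mem h1 (sum_mem fun d hd => ?_)
  have hd' : d.degree < k := by simpa using hd
  have h2 : (monomial d 1 : MvPowerSeries σ R) ∈ PI σ I ^ d.degree :=
    Ideal.pow_right_mono (EvAux.span_X_le I) _ (EvAux.monomial_one_mem d)
  have h3 : (C (coeff d f) : MvPowerSeries σ R) ∈ PI σ I ^ (k - d.degree) := by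
    have h4 : I.map (C : R →+* MvPowerSeries σ R) ≤ PI σ I :=
      Ideal.map_le_iff_le_comap.mpr fun r hr => by simpa [mem_PI] using hr
    refine Ideal.pow_right_mono h4 _ ?_
    rw [← Ideal.map_pow]
    exact Ideal.mem_map_of_mem _ (hf d)
  have h5 := Ideal.mul_mem_mul h3 h2
  rw [← pow_add, Nat.sub_add_cancel hd'.le, ← monomial_zero_eq_C_apply, monomial_mul_monomial,
    zero_add, mul_one] at h5
  exact h5

instance isAdicComplete_PI [Finite σ] (I : Ideal R) [IsAdicComplete I R] :
    IsAdicComplete (PI σ I) (MvPowerSeries σ R) := by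
  refine isAdicComplete_of _ (fun f hf => ?_) fun x hx => ?_
  · ext d
    refine eq_zero_of_mem_pow I fun k => ?_
    simpa using mem_PI_pow.mp (hf (k + d.degree)) d
  · have h1 : ∀ d : σ →₀ ℕ, ∃ L, ∀ k, L - coeff d (x (k + d.degree)) ∈ I ^ k := fun d =>
      exists_lim I (fun k => coeff d (x (k + d.degree))) fun k => by
        have := mem_PI_pow.mp (hx (k + d.degree)) d
        rw [map_sub, Nat.add_sub_cancel] at this
        rwa [Nat.add_right_comm]
    choose L hL using h1
    refine ⟨L, fun k => mem_PI_pow.mpr fun d => ?_⟩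
    by_cases hk : k ≤ d.degree
    · simp [Nat.sub_eq_zero_of_le hk]
    · have := hL d (k - d.degree)
      rw [Nat.sub_add_cancel (by omega)] at this
      exact this

/-- A family of points that can be substituted into power series. -/
def Ok (a : σ → S) : Prop := ∃ I : Ideal S, IsAdicComplete I S ∧ ∀ i, a i ∈ I.radical

theorem Ok.of_rad (I : Ideal S) [IsAdicComplete I S] {a : σ → S} (ha : ∀ i, a i ∈ I.radical) :
    Ok a := ⟨I, inferInstance, ha⟩

theorem Ok.of_const [Finite τ] {a : σ → MvPowerSeries τ S} (ha : ∀ i, constantCoeff (a i) = 0) :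
    Ok a := Ok.of_rad (PI τ ⊥) fun i => mem_PI_radical_of_zero _ (ha i)

theorem Ok.X [Finite σ] : Ok (X : σ → MvPowerSeries σ S) := Ok.of_const fun i => by simp

open Classical in
/-- The ring map `R[[σ]] → S` given by `c` on constants and sending `X i` to `a i`. -/
noncomputable def ev (c : R →+* S) (a : σ → S) : MvPowerSeries σ R →+* S :=
  if h : ∃ Φ : MvPowerSeries σ R →+* S, (∀ r, Φ (C r) = c r) ∧ ∀ i, Φ (X i) = a i then h.choose
  else c.comp constantCoeff

/-- One variable evaluation. -/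
noncomputable abbrev ev1 (c : R →+* S) (a : S) : PowerSeries R →+* S := ev c fun _ : Unit => a

variable [Finite σ]

theorem exists_ev (c : R →+* S) {a : σ → S} (h : Ok a) :
    ∃ Φ : MvPowerSeries σ R →+* S, (∀ r, Φ (C r) = c r) ∧ ∀ i, Φ (X i) = a i := by
  obtain ⟨I, hI, ha⟩ := h
  obtain ⟨N, hN⟩ := EvAux.exists_pow_le ha
  have key : ∀ n, ∀ q ∈ MvPolynomial.idealOfVars σ R ^ (N * n),
      MvPolynomial.eval₂Hom c a q ∈ I ^ n := fun n q hq => by
    have h1 := Ideal.mem_map_of_mem (MvPolynomial.eval₂Hom c a) hq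
    rw [Ideal.map_pow, Ideal.map_span, ← Set.range_comp] at h1
    have e : (MvPolynomial.eval₂Hom c a) ∘ (MvPolynomial.X : σ → MvPolynomial σ R) = a :=
      funext fun i => by simp
    rw [e] at h1
    exact hN n h1
  let F : (n : ℕ) → MvPowerSeries σ R →+* S ⧸ I ^ n := fun n =>
    (Ideal.Quotient.lift (MvPolynomial.idealOfVars σ R ^ (N * n))
      ((Ideal.Quotient.mk (I ^ n)).comp (MvPolynomial.eval₂Hom c a))
      fun q hq => Ideal.Quotient.eq_zero_iff_mem.mpr (key n q hq)).comp
      (truncTotalAlgHom σ R (N * n)).toRingHom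
  have hF : ∀ n f, F n f =
      Ideal.Quotient.mk (I ^ n) (MvPolynomial.eval₂Hom c a (truncTotal (N * n) f)) :=
    fun _ _ => rfl
  have hc : ∀ {m n : ℕ} (hle : m ≤ n),
      (Ideal.Quotient.factorPow I hle).comp (F n) = F m := fun {m n} hle => by
    refine RingHom.ext fun f => ?_
    rw [RingHom.comp_apply, hF, hF, Ideal.Quotient.factorPow, Ideal.Quotient.factor_mk,
      Ideal.Quotient.eq, ← map_sub]
    exact key m _ (truncTotal_sub_truncTotal_mem_pow_idealOfVars (Nat.mul_le_mul_left N hle)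
      le_rfl f)
  have hp : ∀ q : MvPolynomial σ R,
      IsAdicComplete.liftRingHom I F hc (q : MvPowerSeries σ R) = MvPolynomial.eval₂Hom c a q :=
    fun q => eq_of_sub_mem_pow I fun n => by
      rw [← Ideal.Quotient.eq, IsAdicComplete.mk_liftRingHom, hF, Ideal.Quotient.eq, ← map_sub]
      refine key n _ ((MvPolynomial.mem_pow_idealOfVars_iff' ..).mpr fun x hx => ?_)
      rw [MvPolynomial.coeff_sub, sub_eq_zero, coeff_truncTotal _ hx, MvPolynomial.coeff_coe]
  refine ⟨IsAdicComplete.liftRingHom I F hc, fun r => ?_, fun i => ?_⟩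
  · rw [← MvPolynomial.coe_C, hp]; simp
  · rw [← MvPolynomial.coe_X, hp]; simp

theorem ev_C (c : R →+* S) {a : σ → S} (h : Ok a) (r : R) : ev c a (C r) = c r := by
  rw [ev, dif_pos (exists_ev c h)]; exact (exists_ev c h).choose_spec.1 r

theorem ev_X (c : R →+* S) {a : σ → S} (h : Ok a) (i : σ) : ev c a (X i) = a i := by
  rw [ev, dif_pos (exists_ev c h)]; exact (exists_ev c h).choose_spec.2 i

/-- The finite set of exponents of degree `< k`. -/
noncomputable def degLT (σ : Type*) [Finite σ] (k : ℕ) : Finset (σ →₀ ℕ) :=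
  (Finsupp.finite_of_degree_lt k).toFinset

theorem mem_degLT {k : ℕ} {d : σ →₀ ℕ} : d ∈ degLT σ k ↔ d.degree < k := by simp [degLT]

/-- Any ring map out of a power series ring is approximated by finite sums. -/
theorem hom_sub_sum_mem (Φ : MvPowerSeries σ R →+* S) (f : MvPowerSeries σ R) (k : ℕ) :
    Φ f - ∑ d ∈ degLT σ k, Φ (C (coeff d f)) * d.prod (fun i e => Φ (X i) ^ e) ∈
      Ideal.span (Set.range fun i => Φ (X i)) ^ k := by
  have h1 := Ideal.mem_map_of_mem Φ (EvAux.sub_sum_mem f k)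
  rw [Ideal.map_pow, Ideal.map_span, ← Set.range_comp, map_sub, map_sum] at h1
  have e : ∀ d : σ →₀ ℕ, Φ (monomial d (coeff d f)) =
      Φ (C (coeff d f)) * d.prod (fun i e => Φ (X i) ^ e) := fun d => by
    rw [monomial_eq', map_mul, map_finsuppProd]
    simp only [map_pow]
  simp only [e] at h1
  exact h1

theorem hom_ext {Φ Ψ : MvPowerSeries σ R →+* S} (h : Ok fun i => Φ (X i))
    (hC : ∀ r, Φ (C r) = Ψ (C r)) (hX : ∀ i, Φ (X i) = Ψ (X i)) : Φ = Ψ := by
  obtain ⟨I, hI, ha⟩ := h
  obtain ⟨N, hN⟩ := EvAux.exists_pow_le ha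
  refine RingHom.ext fun f => eq_of_sub_mem_pow I fun k => hN k ?_
  have h1 := hom_sub_sum_mem Φ f (N * k)
  have h2 := hom_sub_sum_mem Ψ f (N * k)
  simp only [← hC, ← hX] at h2
  simpa using sub_mem h1 h2

theorem eq_ev {c : R →+* S} {a : σ → S} (h : Ok a) {Φ : MvPowerSeries σ R →+* S}
    (hC : ∀ r, Φ (C r) = c r) (hX : ∀ i, Φ (X i) = a i) : Φ = ev c a :=
  hom_ext (by simpa only [hX] using h) (fun r => by rw [hC, ev_C c h])
    fun i => by rw [hX, ev_X c h]

theorem ev_sub_sum_mem (c : R →+* S) {a : σ → S} (h : Ok a) (f : MvPowerSeries σ R) (k : ℕ) :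
    ev c a f - ∑ d ∈ degLT σ k, c (coeff d f) * d.prod (fun i e => a i ^ e) ∈
      Ideal.span (Set.range a) ^ k := by
  simpa only [ev_C c h, ev_X c h] using hom_sub_sum_mem (ev c a) f k

/-- Functoriality in the target. -/
theorem map_ev (Ψ : S →+* T) (c : R →+* S) {a : σ → S} (h : Ok a) (h' : Ok fun i => Ψ (a i))
    (f : MvPowerSeries σ R) : Ψ (ev c a f) = ev (Ψ.comp c) (fun i => Ψ (a i)) f := by
  have := eq_ev (c := Ψ.comp c) h' (Φ := Ψ.comp (ev c a)) (fun r => by simp [ev_C c h])
    fun i => by simp [ev_X c h]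
  exact DFunLike.congr_fun this f

/-- Functoriality in the coefficient ring. -/
theorem ev_map (ψ : R →+* T) (c : T →+* S) {a : σ → S} (h : Ok a) (f : MvPowerSeries σ R) :
    ev c a (MvPowerSeries.map ψ f) = ev (c.comp ψ) a f := by
  have := eq_ev (c := c.comp ψ) h (Φ := (ev c a).comp (MvPowerSeries.map ψ))
    (fun r => by simp [ev_C c h]) fun i => by simp [ev_X c h]
  exact DFunLike.congr_fun this f

theorem ev_C_X (f : MvPowerSeries σ R) : ev C X f = f := by
  have := eq_ev (c := (C : R →+* MvPowerSeries σ R)) Ok.X (Φ := RingHom.id _) (fun _ => rfl)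
    fun _ => rfl
  exact (DFunLike.congr_fun this f).symm

theorem ev_C_comp_X (ψ : R →+* S) (f : MvPowerSeries σ R) :
    ev ((C : S →+* MvPowerSeries σ S).comp ψ) X f = MvPowerSeries.map ψ f := by
  rw [← ev_map ψ C Ok.X, ev_C_X]

theorem ev_zero (c : R →+* S) (f : MvPowerSeries σ R) :
    ev c (fun _ => 0) f = c (constantCoeff f) := by
  have := eq_ev (c := c) (a := fun _ : σ => 0) (Ok.of_rad ⊥ fun _ => zero_mem _)
    (Φ := c.comp constantCoeff) (fun r => by simp) fun i => by simp
  exact (DFunLike.congr_fun this f).symm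

theorem ev_sub_const_mem (c : R →+* S) {a : σ → S} (h : Ok a) (f : MvPowerSeries σ R) :
    ev c a f - c (constantCoeff f) ∈ Ideal.span (Set.range a) := by
  have h1 : f - C (constantCoeff f) ∈ PI σ (⊥ : Ideal R) := mem_PI_bot.mpr (by simp)
  rw [PI_bot] at h1
  have h2 := Ideal.mem_map_of_mem (ev c a) h1
  rw [Ideal.map_span, ← Set.range_comp, map_sub, ev_C c h] at h2
  have e : (ev c a) ∘ (X : σ → MvPowerSeries σ R) = a := funext fun i => ev_X c h i
  rwa [e] at h2

theorem ev_mem_of_const (c : R →+* S) {a : σ → S} (h : Ok a) {N : Ideal S} (ha : ∀ i, a i ∈ N)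
    {f : MvPowerSeries σ R} (hf : c (constantCoeff f) ∈ N) : ev c a f ∈ N := by
  have h1 : Ideal.span (Set.range a) ≤ N := Ideal.span_le.mpr (by rintro _ ⟨i, rfl⟩; exact ha i)
  simpa using add_mem (h1 (ev_sub_const_mem c h f)) hf

theorem ev_mem (c : R →+* S) {a : σ → S} (h : Ok a) {N : Ideal S} (ha : ∀ i, a i ∈ N)
    {f : MvPowerSeries σ R} (hf : constantCoeff f = 0) : ev c a f ∈ N :=
  ev_mem_of_const c h ha (by rw [hf, map_zero]; exact zero_mem _)

theorem constantCoeff_ev [Finite τ] (c : R →+* MvPowerSeries τ S) {a : σ → MvPowerSeries τ S}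
    (ha : ∀ i, constantCoeff (a i) = 0) (f : MvPowerSeries σ R) :
    constantCoeff (ev c a f) = constantCoeff (c (constantCoeff f)) := by
  rw [map_ev constantCoeff c (Ok.of_const ha) (Ok.of_rad ⊥ fun i => by simp [ha])]
  simp only [ha]; rw [ev_zero]; rfl

theorem constantCoeff_ev_eq_zero [Finite τ] (c : R →+* MvPowerSeries τ S)
    {a : σ → MvPowerSeries τ S} (ha : ∀ i, constantCoeff (a i) = 0) {f : MvPowerSeries σ R}
    (hf : constantCoeff f = 0) : constantCoeff (ev c a f) = 0 := by
  rw [constantCoeff_ev c ha, hf, map_zero, map_zero]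

/-- `map` commutes with formal substitution. -/
theorem map_ev_C [Finite τ] (ψ : S →+* T) {a : σ → MvPowerSeries τ S}
    (ha : ∀ i, constantCoeff (a i) = 0) (f : MvPowerSeries σ S) :
    MvPowerSeries.map ψ (ev C a f) =
      ev C (fun i => MvPowerSeries.map ψ (a i)) (MvPowerSeries.map ψ f) := by
  have h' : Ok fun i => MvPowerSeries.map ψ (a i) := Ok.of_const fun i => by simp [ha]
  rw [map_ev (MvPowerSeries.map ψ) C (Ok.of_const ha) h', ev_map ψ C h']
  congr 2; ext r : 1; simp

/-- Evaluation of a formal substitution. -/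
theorem ev_ev_C [Finite τ] (c : R →+* S) {b : τ → S} (I : Ideal S) [IsAdicComplete I S]
    (hb : ∀ j, b j ∈ I.radical) {a : σ → MvPowerSeries τ R} (ha : ∀ i, constantCoeff (a i) = 0)
    (f : MvPowerSeries σ R) : ev c b (ev C a f) = ev c (fun i => ev c b (a i)) f := by
  have hb' : Ok b := Ok.of_rad I hb
  rw [map_ev (ev c b) C (Ok.of_const ha) (Ok.of_rad I fun i => ev_mem c hb' hb (ha i))]
  congr 2; ext r : 1; simp [ev_C c hb']

theorem ev_eq_subst [Finite τ] {a : σ → MvPowerSeries τ R} (ha : ∀ i, constantCoeff (a i) = 0)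
    (f : MvPowerSeries σ R) : ev C a f = MvPowerSeries.subst a f := by
  have hs : HasSubst a := hasSubst_of_constantCoeff_zero ha
  have := eq_ev (c := (C : R →+* MvPowerSeries τ R)) (Ok.of_const ha)
    (Φ := (substAlgHom (R := R) hs).toRingHom) (fun r => by simp [subst_C])
    fun i => by simp [subst_X hs]
  rw [← this]; simp

end Vale.Agent.P217
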