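import Vale.Agent.P217.Ev

/-! Congruence calculus for evaluation of power series. -/

namespace Vale.Agent.P217

open MvPowerSeries

variable {R S T : Type*} [CommRing R] [CommRing S] [CommRing T] {σ τ : Type*}

theorem mem_cI1 {N : Ideal R} {f : PowerSeries R} :
    f ∈ cI Unit N ↔ ∀ n, PowerSeries.coeff n f ∈ N := by
  rw [mem_cI]
  refine ⟨fun h n => h (Finsupp.single () n), fun h d => ?_⟩
  rw [Finsupp.unique_single d]
  exact h _

theorem cI_mono {N M : Ideal R} (h : N ≤ M) : cI σ N ≤ cI σ M := fun _ hf =>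
  mem_cI.mpr fun d => h (mem_cI.mp hf d)

theorem C_mem_cI {N : Ideal R} {r : R} (h : r ∈ N) : (C r : MvPowerSeries σ R) ∈ cI σ N := by
  classical
  refine mem_cI.mpr fun d => ?_
  rw [coeff_C]
  split_ifs
  · exact h
  · exact zero_mem _

theorem mul_mem_cI {N M : Ideal R} {f g : MvPowerSeries σ R} (hf : f ∈ cI σ N)
    (hg : g ∈ cI σ M) : f * g ∈ cI σ (N * M) := by
  classical
  refine mem_cI.mpr fun d => ?_
  rw [coeff_mul]
  exact sum_mem fun x _ => Ideal.mul_mem_mul (mem_cI.mp hf _) (mem_cI.mp hg _)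

theorem cI_mul_le (N M : Ideal R) : cI σ N * cI σ M ≤ cI σ (N * M) :=
  Ideal.mul_le.mpr fun _ hf _ hg => mul_mem_cI hf hg

theorem cI_pow_le (N : Ideal R) (k : ℕ) : cI σ N ^ k ≤ cI σ (N ^ k) := by
  induction k with
  | zero => exact fun f _ => mem_cI.mpr fun d => by simp
  | succ k ih =>
    rw [pow_succ, pow_succ]
    exact (Ideal.mul_mono_left ih).trans (cI_mul_le _ _)

theorem mem_cI_span_singleton {π : R} {f : MvPowerSeries σ R} :
    f ∈ cI σ (Ideal.span {π}) ↔ ∃ g, f = C π * g := by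
  rw [mem_cI]
  constructor
  · intro h
    choose g hg using fun d => Ideal.mem_span_singleton.mp (h d)
    exact ⟨g, MvPowerSeries.ext fun d => (hg d).trans (coeff_C_mul d g π).symm⟩
  · rintro ⟨g, rfl⟩ d
    rw [coeff_C_mul]
    exact Ideal.mul_mem_right _ _ (Ideal.mem_span_singleton_self _)

theorem cI_span_singleton (π : R) :
    cI σ (Ideal.span {π}) = Ideal.span {(C π : MvPowerSeries σ R)} := by
  ext f
  rw [mem_cI_span_singleton, Ideal.mem_span_singleton]
  rfl

theorem map_mem_cI (ψ : R →+* S) {N : Ideal R} {M : Ideal S} (h : ∀ r ∈ N, ψ r ∈ M)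
    {f : MvPowerSeries σ R} (hf : f ∈ cI σ N) : MvPowerSeries.map ψ f ∈ cI σ M :=
  mem_cI.mpr fun d => h _ (mem_cI.mp hf d)

theorem pow_p_pow_sub_mem {p : ℕ} {N : Ideal S} (hp : (p : S) ∈ N) {a b : S} {k : ℕ}
    (hab : a - b ∈ N ^ (k + 1)) (t : ℕ) : a ^ p ^ t - b ^ p ^ t ∈ N ^ (k + 1 + t) := by
  induction t with
  | zero => simpa using hab
  | succ t ih =>
    rw [pow_succ p, pow_mul, pow_mul, ← geom_sum₂_mul, ← add_assoc, pow_succ']
    refine Ideal.mul_mem_mul ?_ ih
    have h1 : Ideal.Quotient.mk N (a ^ p ^ t) = Ideal.Quotient.mk N (b ^ p ^ t) :=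
      Ideal.Quotient.eq.mpr (N.pow_le_self (by omega) ih)
    have h2 : (p : S ⧸ N) = 0 := by
      rw [← map_natCast (Ideal.Quotient.mk N)]
      exact Ideal.Quotient.eq_zero_iff_mem.mpr hp
    generalize a ^ p ^ t = x at h1
    generalize b ^ p ^ t = y at h1
    rw [← Ideal.Quotient.eq_zero_iff_mem, map_sum]
    simp only [map_mul, map_pow, h1]
    rw [geom_sum₂_self, h2, zero_mul]

variable [Finite σ]

theorem ev1_X (c : R →+* S) {a : S} (h : Ok fun _ : Unit => a) : ev1 c a PowerSeries.X = a :=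
  ev_X c h ()

theorem ev1_sub_sum_mem (c : R →+* S) {a : S} (h : Ok fun _ : Unit => a) (f : PowerSeries R)
    (k : ℕ) : ev1 c a f - ∑ d ∈ Finset.range k, c (PowerSeries.coeff d f) * a ^ d ∈
      Ideal.span {a ^ k} := by
  have h1 := ev_sub_sum_mem c h f k
  rw [Set.range_const, Ideal.span_singleton_pow] at h1
  have e : ∑ d ∈ degLT Unit k, c (coeff d f) * d.prod (fun _ e => a ^ e) =
      ∑ d ∈ Finset.range k, c (PowerSeries.coeff d f) * a ^ d := by
    refine (Finset.sum_nbij' (fun n => Finsupp.single () n) (fun d => d ()) ?_ ?_ ?_ ?_ ?_).symm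
    · intro n hn
      simpa [mem_degLT] using hn
    · intro d hd
      rw [Finsupp.unique_single d] at hd
      simpa [mem_degLT] using hd
    · intro n _
      simp
    · intro d _
      exact (Finsupp.unique_single d).symm
    · intro n _
      rw [Finsupp.prod_single_index (h := fun _ e => a ^ e) (pow_zero _)]
      rfl
  rwa [e] at h1

theorem ev1_C_X (f : PowerSeries R) : ev1 C PowerSeries.X f = f := ev_C_X f

theorem coeff_one_ev1 {g : PowerSeries R} (hg : constantCoeff g = 0) (f : PowerSeries R) :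
    PowerSeries.coeff 1 (ev1 C g f) = PowerSeries.coeff 1 f * PowerSeries.coeff 1 g := by
  have h1 := ev1_sub_sum_mem (C : R →+* PowerSeries R) (Ok.of_const fun _ : Unit => hg) f 2
  have h2 : (PowerSeries.X : PowerSeries R) ^ 2 ∣ g ^ 2 :=
    pow_dvd_pow_of_dvd (PowerSeries.X_dvd_iff.mpr hg) 2
  have h3 := PowerSeries.X_pow_dvd_iff.mp (h2.trans (Ideal.mem_span_singleton.mp h1)) 1
    (by norm_num)
  rw [map_sub, sub_eq_zero] at h3
  rw [h3, Finset.sum_range_succ, Finset.sum_range_one, map_add, pow_zero, mul_one, pow_one]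
  have h4 : ∀ r : R, (C r : PowerSeries R) = PowerSeries.C r := fun _ => rfl
  rw [h4, h4, PowerSeries.coeff_C_mul, PowerSeries.coeff_C]
  simp

namespace Ev2Aux

/-- The universal translation `f(X) ↦ f(X + Y)`. -/
noncomputable def sh (R : Type*) [CommRing R] (σ : Type*) :
    MvPowerSeries σ R →+* MvPowerSeries σ (MvPowerSeries σ R) :=
  ev ((C : MvPowerSeries σ R →+* _).comp C) fun i => C (X i) + X i

theorem ok_sh : Ok fun i : σ => (C (X i) + X i : MvPowerSeries σ (MvPowerSeries σ R)) :=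
  Ok.of_rad (PI σ (PI σ ⊥)) fun i => Ideal.le_radical (by simp [mem_PI])

theorem constantCoeff_sh (f : MvPowerSeries σ R) : constantCoeff (sh R σ f) = f := by
  have e : (fun i : σ =>
      constantCoeff (C (X i) + X i : MvPowerSeries σ (MvPowerSeries σ R))) = X :=
    funext fun i => by simp
  rw [sh, map_ev constantCoeff _ ok_sh (by rw [e]; exact Ok.X), e]
  exact ev_C_X f

theorem ev_sh (c : R →+* S) (I : Ideal S) [IsAdicComplete I S] {a b : σ → S}
    (ha : ∀ i, a i ∈ I.radical) (hb : ∀ i, b i ∈ I.radical) (f : MvPowerSeries σ R) :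
    ev (ev c a) b (sh R σ f) = ev c (fun i => a i + b i) f := by
  have ha' := Ok.of_rad I ha
  have hb' := Ok.of_rad I hb
  have e : (fun i : σ => ev (ev c a) b (C (X i) + X i)) = fun i => a i + b i :=
    funext fun i => by rw [map_add, ev_C _ hb', ev_X _ hb', ev_X _ ha']
  rw [sh, map_ev _ _ ok_sh (by rw [e]; exact Ok.of_rad I fun i => add_mem (ha i) (hb i)), e]
  congr 2
  ext r : 1
  simp [ev_C _ hb', ev_C _ ha']

omit [Finite σ] in
theorem prod_sub_prod_mem {J : Ideal S} {a b : σ → S} (h : ∀ i, a i - b i ∈ J) (d : σ →₀ ℕ) :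
    d.prod (fun i e => a i ^ e) - d.prod (fun i e => b i ^ e) ∈ J := by
  rw [← Ideal.Quotient.eq, map_finsuppProd, map_finsuppProd]
  simp only [map_pow, fun i => Ideal.Quotient.eq.mpr (h i)]

omit [Finite σ] in
theorem deriv_mem_pow [Algebra R S] (D : Derivation R S S) (A : Ideal S) (k : ℕ) :
    ∀ x ∈ A ^ (k + 1), D x ∈ A ^ k := by
  induction k with
  | zero => intro x _; simp
  | succ k ih =>
    intro x hx
    rw [pow_succ] at hx
    refine Submodule.mul_induction_on hx (fun u hu v hv => ?_)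
      fun u v hu hv => by rw [map_add]; exact add_mem hu hv
    rw [D.leibniz, smul_eq_mul, smul_eq_mul]
    refine add_mem (Ideal.mul_mem_right _ _ hu) ?_
    rw [pow_succ']
    exact Ideal.mul_mem_mul hv (ih u hu)

theorem ev_mem_pow (c : R →+* S) {a : σ → S} (h : Ok a) {k : ℕ} {f : MvPowerSeries σ R}
    (hf : f ∈ Ideal.span (Set.range (X : σ → MvPowerSeries σ R)) ^ k) :
    ev c a f ∈ Ideal.span (Set.range a) ^ k := by
  have h2 := Ideal.mem_map_of_mem (ev c a) hf
  rw [Ideal.map_pow, Ideal.map_span, ← Set.range_comp] at h2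
  have e : (ev c a) ∘ (X : σ → MvPowerSeries σ R) = a := funext fun i => ev_X c h i
  rwa [e] at h2

end Ev2Aux

/-- Congruent points give congruent values. -/
theorem ev_sub_ev_mem (c : R →+* S) (I : Ideal S) [IsAdicComplete I S] {a b : σ → S}
    (ha : ∀ i, a i ∈ I.radical) (hb : ∀ i, b i ∈ I.radical) {N : Ideal S}
    (hab : ∀ i, a i - b i ∈ N) (f : MvPowerSeries σ R) : ev c a f - ev c b f ∈ N := by
  have hd : ∀ i, a i - b i ∈ I.radical := fun i => sub_mem (ha i) (hb i)
  have h1 := ev_mem (ev c b) (Ok.of_rad I hd) hab (f := Ev2Aux.sh R σ f - C f)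
    (by simp [Ev2Aux.constantCoeff_sh])
  rw [map_sub, Ev2Aux.ev_sh c I hb hd, ev_C _ (Ok.of_rad I hd)] at h1
  simpa using h1

theorem ev_C_mem_cI [Finite τ] {a : σ → MvPowerSeries τ S} (ha : ∀ i, constantCoeff (a i) = 0)
    {N : Ideal S} {f : MvPowerSeries σ S} (hf : f ∈ cI σ N) : ev C a f ∈ cI τ N := by
  have h : MvPowerSeries.map (Ideal.Quotient.mk N) f = 0 := hf
  show MvPowerSeries.map (Ideal.Quotient.mk N) (ev C a f) = 0
  rw [map_ev_C _ ha, h, map_zero]

theorem ev_sub_ev_mem_cI_mul [Finite τ] {a b : σ → MvPowerSeries τ S}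
    (ha : ∀ i, constantCoeff (a i) = 0) (hb : ∀ i, constantCoeff (b i) = 0) {N M : Ideal S}
    (hab : ∀ i, a i - b i ∈ cI τ M) {f : MvPowerSeries σ S} (hf : f ∈ cI σ N) :
    ev C a f - ev C b f ∈ cI τ (M * N) := by
  refine mem_cI.mpr fun d => ?_
  have key : ∀ {a : σ → MvPowerSeries τ S}, (∀ i, constantCoeff (a i) = 0) →
      coeff d (ev C a f) = coeff d (∑ e ∈ degLT σ (d.degree + 1),
        C (coeff e f) * e.prod (fun i n => a i ^ n)) := fun {a} ha => by
    have h1 : Ideal.span (Set.range a) ≤ PI τ ⊥ :=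
      Ideal.span_le.mpr (by rintro _ ⟨i, rfl⟩; exact mem_PI_bot.mpr (ha i))
    have h2 := Ideal.pow_right_mono h1 _ (ev_sub_sum_mem C (Ok.of_const ha) f (d.degree + 1))
    have h3 := mem_PI_bot_pow.mp h2 d (Nat.lt_succ_self _)
    rwa [map_sub, sub_eq_zero] at h3
  rw [map_sub, key ha, key hb, ← map_sub, ← Finset.sum_sub_distrib]
  refine mem_cI.mp (sum_mem fun e _ => ?_) d
  rw [← mul_sub, mul_comm (C _)]
  exact mul_mem_cI (Ev2Aux.prod_sub_prod_mem hab e) (C_mem_cI (mem_cI.mp hf e))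

theorem ev_mem_of_cI (c : R →+* S) {a : σ → S} (h : Ok a) {π : R} {f : MvPowerSeries σ R}
    (hf : f ∈ cI σ (Ideal.span {π})) : ev c a f ∈ Ideal.span {c π} := by
  obtain ⟨g, rfl⟩ := mem_cI_span_singleton.mp hf
  rw [map_mul, ev_C c h]
  exact Ideal.mul_mem_right _ _ (Ideal.mem_span_singleton_self _)

theorem pderiv_ev_shift (c : R →+* S) (I : Ideal S) [IsAdicComplete I S] {x : σ → S}
    (hx : ∀ i, x i ∈ I.radical) (f : MvPowerSeries σ R) (j : σ) :
    pderiv S j (ev ((C : S →+* MvPowerSeries σ S).comp c) (fun i => C (x i) + X i) f) =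
      ev ((C : S →+* MvPowerSeries σ S).comp c) (fun i => C (x i) + X i) (pderiv R j f) := by
  have hr : ∀ i, (C (x i) + X i : MvPowerSeries σ S) ∈ (PI σ I).radical := fun i =>
    mem_PI_radical.mpr (by simpa using hx i)
  have hok := Ok.of_rad (PI σ I) hr
  set Φ := ev ((C : S →+* MvPowerSeries σ S).comp c) (fun i => C (x i) + X i) with hΦ
  have hX : ∀ i, pderiv S j (Φ (X i)) = Φ (pderiv R j (X i)) := fun i => by
    rw [hΦ, ev_X _ hok, map_add, pderiv_C, zero_add]
    by_cases h : i = j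
    · rw [h, pderiv_X_self, pderiv_X_self, map_one]
    · rw [pderiv_X_of_ne h, pderiv_X_of_ne h, map_zero]
  have hp : ∀ q : MvPolynomial σ R,
      pderiv S j (Φ (q : MvPowerSeries σ R)) = Φ (pderiv R j (q : MvPowerSeries σ R)) := by
    intro q
    induction q using MvPolynomial.induction_on with
    | C r => rw [MvPolynomial.coe_C, pderiv_C, map_zero, hΦ, ev_C _ hok]; exact pderiv_C
    | add p q hp hq => rw [MvPolynomial.coe_add, map_add, map_add, map_add, map_add, hp, hq]
    | mul_X p i hp =>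
      rw [MvPolynomial.coe_mul, MvPolynomial.coe_X, map_mul, Derivation.leibniz,
        Derivation.leibniz, hp, hX]
      simp only [smul_eq_mul, map_add, map_mul]
  obtain ⟨N, hN⟩ := EvAux.exists_pow_le hr
  refine eq_of_sub_mem_pow (PI σ I) fun k => hN k ?_
  have ht : f - (truncTotal (N * k + 1) f : MvPolynomial σ R) ∈
      Ideal.span (Set.range (X : σ → MvPowerSeries σ R)) ^ (N * k + 1) :=
    mem_span_X_pow.mpr fun d hd => by
      rw [map_sub, MvPolynomial.coeff_coe, coeff_truncTotal _ hd, sub_self]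
  have h1 := Ev2Aux.deriv_mem_pow (pderiv S j) _ _ _ (Ev2Aux.ev_mem_pow (C.comp c) hok ht)
  have h2 := Ev2Aux.ev_mem_pow (C.comp c) hok (Ev2Aux.deriv_mem_pow (pderiv R j) _ _ _ ht)
  rw [← hΦ, map_sub, map_sub] at h1 h2
  rw [hp] at h1
  simpa using sub_mem h1 h2

/-- First order Taylor expansion. -/
theorem ev_taylor {σ : Type*} [Fintype σ] (c : R →+* S) (I : Ideal S) [IsAdicComplete I S]
    {a b : σ → S} (ha : ∀ i, a i ∈ I.radical) (hb : ∀ i, b i ∈ I.radical)
    (f : MvPowerSeries σ R) :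
    ev c (fun i => a i + b i) f - ev c a f - ∑ i, b i * ev c a (pderiv R i f) ∈
      Ideal.span (Set.range b) ^ 2 := by
  classical
  have hb' := Ok.of_rad I hb
  have h1 : Ev2Aux.sh R σ f - C f - ∑ i, X i * C (pderiv R i f) ∈
      Ideal.span (Set.range (X : σ → MvPowerSeries σ (MvPowerSeries σ R))) ^ 2 := by
    refine mem_span_X_pow.mpr fun d hd => ?_
    by_cases h0 : d = 0
    · subst h0
      simp [Ev2Aux.constantCoeff_sh]
    · have h1 : d.degree = 1 := by
        have : d.degree ≠ 0 := fun h => h0 ((Finsupp.degree_eq_zero_iff d).mp h)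
        omega
      obtain ⟨j, rfl⟩ : ∃ j, d = Finsupp.single j 1 := (Finsupp.sum_eq_one_iff d).mp h1
      have h2 := congrArg constantCoeff (pderiv_ev_shift (C : R →+* MvPowerSeries σ R) (PI σ ⊥)
        (x := X) (fun i => mem_PI_radical_of_zero _ (by simp)) f j)
      change constantCoeff (pderiv _ j (Ev2Aux.sh R σ f)) =
        constantCoeff (Ev2Aux.sh R σ (pderiv R j f)) at h2
      rw [Ev2Aux.constantCoeff_sh, ← coeff_zero_eq_constantCoeff_apply, coeff_pderiv] at h2
      simp only [zero_add, Finsupp.coe_zero, Pi.zero_apply, Nat.cast_zero, mul_one] at h2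
      rw [map_sub, map_sub, h2, coeff_C, if_neg h0, map_sum]
      simp only [coeff_mul_C, coeff_X]
      rw [Finset.sum_eq_single j]
      · simp
      · intro i _ hi
        rw [if_neg fun h => hi ((Finsupp.single_left_inj one_ne_zero).mp h).symm, zero_mul]
      · simp
  have h2 := Ev2Aux.ev_mem_pow (ev c a) hb' h1
  rw [map_sub, map_sub, map_sum, Ev2Aux.ev_sh c I ha hb, ev_C _ hb'] at h2
  simpa only [map_mul, ev_X _ hb', ev_C _ hb'] using h2

theorem expand_eq_ev {q : ℕ} (hq : q ≠ 0) (f : MvPowerSeries σ R) :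
    expand q hq f = ev C (fun i => X i ^ q) f := by
  rw [ev_eq_subst fun i => by simp [hq], expand, substAlgHom_apply]

theorem ev_expand (c : R →+* S) (I : Ideal S) [IsAdicComplete I S] {a : σ → S}
    (ha : ∀ i, a i ∈ I.radical) {q : ℕ} (hq : q ≠ 0) (f : MvPowerSeries σ R) :
    ev c a (expand q hq f) = ev c (fun i => a i ^ q) f := by
  rw [expand_eq_ev, ev_ev_C c I ha fun i => by simp [hq]]
  simp only [map_pow, ev_X c (Ok.of_rad I ha)]

omit [Finite σ] in
theorem mem_cI_of_expand {q : ℕ} (hq : q ≠ 0) {N : Ideal R} {f : MvPowerSeries σ R}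
    (hf : expand q hq f ∈ cI σ N) : f ∈ cI σ N := by
  refine mem_cI.mpr fun d => ?_
  rw [← coeff_expand_smul q hq]
  exact mem_cI.mp hf _

omit [Finite σ] in
theorem expand_inj {q : ℕ} (hq : q ≠ 0) {f g : MvPowerSeries σ R}
    (h : expand q hq f = expand q hq g) : f = g := by
  ext d
  rw [← coeff_expand_smul q hq, h, coeff_expand_smul]

omit [Finite σ] in
theorem exists_expand {q : ℕ} (hq : q ≠ 0) {f : MvPowerSeries σ R}
    (hf : ∀ d : σ →₀ ℕ, (∃ i, ¬ q ∣ d i) → coeff d f = 0) : ∃ g, f = expand q hq g := by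
  refine ⟨fun d => coeff (q • d) f, MvPowerSeries.ext fun m => ?_⟩
  by_cases hm : ∀ i, q ∣ m i
  · have e : m = q • m.mapRange (· / q) (Nat.zero_div q) := by
      ext i
      simp [Nat.mul_div_cancel' (hm i)]
    rw [e]
    exact (coeff_expand_smul q hq (fun d => coeff (q • d) f) _).symm
  · push Not at hm
    obtain ⟨i, hi⟩ := hm
    exact (hf m ⟨i, hi⟩).trans (coeff_expand_of_not_dvd q hq _ hi).symm

omit [Finite σ] in
/-- A Frobenius lift on the coefficients gives a Frobenius lift on power series. -/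
theorem pow_sub_expand_mem (p : ℕ) [hp : Fact p.Prime] (φ : R →+* R)
    (hφ : ∀ a, φ a - a ^ p ∈ Ideal.span {(p : R)}) (f : MvPowerSeries σ R) :
    expand p hp.out.ne_zero (MvPowerSeries.map φ f) - f ^ p ∈
      Ideal.span {(p : MvPowerSeries σ R)} := by
  rw [← map_natCast (C : R →+* MvPowerSeries σ R), ← cI_span_singleton]
  by_cases hu : IsUnit (p : R)
  · rw [Ideal.span_singleton_eq_top.mpr hu]
    exact mem_cI.mpr fun _ => Submodule.mem_top
  have := CharP.quotient R p hu
  have e : (Ideal.Quotient.mk (Ideal.span {(p : R)})).comp φ =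
      (frobenius _ p).comp (Ideal.Quotient.mk (Ideal.span {(p : R)})) :=
    RingHom.ext fun a => by
      rw [RingHom.comp_apply, RingHom.comp_apply, frobenius_def, ← map_pow]
      exact Ideal.Quotient.eq.mpr (hφ a)
  show MvPowerSeries.map (Ideal.Quotient.mk _) _ = 0
  rw [map_sub, map_expand, map_map, e, ← map_map, ← map_expand, map_frobenius_expand, map_pow,
    sub_self]

end Vale.Agent.P217
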