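import Vale.Agent.P217.Log

/-! The functional equation lemma. -/

namespace Vale.Agent.P217

open MvPowerSeries

variable {A K : Type*} [CommRing A] [CommRing K] {σ : Type*}

/-- `g` is `p` times an integral series. -/
def PInt (p : ℕ) (ι : A →+* K) (g : MvPowerSeries σ K) : Prop :=
  ∃ r : MvPowerSeries σ A, g = (p : MvPowerSeries σ K) * MvPowerSeries.map ι r

/-- `p ^ t * c t` is integral for all `t`. -/
def IntSeq (p : ℕ) (ι : A →+* K) (c : ℕ → K) : Prop := ∀ t, ∃ a, (p : K) ^ t * c t = ι a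

/-- The Frobenius lift on power series. -/
noncomputable def phi (p : ℕ) [hp : Fact p.Prime] (φ : K →+* K) :
    MvPowerSeries σ K →+* MvPowerSeries σ K :=
  (expand p hp.out.ne_zero).toRingHom.comp (MvPowerSeries.map φ)

/-- Functional equation datum. -/
structure FED (p : ℕ) (ι : A →+* K) (φA : A →+* A) (φ : K →+* K) : Prop where
  inj : Function.Injective ι
  unit : IsUnit (p : K)
  comm : ∀ a, φ (ι a) = ι (φA a)
  frob : ∀ a, φA a - a ^ p ∈ Ideal.span {(p : A)}

variable {p : ℕ} {ι : A →+* K} {φA : A →+* A} {φ : K →+* K}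

theorem PInt.zero : PInt p ι (0 : MvPowerSeries σ K) := ⟨0, by simp⟩

theorem PInt.add {f g : MvPowerSeries σ K} (hf : PInt p ι f) (hg : PInt p ι g) :
    PInt p ι (f + g) := by
  obtain ⟨r, rfl⟩ := hf; obtain ⟨s, rfl⟩ := hg; exact ⟨r + s, by rw [map_add, mul_add]⟩

theorem PInt.neg {f : MvPowerSeries σ K} (hf : PInt p ι f) : PInt p ι (-f) := by
  obtain ⟨r, rfl⟩ := hf; exact ⟨-r, by rw [map_neg, mul_neg]⟩

theorem PInt.sub {f g : MvPowerSeries σ K} (hf : PInt p ι f) (hg : PInt p ι g) :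
    PInt p ι (f - g) := by
  rw [sub_eq_add_neg]; exact hf.add hg.neg

theorem PInt.sum {α : Type*} {s : Finset α} {f : α → MvPowerSeries σ K}
    (h : ∀ i ∈ s, PInt p ι (f i)) : PInt p ι (∑ i ∈ s, f i) :=
  Finset.sum_induction _ (PInt p ι) (fun _ _ => PInt.add) PInt.zero h

theorem PInt.C_mul {f : MvPowerSeries σ K} (hf : PInt p ι f) (a : A) :
    PInt p ι (C (ι a) * f) := by
  obtain ⟨r, rfl⟩ := hf; exact ⟨C a * r, by rw [map_mul, map_C]; ring⟩

theorem FEAux.coeff_p_mul (d : σ →₀ ℕ) (g : MvPowerSeries σ K) :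
    coeff d ((p : MvPowerSeries σ K) * g) = (p : K) * coeff d g := by
  rw [← map_natCast (C : K →+* MvPowerSeries σ K) p, coeff_C_mul]

theorem pInt_iff {g : MvPowerSeries σ K} : PInt p ι g ↔ ∀ d, ∃ a, coeff d g = (p : K) * ι a := by
  constructor
  · rintro ⟨r, rfl⟩ d
    exact ⟨coeff d r, by rw [FEAux.coeff_p_mul, coeff_map]⟩
  · intro h
    choose a ha using h
    obtain ⟨r, hr⟩ : ∃ r : MvPowerSeries σ A, ∀ d, coeff d r = a d := ⟨a, fun _ => rfl⟩
    refine ⟨r, MvPowerSeries.ext fun d => ?_⟩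
    rw [FEAux.coeff_p_mul, coeff_map, ha, hr]

theorem intSeq_ll (hp : IsUnit (p : K)) (v : ℕ → A) : IntSeq p ι (ll p fun j => ι (v j)) := by
  intro t
  exact ⟨ml p v t, by rw [pow_mul_ll hp, map_ml]⟩

theorem exists_FED_away (hp : (p : A) ∈ nonZeroDivisors A) (φA : A →+* A)
    (hφ : ∀ a, φA a - a ^ p ∈ Ideal.span {(p : A)}) :
    ∃ φ, FED p (algebraMap A (Localization.Away (p : A))) φA φ := by
  have hu : IsUnit (algebraMap A (Localization.Away (p : A)) (p : A)) :=
    IsLocalization.Away.algebraMap_isUnit (p : A)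
  have hg : IsUnit (((algebraMap A (Localization.Away (p : A))).comp φA) (p : A)) := by
    rw [RingHom.comp_apply, map_natCast φA]; exact hu
  refine ⟨IsLocalization.Away.lift (p : A) hg, ?_, by simpa using hu, fun a => ?_, hφ⟩
  · exact IsLocalization.injective _ (M := Submonoid.powers (p : A))
      ((Submonoid.powers_le).mpr hp)
  · rw [IsLocalization.Away.lift_eq]; rfl

variable [Fact p.Prime]

theorem phi_C (r : K) : phi p φ (C r : MvPowerSeries σ K) = C (φ r) := by
  simp [phi, expand_C]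

theorem phi_X (i : σ) : phi p φ (X i : MvPowerSeries σ K) = X i ^ p := by
  simp [phi, expand_X]

theorem constantCoeff_phi (g : MvPowerSeries σ K) :
    constantCoeff (phi p φ g) = φ (constantCoeff g) := by
  simp [phi, constantCoeff_expand]

theorem FEAux.phi_map (D : FED p ι φA φ) (r : MvPowerSeries σ A) :
    phi p φ (MvPowerSeries.map ι r) = MvPowerSeries.map ι (phi p φA r) := by
  have h : φ.comp ι = ι.comp φA := RingHom.ext D.comm
  have h1 : MvPowerSeries.map φ (MvPowerSeries.map ι r) =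
      MvPowerSeries.map ι (MvPowerSeries.map φA r) := by
    ext d
    simp only [coeff_map, D.comm]
  simp only [phi, RingHom.comp_apply, AlgHom.toRingHom_eq_coe, RingHom.coe_coe, map_expand, h1]

theorem FEAux.phi_iterate_map (D : FED p ι φA φ) (r : MvPowerSeries σ A) (s : ℕ) :
    (phi p φ)^[s] (MvPowerSeries.map ι r) = MvPowerSeries.map ι ((phi p φA)^[s] r) := by
  induction s with
  | zero => rfl
  | succ s ih => rw [Function.iterate_succ_apply', Function.iterate_succ_apply', ih, FEAux.phi_map D]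

theorem FEAux.constantCoeff_iterate {g : MvPowerSeries σ K} (hg : constantCoeff g = 0) (s : ℕ) :
    constantCoeff ((phi p φ)^[s] g) = 0 := by
  induction s with
  | zero => exact hg
  | succ s ih => rw [Function.iterate_succ_apply', constantCoeff_phi, ih, map_zero]

theorem FEAux.iterate_sub_pow_mem (hφ : ∀ a, φA a - a ^ p ∈ Ideal.span {(p : A)})
    (ψ : MvPowerSeries σ A) (s : ℕ) :
    (phi p φA)^[s] ψ - ψ ^ p ^ s ∈ Ideal.span {(p : MvPowerSeries σ A)} := by
  induction s with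
  | zero => simp
  | succ s ih =>
    have h1 := pow_sub_expand_mem p φA hφ ((phi p φA)^[s] ψ)
    have h2 : ((phi p φA)^[s] ψ) ^ p - (ψ ^ p ^ s) ^ p ∈ Ideal.span {(p : MvPowerSeries σ A)} := by
      obtain ⟨w, hw⟩ := sub_dvd_pow_sub_pow ((phi p φA)^[s] ψ) (ψ ^ p ^ s) p
      rw [hw]
      exact Ideal.mul_mem_right _ _ ih
    rw [Function.iterate_succ_apply', pow_succ, pow_mul]
    have h3 := add_mem h1 h2
    rwa [sub_add_sub_cancel] at h3

theorem PInt.phi (D : FED p ι φA φ) {g : MvPowerSeries σ K} (hg : PInt p ι g) :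
    PInt p ι (phi p φ g) := by
  obtain ⟨r, rfl⟩ := hg
  exact ⟨Vale.Agent.P217.phi p φA r, by rw [map_mul, map_natCast, FEAux.phi_map D]⟩

theorem IntSeq.iterate (D : FED p ι φA φ) {c : ℕ → K} (hc : IntSeq p ι c) (s : ℕ) :
    IntSeq p ι fun t => φ^[s] (c t) := by
  intro t
  obtain ⟨a, ha⟩ := hc t
  induction s with
  | zero => exact ⟨a, ha⟩
  | succ s ih =>
    obtain ⟨b, hb⟩ := ih
    refine ⟨φA b, ?_⟩
    rw [← D.comm, ← hb, map_mul, map_pow, map_natCast]
    simp only [Function.iterate_succ_apply']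

variable [Finite σ]

omit [Fact p.Prime] in
theorem FEAux.pInt_of_approx {g : MvPowerSeries σ K}
    (h : ∀ k, ∃ f, PInt p ι f ∧ g - f ∈ PI σ (⊥ : Ideal K) ^ k) : PInt p ι g := by
  refine pInt_iff.mpr fun d => ?_
  obtain ⟨f, hf, hg⟩ := h (d.degree + 1)
  obtain ⟨a, ha⟩ := pInt_iff.mp hf d
  have h1 := mem_PI_bot_pow.mp hg d (Nat.lt_succ_self _)
  rw [map_sub, sub_eq_zero] at h1
  exact ⟨a, h1.trans ha⟩

omit [Fact p.Prime] [Finite σ] in
theorem FEAux.const_map {a : MvPowerSeries σ A} (ha : constantCoeff a = 0) :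
    constantCoeff (MvPowerSeries.map ι a) = 0 := by
  rw [constantCoeff_map, ha, map_zero]

omit [Fact p.Prime] in
theorem FEAux.map_mem_pow {a : MvPowerSeries σ A} {k : ℕ} (ha : a ∈ PI σ (⊥ : Ideal A) ^ k) :
    MvPowerSeries.map ι a ∈ PI σ (⊥ : Ideal K) ^ k :=
  mem_PI_bot_pow.mpr fun d hd => by rw [coeff_map, mem_PI_bot_pow.mp ha d hd, map_zero]

omit [Fact p.Prime] in
/-- The homogeneous part of degree `k` of a coefficient family. -/
theorem FEAux.exists_hom_part (x : (σ →₀ ℕ) → A) (k : ℕ) :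
    ∃ r : MvPowerSeries σ A, r ∈ PI σ (⊥ : Ideal A) ^ k ∧ ∀ d, d.degree = k → coeff d r = x d := by
  refine ⟨fun d => if d.degree = k then x d else 0, mem_PI_bot_pow.mpr fun d hd => ?_,
    fun d hd => ?_⟩
  · exact if_neg hd.ne
  · exact if_pos hd

omit [Fact p.Prime] in
theorem FEAux.mem_pow_succ {a : MvPowerSeries σ A} {k : ℕ} (ha : a ∈ PI σ (⊥ : Ideal A) ^ k)
    (h : ∀ d : σ →₀ ℕ, d.degree = k → coeff d a = 0) : a ∈ PI σ (⊥ : Ideal A) ^ (k + 1) :=
  mem_PI_bot_pow.mpr fun d hd => by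
    rcases (Nat.lt_succ_iff.mp hd).lt_or_eq with h1 | h1
    · exact mem_PI_bot_pow.mp ha d h1
    · exact h d h1

omit [Fact p.Prime] [Finite σ] in
theorem FEAux.const_of_mem {a : MvPowerSeries σ A} {k : ℕ}
    (ha : a ∈ PI σ (⊥ : Ideal A) ^ (k + 1)) : constantCoeff a = 0 :=
  mem_PI_bot.mp (Ideal.pow_le_self (Nat.succ_ne_zero k) ha)

theorem Lg_sub_pInt (hp : IsUnit (p : K)) {c : ℕ → K} (hc : IntSeq p ι c)
    {a b : MvPowerSeries σ A} (ha : constantCoeff a = 0) (hb : constantCoeff b = 0)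
    (hab : a - b ∈ Ideal.span {(p : MvPowerSeries σ A)}) :
    PInt p ι (Lg p c (MvPowerSeries.map ι a) - Lg p c (MvPowerSeries.map ι b)) := by
  refine FEAux.pInt_of_approx fun k => ⟨∑ t ∈ Finset.range k,
    (C (c t) * MvPowerSeries.map ι a ^ p ^ t - C (c t) * MvPowerSeries.map ι b ^ p ^ t),
    PInt.sum fun t _ => ?_, ?_⟩
  · have h1 := pow_p_pow_sub_mem (p := p) (N := Ideal.span {(p : MvPowerSeries σ A)})
      (Ideal.mem_span_singleton_self _) (k := 0) (a := a) (b := b) (by simpa using hab) t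
    rw [Ideal.span_singleton_pow, Ideal.mem_span_singleton'] at h1
    obtain ⟨r, hr⟩ := h1
    obtain ⟨x, hx⟩ := hc t
    refine ⟨C x * r, ?_⟩
    rw [← mul_sub, ← map_pow, ← map_pow, ← map_sub, ← hr, map_mul, map_mul, map_C, ← hx, map_pow,
      map_natCast, map_mul, map_pow, map_natCast]
    ring
  · have hT : k ≤ p ^ k := (Nat.lt_pow_self (Fact.out : p.Prime).one_lt).le
    have h1 := Ideal.pow_le_pow_right hT (Lg_sub_sum_mem (p := p) c (FEAux.const_map (ι := ι) ha) k)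
    have h2 := Ideal.pow_le_pow_right hT (Lg_sub_sum_mem (p := p) c (FEAux.const_map (ι := ι) hb) k)
    rw [Finset.sum_sub_distrib]
    convert sub_mem h1 h2 using 1
    ring

theorem sub_mem_of_pInt (hι : Function.Injective ι) (hp : IsUnit (p : K)) {c : ℕ → K}
    (hc : IntSeq p ι c) (hc0 : c 0 = 1)
    {a b : MvPowerSeries σ A} (ha : constantCoeff a = 0) (hb : constantCoeff b = 0)
    (hab : PInt p ι (Lg p c (MvPowerSeries.map ι a) - Lg p c (MvPowerSeries.map ι b))) :
    a - b ∈ Ideal.span {(p : MvPowerSeries σ A)} := by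
  have key : ∀ k, ∃ b' : MvPowerSeries σ A, constantCoeff b' = 0 ∧
      b' - b ∈ Ideal.span {(p : MvPowerSeries σ A)} ∧ a - b' ∈ PI σ (⊥ : Ideal A) ^ (k + 1) := by
    intro k
    induction k with
    | zero =>
      refine ⟨b, hb, by simp, ?_⟩
      rw [zero_add, pow_one, mem_PI_bot, map_sub, ha, hb, sub_zero]
    | succ k ih =>
      obtain ⟨b', hb', h1, h2⟩ := ih
      have h3 := hab.sub (Lg_sub_pInt hp hc hb' hb h1)
      rw [sub_sub_sub_cancel_right] at h3
      have h4 := LogAux.Lg_sub_sub_mem (p := p) (c := c) (FEAux.const_map (ι := ι) ha)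
        (FEAux.const_map (ι := ι) hb') (k := k + 1) (by rw [← map_sub]; exact FEAux.map_mem_pow h2)
      rw [hc0, map_one, one_mul, ← map_sub] at h4
      choose x hx using pInt_iff.mp h3
      obtain ⟨r, hr1, hr2⟩ := FEAux.exists_hom_part x (k + 1)
      refine ⟨b' + p * r, ?_, ?_, ?_⟩
      · rw [map_add, map_mul, hb', FEAux.const_of_mem hr1, mul_zero, add_zero]
      · rw [add_sub_right_comm]
        exact add_mem h1 (Ideal.mul_mem_right _ _ (Ideal.mem_span_singleton_self _))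
      · rw [← sub_sub]
        refine FEAux.mem_pow_succ (sub_mem h2 (Ideal.mul_mem_left _ _ hr1)) fun d hd => ?_
        have h5 := mem_PI_bot_pow.mp h4 d (by omega)
        rw [map_sub, hx, coeff_map, sub_eq_zero, ← map_natCast ι p, ← map_mul] at h5
        rw [map_sub, FEAux.coeff_p_mul, hr2 d hd, hι h5, sub_self]
  rw [← map_natCast (C : A →+* MvPowerSeries σ A) p, ← cI_span_singleton, mem_cI]
  intro d
  obtain ⟨b', -, h1, h2⟩ := key d.degree
  rw [← map_natCast (C : A →+* MvPowerSeries σ A) p, ← cI_span_singleton, mem_cI] at h1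
  have h3 := mem_PI_bot_pow.mp h2 d (Nat.lt_succ_self _)
  have e : a - b = (a - b') + (b' - b) := by ring
  rw [e, map_add, h3, zero_add]
  exact h1 d

theorem phi_Lg_pInt (D : FED p ι φA φ) {c : ℕ → K} (hc : IntSeq p ι c)
    {ψ : MvPowerSeries σ A} (hψ : constantCoeff ψ = 0) (s : ℕ) :
    PInt p ι ((phi p φ)^[s] (Lg p c (MvPowerSeries.map ι ψ)) -
      Lg p (fun t => φ^[s] (c t)) (MvPowerSeries.map ι ψ ^ p ^ s)) := by
  have h0 := FEAux.const_map (ι := ι) hψ
  have h1 : (phi p φ)^[s] (Lg p c (MvPowerSeries.map ι ψ)) =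
      Lg p (fun t => φ^[s] (c t)) ((phi p φ)^[s] (MvPowerSeries.map ι ψ)) := by
    induction s with
    | zero => rfl
    | succ s ih =>
      simp only [Function.iterate_succ_apply']
      rw [ih, hom_Lg (phi p φ) φ phi_C _ (FEAux.constantCoeff_iterate h0 s)]
      rw [constantCoeff_phi, FEAux.constantCoeff_iterate h0, map_zero]
  rw [h1, FEAux.phi_iterate_map D, ← map_pow]
  refine Lg_sub_pInt D.unit (hc.iterate D s) (FEAux.constantCoeff_iterate hψ s) ?_
    (FEAux.iterate_sub_pow_mem D.frob ψ s)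
  rw [map_pow, hψ, zero_pow (pow_ne_zero _ (Fact.out : p.Prime).ne_zero)]

theorem FEAux.phi_mem_pow {e : MvPowerSeries σ K} {k : ℕ} (he : e ∈ PI σ (⊥ : Ideal K) ^ k) :
    phi p φ e ∈ PI σ (⊥ : Ideal K) ^ (2 * k) := by
  have h1 : (PI σ (⊥ : Ideal K)).map (phi p φ) ≤ PI σ (⊥ : Ideal K) ^ 2 := by
    conv_lhs => rw [PI_bot, Ideal.map_span]
    rw [Ideal.span_le]
    rintro _ ⟨_, ⟨i, rfl⟩, rfl⟩
    rw [phi_X]
    exact Ideal.pow_le_pow_right (Fact.out : p.Prime).two_le
      (Ideal.pow_mem_pow (mem_PI_bot.mpr (by simp)) p)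
  have h2 := Ideal.mem_map_of_mem (phi p φ) he
  rw [Ideal.map_pow] at h2
  rw [pow_mul]
  exact Ideal.pow_right_mono h1 k h2

theorem FEAux.iterate_mem_pow {e : MvPowerSeries σ K} {k : ℕ}
    (he : e ∈ PI σ (⊥ : Ideal K) ^ (k + 1)) {j : ℕ} (hj : 1 ≤ j) :
    (phi p φ)^[j] e ∈ PI σ (⊥ : Ideal K) ^ (k + 2) := by
  induction j, hj using Nat.le_induction with
  | base => exact Ideal.pow_le_pow_right (by omega) (FEAux.phi_mem_pow he)
  | succ j _ ih =>
    rw [Function.iterate_succ_apply']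
    exact Ideal.pow_le_pow_right (by omega) (FEAux.phi_mem_pow ih)

/-- The functional equation lemma. -/
theorem exists_Lg_eq (D : FED p ι φA φ) {n : ℕ} {v : ℕ → A} (hv : ∀ j, n < j → v j = 0)
    (hφv : ∀ j, φA (v j) = v j ^ p) {g : MvPowerSeries σ K} (hg0 : constantCoeff g = 0)
    (hg : PInt p ι ((p : MvPowerSeries σ K) * g -
      ∑ j ∈ Finset.Icc 1 n, C (ι (v j)) * (phi p φ)^[j] g)) :
    ∃ ψ : MvPowerSeries σ A, constantCoeff ψ = 0 ∧
      Lg p (ll p fun j => ι (v j)) (MvPowerSeries.map ι ψ) = g := by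
  set l : ℕ → K := ll p fun j => ι (v j) with hl
  have hl0 : l 0 = 1 := ll_zero _
  have hint : IntSeq p ι l := intSeq_ll D.unit v
  have hLg : ∀ ψ : MvPowerSeries σ A, constantCoeff ψ = 0 →
      PInt p ι ((p : MvPowerSeries σ K) * Lg p l (MvPowerSeries.map ι ψ) -
        ∑ j ∈ Finset.Icc 1 n, C (ι (v j)) * (phi p φ)^[j] (Lg p l (MvPowerSeries.map ι ψ))) := by
    intro ψ hψ
    rw [hl, Lg_FE2 (n := n) D.unit (fun j hj => by rw [hv j hj, map_zero]) φ
      (fun j => by rw [D.comm, hφv, map_pow]) (FEAux.const_map hψ), add_sub_assoc,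
      ← Finset.sum_sub_distrib]
    refine PInt.add ⟨ψ, rfl⟩ (PInt.sum fun j _ => ?_)
    rw [← mul_sub]
    refine PInt.C_mul ?_ _
    rw [← neg_sub]
    exact (phi_Lg_pInt D hint hψ j).neg
  have hdiff : ∀ (k : ℕ) (a b : MvPowerSeries σ A), constantCoeff a = 0 → constantCoeff b = 0 →
      a - b ∈ PI σ (⊥ : Ideal A) ^ k → Lg p l (MvPowerSeries.map ι a) -
        Lg p l (MvPowerSeries.map ι b) - MvPowerSeries.map ι (a - b) ∈
          PI σ (⊥ : Ideal K) ^ (k + 1) := by
    intro k a b ha hb hab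
    have h4 := LogAux.Lg_sub_sub_mem (p := p) (c := l) (FEAux.const_map (ι := ι) ha)
      (FEAux.const_map (ι := ι) hb) (k := k) (by rw [← map_sub]; exact FEAux.map_mem_pow hab)
    rwa [hl0, map_one, one_mul, ← map_sub] at h4
  obtain ⟨L, hL0, hL⟩ := exists_approx (ι := Unit) (PI σ (⊥ : Ideal A))
    (fun k x => constantCoeff (x ()) = 0 ∧
      g - Lg p l (MvPowerSeries.map ι (x ())) ∈ PI σ (⊥ : Ideal K) ^ (k + 1)) (fun _ => 0)
    ⟨map_zero _, by rw [map_zero, Lg_zero, sub_zero, zero_add, pow_one, mem_PI_bot, hg0]⟩ (by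
      rintro k x ⟨hx0, hx⟩
      set e := g - Lg p l (MvPowerSeries.map ι (x ())) with he
      have h1 : PInt p ι ((p : MvPowerSeries σ K) * e -
          ∑ j ∈ Finset.Icc 1 n, C (ι (v j)) * (phi p φ)^[j] e) := by
        have h2 := hg.sub (hLg _ hx0)
        convert h2 using 1
        simp only [he, ← RingHom.coe_pow, map_sub, mul_sub, Finset.sum_sub_distrib]
        ring
      have h2 : ∑ j ∈ Finset.Icc 1 n, C (ι (v j)) * (phi p φ)^[j] e ∈
          PI σ (⊥ : Ideal K) ^ (k + 2) :=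
        sum_mem fun j hj => Ideal.mul_mem_left _ _
          (FEAux.iterate_mem_pow hx (Finset.mem_Icc.mp hj).1)
      choose y hy using pInt_iff.mp h1
      obtain ⟨r, hr1, hr2⟩ := FEAux.exists_hom_part y (k + 1)
      have h3 : constantCoeff (x () + r) = 0 := by
        rw [map_add, hx0, FEAux.const_of_mem hr1, add_zero]
      have h4 : e - MvPowerSeries.map ι r ∈ PI σ (⊥ : Ideal K) ^ (k + 2) := by
        refine FEAux.mem_pow_succ (sub_mem hx (FEAux.map_mem_pow hr1)) fun d hd => ?_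
        have h5 := hy d
        rw [map_sub, mem_PI_bot_pow.mp h2 d (by omega), sub_zero, FEAux.coeff_p_mul] at h5
        rw [map_sub, coeff_map, hr2 d hd, D.unit.mul_left_cancel h5, sub_self]
      refine ⟨fun _ => x () + r, ⟨h3, ?_⟩, fun _ => by simpa using hr1⟩
      have h5 := hdiff (k + 1) _ _ h3 hx0 (by simpa using hr1)
      rw [add_sub_cancel_left] at h5
      convert sub_mem h4 h5 using 1
      rw [he]
      ring)
  have hL1 : constantCoeff (L ()) = 0 := by simpa [mem_PI_bot] using hL0 ()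
  refine ⟨L (), hL1, eq_of_sub_mem_pow (PI σ (⊥ : Ideal K)) fun k => ?_⟩
  obtain ⟨x, ⟨hx0, hx⟩, hx1⟩ := hL k
  have h1 := Ideal.pow_le_pow_right (show k ≤ k + 1 + 1 by omega) (hdiff _ _ _ hL1 hx0 (hx1 ()))
  have h2 := Ideal.pow_le_pow_right (Nat.le_succ k) (FEAux.map_mem_pow (ι := ι) (hx1 ()))
  have h3 := Ideal.pow_le_pow_right (Nat.le_succ k) hx
  convert sub_mem (add_mem h1 h2) h3 using 1
  ring

end Vale.Agent.P217
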