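import Vale.Agent.P217.FE

/-! The universal `p`-typical formal group law with parameters `v_1, ..., v_n` and its points. -/

namespace Vale.Agent.P217

open MvPowerSeries

/-- The universal coefficient ring. -/
abbrev UU : Type := MvPolynomial ℕ ℤ

/-- The universal coefficient ring with `p` inverted. -/
abbrev KU (p : ℕ) : Type := Localization.Away (p : UU)

variable {R S T K : Type*} [CommRing R] [CommRing S] [CommRing T] [CommRing K] {σ τ : Type*}

/-- Truncation of a parameter sequence. -/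
def tr (n : ℕ) (v : ℕ → R) : ℕ → R := fun j => if j ≤ n then v j else 0

theorem tr_eq {n : ℕ} {v : ℕ → R} (hv : ∀ j, n < j → v j = 0) : tr n v = v := by
  funext j; simp only [tr]; split_ifs with h
  · rfl
  · exact (hv j (not_le.mp h)).symm

/-- Specialization of the universal parameters. -/
noncomputable def spec (v : ℕ → S) : UU →+* S := MvPolynomial.eval₂Hom (Int.castRingHom S) v

theorem spec_X (v : ℕ → S) (j : ℕ) : spec v (MvPolynomial.X j) = v j := by simp [spec]

theorem comp_spec (Ψ : S →+* T) (v : ℕ → S) : Ψ.comp (spec v) = spec fun j => Ψ (v j) := by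
  refine MvPolynomial.ringHom_ext (fun r => ?_) fun i => ?_
  · simp
  · simp [spec_X]

theorem spec_sub_mem {N : Ideal S} {v w : ℕ → S} (h : ∀ j, v j - w j ∈ N) (u : UU) :
    spec v u - spec w u ∈ N := by
  rw [← Ideal.Quotient.eq]
  have h1 := DFunLike.congr_fun (comp_spec (Ideal.Quotient.mk N) v) u
  have h2 := DFunLike.congr_fun (comp_spec (Ideal.Quotient.mk N) w) u
  rw [RingHom.comp_apply] at h1 h2
  rw [h1, h2]
  exact congrArg (fun z => spec z u) (funext fun j => Ideal.Quotient.eq.2 (h j))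

variable (p : ℕ) [Fact p.Prime] (n : ℕ)

/-- The universal logarithm coefficients. -/
noncomputable def lU : ℕ → KU p :=
  ll p fun j => algebraMap UU (KU p) (tr n (MvPolynomial.X : ℕ → UU) j)

namespace FglAux

theorem frob (a : UU) :
    (MvPolynomial.expand p).toRingHom a - a ^ p ∈ Ideal.span {(p : UU)} := by
  have hp : p.Prime := Fact.out
  induction a using MvPolynomial.induction_on with
  | C r =>
    have h : (p : ℤ) ∣ r - r ^ p := by
      rw [← ZMod.intCast_zmod_eq_zero_iff_dvd]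
      push_cast
      rw [ZMod.pow_card, sub_self]
    obtain ⟨k, hk⟩ := h
    have e : (MvPolynomial.expand p).toRingHom (MvPolynomial.C r : UU) = MvPolynomial.C r :=
      MvPolynomial.expand_C p r
    rw [e, ← map_pow, ← map_sub, hk, map_mul, map_natCast]
    exact Ideal.mul_mem_right _ _ (Ideal.mem_span_singleton_self _)
  | add a b ha hb =>
    obtain ⟨r, hr⟩ := exists_add_pow_prime_eq hp a b
    have e : (MvPolynomial.expand p).toRingHom (a + b) - (a + b) ^ p =
        ((MvPolynomial.expand p).toRingHom a - a ^ p) +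
          ((MvPolynomial.expand p).toRingHom b - b ^ p) - p * (a * b * r) := by
      rw [map_add, hr]; ring
    rw [e]
    exact sub_mem (add_mem ha hb) (Ideal.mul_mem_right _ _ (Ideal.mem_span_singleton_self _))
  | mul_X a j ha =>
    have e : (MvPolynomial.expand p).toRingHom (MvPolynomial.X j : UU) = MvPolynomial.X j ^ p :=
      MvPolynomial.expand_X p j
    rw [map_mul, e, mul_pow, ← sub_mul]
    exact Ideal.mul_mem_right _ _ ha

theorem fed : ∃ φ, FED p (algebraMap UU (KU p)) (MvPolynomial.expand p).toRingHom φ :=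
  exists_FED_away (mem_nonZeroDivisors_of_ne_zero (Nat.cast_ne_zero.2 (Fact.out : p.Prime).ne_zero))
    _ (frob p)

theorem tr_high {R : Type*} [CommRing R] (n : ℕ) {v : ℕ → R} (j : ℕ) (h : n < j) :
    tr n v j = 0 := if_neg (not_le.2 h)

theorem tr_frob (j : ℕ) : (MvPolynomial.expand p).toRingHom (tr n (MvPolynomial.X : ℕ → UU) j) =
    tr n (MvPolynomial.X : ℕ → UU) j ^ p := by
  unfold tr
  split_ifs
  · exact MvPolynomial.expand_X p j
  · rw [map_zero, zero_pow (Fact.out : p.Prime).ne_zero]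

theorem map_tr (ψ : R →+* S) (v : ℕ → R) : (fun j => ψ (tr n v j)) = tr n fun j => ψ (v j) := by
  funext j
  unfold tr
  split_ifs
  · rfl
  · exact map_zero ψ

theorem phi_iter [Finite σ] (φ : K →+* K) (c : ℕ → K) (i : σ) (j : ℕ) :
    (phi p φ)^[j] (Lg p c (X i : MvPowerSeries σ K)) =
      Lg p (fun t => φ^[j] (c t)) (X i ^ p ^ j) := by
  have hp : p ≠ 0 := (Fact.out : p.Prime).ne_zero
  induction j with
  | zero => simp
  | succ j ih =>
    have e : phi p φ (X i ^ p ^ j : MvPowerSeries σ K) = X i ^ p ^ (j + 1) := by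
      rw [map_pow, phi_X, ← pow_mul, pow_succ']
    rw [Function.iterate_succ_apply', ih, hom_Lg (phi p φ) φ phi_C _ (by simp [hp])
      (by rw [e]; simp [hp]), e]
    simp only [Function.iterate_succ_apply']

theorem key [Finite σ] {φ : KU p →+* KU p}
    (D : FED p (algebraMap UU (KU p)) (MvPolynomial.expand p).toRingHom φ) (i : σ) :
    (p : MvPowerSeries σ (KU p)) * Lg p (lU p n) (X i) - ∑ j ∈ Finset.Icc 1 n,
      C (algebraMap UU (KU p) (tr n (MvPolynomial.X : ℕ → UU) j)) *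
        (phi p φ)^[j] (Lg p (lU p n) (X i)) = (p : MvPowerSeries σ (KU p)) * X i := by
  have h := Lg_FE2 (σ := σ) D.unit (n := n)
    (v := fun j => algebraMap UU (KU p) (tr n (MvPolynomial.X : ℕ → UU) j))
    (fun j hj => by simp only [tr_high n j hj, map_zero]) φ
    (fun j => by rw [D.comm, tr_frob, map_pow]) (ψ := X i) (by simp)
  simp only [phi_iter]
  rw [lU, h]
  ring

end FglAux

theorem exists_Fu : ∃ F : MvPowerSeries (Fin 2) UU, constantCoeff F = 0 ∧
    Lg p (lU p n) (MvPowerSeries.map (algebraMap UU (KU p)) F) =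
      Lg p (lU p n) (X 0) + Lg p (lU p n) (X 1) := by
  obtain ⟨φ, D⟩ := FglAux.fed p
  refine exists_Lg_eq D (n := n) (FglAux.tr_high n) (FglAux.tr_frob p n) ?_ ⟨X 0 + X 1, ?_⟩
  · rw [map_add, constantCoeff_Lg _ (by simp), constantCoeff_Lg _ (by simp), add_zero]
  · have h0 := FglAux.key p n D (0 : Fin 2)
    have h1 := FglAux.key p n D (1 : Fin 2)
    simp only [iterate_map_add, mul_add, Finset.sum_add_distrib, map_add, map_X]
    linear_combination h0 + h1

theorem exists_Iu : ∃ F : PowerSeries UU, constantCoeff F = 0 ∧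
    Lg p (lU p n) (MvPowerSeries.map (algebraMap UU (KU p)) F) =
      - Lg p (lU p n) (PowerSeries.X : PowerSeries (KU p)) := by
  obtain ⟨φ, D⟩ := FglAux.fed p
  refine exists_Lg_eq D (n := n) (FglAux.tr_high n) (FglAux.tr_frob p n) ?_ ⟨-X (), ?_⟩
  · rw [map_neg, PowerSeries.X, constantCoeff_Lg _ (constantCoeff_X ()), neg_zero]
  · have h0 := FglAux.key p n D ()
    simp only [iterate_map_neg, mul_neg, Finset.sum_neg_distrib, map_neg, map_X]
    rw [← h0, PowerSeries.X]
    ring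

/-- The universal formal group law. -/
noncomputable def Fu : MvPowerSeries (Fin 2) UU := (exists_Fu p n).choose

/-- The universal formal inverse. -/
noncomputable def Iu : PowerSeries UU := (exists_Iu p n).choose

/-- The formal group law with parameters `v`. -/
noncomputable def Fv (v : ℕ → S) : MvPowerSeries (Fin 2) S := MvPowerSeries.map (spec v) (Fu p n)

/-- Formal sum of two points. -/
noncomputable def fadd (v : ℕ → S) (a b : S) : S := ev (spec v) ![a, b] (Fu p n)

/-- Formal inverse of a point. -/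
noncomputable def fneg (v : ℕ → S) (a : S) : S := ev1 (spec v) a (Iu p n)

variable {p n}

theorem constantCoeff_Fu : constantCoeff (Fu p n) = 0 := (exists_Fu p n).choose_spec.1

theorem constantCoeff_Iu : constantCoeff (Iu p n) = 0 := (exists_Iu p n).choose_spec.1

theorem ok_pair (I : Ideal S) [IsAdicComplete I S] {a b : S} (ha : a ∈ I.radical)
    (hb : b ∈ I.radical) : Ok ![a, b] :=
  Ok.of_rad I fun i => by fin_cases i <;> simpa

theorem ok_one (I : Ideal S) [IsAdicComplete I S] {a : S} (ha : a ∈ I.radical) :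
    Ok fun _ : Unit => a := Ok.of_rad I fun _ => ha

theorem Fv_eq (v : ℕ → S) :
    Fv p n v = fadd p n (fun j => (C (v j) : MvPowerSeries (Fin 2) S)) (X 0) (X 1) := by
  have e : ![(X 0 : MvPowerSeries (Fin 2) S), X 1] = X := by
    funext i; fin_cases i <;> rfl
  rw [fadd, e, ← comp_spec, ev_C_comp_X, Fv]

section

variable (I : Ideal S) [IsAdicComplete I S] (v : ℕ → S)

theorem fadd_eq_ev {a b : S} (ha : a ∈ I.radical) (hb : b ∈ I.radical) :
    fadd p n v a b = ev (RingHom.id S) ![a, b] (Fv p n v) := by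
  rw [Fv, ev_map _ _ (ok_pair I ha hb), RingHom.id_comp, fadd]

theorem fadd_mem {a b : S} (ha : a ∈ I.radical) (hb : b ∈ I.radical) {N : Ideal S}
    (ha' : a ∈ N) (hb' : b ∈ N) : fadd p n v a b ∈ N :=
  ev_mem _ (ok_pair I ha hb) (fun i => by fin_cases i <;> simpa) constantCoeff_Fu

theorem fneg_mem {a : S} (ha : a ∈ I.radical) {N : Ideal S} (ha' : a ∈ N) : fneg p n v a ∈ N :=
  ev_mem _ (ok_one I ha) (fun _ => ha') constantCoeff_Iu

theorem map_fadd (Ψ : S →+* T) (J : Ideal T) [IsAdicComplete J T] {a b : S} (ha : a ∈ I.radical)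
    (hb : b ∈ I.radical) (ha' : Ψ a ∈ J.radical) (hb' : Ψ b ∈ J.radical) :
    Ψ (fadd p n v a b) = fadd p n (fun j => Ψ (v j)) (Ψ a) (Ψ b) := by
  have e : (fun i => Ψ (![a, b] i)) = ![Ψ a, Ψ b] := by
    funext i; fin_cases i <;> rfl
  rw [fadd, map_ev Ψ _ (ok_pair I ha hb) (by rw [e]; exact ok_pair J ha' hb'), e, comp_spec, fadd]

theorem map_fneg (Ψ : S →+* T) (J : Ideal T) [IsAdicComplete J T] {a : S} (ha : a ∈ I.radical)
    (ha' : Ψ a ∈ J.radical) : Ψ (fneg p n v a) = fneg p n (fun j => Ψ (v j)) (Ψ a) := by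
  rw [fneg, map_ev Ψ _ (ok_one I ha) (ok_one J ha'), comp_spec, fneg]

end

namespace FglAux

theorem exists_lift (hp : IsUnit (p : K)) (v : ℕ → K) : ∃ ψ : KU p →+* K,
    ψ.comp (algebraMap UU (KU p)) = spec v ∧ (fun t => ψ (lU p n t)) = ll p (tr n v) := by
  obtain ⟨φ, D⟩ := fed p
  have hg : IsUnit (spec v (p : UU)) := by rwa [map_natCast]
  have h := IsLocalization.Away.lift_comp (S := KU p) (p : UU) hg
  refine ⟨IsLocalization.Away.lift (p : UU) hg, h, funext fun t => ?_⟩
  rw [lU, map_ll _ D.unit]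
  refine congrArg (fun z => ll p z t) ?_
  simp only [← RingHom.comp_apply, h]
  rw [map_tr]
  simp only [spec_X]

theorem Lg_ev [Finite σ] [Finite τ] {ψ : KU p →+* K} {v : ℕ → K}
    (h2 : (fun t => ψ (lU p n t)) = ll p (tr n v)) {a : τ → MvPowerSeries σ K}
    (ha : ∀ i, constantCoeff (a i) = 0) {F : MvPowerSeries τ (KU p)} (hF : constantCoeff F = 0) :
    ev ((C : K →+* MvPowerSeries σ K).comp ψ) a (Lg p (lU p n) F) =
      Lg p (ll p (tr n v)) (ev ((C : K →+* MvPowerSeries σ K).comp ψ) a F) := by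
  rw [hom_Lg _ ψ (fun r => ev_C _ (Ok.of_const ha) r) _ hF (constantCoeff_ev_eq_zero _ ha hF), h2]

theorem Lg_fadd' [Finite σ] (hp : IsUnit (p : K)) (v : ℕ → K)
    {a b : MvPowerSeries σ K} (ha : constantCoeff a = 0) (hb : constantCoeff b = 0) :
    Lg p (ll p (tr n v)) (fadd p n (fun j => C (v j)) a b) =
      Lg p (ll p (tr n v)) a + Lg p (ll p (tr n v)) b := by
  obtain ⟨ψ, h1, h2⟩ := exists_lift (n := n) hp v
  have hab : ∀ i, constantCoeff (![a, b] i) = 0 := fun i => by fin_cases i <;> simpa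
  have h := congrArg (ev ((C : K →+* MvPowerSeries σ K).comp ψ) ![a, b])
    (exists_Fu p n).choose_spec.2
  rw [map_add, Lg_ev h2 hab (constantCoeff_X 0), Lg_ev h2 hab (constantCoeff_X 1),
    Lg_ev h2 hab (by rw [constantCoeff_map, (exists_Fu p n).choose_spec.1, map_zero]),
    ev_map _ _ (Ok.of_const hab), ev_X _ (Ok.of_const hab), ev_X _ (Ok.of_const hab),
    RingHom.comp_assoc, h1, comp_spec] at h
  exact h

theorem Lg_fneg' [Finite σ] (hp : IsUnit (p : K)) (v : ℕ → K)
    {a : MvPowerSeries σ K} (ha : constantCoeff a = 0) :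
    Lg p (ll p (tr n v)) (fneg p n (fun j => C (v j)) a) = - Lg p (ll p (tr n v)) a := by
  obtain ⟨ψ, h1, h2⟩ := exists_lift (n := n) hp v
  have hab : ∀ i : Unit, constantCoeff ((fun _ => a) i) = 0 := fun _ => ha
  have h := congrArg (ev ((C : K →+* MvPowerSeries σ K).comp ψ) fun _ : Unit => a)
    (exists_Iu p n).choose_spec.2
  rw [map_neg, Lg_ev h2 hab (F := PowerSeries.X) (constantCoeff_X ()),
    Lg_ev h2 hab (by rw [constantCoeff_map, (exists_Iu p n).choose_spec.1, map_zero]),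
    ev_map _ _ (Ok.of_const hab), ev1_X _ (Ok.of_const hab),
    RingHom.comp_assoc, h1, comp_spec] at h
  exact h

/-- The universal parameters in a power series ring. -/
noncomputable abbrev VU (σ : Type*) : ℕ → MvPowerSeries σ UU := fun j => C (MvPolynomial.X j)

/-- The universal logarithm of a formal point. -/
noncomputable def LU (p : ℕ) [Fact p.Prime] (n : ℕ) (x : MvPowerSeries σ UU) :
    MvPowerSeries σ (KU p) := Lg p (lU p n) (MvPowerSeries.map (algebraMap UU (KU p)) x)

omit [Fact p.Prime] in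
theorem lU_eq : lU p n = ll p (tr n fun j => algebraMap UU (KU p) (MvPolynomial.X j)) := by
  rw [lU, map_tr]

theorem const_map {ψ : R →+* S} {x : MvPowerSeries σ R} (hx : constantCoeff x = 0) :
    constantCoeff (MvPowerSeries.map ψ x) = 0 := by
  rw [constantCoeff_map, hx, map_zero]

theorem const_fadd [Finite σ] (v : ℕ → MvPowerSeries σ R) {x y : MvPowerSeries σ R}
    (hx : constantCoeff x = 0) (hy : constantCoeff y = 0) : constantCoeff (fadd p n v x y) = 0 :=
  mem_PI_bot.1 (fadd_mem (PI σ ⊥) v (mem_PI_radical_of_zero _ hx) (mem_PI_radical_of_zero _ hy)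
    (mem_PI_bot.2 hx) (mem_PI_bot.2 hy))

theorem const_fneg [Finite σ] (v : ℕ → MvPowerSeries σ R) {x : MvPowerSeries σ R}
    (hx : constantCoeff x = 0) : constantCoeff (fneg p n v x) = 0 :=
  mem_PI_bot.1 (fneg_mem (PI σ ⊥) v (mem_PI_radical_of_zero _ hx) (mem_PI_bot.2 hx))

theorem LU_add [Finite σ] {x y : MvPowerSeries σ UU} (hx : constantCoeff x = 0)
    (hy : constantCoeff y = 0) : LU p n (fadd p n (VU σ) x y) = LU p n x + LU p n y := by
  obtain ⟨φ, D⟩ := fed p
  rw [LU, map_fadd (PI σ ⊥) (VU σ) (MvPowerSeries.map (algebraMap UU (KU p))) (PI σ ⊥)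
    (mem_PI_radical_of_zero _ hx)
    (mem_PI_radical_of_zero _ hy) (mem_PI_radical_of_zero _ (const_map hx))
    (mem_PI_radical_of_zero _ (const_map hy)), LU, LU, lU_eq]
  simp only [map_C]
  exact Lg_fadd' D.unit _ (const_map hx) (const_map hy)

theorem LU_neg [Finite σ] {x : MvPowerSeries σ UU} (hx : constantCoeff x = 0) :
    LU p n (fneg p n (VU σ) x) = -LU p n x := by
  obtain ⟨φ, D⟩ := fed p
  rw [LU, map_fneg (PI σ ⊥) (VU σ) (MvPowerSeries.map (algebraMap UU (KU p))) (PI σ ⊥)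
    (mem_PI_radical_of_zero _ hx)
    (mem_PI_radical_of_zero _ (const_map hx)), LU, lU_eq]
  simp only [map_C]
  exact Lg_fneg' D.unit _ (const_map hx)

theorem LU_zero [Finite σ] : LU p n (0 : MvPowerSeries σ UU) = 0 := by
  rw [LU, map_zero, Lg_zero]

theorem LU_inj [Finite σ] {x y : MvPowerSeries σ UU} (hx : constantCoeff x = 0)
    (hy : constantCoeff y = 0) (h : LU p n x = LU p n y) : x = y := by
  obtain ⟨φ, D⟩ := fed p
  have h1 := Lg_inj (ll_zero _) (const_map hx) (const_map hy) h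
  ext1 d
  apply D.inj
  rw [← coeff_map, ← coeff_map, h1]

theorem ev_fadd [Finite σ] (I : Ideal S) [IsAdicComplete I S] (v : ℕ → S) {a : σ → S}
    (ha : ∀ i, a i ∈ I.radical) {x y : MvPowerSeries σ UU} (hx : constantCoeff x = 0)
    (hy : constantCoeff y = 0) : ev (spec v) a (fadd p n (VU σ) x y) =
      fadd p n v (ev (spec v) a x) (ev (spec v) a y) := by
  rw [map_fadd (PI σ ⊥) (VU σ) (ev (spec v) a) I
    (mem_PI_radical_of_zero _ hx) (mem_PI_radical_of_zero _ hy)
    (ev_mem _ (Ok.of_rad I ha) ha hx) (ev_mem _ (Ok.of_rad I ha) ha hy)]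
  simp only [ev_C _ (Ok.of_rad I ha), spec_X]

theorem ev_fneg [Finite σ] (I : Ideal S) [IsAdicComplete I S] (v : ℕ → S) {a : σ → S}
    (ha : ∀ i, a i ∈ I.radical) {x : MvPowerSeries σ UU} (hx : constantCoeff x = 0) :
    ev (spec v) a (fneg p n (VU σ) x) = fneg p n v (ev (spec v) a x) := by
  rw [map_fneg (PI σ ⊥) (VU σ) (ev (spec v) a) I
    (mem_PI_radical_of_zero _ hx) (ev_mem _ (Ok.of_rad I ha) ha hx)]
  simp only [ev_C _ (Ok.of_rad I ha), spec_X]

end FglAux

theorem Lg_fadd [Finite σ] (hp : IsUnit (p : K)) {v : ℕ → K} (hv : ∀ j, n < j → v j = 0)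
    {a b : MvPowerSeries σ K} (ha : constantCoeff a = 0) (hb : constantCoeff b = 0) :
    Lg p (ll p v) (fadd p n (fun j => C (v j)) a b) = Lg p (ll p v) a + Lg p (ll p v) b := by
  have := FglAux.Lg_fadd' (n := n) hp v ha hb
  rwa [tr_eq hv] at this

theorem Lg_fneg [Finite σ] (hp : IsUnit (p : K)) {v : ℕ → K} (hv : ∀ j, n < j → v j = 0)
    {a : MvPowerSeries σ K} (ha : constantCoeff a = 0) :
    Lg p (ll p v) (fneg p n (fun j => C (v j)) a) = - Lg p (ll p v) a := by
  have := FglAux.Lg_fneg' (n := n) hp v ha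
  rwa [tr_eq hv] at this

section

variable (I : Ideal S) [IsAdicComplete I S] (v : ℕ → S)

open FglAux in
theorem fadd_assoc {a b c : S} (ha : a ∈ I.radical) (hb : b ∈ I.radical) (hc : c ∈ I.radical) :
    fadd p n v (fadd p n v a b) c = fadd p n v a (fadd p n v b c) := by
  have hx : ∀ i : Fin 3, constantCoeff (X i : MvPowerSeries (Fin 3) UU) = 0 := constantCoeff_X
  have h : fadd p n (VU (Fin 3)) (fadd p n (VU (Fin 3)) (X 0) (X 1)) (X 2) =
      fadd p n (VU (Fin 3)) (X 0) (fadd p n (VU (Fin 3)) (X 1) (X 2)) := by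
    refine LU_inj (p := p) (n := n) (const_fadd _ (const_fadd _ (hx 0) (hx 1)) (hx 2))
      (const_fadd _ (hx 0) (const_fadd _ (hx 1) (hx 2))) ?_
    rw [LU_add (const_fadd _ (hx 0) (hx 1)) (hx 2), LU_add (hx 0) (const_fadd _ (hx 1) (hx 2)),
      LU_add (hx 0) (hx 1), LU_add (hx 1) (hx 2), add_assoc]
  have hr : ∀ i, ![a, b, c] i ∈ I.radical := fun i => by fin_cases i <;> simpa
  have h2 := congrArg (ev (spec v) ![a, b, c]) h
  rw [ev_fadd I v hr (const_fadd _ (hx 0) (hx 1)) (hx 2),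
    ev_fadd I v hr (hx 0) (const_fadd _ (hx 1) (hx 2)), ev_fadd I v hr (hx 0) (hx 1),
    ev_fadd I v hr (hx 1) (hx 2)] at h2
  simp only [ev_X _ (Ok.of_rad I hr)] at h2
  exact h2

open FglAux in
theorem fadd_comm {a b : S} (ha : a ∈ I.radical) (hb : b ∈ I.radical) :
    fadd p n v a b = fadd p n v b a := by
  have hx : ∀ i : Fin 2, constantCoeff (X i : MvPowerSeries (Fin 2) UU) = 0 := constantCoeff_X
  have h : fadd p n (VU (Fin 2)) (X 0) (X 1) = fadd p n (VU (Fin 2)) (X 1) (X 0) := by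
    refine LU_inj (p := p) (n := n) (const_fadd _ (hx 0) (hx 1)) (const_fadd _ (hx 1) (hx 0)) ?_
    rw [LU_add (hx 0) (hx 1), LU_add (hx 1) (hx 0), add_comm]
  have hr : ∀ i, ![a, b] i ∈ I.radical := fun i => by fin_cases i <;> simpa
  have h2 := congrArg (ev (spec v) ![a, b]) h
  rw [ev_fadd I v hr (hx 0) (hx 1), ev_fadd I v hr (hx 1) (hx 0)] at h2
  simp only [ev_X _ (Ok.of_rad I hr)] at h2
  exact h2

open FglAux in
theorem fadd_zero {a : S} (ha : a ∈ I.radical) : fadd p n v a 0 = a := by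
  have hx : constantCoeff (X () : MvPowerSeries Unit UU) = 0 := constantCoeff_X _
  have h : fadd p n (VU Unit) (X ()) 0 = X () := by
    refine LU_inj (p := p) (n := n) (const_fadd _ hx (map_zero _)) hx ?_
    rw [LU_add hx (map_zero _), LU_zero, add_zero]
  have h2 := congrArg (ev (spec v) fun _ : Unit => a) h
  rw [ev_fadd I v (fun _ => ha) hx (map_zero _), map_zero, ev_X _ (ok_one I ha)] at h2
  exact h2

open FglAux in
theorem fneg_fadd {a : S} (ha : a ∈ I.radical) : fadd p n v (fneg p n v a) a = 0 := by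
  have hx : constantCoeff (X () : MvPowerSeries Unit UU) = 0 := constantCoeff_X _
  have h : fadd p n (VU Unit) (fneg p n (VU Unit) (X ())) (X ()) = 0 := by
    refine LU_inj (p := p) (n := n) (const_fadd _ (const_fneg _ hx) hx) (map_zero _) ?_
    rw [LU_add (const_fneg _ hx) hx, LU_neg hx, LU_zero, neg_add_cancel]
  have h2 := congrArg (ev (spec v) fun _ : Unit => a) h
  rw [ev_fadd I v (fun _ => ha) (const_fneg _ hx) hx, ev_fneg I v (fun _ => ha) hx, map_zero,
    ev_X _ (ok_one I ha)] at h2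
  exact h2

theorem FglAux.congr' {a b a' b' : S} (ha : a ∈ I.radical) (hb : b ∈ I.radical)
    (ha' : a' ∈ I.radical) (hb' : b' ∈ I.radical) {N : Ideal S} (h1 : a - a' ∈ N)
    (h2 : b - b' ∈ N) : fadd p n v a b - fadd p n v a' b' ∈ N :=
  ev_sub_ev_mem (spec v) I (fun i => by fin_cases i <;> simpa) (fun i => by fin_cases i <;> simpa)
    (fun i => by fin_cases i <;> simpa) _

open FglAux in
theorem FglAux.univ_eq : ∃ g, fadd p n (VU (Fin 2)) (X 0) (X 1) = X 0 + X 1 + X 0 * X 1 * g := by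
  have hx : ∀ i : Fin 2, (X i : MvPowerSeries (Fin 2) UU) ∈ (PI (Fin 2) ⊥).radical := fun i =>
    mem_PI_radical_of_zero _ (constantCoeff_X i)
  have h1 := FglAux.congr' (p := p) (n := n) (PI (Fin 2) ⊥) (VU (Fin 2)) (hx 0) (hx 1) (hx 0)
    (zero_mem _) (N := Ideal.span {X 1}) (by simp) (by simp)
  rw [fadd_zero _ _ (hx 0)] at h1
  obtain ⟨h, hh⟩ := Ideal.mem_span_singleton'.1 h1
  have hr : ∀ i, ![0, (X 1 : MvPowerSeries (Fin 2) UU)] i ∈ (PI (Fin 2) ⊥).radical := fun i => by
    fin_cases i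
    · exact zero_mem _
    · exact hx 1
  have hs : spec (VU (Fin 2)) = C := by
    rw [← comp_spec]
    refine MvPolynomial.ringHom_ext (fun r => ?_) fun i => ?_
    · simp
    · simp [spec_X]
  have h2 := congrArg (ev (spec (VU (Fin 2))) ![0, X 1]) hh
  rw [map_mul, map_sub, ev_fadd _ _ hr (constantCoeff_X _) (constantCoeff_X _)] at h2
  simp only [ev_X _ (Ok.of_rad _ hr), Matrix.cons_val_zero, Matrix.cons_val_one] at h2
  rw [fadd_comm _ _ (zero_mem _) (hx 1), fadd_zero _ _ (hx 1), sub_zero, hs] at h2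
  have hX : (X 1 : MvPowerSeries (Fin 2) UU) ≠ 0 := fun h0 => by
    simpa using congrArg (coeff (Finsupp.single 1 1)) h0
  have h3 := mul_right_cancel₀ hX (h2.trans (one_mul _).symm)
  have h4 := ev_sub_ev_mem (C : UU →+* _) (PI (Fin 2) ⊥) hx hr (N := Ideal.span {X 0})
    (fun i => by fin_cases i <;> simp) h
  rw [ev_C_X, h3] at h4
  obtain ⟨g, hg⟩ := Ideal.mem_span_singleton'.1 h4
  exact ⟨g, by linear_combination -(X 1) * hg - hh⟩

theorem fadd_eq {a b : S} (ha : a ∈ I.radical) (hb : b ∈ I.radical) :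
    ∃ g, fadd p n v a b = a + b + a * b * g := by
  obtain ⟨g, hg⟩ := FglAux.univ_eq (p := p) (n := n)
  have hr : ∀ i, ![a, b] i ∈ I.radical := fun i => by fin_cases i <;> simpa
  have h2 := congrArg (ev (spec v) ![a, b]) hg
  rw [FglAux.ev_fadd I v hr (constantCoeff_X _) (constantCoeff_X _)] at h2
  simp only [map_add, map_mul, ev_X _ (Ok.of_rad I hr)] at h2
  exact ⟨_, h2⟩

theorem fneg_eq {a : S} (ha : a ∈ I.radical) : ∃ g, fneg p n v a = -a + a ^ 2 * g := by
  have hr := fneg_mem (p := p) (n := n) I v ha ha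
  obtain ⟨g, hg⟩ := fadd_eq (p := p) (n := n) I v hr ha
  obtain ⟨k, hk⟩ := Ideal.mem_span_singleton'.1
    (fneg_mem (p := p) (n := n) I v ha (Ideal.mem_span_singleton_self a))
  rw [fneg_fadd I v ha] at hg
  exact ⟨-(k * g), by linear_combination (a * g) * hk - hg⟩

theorem fadd_congr {a b a' b' : S} (ha : a ∈ I.radical) (hb : b ∈ I.radical)
    (ha' : a' ∈ I.radical) (hb' : b' ∈ I.radical) {N : Ideal S} (h1 : a - a' ∈ N)
    (h2 : b - b' ∈ N) : fadd p n v a b - fadd p n v a' b' ∈ N := by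
  exact FglAux.congr' I v ha hb ha' hb' h1 h2

omit [Fact p.Prime] in
theorem FglAux.map_spec_sub {N : Ideal S} {v w : ℕ → S} (h : ∀ j, v j - w j ∈ N)
    (F : MvPowerSeries σ UU) :
    MvPowerSeries.map (spec v) F - MvPowerSeries.map (spec w) F ∈ cI σ N :=
  mem_cI.2 fun d => by
    rw [map_sub, coeff_map, coeff_map]
    exact spec_sub_mem h _

theorem fadd_congr_param {w : ℕ → S} {π : S} (h : ∀ j, v j - w j ∈ Ideal.span {π}) {a b : S}
    (ha : a ∈ I.radical) (hb : b ∈ I.radical) :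
    fadd p n v a b - fadd p n w a b ∈ Ideal.span {π} := by
  rw [fadd_eq_ev I v ha hb, fadd_eq_ev I w ha hb, ← map_sub]
  exact ev_mem_of_cI (RingHom.id S) (ok_pair I ha hb) (FglAux.map_spec_sub h _)

end

theorem fadd_congr_param_cI [Finite τ] {N : Ideal S} {v w : ℕ → S} (h : ∀ j, v j - w j ∈ N)
    {a b : MvPowerSeries τ S} (ha : constantCoeff a = 0) (hb : constantCoeff b = 0) :
    fadd p n (fun j => C (v j)) a b - fadd p n (fun j => C (w j)) a b ∈ cI τ N := by
  have hab : ∀ i, constantCoeff (![a, b] i) = 0 := fun i => by fin_cases i <;> simpa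
  rw [fadd, fadd, ← comp_spec, ← comp_spec, ← ev_map _ _ (Ok.of_const hab),
    ← ev_map _ _ (Ok.of_const hab), ← map_sub]
  exact ev_C_mem_cI hab (FglAux.map_spec_sub h _)

/-- The group of points of the formal group law with parameters `v`. -/
@[ext]
structure Pt (p n : ℕ) (I : Ideal S) (v : ℕ → S) where
  /-- The underlying element. -/
  val : S
  mem : val ∈ I.radical

namespace Pt

variable {I : Ideal S} [IsAdicComplete I S] {v : ℕ → S}

noncomputable instance : Add (Pt p n I v) :=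
  ⟨fun a b => ⟨fadd p n v a.1 b.1, fadd_mem I v a.2 b.2 a.2 b.2⟩⟩

instance : Zero (Pt p n I v) := ⟨⟨0, zero_mem _⟩⟩

noncomputable instance : Neg (Pt p n I v) := ⟨fun a => ⟨fneg p n v a.1, fneg_mem I v a.2 a.2⟩⟩

theorem val_add (a b : Pt p n I v) : (a + b).1 = fadd p n v a.1 b.1 := rfl

omit [Fact p.Prime] [IsAdicComplete I S] in
theorem val_zero : (0 : Pt p n I v).1 = 0 := rfl

theorem val_neg (a : Pt p n I v) : (-a).1 = fneg p n v a.1 := rfl

noncomputable instance : AddCommGroup (Pt p n I v) where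
  add_assoc a b c := Pt.ext (fadd_assoc I v a.2 b.2 c.2)
  zero_add a := Pt.ext ((fadd_comm I v (zero_mem _) a.2).trans (fadd_zero I v a.2))
  add_zero a := Pt.ext (fadd_zero I v a.2)
  add_comm a b := Pt.ext (fadd_comm I v a.2 b.2)
  neg_add_cancel a := Pt.ext (fneg_fadd I v a.2)
  nsmul := nsmulRec
  zsmul := zsmulRec

/-- Functoriality of points. -/
noncomputable def map (Ψ : S →+* T) {J : Ideal T} [IsAdicComplete J T] {w : ℕ → T}
    (hΨ : ∀ a ∈ I.radical, Ψ a ∈ J.radical) (hv : ∀ j, Ψ (v j) = w j) :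
    Pt p n I v →+ Pt p n J w where
  toFun a := ⟨Ψ a.1, hΨ _ a.2⟩
  map_zero' := Pt.ext (map_zero Ψ)
  map_add' a b := Pt.ext (by
    have := map_fadd (p := p) (n := n) I v Ψ J a.2 b.2 (hΨ _ a.2) (hΨ _ b.2)
    simp only [hv] at this
    exact this)

theorem val_map (Ψ : S →+* T) {J : Ideal T} [IsAdicComplete J T] {w : ℕ → T}
    (hΨ : ∀ a ∈ I.radical, Ψ a ∈ J.radical) (hv : ∀ j, Ψ (v j) = w j) (a : Pt p n I v) :
    (map Ψ hΨ hv a).1 = Ψ a.1 := rfl

theorem sub_mem_iff (a b : Pt p n I v) (N : Ideal S) : (a - b).1 ∈ N ↔ a.1 - b.1 ∈ N := by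
  obtain ⟨g, hg⟩ := fadd_eq (p := p) (n := n) I v (a - b).2 b.2
  rw [← val_add, sub_add_cancel] at hg
  have e : a.1 - b.1 = (a - b).1 * (1 + b.1 * g) := by linear_combination hg
  rw [e, Ideal.mul_unit_mem_iff_mem N
    (isUnit_one_add_of_mem_radical I (Ideal.mul_mem_right _ _ b.2))]

/-- Points lying in an ideal form a subgroup. -/
def sub (p n : ℕ) [Fact p.Prime] (I : Ideal S) [IsAdicComplete I S] (v : ℕ → S) (N : Ideal S) :
    AddSubgroup (Pt p n I v) where
  carrier := {a | a.1 ∈ N}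
  add_mem' {a b} ha hb := fadd_mem I v a.2 b.2 ha hb
  zero_mem' := zero_mem N
  neg_mem' {a} ha := fneg_mem I v a.2 ha

theorem mem_sub {N : Ideal S} {a : Pt p n I v} : a ∈ sub p n I v N ↔ a.1 ∈ N := Iff.rfl

theorem val_sum_sub_mem {α : Type*} (s : Finset α) (a : α → Pt p n I v) {N : Ideal S}
    (ha : ∀ i ∈ s, (a i).1 ∈ N) : (∑ i ∈ s, a i).1 - ∑ i ∈ s, (a i).1 ∈ N ^ 2 := by
  classical
  induction s using Finset.induction_on with
  | empty => simp [val_zero]
  | insert i s hi ih =>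
    have h1 := ih fun j hj => ha j (Finset.mem_insert_of_mem hj)
    have h2 : ∑ j ∈ s, a j ∈ sub p n I v N :=
      sum_mem fun j hj => ha j (Finset.mem_insert_of_mem hj)
    obtain ⟨g, hg⟩ := fadd_eq (p := p) (n := n) I v (a i).2 (∑ j ∈ s, a j).2
    have h3 : (a i).1 * (∑ j ∈ s, a j).1 * g ∈ N ^ 2 := by
      rw [pow_two]
      exact Ideal.mul_mem_right _ _ (Ideal.mul_mem_mul (ha i (Finset.mem_insert_self _ _)) h2)
    rw [Finset.sum_insert hi, Finset.sum_insert hi, val_add, hg]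
    have e : (a i).1 + (∑ j ∈ s, a j).1 + (a i).1 * (∑ j ∈ s, a j).1 * g -
        ((a i).1 + ∑ j ∈ s, (a j).1) =
        ((∑ j ∈ s, a j).1 - ∑ j ∈ s, (a j).1) + (a i).1 * (∑ j ∈ s, a j).1 * g := by ring
    rw [e]
    exact add_mem h1 h3

theorem val_nsmul_sub_mem (m : ℕ) (a : Pt p n I v) :
    (m • a).1 - m * a.1 ∈ Ideal.span {a.1 ^ 2} := by
  have := val_sum_sub_mem (Finset.range m) (fun _ => a) (N := Ideal.span {a.1})
    fun _ _ => Ideal.mem_span_singleton_self _
  rwa [Finset.sum_const, Finset.sum_const, Finset.card_range, nsmul_eq_mul,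
    Ideal.span_singleton_pow] at this

end Pt

end Vale.Agent.P217
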