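import Vale.Agent.P217.Good
import Vale.Agent.P217.Bridge

/-! Geometric points of prescribed height. -/

namespace Vale.Agent.P217

theorem PtsAux.rad {B : Type} [CommRing B] [IsDomain B] [IsNoetherianRing B] [IsLocalRing B]
    {u : B} (hu : u ≠ 0) (h : ∀ q : Ideal B, q.IsPrime → q ≠ ⊥ → u ∈ q) :
    IsLocalRing.maximalIdeal B ≤ (Ideal.span {u}).radical := by
  by_cases hm : u ∈ IsLocalRing.maximalIdeal B
  swap
  · rw [Ideal.span_singleton_eq_top.2 (IsLocalRing.notMem_maximalIdeal.1 hm), Ideal.radical_top]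
    exact le_top
  have key : ∀ y ∈ IsLocalRing.maximalIdeal B, y ≠ 0 →
      ∃ q ∈ (Ideal.span {u}).minimalPrimes, y ∈ q := fun y hy h0 => by
    obtain ⟨q, hq, -⟩ := Ideal.exists_minimalPrimes_le
      ((Ideal.span_singleton_le_iff_mem _).2 hy)
    have := hq.isPrime
    have hyq : y ∈ q := hq.le (Ideal.mem_span_singleton_self y)
    obtain ⟨q', hq', hle⟩ := Ideal.exists_minimalPrimes_le ((Ideal.span_singleton_le_iff_mem _).2
      (h q this fun e => h0 (Ideal.mem_bot.1 (e ▸ hyq))))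
    have := hq'.isPrime
    refine ⟨q', hq', (hle.eq_or_lt.resolve_right fun hlt => ?_) ▸ hyq⟩
    have h1 := Ideal.height_add_one_le_of_lt_of_isPrime hlt
    have h2 := Ideal.height_add_one_le_of_lt_of_isPrime (show (⊥ : Ideal B) < q' from
      bot_lt_iff_ne_bot.2 fun e => hu (Ideal.mem_bot.1
        (e ▸ hq'.le (Ideal.mem_span_singleton_self u))))
    have h3 := Ideal.height_le_one_of_isPrincipal_of_mem_minimalPrimes _ q hq
    have h4 : (1 : ℕ∞) + 1 ≤ 1 :=
      (add_le_add (le_add_self.trans h2) le_rfl).trans (h1.trans h3)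
    exact absurd h4 (by decide)
  obtain ⟨q, hq, hle⟩ := ((IsLocalRing.maximalIdeal B).subset_union_prime_finite
    (Ideal.finite_minimalPrimes_of_isNoetherianRing B (Ideal.span {u})) (f := id) 0 0
    fun _ h _ _ => h.isPrime).1 fun y hy => by
      rcases eq_or_ne y 0 with rfl | h0
      · obtain ⟨q, hq, -⟩ := key u hm hu
        exact Set.mem_biUnion hq q.zero_mem
      · obtain ⟨q, hq, hy⟩ := key y hy h0
        exact Set.mem_biUnion hq hy
  rw [← Ideal.sInf_minimalPrimes]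
  exact le_sInf fun q' hq' => hle.trans (hq.2 hq'.1
    ((IsLocalRing.le_maximalIdeal hq'.isPrime.ne_top).trans hle))


/-- In a Noetherian local ring an element outside a prime `P` stays nonzero in a quotient of
dimension one. -/
theorem exists_prime_rad {E : Type} [CommRing E] [IsNoetherianRing E] [IsLocalRing E]
    (P : Ideal E) [P.IsPrime] {u : E} (hu : u ∉ P) :
    ∃ Q : Ideal E, Q.IsPrime ∧ P ≤ Q ∧ u ∉ Q ∧
      ∀ y ∈ IsLocalRing.maximalIdeal E, ∃ k : ℕ, y ^ k ∈ Q ⊔ Ideal.span {u} := by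
  obtain ⟨Q, ⟨hQ, hPQ, huQ⟩, hmax⟩ := set_has_maximal_iff_noetherian.2
    (inferInstance : IsNoetherian E E) {Q : Ideal E | Q.IsPrime ∧ P ≤ Q ∧ u ∉ Q}
    ⟨P, inferInstance, le_rfl, hu⟩
  refine ⟨Q, hQ, hPQ, huQ, fun y hy => ?_⟩
  have : IsLocalRing (E ⧸ Q) := IsLocalRing.of_surjective' _ Ideal.Quotient.mk_surjective
  have : IsLocalHom (Ideal.Quotient.mk Q) := .of_surjective _ Ideal.Quotient.mk_surjective
  obtain ⟨k, hk⟩ := PtsAux.rad (u := Ideal.Quotient.mk Q u)
    (mt Ideal.Quotient.eq_zero_iff_mem.1 huQ) (fun q hq h0 => by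
      by_contra hu'
      have h1 : Q ≤ q.comap (Ideal.Quotient.mk Q) :=
        Ideal.mk_ker.symm.trans_le (Ideal.ker_le_comap _)
      refine hmax (q.comap (Ideal.Quotient.mk Q)) ⟨inferInstance, hPQ.trans h1, hu'⟩
        (lt_of_le_of_ne h1 fun e => h0 (eq_bot_iff.2 fun z hz => ?_))
      obtain ⟨z, rfl⟩ := Ideal.Quotient.mk_surjective z
      exact Ideal.Quotient.eq_zero_iff_mem.2 (e ▸ hz))
    (map_nonunit (Ideal.Quotient.mk Q) y hy)
  obtain ⟨c, hc⟩ := Ideal.mem_span_singleton'.1 hk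
  obtain ⟨c, rfl⟩ := Ideal.Quotient.mk_surjective c
  rw [← map_mul, ← map_pow, eq_comm, Ideal.Quotient.eq] at hc
  refine ⟨k, ?_⟩
  rw [← sub_add_cancel (y ^ k) (c * u)]
  exact Submodule.add_mem_sup hc (Ideal.mul_mem_left _ _ (Ideal.mem_span_singleton_self u))

/-- A local domain is dominated by a valuation ring with algebraically closed fraction field. -/
theorem exists_valuation (B : Type) [CommRing B] [IsDomain B] [IsLocalRing B] :
    ∃ (V : Type) (_ : CommRing V) (_ : IsDomain V) (ι : B →+* V), Function.Injective ι ∧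
      (∀ a b : V, a ∣ b ∨ b ∣ a) ∧
      (∀ f : Polynomial V, f.Monic → 0 < f.natDegree → ∃ y, f.IsRoot y) ∧
      ∀ b ∈ IsLocalRing.maximalIdeal B, ¬ IsUnit (ι b) := by
  let f : B →+* AlgebraicClosure (FractionRing B) :=
    (algebraMap (FractionRing B) _).comp (algebraMap B (FractionRing B))
  have hf : Function.Injective f :=
    (algebraMap (FractionRing B) (AlgebraicClosure (FractionRing B))).injective.comp
      (IsFractionRing.injective B (FractionRing B))
  obtain ⟨A, h, hl⟩ := IsLocalRing.exists_factor_valuationRing f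
  refine ⟨A, inferInstance, inferInstance, f.codRestrict A.toSubring h,
    fun a b e => hf (congrArg Subtype.val e), ValuationRing.dvd_total, fun g hg hd => ?_,
    fun b hb hu => hb (hl.map_nonunit b hu)⟩
  obtain ⟨z, hz⟩ := IsAlgClosed.exists_root
    (g.map (algebraMap A (AlgebraicClosure (FractionRing B)))) (by
      rw [hg.degree_map]
      exact (Polynomial.natDegree_pos_iff_degree_pos.1 hd).ne')
  obtain ⟨y, rfl⟩ := IsIntegrallyClosed.algebraMap_eq_of_integral
    (R := A) (x := z) ⟨g, hg, by rwa [← Polynomial.eval_map]⟩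
  exact ⟨y, (Polynomial.isRoot_map_iff (IsFractionRing.injective A _)).1 hz⟩

variable {p : ℕ} [Fact p.Prime] {n : ℕ}

theorem exists_point (P : Ideal (EE p n)) [P.IsPrime] {h : ℕ} (hh : h < n)
    (hu : uu p n h ∉ P) :
    ∃ (O : Type) (_ : CommRing O) (_ : IsDomain O) (ϖ : O) (_ : Good O ϖ) (x : EE p n →+* O),
      (∀ f ∈ P, x f = 0) ∧ (∀ j, j < n → x (uu p n j) ∈ Ideal.span {ϖ}) ∧ x (uu p n h) ≠ 0 := by
  obtain ⟨Q, hQ, hPQ, huQ, hr⟩ := exists_prime_rad P hu
  have : IsLocalRing (EE p n ⧸ Q) := IsLocalRing.of_surjective' _ Ideal.Quotient.mk_surjective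
  have : IsLocalHom (Ideal.Quotient.mk Q) := .of_surjective _ Ideal.Quotient.mk_surjective
  obtain ⟨V, _, _, ι, hι, hval, hroot, hloc⟩ := exists_valuation (EE p n ⧸ Q)
  have : Nonempty (Fin n) := ⟨⟨h, hh⟩⟩
  obtain ⟨i, hi⟩ := GoodAux.exists_dvd_all hval
    fun j : Fin n => ι (Ideal.Quotient.mk Q (uu p n j))
  have hm : uu p n i ∈ IsLocalRing.maximalIdeal (EE p n) := fun hu =>
    isUnit_iff_res.1 hu (mem_mE.1 (uu_mem i i.2))
  have h0 : ι (Ideal.Quotient.mk Q (uu p n h)) ≠ 0 := fun e =>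
    huQ (Ideal.Quotient.eq_zero_iff_mem.1 (hι (e.trans (map_zero ι).symm)))
  obtain ⟨O, _, _, κ, hG, hκ⟩ := exists_good V hval hroot (ι (Ideal.Quotient.mk Q (uu p n i)))
    (fun e => h0 (zero_dvd_iff.1 (e ▸ hi ⟨h, hh⟩))) (hloc _ (map_nonunit _ _ hm))
  refine ⟨O, inferInstance, inferInstance, _, hG, κ.comp (ι.comp (Ideal.Quotient.mk Q)),
    fun f hf => ?_, fun j hj => Ideal.mem_span_singleton.2 (map_dvd κ (hi ⟨j, hj⟩)), hκ _ ?_⟩
  · simp [Ideal.Quotient.eq_zero_iff_mem.2 (hPQ hf)]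
  · obtain ⟨k, hk⟩ := hr _ hm
    obtain ⟨a, ha, b, hb, e⟩ := Submodule.mem_sup.1 hk
    refine ⟨k, ?_⟩
    rw [← map_pow, ← map_pow, ← e, map_add, Ideal.Quotient.eq_zero_iff_mem.2 ha, zero_add]
    exact map_dvd (ι.comp (Ideal.Quotient.mk Q)) (Ideal.mem_span_singleton.1 hb)

end Vale.Agent.P217
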