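import Vale.Agent.P217.ST
import Vale.Agent.P217.Ch0
import Vale.Agent.P217.Act
import Vale.Agent.P217.Pts

/-! Assembly. -/

namespace Vale.Agent.P217

open MvPowerSeries

variable {p : ℕ} [Fact p.Prime] {n : ℕ}

section

variable {O : Type} [CommRing O] [IsDomain O] {ϖ : O} [Good O ϖ]

omit [IsDomain O] [Good O ϖ] in
theorem FinalAux.map_ht {x : EE p n →+* O} {N : Ideal O} {h : ℕ}
    (hx : ∀ j, j < h → x (uu p n j) ∈ N) : ∀ f ∈ htIdeal p n h, x f ∈ N := by
  have : htIdeal p n h ≤ N.comap x := Ideal.span_le.2 (by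
    rintro _ ⟨j, hj, rfl⟩
    exact hx j hj)
  exact fun f hf => this hf

theorem gp_point (hn : 1 ≤ n) {x : EE p n →+* O}
    (hx : ∀ j, j < n → x (uu p n j) ∈ Ideal.span {ϖ}) : GP n ϖ fun j => x (uu p n j) := by
  exact ⟨hn, hx, by rw [uu_top hn, map_one], fun j hj => by rw [uu_supp j hj, map_zero]⟩

theorem point_mem (hn : 1 ≤ n) {x : EE p n →+* O}
    (hx : ∀ j, j < n → x (uu p n j) ∈ Ideal.span {ϖ}) :
    ∀ f ∈ mE p n, x f ∈ Ideal.span {ϖ} := by
  rw [mE_eq hn]
  exact FinalAux.map_ht hx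

/-- The translate of a point by a group element. -/
theorem exists_translate (hn : 1 ≤ n) {x : EE p n →+* O}
    (hx : ∀ j, j < n → x (uu p n j) ∈ Ideal.span {ϖ}) {lo : ℕ} (hlo : 1 ≤ lo)
    {g : PowerSeries (GaloisField p n)} {φ : EE p n →+* EE p n}
    (hφ : Act p n (RingHom.id _) g φ)
    (h0 : ∀ j, 1 ≤ j → j < lo → x (φ (uu p n j)) = x (uu p n j))
    {g' : PowerSeries (EE p n)} (hg' : MvPowerSeries.map (res p n) g' = g) :
    ∃ (a : Fin (n - lo) → O) (k : PowerSeries O), (∀ i, a i ∈ Ideal.span {ϖ}) ∧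
      IsHomS p n (sh n lo (fun j => x (uu p n j)) a) n (fun j => x (uu p n j)) k ∧
      k - MvPowerSeries.map x g' ∈ cI Unit (Ideal.span {ϖ}) ∧
      ∀ f, ev (RingHom.id O) a (Psi lo x f) = x (φ f) := by
  obtain ⟨k, hk, hk'⟩ := hφ.lift
  have hm : ∀ j, j < n → x (φ (uu p n j)) ∈ Ideal.span {ϖ} := fun j hj =>
    point_mem hn hx _ (hφ.loc _ (uu_mem j hj))
  have ha : ∀ i : Fin (n - lo), x (φ (uu p n (lo + i))) - x (uu p n (lo + i)) ∈ Ideal.span {ϖ} :=
    fun i => by
      have := i.2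
      exact sub_mem (hm _ (by omega)) (hx _ (by omega))
  have hy : ∀ j, x (φ (uu p n j)) = sh n lo (fun j => x (uu p n j))
      (fun i => x (φ (uu p n (lo + i))) - x (uu p n (lo + i))) j := by
    intro j
    by_cases hj : lo ≤ j ∧ j < n
    · simp only [sh, dif_pos hj, Nat.add_sub_cancel' hj.1]
      ring
    · rw [sh_out _ _ (by omega)]
      rcases Nat.eq_zero_or_pos j with rfl | hj0
      · rw [uu_zero, map_natCast φ]
      rcases lt_trichotomy j n with h | rfl | h
      · exact h0 j hj0 (by omega)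
      · rw [uu_top hn, map_one φ]
      · rw [uu_supp j h, map_zero φ]
  refine ⟨_, MvPowerSeries.map x k, ha, ?_, ?_, fun f => ?_⟩
  · have := hk'.map x
    rwa [funext hy] at this
  · rw [← map_sub]
    refine map_mem_cI x (point_mem hn hx) (mem_cI.2 fun d => mem_mE.2 ?_)
    rw [← coeff_map, map_sub, hk, hg', sub_self, map_zero]
  · refine ev_Psi (Ideal.span {ϖ}) (fun j hj => Ideal.le_radical (hx j hj)) hlo (y := x.comp φ)
      (fun w => ?_) (fun i => Ideal.le_radical (ha i)) hy f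
    have e : WittVector.map (RingHom.id (GaloisField p n)) w = w := by
      ext; simp
    rw [RingHom.comp_apply, hφ.const, e]

namespace FinalAux

theorem aut_X : Aut p n PowerSeries.X := ⟨isHomS_X, by simp⟩

theorem aut_gD {δ : PowerSeries (GaloisField p n)}
    (h : IsHomS p n (eH (GaloisField p n) n) n (eH (GaloisField p n) n) δ)
    (h1 : PowerSeries.coeff 1 δ = 0) (N : ℕ) : Aut p n (gD p n (eH (GaloisField p n) n) δ N) :=
  ⟨h.gD N, by rw [coeff_one_gD _ h.const h1]; exact one_ne_zero⟩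

theorem res_teich (a : GaloisField p n) : res p n (C (WittVector.teichmuller p a)) = a := by
  simp [res]

theorem map_term {S T : Type} [CommRing S] [CommRing T] (ψ : S →+* T) (r : S) (q : ℕ) :
    MvPowerSeries.map ψ (C r * PowerSeries.X ^ q : PowerSeries S) = C (ψ r) * PowerSeries.X ^ q := by
  have hX : MvPowerSeries.map ψ (PowerSeries.X : PowerSeries S) = PowerSeries.X := map_X _ ()
  rw [map_mul, map_pow, map_C, hX]

theorem cast_ne (hn : 1 ≤ n) {x : EE p n →+* O}
    (hx : ∀ j, j < n → x (uu p n j) ∈ Ideal.span {ϖ}) (hp : (p : O) ≠ 0) (m : ℕ) :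
    (m : O) + 1 ≠ 0 := by
  obtain ⟨q, hq⟩ := CharP.exists O
  rcases CharP.char_is_prime_or_zero O q with h | rfl
  · exfalso
    have h0 : (q : O) = 0 := CharP.cast_eq_zero O q
    have hne : p ≠ q := fun e => hp (e ▸ h0)
    have h1 : IsCoprime (p : O) (q : O) :=
      Nat.Coprime.cast ((Nat.coprime_primes Fact.out h).2 hne)
    rw [h0, isCoprime_zero_right] at h1
    have h2 := hx 0 hn
    rw [uu_zero, map_natCast, Ideal.mem_span_singleton] at h2
    exact Good.not_isUnit ϖ (isUnit_of_dvd_unit h2 h1)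
  · have := CharP.charP_to_charZero O
    exact Nat.cast_add_one_ne_zero m

theorem deriv_zero (hn : 1 ≤ n) {x : EE p n →+* O}
    (hx : ∀ j, j < n → x (uu p n j) ∈ Ideal.span {ϖ}) (hp : (p : O) ≠ 0) {f : EE p n}
    (hf : ∀ g φ, Aut p n g → Act p n (RingHom.id _) g φ → x (φ f) = 0) (i : Fin (n - 1)) :
    x (pderiv _ i f) = 0 := by
  have hx' : ∀ j, j < n → x (uu p n j) ∈ (Ideal.span {ϖ}).radical := fun j hj =>
    Ideal.le_radical (hx j hj)
  have hp1 : (p : O) ∈ Ideal.span {ϖ} := by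
    have h2 := hx 0 hn
    rwa [uu_zero, map_natCast] at h2
  have h := tangent hp hp1 (x.comp C) (gp_point hn hx) (Psi 1 x f)
    (by rw [constantCoeff_Psi _ hx' le_rfl]; exact hf _ _ aut_X act_id) (fun a t N ht => by
      have ha : a ^ p ^ n = a := by
        have := Fintype.ofFinite (GaloisField p n)
        rw [← GaloisField.card p n (by omega), Nat.card_eq_fintype_card]
        exact FiniteField.pow_card a
      have h1 : PowerSeries.coeff 1 (C a * PowerSeries.X ^ p ^ t : PowerSeries (GaloisField p n)) =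
          0 := by
        have : 1 ≠ p ^ t := (Nat.one_lt_pow (by omega) (Fact.out : p.Prime).one_lt).ne
        exact (PowerSeries.coeff_C_mul 1 _ a).trans
          (by rw [PowerSeries.coeff_X_pow, if_neg this, mul_zero])
      have hg := aut_gD (isHomS_eH (CharP.cast_eq_zero _ p) hn ha t) h1 N
      obtain ⟨φ, hφ⟩ := exists_act hn hg
      obtain ⟨b, k, hb, hk, hk', hev⟩ := exists_translate hn hx le_rfl hφ (fun j h1 h2 => by omega)
        (g' := gD p n (eH (EE p n) n) (C (C (WittVector.teichmuller p a)) * PowerSeries.X ^ p ^ t) N)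
        (by rw [map_gD _ _ (PserAux.const_term _ _), map_eH, map_term, res_teich])
      rw [map_gD _ _ (PserAux.const_term _ _), map_eH, map_term] at hk'
      exact ⟨b, k, hb, hk, hk', (hev f).trans (hf _ _ hg hφ)⟩) i
  rw [← constantCoeff_Psi _ hx' le_rfl, ← pderiv_Psi _ hx', ← coeff_zero_eq_constantCoeff_apply,
    coeff_pderiv, zero_add, h, zero_mul]

end FinalAux

theorem eq_zero_of_orbit (hn : 1 ≤ n) {x : EE p n →+* O}
    (hx : ∀ j, j < n → x (uu p n j) ∈ Ideal.span {ϖ}) (hp : (p : O) ≠ 0) {f : EE p n}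
    (hf : ∀ g φ, Aut p n g → Act p n (RingHom.id _) g φ → x (φ f) = 0) : f = 0 := by
  have hx' : ∀ j, j < n → x (uu p n j) ∈ (Ideal.span {ϖ}).radical := fun j hj =>
    Ideal.le_radical (hx j hj)
  have hd : ∀ (i : Fin (n - 1)) (f : EE p n),
      (∀ g φ, Aut p n g → Act p n (RingHom.id _) g φ → x (φ f) = 0) →
      ∀ g φ, Aut p n g → Act p n (RingHom.id _) g φ → x (φ (pderiv _ i f)) = 0 := by
    intro i f hf g φ hg hφ
    refine FinalAux.deriv_zero hn (x := x.comp φ) (ϖ := ϖ)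
      (fun j hj => point_mem hn hx _ (hφ.loc _ (uu_mem j hj))) hp (fun g' φ' hg' hφ' => ?_) i
    exact hf _ (φ.comp φ') ((hg'.map _).comp hg) (hφ'.comp hφ)
  have hc := FinalAux.cast_ne hn hx hp
  have key : ∀ k, ∀ d : Fin (n - 1) →₀ ℕ, d.degree = k → ∀ f : EE p n,
      (∀ g φ, Aut p n g → Act p n (RingHom.id _) g φ → x (φ f) = 0) →
      coeff d (Psi 1 x f) = 0 := by
    intro k
    induction k with
    | zero =>
      intro d hd0 f hf
      rw [(Finsupp.degree_eq_zero_iff d).1 hd0, coeff_zero_eq_constantCoeff_apply,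
        constantCoeff_Psi _ hx' le_rfl]
      exact hf _ _ FinalAux.aut_X act_id
    | succ k ih =>
      intro d hdk f hf
      have hd0 : d ≠ 0 := fun h => by simp [h] at hdk
      obtain ⟨i, hi⟩ := Finsupp.ne_iff.1 hd0
      have e : d - Finsupp.single i 1 + Finsupp.single i 1 = d :=
        tsub_add_cancel_of_le (Finsupp.single_le_iff.2 (Nat.one_le_iff_ne_zero.2 hi))
      have h1 := ih (d - Finsupp.single i 1) (by
        have := congrArg Finsupp.degree e
        rw [map_add, Finsupp.degree_single, hdk] at this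
        omega) _ (hd i f hf)
      rw [← pderiv_Psi _ hx', coeff_pderiv, e] at h1
      exact (mul_eq_zero.1 h1).resolve_right (hc _)
  refine eq_zero_of_Psi _ hx' hp ?_
  ext d
  exact key _ d rfl f hf

theorem mem_htIdeal_of_orbit {h : ℕ} (hh : 1 ≤ h) (hn : h < n) {x : EE p n →+* O}
    (hx : ∀ j, j < n → x (uu p n j) ∈ Ideal.span {ϖ}) (h0 : ∀ j, j < h → x (uu p n j) = 0)
    (h1 : x (uu p n h) ≠ 0) {f : EE p n}
    (hf : ∀ g φ, Aut p n g → Act p n (RingHom.id _) g φ → x (φ f) = 0) : f ∈ htIdeal p n h := by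
  have hn1 : 1 ≤ n := by omega
  have hx' : ∀ j, j < n → x (uu p n j) ∈ (Ideal.span {ϖ}).radical := fun j hj =>
    Ideal.le_radical (hx j hj)
  have hp : (p : O) = 0 := by
    have h2 := h0 0 hh
    rwa [uu_zero, map_natCast] at h2
  have := (CharP.charP_iff_prime_eq_zero (Fact.out : p.Prime)).2 hp
  have hker : RingHom.ker (WittVector.constantCoeff : WittVector p (GaloisField p n) →+* _) ≤
      RingHom.ker (x.comp C) := by
    rw [WittVector.ker_constantCoeff, Ideal.span_singleton_le_iff_mem, RingHom.mem_ker,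
      map_natCast, hp]
  let κ0 : GaloisField p n →+* O := WittVector.constantCoeff.liftOfRightInverse
    (WittVector.teichmuller p) (fun a => WittVector.teichmuller_coeff_zero p a) ⟨x.comp C, hker⟩
  have hκ : ∀ a, κ0 a = x (C (WittVector.teichmuller p a)) := fun a => rfl
  refine mem_htIdeal_of_Psi _ hx' hh hn.le h0 (orbit_dense (ϖ := ϖ)
    ⟨gp_point hn1 hx, hh, hn, h0, h1⟩ κ0 _ fun δ N hδ hδ1 => ?_)
  have hg := FinalAux.aut_gD hδ hδ1 N
  obtain ⟨φ, hφ⟩ := exists_act hn1 hg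
  let δ' : PowerSeries (EE p n) := fun d => C (WittVector.teichmuller p (coeff d δ))
  have e0 : constantCoeff δ' = 0 := by
    change C (WittVector.teichmuller p (constantCoeff δ)) = 0
    rw [hδ.const, WittVector.teichmuller_zero, map_zero]
  have e1 : MvPowerSeries.map (res p n) δ' = δ := MvPowerSeries.ext fun d => FinalAux.res_teich (p := p) (n := n) (coeff d δ)
  have e2 : MvPowerSeries.map x δ' = MvPowerSeries.map κ0 δ := MvPowerSeries.ext fun d => rfl
  obtain ⟨b, k, hb, hk, hk', hev⟩ := exists_translate hn1 hx hh hφ (fun j _ h2 => by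
      rw [h0 j h2]
      exact Ideal.mem_bot.1 (FinalAux.map_ht (N := ⊥) h0 _
        (hφ.map_htIdeal hn1 hg hn.le _ (Ideal.subset_span ⟨j, h2, rfl⟩))))
    (g' := gD p n (eH (EE p n) n) δ' N) (by rw [map_gD _ _ e0, map_eH, e1])
  rw [map_gD _ _ e0, map_eH, e2] at hk'
  exact ⟨b, k, hb, hk, hk', (hev f).trans (hf _ _ hg hφ)⟩

end

theorem radical_classification (hn : 1 ≤ n) {J : Ideal (EE p n)} (hJ : J.IsRadical)
    (hJ' : J ≠ ⊤)
    (hinv : ∀ g φ, Aut p n g → Act p n (RingHom.id _) g φ → ∀ f ∈ J, φ f ∈ J) :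
    ∃ h, h ≤ n ∧ J = htIdeal p n h := by
  classical
  have hex : ∃ j, uu p n j ∉ J := ⟨n, by rw [uu_top hn]; exact (Ideal.ne_top_iff_one J).1 hJ'⟩
  have hle : Nat.find hex ≤ n :=
    Nat.find_min' hex (by rw [uu_top hn]; exact (Ideal.ne_top_iff_one J).1 hJ')
  have hlow : ∀ j, j < Nat.find hex → uu p n j ∈ J := fun j hj => not_not.1 (Nat.find_min hex hj)
  refine ⟨Nat.find hex, hle, le_antisymm (fun f hf => ?_) (Ideal.span_le.2 ?_)⟩
  · rcases hle.eq_or_lt with h | h
    · rw [h, ← mE_eq hn, mem_mE]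
      by_contra hne
      exact hJ' (Ideal.eq_top_of_isUnit_mem J hf (isUnit_iff_res.2 hne))
    · have h1 : uu p n (Nat.find hex) ∉ J.radical := fun hh => Nat.find_spec hex (hJ hh)
      rw [Ideal.radical_eq_sInf, Ideal.mem_sInf] at h1
      push Not at h1
      obtain ⟨P, ⟨hJP, hP⟩, hu⟩ := h1
      obtain ⟨O, _, _, ϖ, _, x, hx0, hx, hx1⟩ := exists_point P h hu
      have hf' : ∀ g φ, Aut p n g → Act p n (RingHom.id _) g φ → x (φ f) = 0 :=
        fun g φ hg hφ => hx0 _ (hJP (hinv g φ hg hφ f hf))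
      rcases Nat.eq_zero_or_pos (Nat.find hex) with h0 | h0
      · rw [h0, uu_zero, map_natCast] at hx1
        rw [eq_zero_of_orbit hn hx hx1 hf']
        exact zero_mem _
      · exact mem_htIdeal_of_orbit h0 h hx (fun j hj => hx0 _ (hJP (hlow j hj))) hx1 hf'
  · rintro _ ⟨j, hj, rfl⟩
    exact hlow j hj

end Vale.Agent.P217
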