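import Vale.Agent.P217.Bridge

/-! Formal neighbourhoods of points of the Lubin-Tate space; the height ideals are prime. -/

namespace Vale.Agent.P217

open MvPowerSeries

variable {S T : Type*} [CommRing S] [CommRing T]

/-- Shift of the parameters with index in `[lo, n)`. -/
def sh (n lo : ℕ) (x : ℕ → S) (a : Fin (n - lo) → S) : ℕ → S := fun j =>
  x j + if hj : lo ≤ j ∧ j < n then a ⟨j - lo, by omega⟩ else 0

theorem map_sh (Ψ : S →+* T) (n lo : ℕ) (x : ℕ → S) (a : Fin (n - lo) → S) :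
    (fun j => Ψ (sh n lo x a j)) = sh n lo (fun j => Ψ (x j)) fun i => Ψ (a i) := by
  funext j; simp only [sh, map_add]; split_ifs <;> simp

theorem sh_add (n lo : ℕ) (x : ℕ → S) (a : Fin (n - lo) → S) (i : Fin (n - lo)) :
    sh n lo x a (lo + i) = x (lo + i) + a i := by
  have := i.2
  simp only [sh]
  rw [dif_pos ⟨by omega, by omega⟩]
  congr 2; ext; simp

theorem sh_out {n lo : ℕ} (x : ℕ → S) (a : Fin (n - lo) → S) {j : ℕ} (hj : j < lo ∨ n ≤ j) :
    sh n lo x a j = x j := by
  simp only [sh]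
  rw [dif_neg (by omega), add_zero]

theorem sh_zero (n lo : ℕ) (x : ℕ → S) : sh n lo x (fun _ => 0) = x := by
  funext j; simp [sh]

variable {p : ℕ} [hp' : Fact p.Prime] {n : ℕ}

/-- Expansion of functions around the point `x` in the directions with index in `[lo, n)`. -/
noncomputable def Psi (lo : ℕ) (x : EE p n →+* S) :
    EE p n →+* MvPowerSeries (Fin (n - lo)) S :=
  ev ((C : S →+* MvPowerSeries (Fin (n - lo)) S).comp (x.comp C))
    fun i : Fin (n - 1) => sh n lo (fun j => C (x (uu p n j))) X (i + 1)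

section

variable (I : Ideal S) [IsAdicComplete I S] {x : EE p n →+* S}
  (hx : ∀ j, j < n → x (uu p n j) ∈ I.radical) {lo : ℕ} (hlo : 1 ≤ lo)

include hx hlo

omit hx hlo in
theorem KerAux.const_sh (lo : ℕ) (y : ℕ → S) (j : ℕ) :
    constantCoeff (sh n lo (fun j => (C (y j) : MvPowerSeries (Fin (n - lo)) S)) X j) = y j := by
  simp only [sh, map_add]
  split_ifs <;> simp

omit hlo in
theorem KerAux.ok (lo : ℕ) : Ok fun i : Fin (n - 1) =>
    sh n lo (fun j => (C (x (uu p n j)) : MvPowerSeries (Fin (n - lo)) S)) X (i + 1) :=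
  Ok.of_rad (PI _ I) fun i => by
    rw [mem_PI_radical, KerAux.const_sh]
    exact hx _ (by omega)

omit hlo in
theorem KerAux.Psi_C (w : WittVector p (GaloisField p n)) : Psi lo x (C w) = C (x (C w)) := by
  rw [Psi, ev_C _ (KerAux.ok I hx lo)]
  rfl

theorem Psi_uu (j : ℕ) :
    Psi lo x (uu p n j) = sh n lo (fun j => C (x (uu p n j))) X j := by
  rcases BridgeAux.uu_cases (n := n) j with hj | ⟨i, rfl⟩
  · obtain ⟨w, hw⟩ := BridgeAux.uu_const (p := p) hj
    rw [sh_out _ _ (by omega), hw, KerAux.Psi_C I hx]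
  · rw [uu_succ, Psi, ev_X _ (KerAux.ok I hx lo)]

theorem ev_Psi {y : EE p n →+* S} (hC : ∀ w, y (C w) = x (C w)) {a : Fin (n - lo) → S}
    (ha : ∀ i, a i ∈ I.radical) (hy : ∀ j, y (uu p n j) = sh n lo (fun j => x (uu p n j)) a j)
    (f : EE p n) : ev (RingHom.id S) a (Psi lo x f) = y f := by
  have ha' := Ok.of_rad I ha
  refine (DFunLike.congr_fun (hom_ext (Φ := y) (Ψ := (ev (RingHom.id S) a).comp (Psi lo x))
    (Ok.of_rad I fun i => ?_) (fun w => ?_) fun i => ?_) f).symm
  · rw [← uu_succ, hy, sh]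
    refine add_mem (hx _ (by omega)) ?_
    split_ifs
    exacts [ha _, zero_mem _]
  · rw [RingHom.comp_apply, KerAux.Psi_C I hx, ev_C _ ha', hC, RingHom.id_apply]
  · rw [RingHom.comp_apply, ← uu_succ, Psi_uu I hx hlo, hy,
      congrFun (map_sh (ev (RingHom.id S) a) n lo _ X) _]
    simp only [ev_C _ ha', ev_X _ ha', RingHom.id_apply]

omit hx hlo in
theorem KerAux.const_pr (lo : ℕ) (i : Fin (n - 1)) : constantCoeff
    (sh n lo (fun _ => C (0 : WittVector p (GaloisField p n))) X (i + 1)) = 0 :=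
  KerAux.const_sh lo (fun _ => 0) _

/-- Kill the variables of index `< lo`. -/
noncomputable def KerAux.pr (p : ℕ) [Fact p.Prime] (n lo : ℕ) :
    EE p n →+* MvPowerSeries (Fin (n - lo)) (WittVector p (GaloisField p n)) :=
  ev C fun i : Fin (n - 1) => sh n lo (fun _ => C (0 : WittVector p (GaloisField p n))) X (i + 1)

omit hlo in
theorem KerAux.map_pr (h0 : ∀ j, 1 ≤ j → j < lo → x (uu p n j) = 0) {f : EE p n}
    (hf : Psi lo x f = 0) : MvPowerSeries.map (x.comp C) (KerAux.pr p n lo f) = 0 := by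
  have hθ : Ok fun l : Fin (n - lo) =>
      (X l - C (x (uu p n (lo + l))) : MvPowerSeries (Fin (n - lo)) S) :=
    Ok.of_rad (PI _ I) fun l => by
      rw [mem_PI_radical, map_sub, constantCoeff_X, constantCoeff_C, zero_sub]
      exact neg_mem (hx _ (by omega))
  have hπ := Ok.of_const (KerAux.const_pr (p := p) (n := n) lo)
  have e := hom_ext (Φ := (MvPowerSeries.map (x.comp C)).comp (KerAux.pr p n lo))
    (Ψ := (ev C fun l : Fin (n - lo) => X l - C (x (uu p n (lo + l)))).comp (Psi lo x))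
    (Ok.of_const fun i => ?_) (fun w => ?_) fun i => ?_
  · have := DFunLike.congr_fun e f
    rwa [RingHom.comp_apply, RingHom.comp_apply, hf, map_zero] at this
  · rw [RingHom.comp_apply, KerAux.pr, ev_X _ hπ, constantCoeff_map, KerAux.const_pr, map_zero]
  · rw [RingHom.comp_apply, RingHom.comp_apply, KerAux.pr, ev_C _ hπ, KerAux.Psi_C I hx,
      ev_C _ hθ, map_C, RingHom.comp_apply]
  · rw [RingHom.comp_apply, RingHom.comp_apply, KerAux.pr, ev_X _ hπ, Psi,
      ev_X _ (KerAux.ok I hx lo)]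
    simp only [sh, map_add, map_zero, zero_add, ev_C _ hθ]
    split_ifs with h
    · rw [map_X, ev_X _ hθ]
      simp only [show lo + (i + 1 - lo) = i + 1 by omega, add_sub_cancel]
    · rw [h0 _ (by omega) (by omega), map_zero, map_zero, map_zero, add_zero]

theorem mem_htIdeal_of_Psi [Nontrivial S] (hn : lo ≤ n) (h0 : ∀ j, j < lo → x (uu p n j) = 0)
    {f : EE p n} (hf : Psi lo x f = 0) : f ∈ htIdeal p n lo := by
  have h1 := KerAux.map_pr I hx (fun j _ hj => h0 j hj) hf
  have h2 : KerAux.pr p n lo f ∈ cI _ (Ideal.span {(p : WittVector p (GaloisField p n))}) := by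
    refine mem_cI.2 fun d => (WittVector.mem_span_p_iff_coeff_zero_eq_zero _).2 ?_
    by_contra hne
    exact ((WittVector.isUnit_of_coeff_zero_ne_zero _ hne).map (x.comp C)).ne_zero
      (congrArg (coeff d) h1)
  obtain ⟨g, hg⟩ := mem_cI_span_singleton.1 h2
  have hb : ∀ l : Fin (n - lo), constantCoeff (uu p n (lo + l)) = 0 := fun l => by
    rw [show lo + l = ((⟨lo + l - 1, by omega⟩ : Fin (n - 1)) : ℕ) + 1 by simp only; omega, uu_succ,
      constantCoeff_X]
  have hb' := fun l => mem_PI_radical_of_zero ⊥ (hb l)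
  have h3 := ev_ev_C C (PI _ ⊥) hb' (KerAux.const_pr (p := p) (n := n) lo) f
  have h4 := ev_sub_ev_mem C (PI _ ⊥) (N := htIdeal p n lo)
    (a := fun i : Fin (n - 1) => ev C (fun l : Fin (n - lo) => uu p n (lo + l))
      (sh n lo (fun _ => C (0 : WittVector p (GaloisField p n))) X (i + 1)))
    (fun i => ev_mem _ (Ok.of_const hb) hb' (KerAux.const_pr lo i))
    (fun i => mem_PI_radical_of_zero ⊥ (constantCoeff_X i)) (fun i => ?_) f
  · rw [← h3, ev_C_X] at h4
    have h5 : ev C (fun l : Fin (n - lo) => uu p n (lo + l)) (KerAux.pr p n lo f) ∈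
        htIdeal p n lo := by
      rw [hg, map_mul, ev_C _ (Ok.of_const hb), map_natCast]
      exact Ideal.mul_mem_right _ _ (Ideal.subset_span ⟨0, hlo, uu_zero.symm⟩)
    have h6 := sub_mem h5 h4
    rwa [KerAux.pr, sub_sub_cancel] at h6
  · simp only [sh, map_zero, zero_add]
    split_ifs with h
    · rw [ev_X _ (Ok.of_const hb)]
      simp only [show lo + (i + 1 - lo) = i + 1 by omega, uu_succ, sub_self]
      exact zero_mem _
    · rw [map_zero, zero_sub]
      exact neg_mem (Ideal.subset_span ⟨i + 1, by omega, (uu_succ i).symm⟩)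

omit hlo in
theorem eq_zero_of_Psi [IsDomain S] (h0 : (p : S) ≠ 0) {f : EE p n} (hf : Psi 1 x f = 0) :
    f = 0 := by
  have h1 := KerAux.map_pr I hx (fun j _ _ => by omega) hf
  have e : (fun i : Fin (n - 1) =>
      sh n 1 (fun _ => C (0 : WittVector p (GaloisField p n))) X (i + 1)) = X := by
    funext i
    rw [add_comm, sh_add, map_zero, zero_add]
  rw [KerAux.pr, e, ev_C_X] at h1
  ext1 d
  by_contra hne
  obtain ⟨m, b, hb⟩ := WittVector.exists_eq_pow_p_mul' _ hne
  have h2 : x.comp C (coeff d f) = 0 := congrArg (coeff d) h1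
  rw [hb, map_mul, map_pow, map_natCast] at h2
  exact mul_ne_zero (pow_ne_zero m h0) (b.isUnit.map _).ne_zero h2

omit hlo in
theorem pderiv_Psi (f : EE p n) (i : Fin (n - 1)) :
    pderiv S i (Psi 1 x f) = Psi 1 x (pderiv _ i f) := by
  have e : (fun i : Fin (n - 1) => sh n 1 (fun j => (C (x (uu p n j)) : MvPowerSeries _ S)) X
      (i + 1)) = fun i : Fin (n - 1) => C (x (uu p n (1 + i))) + X i := by
    funext i
    rw [add_comm, sh_add]
  rw [Psi, e]
  exact pderiv_ev_shift _ I (fun i => hx _ (by omega)) f i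

theorem constantCoeff_Psi (f : EE p n) : constantCoeff (Psi lo x f) = x f := by
  rw [← ev_Psi I hx hlo (y := x) (fun _ => rfl) (a := fun _ => 0) (fun _ => zero_mem _)
    (fun j => by rw [sh_zero]) f, ev_zero, RingHom.id_apply]

end

theorem htIdeal_zero : htIdeal p n 0 = ⊥ := by
  simp [htIdeal]

theorem htIdeal_prime (hn : 1 ≤ n) {h : ℕ} (hh : h ≤ n) : (htIdeal p n h).IsPrime := by
  rcases Nat.eq_zero_or_pos h with rfl | h0
  · rw [htIdeal_zero]
    exact Ideal.isPrime_bot
  · have h1 : ∀ j, j < n → res p n (uu p n j) = 0 := fun j hj => mem_mE.1 (uu_mem j hj)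
    have hx : ∀ j, j < n → res p n (uu p n j) ∈ (⊥ : Ideal (GaloisField p n)).radical :=
      fun j hj => h1 j hj ▸ zero_mem _
    have e : htIdeal p n h = RingHom.ker (Psi h (res p n)) := by
      refine le_antisymm (Ideal.span_le.2 ?_) fun f hf =>
        mem_htIdeal_of_Psi ⊥ hx h0 hh (fun j hj => h1 j (by omega)) hf
      rintro _ ⟨j, hj, rfl⟩
      rw [SetLike.mem_coe, RingHom.mem_ker, Psi_uu ⊥ hx h0, sh_out _ _ (Or.inl hj),
        h1 j (by omega), map_zero]
    have : IsDomain (MvPowerSeries (Fin (n - h)) (GaloisField p n)) := NoZeroDivisors.to_isDomain _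
    rw [e]
    exact RingHom.ker_isPrime _

end Vale.Agent.P217
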