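import Vale.Agent.P217.Hom

/-! Lubin-Tate uniqueness. -/

namespace Vale.Agent.P217

open MvPowerSeries

variable {S : Type*} [CommRing S] {τ : Type*}
variable {p : ℕ} [hp' : Fact p.Prime] {n : ℕ}

namespace LTUAux

theorem ev_ev {σ ρ : Type*} [Finite σ] [Finite τ] [Finite ρ] {a : σ → MvPowerSeries τ S}
    {b : τ → MvPowerSeries ρ S} (ha : ∀ i, constantCoeff (a i) = 0)
    (hb : ∀ i, constantCoeff (b i) = 0) (f : MvPowerSeries σ S) :
    ev C b (ev C a f) = ev C (fun i => ev C b (a i)) f := by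
  have hb' : ∀ j, b j ∈ (PI ρ (⊥ : Ideal S)).radical := fun j => HomAux.rad0 (hb j)
  exact ev_ev_C (C : S →+* MvPowerSeries ρ S) (PI ρ (⊥ : Ideal S)) hb' ha f

theorem c0 {σ : Type*} [Finite σ] [Finite τ] {a : σ → MvPowerSeries τ S}
    (ha : ∀ i, constantCoeff (a i) = 0) {f : MvPowerSeries σ S} (hf : constantCoeff f = 0) :
    constantCoeff (ev C a f) = 0 := constantCoeff_ev_eq_zero C ha hf

theorem ev1_X' [Finite τ] {a : MvPowerSeries τ S} (ha : constantCoeff a = 0) :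
    ev1 C a (PowerSeries.X : PowerSeries S) = a := ev1_X C (Ok.of_const fun _ => ha)

theorem ev1_C' [Finite τ] {a : MvPowerSeries τ S} (ha : constantCoeff a = 0) (r : S) :
    ev1 C a (C r : PowerSeries S) = C r := ev_C C (Ok.of_const fun _ => ha) r

theorem ev1_congr [Finite τ] {a b : MvPowerSeries τ S} (ha : constantCoeff a = 0)
    (hb : constantCoeff b = 0) {N : Ideal (MvPowerSeries τ S)} (h : a - b ∈ N)
    (f : PowerSeries S) : ev1 C a f - ev1 C b f ∈ N := by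
  have ha' : ∀ _ : Unit, a ∈ (PI τ (⊥ : Ideal S)).radical := fun _ => HomAux.rad0 ha
  have hb' : ∀ _ : Unit, b ∈ (PI τ (⊥ : Ideal S)).radical := fun _ => HomAux.rad0 hb
  exact ev_sub_ev_mem (C : S →+* MvPowerSeries τ S) (PI τ (⊥ : Ideal S)) ha' hb' (fun _ => h) f

theorem mul_mem {I N N' : Ideal S} (hIN : I * N ≤ N') {f g : MvPowerSeries τ S}
    (hf : f ∈ cI τ I) (hg : g ∈ cI τ N) : f * g ∈ cI τ N' := cI_mono hIN (mul_mem_cI hf hg)

theorem pser_ev [Finite τ] (hn : 1 ≤ n) {I : Ideal S} {w : ℕ → S} (hw : LTp p n I w)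
    {a : MvPowerSeries τ S} (ha : constantCoeff a = 0) :
    ev1 C a (pser p n w) - a ^ p ^ n ∈ cI τ I := by
  have k := ev_C_mem_cI (a := fun _ : Unit => a) (fun _ => ha) (pser_sub_mem hn hw)
  rwa [map_sub, map_pow, ev1_X' ha] at k

theorem sub_expand [Finite τ] (hn : 1 ≤ n) {I N N' : Ideal S} {w : ℕ → S} (hw : LTp p n I w)
    (hIN : I * N ≤ N') {e : MvPowerSeries τ S} (he : e ∈ cI τ N) :
    ev C (fun i => ev1 C (X i) (pser p n w)) e -
      expand (p ^ n) (pow_ne_zero n hp'.out.ne_zero) e ∈ cI τ N' := by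
  rw [expand_eq_ev]
  exact cI_mono hIN (ev_sub_ev_mem_cI_mul
    (fun i => c0 (fun _ => constantCoeff_X i) (constantCoeff_pser w))
    (fun i => by simp [hp'.out.ne_zero]) (fun i => pser_ev hn hw (constantCoeff_X i)) he)

theorem sub_expand1 (hn : 1 ≤ n) {I N N' : Ideal S} {w : ℕ → S} (hw : LTp p n I w)
    (hIN : I * N ≤ N') {e : PowerSeries S} (he : e ∈ cI Unit N) :
    ev1 C (pser p n w) e - expand (p ^ n) (pow_ne_zero n hp'.out.ne_zero) e ∈ cI Unit N' := by
  have k := sub_expand hn hw hIN he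
  have e : (fun i : Unit => ev1 C (X i) (pser p n w)) = fun _ => pser p n w :=
    funext fun _ => ev1_C_X _
  rwa [e] at k

omit hp' in
theorem p_mem {I : Ideal S} (h : (p : S) ∈ I) : (p : MvPowerSeries τ S) ∈ cI τ I := by
  simpa using C_mem_cI (σ := τ) h

theorem pser_congr [Finite τ] (hn : 1 ≤ n) {I N N' : Ideal S} {v : ℕ → S} (hv : LTp p n I v)
    (hNI : N ≤ I) (hIN : I * N ≤ N') {A B : MvPowerSeries τ S} (hA0 : constantCoeff A = 0)
    (hB0 : constantCoeff B = 0) (hAB : A - B ∈ cI τ N) :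
    ev1 C A (pser p n v) - ev1 C B (pser p n v) ∈ cI τ N' := by
  have k1 := cI_mono ((mul_comm N I).trans_le hIN) (ev_sub_ev_mem_cI_mul (a := fun _ : Unit => A)
    (b := fun _ => B) (fun _ => hA0) (fun _ => hB0) (fun _ => hAB) (pser_sub_mem hn hv))
  rw [map_sub, map_sub, map_pow, map_pow, ev1_X' hA0, ev1_X' hB0] at k1
  obtain ⟨r, hr⟩ := exists_add_pow_prime_pow_eq hp'.out (A - B) B n
  obtain ⟨m, hm⟩ := Nat.exists_eq_add_of_le
    (show 2 ≤ p ^ n from Nat.one_lt_pow (by omega) hp'.out.one_lt)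
  have k2 := Ideal.mul_mem_right ((A - B) ^ m) _ (mul_mem hIN (cI_mono hNI hAB) hAB)
  have k3 := Ideal.mul_mem_right (B * r) _ (mul_mem hIN (p_mem hv.hp) hAB)
  rw [sub_add_cancel] at hr
  convert add_mem k1 (add_mem k2 k3) using 1
  rw [hr, ← sq, ← pow_add, ← hm]
  ring

theorem var {k : PowerSeries S} (hk0 : constantCoeff k = 0) {a b : PowerSeries S}
    (ha : constantCoeff a = 0) (hb : constantCoeff b = 0) : ∃ α β, ev1 C a k - ev1 C b k =
      (a - b) * (C (PowerSeries.coeff 1 k) + a * α + b * β) := by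
  obtain ⟨h, hh⟩ : PowerSeries.X ^ 2 ∣
      k - PowerSeries.C (PowerSeries.coeff 1 k) * PowerSeries.X := by
    rw [PowerSeries.X_pow_dvd_iff]
    intro m hm
    interval_cases m
    · simp only [map_sub, PowerSeries.coeff_zero_mul_X, sub_zero,
        PowerSeries.coeff_zero_eq_constantCoeff]
      exact hk0
    · simp
  obtain ⟨g, hg⟩ := Ideal.mem_span_singleton'.1
    (ev1_congr ha hb (Ideal.mem_span_singleton_self _) h)
  have e : ∀ c : PowerSeries S, constantCoeff c = 0 →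
      ev1 C c k = C (PowerSeries.coeff 1 k) * c + c ^ 2 * ev1 C c h := fun c hc => by
    conv_lhs => rw [eq_add_of_sub_eq' hh]
    rw [map_add, map_mul, map_mul, map_pow, ev1_X' hc]
    exact congrArg (· * c + _) (ev1_C' hc _)
  refine ⟨ev1 C a h, ev1 C a h + b * g, ?_⟩
  rw [e a ha, e b hb]
  linear_combination (-b ^ 2) * hg

theorem coeff_var (hn : 1 ≤ n) {I N N' : Ideal S} {w w' : ℕ → S} (hw : LTp p n I w)
    (hw' : LTp p n I w') (hIN : I * N ≤ N') (hww : ∀ j, w j - w' j ∈ N) {k : PowerSeries S}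
    (hk0 : constantCoeff k = 0) {d : ℕ} (hd : d < p ^ n) :
    PowerSeries.coeff d (ev1 C (pser p n w) k - ev1 C (pser p n w') k) -
      PowerSeries.coeff 1 k * PowerSeries.coeff d (pser p n w - pser p n w') ∈ N' := by
  obtain ⟨α, β, e⟩ := var hk0 (constantCoeff_pser (p := p) (n := n) w)
    (constantCoeff_pser (p := p) (n := n) w')
  have hD := pser_sub_pser_mem (p := p) (n := n) hww
  have k := mem_cI1.1 (add_mem (Ideal.mul_mem_right α _ (mul_mem hIN (pser_sub_mem hn hw) hD))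
    (Ideal.mul_mem_right β _ (mul_mem hIN (pser_sub_mem hn hw') hD))) d
  have k2 := PowerSeries.X_pow_dvd_iff.1
    (dvd_mul_right (PowerSeries.X ^ p ^ n) ((pser p n w - pser p n w') * (α + β))) d hd
  rw [← PowerSeries.coeff_C_mul, ← map_sub]
  rw [← add_zero (PowerSeries.coeff d _), ← k2, ← map_add] at k
  convert k using 2
  rw [e]
  change _ - C _ * _ = _
  ring

theorem coeff_expand {q : ℕ} (hq : q ≠ 0) (f : PowerSeries S) {d : ℕ} (hd : ¬ q ∣ d) :
    PowerSeries.coeff d (expand q hq f) = 0 :=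
  coeff_expand_of_not_dvd q hq f (i := ()) (by simpa using hd)

theorem fp_fadd [Finite τ] (v : ℕ → S) {a b : MvPowerSeries τ S} (ha : constantCoeff a = 0)
    (hb : constantCoeff b = 0) :
    ev1 C (fadd p n (fun j => C (v j)) a b) (pser p n v) =
      fadd p n (fun j => C (v j)) (ev1 C a (pser p n v)) (ev1 C b (pser p n v)) := by
  have ha' := mem_PI_radical_of_zero ⊥ ha
  have hb' := mem_PI_radical_of_zero ⊥ hb
  have k := congrArg Pt.val (smul_add p (⟨a, ha'⟩ : Pt p n (PI τ ⊥) fun j => C (v j)) ⟨b, hb'⟩)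
  rw [Pt.val_add, Pt.val_p_smul, Pt.val_p_smul, Pt.val_p_smul, Pt.val_add, fp_C v ha, fp_C v hb,
    fp_C v (mem_PI_bot.1 (fadd_mem (PI τ ⊥) _ ha' hb' (mem_PI_bot.2 ha) (mem_PI_bot.2 hb)))] at k
  exact k

theorem ev_fadd {ρ : Type*} [Finite τ] [Finite ρ] (v : ℕ → S) {a b : MvPowerSeries τ S}
    (ha : constantCoeff a = 0) (hb : constantCoeff b = 0) {c : τ → MvPowerSeries ρ S}
    (hc : ∀ i, constantCoeff (c i) = 0) :
    ev C c (fadd p n (fun j => C (v j)) a b) =
      fadd p n (fun j => C (v j)) (ev C c a) (ev C c b) := by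
  have hc' : ∀ j, c j ∈ (PI ρ (⊥ : Ideal S)).radical := fun j => HomAux.rad0 (hc j)
  exact HomAux.ev_fadd_C (C : S →+* MvPowerSeries ρ S) (PI ρ (⊥ : Ideal S)) hc' v ha hb

theorem fadd_congr' [Finite τ] (v : ℕ → MvPowerSeries τ S) {a b a' b' : MvPowerSeries τ S}
    (ha : constantCoeff a = 0) (hb : constantCoeff b = 0) (ha' : constantCoeff a' = 0)
    (hb' : constantCoeff b' = 0) {N : Ideal (MvPowerSeries τ S)} (h1 : a - a' ∈ N)
    (h2 : b - b' ∈ N) : fadd p n v a b - fadd p n v a' b' ∈ N := by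
  have := HomAux.rad0 ha
  have := HomAux.rad0 hb
  have := HomAux.rad0 ha'
  have := HomAux.rad0 hb'
  exact fadd_congr (PI τ (⊥ : Ideal S)) v ‹_› ‹_› ‹_› ‹_› h1 h2

theorem c0_Fv (w : ℕ → S) : constantCoeff (Fv p n w) = 0 := by
  rw [Fv, constantCoeff_map, constantCoeff_Fu, map_zero]

/-- Substituting the `p`-series in the variables commutes with substituting one variable. -/
theorem sub_X [Finite τ] (w : ℕ → S) (k : PowerSeries S) (i : τ) :
    ev C (fun i => ev1 C (X i : MvPowerSeries τ S) (pser p n w)) (ev1 C (X i) k) =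
      ev1 C (X i) (ev1 C (pser p n w) k) := by
  have h := fun i : τ => c0 (a := fun _ : Unit => (X i : MvPowerSeries τ S))
    (fun _ => constantCoeff_X i) (constantCoeff_pser (p := p) (n := n) w)
  rw [ev_ev (fun _ => constantCoeff_X i) h, ev_X C (Ok.of_const h),
    ev_ev (fun _ => constantCoeff_pser w) fun _ => constantCoeff_X i]

theorem sub_F (w : ℕ → S) (k : PowerSeries S) :
    ev C (fun i => ev1 C (X i : MvPowerSeries (Fin 2) S) (pser p n w)) (ev1 C (Fv p n w) k) =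
      ev1 C (Fv p n w) (ev1 C (pser p n w) k) := by
  have h := fun i : Fin 2 => c0 (a := fun _ : Unit => (X i : MvPowerSeries (Fin 2) S))
    (fun _ => constantCoeff_X i) (constantCoeff_pser (p := p) (n := n) w)
  rw [ev_ev (fun _ => c0_Fv w) h, ev_ev (fun _ => constantCoeff_pser w) fun _ => c0_Fv w, Fv_eq,
    ev_fadd w (constantCoeff_X _) (constantCoeff_X _) h,
    fp_fadd w (constantCoeff_X _) (constantCoeff_X _), ev_X C (Ok.of_const h),
    ev_X C (Ok.of_const h)]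

theorem ev_pErr [Finite τ] (v w : ℕ → S) {k : PowerSeries S} (hk0 : constantCoeff k = 0)
    {a : MvPowerSeries τ S} (ha : constantCoeff a = 0) : ev1 C a (pErr p n w n v k) =
      ev1 C a (ev1 C (pser p n w) k) - ev1 C (ev1 C a k) (pser p n v) := by
  rw [pErr, map_sub, ev_ev (fun _ => hk0) fun _ => ha]

theorem sup_le {I N0 : Ideal S} (hN0 : N0 ≤ I) (r : ℕ) : I ^ (r + 1) ⊔ N0 ≤ I :=
  _root_.sup_le (Ideal.pow_le_self (Nat.succ_ne_zero r)) hN0

theorem mul_sup_le (I N0 : Ideal S) (r : ℕ) : I * (I ^ (r + 1) ⊔ N0) ≤ I ^ (r + 1 + 1) ⊔ N0 := by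
  rw [Ideal.mul_sup, ← pow_succ']
  exact sup_le_sup_left Ideal.mul_le_right _

end LTUAux


theorem lt_multi [Finite τ] (hn : 1 ≤ n) {I N N' : Ideal S} {v w : ℕ → S} (hv : LTp p n I v)
    (hw : LTp p n I w) (hNI : N ≤ I) (hIN : I * N ≤ N') {A B : MvPowerSeries τ S}
    (hA0 : constantCoeff A = 0) (hB0 : constantCoeff B = 0) (hAB : A - B ∈ cI τ N)
    (hA : ev C (fun i => ev1 C (X i) (pser p n w)) A - ev1 C A (pser p n v) ∈ cI τ N')
    (hB : ev C (fun i => ev1 C (X i) (pser p n w)) B - ev1 C B (pser p n v) ∈ cI τ N') :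
    A - B ∈ cI τ N' := by
  have k1 := LTUAux.sub_expand hn hw hIN hAB
  have k2 := LTUAux.pser_congr hn hv hNI hIN hA0 hB0 hAB
  refine mem_cI_of_expand (pow_ne_zero n hp'.out.ne_zero) ?_
  convert sub_mem (add_mem (sub_mem hA hB) k2) k1 using 1
  rw [map_sub (ev _ _)]
  ring

theorem lt_step (hn : 1 ≤ n) {I N N' : Ideal S} {v w w' : ℕ → S} (hv : LTp p n I v)
    (hw : LTp p n I w) (hw' : LTp p n I w') (hNI : N ≤ I) (hIN : I * N ≤ N')
    (hww : ∀ j, w j - w' j ∈ N) (hout : ∀ j, j = 0 ∨ n ≤ j → w j = w' j)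
    {k k' : PowerSeries S} (hk0 : constantCoeff k = 0) (hk0' : constantCoeff k' = 0)
    (hk1 : IsUnit (PowerSeries.coeff 1 k)) (hkk : k - k' ∈ cI Unit N)
    (he : pErr p n w n v k ∈ cI Unit N') (he' : pErr p n w' n v k' ∈ cI Unit N') :
    (∀ j, w j - w' j ∈ N') ∧ k - k' ∈ cI Unit N' := by
  have hP := constantCoeff_pser (p := p) (n := n) w
  have hP' := constantCoeff_pser (p := p) (n := n) w'
  have k1 : ev1 C (pser p n w) k - ev1 C (pser p n w') k +
      expand (p ^ n) (pow_ne_zero n hp'.out.ne_zero) (k - k') ∈ cI Unit N' := by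
    convert sub_mem (add_mem (sub_mem he he') (LTUAux.pser_congr hn hv hNI hIN hk0 hk0' hkk))
      (LTUAux.sub_expand1 hn hw' hIN hkk) using 1
    rw [pErr, pErr, map_sub (ev _ _)]
    ring
  have k2 : ∀ i, 1 ≤ i → i < n → w i - w' i ∈ N' := fun i => by
    induction i using Nat.strong_induction_on with
    | _ i ih =>
      intro h1 h2
      have hlt := Nat.pow_lt_pow_right hp'.out.one_lt h2
      have a1 := mem_cI1.1 k1 (p ^ i)
      rw [map_add, LTUAux.coeff_expand _ _ (Nat.not_dvd_of_pos_of_lt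
        (pow_pos hp'.out.pos i) hlt), add_zero] at a1
      have a2 := sub_mem a1 (LTUAux.coeff_var hn hw hw' hIN hww hk0 hlt)
      rw [sub_sub_cancel, Ideal.unit_mul_mem_iff_mem _ hk1] at a2
      have a3 := (coeff_pser_sub_mem (n := n) hw.hp hIN h1 h2.le
        (fun j hj hj' => hw'.low j hj (hj'.trans h2)) hww
        fun j hj hj' => ih j hj' hj (hj'.trans h2)).2
      simpa using sub_mem a2 a3
  have k3 : ∀ j, w j - w' j ∈ N' := fun j => by
    by_cases h : j = 0 ∨ n ≤ j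
    · rw [hout j h, sub_self]
      exact zero_mem _
    · exact k2 j (by omega) (by omega)
  refine ⟨k3, mem_cI_of_expand (pow_ne_zero n hp'.out.ne_zero) ?_⟩
  simpa using sub_mem k1 (LTUAux.ev1_congr hP hP' (pser_sub_pser_mem k3) k)

theorem lt_unique (hn : 1 ≤ n) {I N0 : Ideal S} {v w w' : ℕ → S} (hv : LTp p n I v)
    (hw : LTp p n I w) (hw' : LTp p n I w') (hN0 : N0 ≤ I)
    (hww : ∀ j, w j - w' j ∈ I) (hout : ∀ j, j = 0 ∨ n ≤ j → w j = w' j)
    {k k' : PowerSeries S} (hk0 : constantCoeff k = 0) (hk0' : constantCoeff k' = 0)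
    (hk1 : IsUnit (PowerSeries.coeff 1 k)) (hkk : k - k' ∈ cI Unit I)
    (he : pErr p n w n v k ∈ cI Unit N0) (he' : pErr p n w' n v k' ∈ cI Unit N0) (r : ℕ) :
    (∀ j, w j - w' j ∈ I ^ (r + 1) ⊔ N0) ∧ k - k' ∈ cI Unit (I ^ (r + 1) ⊔ N0) := by
  induction r with
  | zero =>
    rw [zero_add, pow_one, sup_eq_left.2 hN0]
    exact ⟨hww, hkk⟩
  | succ r ih =>
    exact lt_step hn hv hw hw' (LTUAux.sup_le hN0 r) (LTUAux.mul_sup_le I N0 r) ih.1 hout hk0 hk0'
      hk1 ih.2 (cI_mono le_sup_right he) (cI_mono le_sup_right he')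

/-- Commuting with `[p]` forces being a homomorphism. -/
theorem homErr_mem (hn : 1 ≤ n) {I N0 : Ideal S} {v w : ℕ → S} (hv : LTp p n I v)
    (hw : LTp p n I w) (hN0 : N0 ≤ I) {k : PowerSeries S} (hk0 : constantCoeff k = 0)
    (h1 : homErr p n w n v k ∈ cI (Fin 2) I) (he : pErr p n w n v k ∈ cI Unit N0) (r : ℕ) :
    homErr p n w n v k ∈ cI (Fin 2) (I ^ (r + 1) ⊔ N0) := by
  have hX : ∀ (i : Fin 2) {f : PowerSeries S}, constantCoeff f = 0 →
      constantCoeff (ev1 C (X i : MvPowerSeries (Fin 2) S) f) = 0 :=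
    fun i _ hf => HomAux.const_ev1 (constantCoeff_X i) hf
  have hP := constantCoeff_pser (p := p) (n := n) w
  have hP' := constantCoeff_pser (p := p) (n := n) v
  have hE : ∀ a : MvPowerSeries (Fin 2) S, constantCoeff a = 0 →
      ev1 C a (ev1 C (pser p n w) k) - ev1 C (ev1 C a k) (pser p n v) ∈ cI (Fin 2) N0 :=
    fun a ha => by
      rw [← LTUAux.ev_pErr v w hk0 ha]
      exact ev_C_mem_cI (fun _ => ha) he
  induction r with
  | zero => rwa [zero_add, pow_one, sup_eq_left.2 hN0]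
  | succ r ih =>
    refine lt_multi hn hv hw (LTUAux.sup_le hN0 r) (LTUAux.mul_sup_le I N0 r)
      (LTUAux.c0 (fun _ => LTUAux.c0_Fv w) hk0)
      (HomAux.const_fadd _ (hX 0 hk0) (hX 1 hk0)) ih
      (cI_mono le_sup_right ?_) (cI_mono le_sup_right ?_)
    · rw [LTUAux.sub_F]
      exact hE _ (LTUAux.c0_Fv w)
    · rw [LTUAux.ev_fadd v (hX 0 hk0) (hX 1 hk0) fun i => hX i hP,
        LTUAux.fp_fadd v (hX 0 hk0) (hX 1 hk0), LTUAux.sub_X, LTUAux.sub_X]
      exact LTUAux.fadd_congr' _ (hX 0 (HomAux.const_ev1 hP hk0)) (hX 1 (HomAux.const_ev1 hP hk0))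
        (HomAux.const_ev1 (hX 0 hk0) hP') (HomAux.const_ev1 (hX 1 hk0) hP')
        (hE _ (constantCoeff_X 0)) (hE _ (constantCoeff_X 1))

end Vale.Agent.P217
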