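import Vale.Agent.P217.Hom2
import Vale.Agent.P217.LTU
import Vale.Agent.P217.Good
import Vale.Agent.P217.Ker

/-! Parameters of geometric points and the elements `1 + p ^ N δ`. -/

namespace Vale.Agent.P217

open MvPowerSeries

variable {S T : Type*} [CommRing S] [CommRing T]

/-- Parameters of a point of the Lubin-Tate space. -/
structure GP (n : ℕ) (ϖ : S) (v : ℕ → S) : Prop where
  pos : 1 ≤ n
  low : ∀ j, j < n → v j ∈ Ideal.span {ϖ}
  top : v n = 1
  supp : ∀ j, n < j → v j = 0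

/-- Parameters of a point of exact height `h` with `1 ≤ h < n`. -/
structure HP (n h : ℕ) (ϖ : S) (v : ℕ → S) : Prop extends GP n ϖ v where
  hpos : 1 ≤ h
  hlt : h < n
  zero : ∀ j, j < h → v j = 0
  ne : v h ≠ 0

theorem gp_eH {n : ℕ} (hn : 1 ≤ n) (ϖ : S) : GP n ϖ (eH S n) := by
  refine ⟨hn, fun j hj => ?_, by simp [eH], fun j hj => ?_⟩
  · simp [eH, hj.ne]
  · simp [eH, hj.ne']

theorem GP.ltp {p n : ℕ} {ϖ : S} {v : ℕ → S} (h : GP n ϖ v) (hp : (p : S) ∈ Ideal.span {ϖ}) :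
    LTp p n (Ideal.span {ϖ}) v := ⟨hp, fun j _ hj => h.low j hj, h.top⟩

theorem GP.sh {n lo : ℕ} {ϖ : S} {v : ℕ → S} (h : GP n ϖ v) {a : Fin (n - lo) → S}
    (ha : ∀ i, a i ∈ Ideal.span {ϖ}) : GP n ϖ (sh n lo v a) := by
  refine ⟨h.pos, fun j hj => ?_, ?_, fun j hj => ?_⟩
  · refine add_mem (h.low j hj) ?_
    split_ifs
    · exact ha _
    · exact zero_mem _
  · rw [sh_out v a (Or.inr le_rfl), h.top]
  · rw [sh_out v a (Or.inr hj.le), h.supp j hj]

theorem GP.sub_mem {n : ℕ} {ϖ : S} {v w : ℕ → S} (h : GP n ϖ v) (h' : GP n ϖ w) (j : ℕ) :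
    v j - w j ∈ Ideal.span {ϖ} := by
  rcases lt_trichotomy j n with hj | rfl | hj
  · exact Ideal.sub_mem _ (h.low j hj) (h'.low j hj)
  · rw [h.top, h'.top, sub_self]; exact zero_mem _
  · rw [h.supp j hj, h'.supp j hj, sub_self]; exact zero_mem _

variable (p : ℕ) [hp' : Fact p.Prime] (n : ℕ)

/-- The series `X +_F [p ^ N]_F (δ)`. -/
noncomputable def gD (v : ℕ → S) (δ : PowerSeries S) (N : ℕ) : PowerSeries S :=
  fadd p n (fun j => C (v j)) PowerSeries.X ((fp p n fun j => C (v j))^[N] δ)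

variable {p n}

open HomAux

namespace GPAux

theorem mem_PI1_pow {f : PowerSeries S} {k : ℕ} :
    f ∈ PI Unit (⊥ : Ideal S) ^ k ↔ ∀ d, d < k → PowerSeries.coeff d f = 0 := by
  rw [mem_PI_bot_pow]
  constructor
  · intro h d hd
    exact h (Finsupp.single () d) (by simpa using hd)
  · intro h d hd
    have e : d = Finsupp.single () (d ()) := by ext; simp
    rw [e] at hd ⊢
    exact h _ (by simpa using hd)

theorem mem_cI_iff_map {σ : Type*} {M : Ideal S} {f : MvPowerSeries σ S} :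
    f ∈ cI σ M ↔ MvPowerSeries.map (Ideal.Quotient.mk M) f = 0 := RingHom.mem_ker

theorem mk_eq {M : Ideal S} {v w : ℕ → S} (h : ∀ j, v j - w j ∈ M) :
    (fun j => Ideal.Quotient.mk M (v j)) = fun j => Ideal.Quotient.mk M (w j) :=
  funext fun j => Ideal.Quotient.eq.mpr (h j)

end GPAux

open GPAux

theorem constantCoeff_gD (v : ℕ → S) {δ : PowerSeries S} (h0 : constantCoeff δ = 0) (N : ℕ) :
    constantCoeff (gD p n v δ N) = 0 := by
  exact const_fadd _ const_X1 (const_fp_iter _ h0 N)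

theorem coeff_one_gD (v : ℕ → S) {δ : PowerSeries S} (h0 : constantCoeff δ = 0)
    (h1 : PowerSeries.coeff 1 δ = 0) (N : ℕ) : PowerSeries.coeff 1 (gD p n v δ N) = 1 := by
  have hδ : δ ∈ PI Unit (⊥ : Ideal S) ^ 2 := mem_PI1_pow.mpr fun d hd => by
    interval_cases d
    · rw [PowerSeries.coeff_zero_eq_constantCoeff_apply]; exact h0
    · exact h1
  obtain ⟨hb1, hb2⟩ := fp_iter_mem (p := p) (n := n) (PI Unit (⊥ : Ideal S)) (fun j => C (v j))
    (rad0 h0) hδ N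
  obtain ⟨g, hg⟩ := fadd_eq (p := p) (n := n) (PI Unit (⊥ : Ideal S)) (fun j => C (v j))
    (rad0 const_X1) hb1
  rw [gD, hg, map_add, map_add, mem_PI1_pow.mp hb2 1 (by norm_num),
    mem_PI1_pow.mp (Ideal.mul_mem_right g _ (Ideal.mul_mem_left _ PowerSeries.X hb2)) 1
      (by norm_num), PowerSeries.coeff_one_X, add_zero, add_zero]

theorem map_gD (ψ : S →+* T) (v : ℕ → S) {δ : PowerSeries S} (h0 : constantCoeff δ = 0) (N : ℕ) :
    MvPowerSeries.map ψ (gD p n v δ N) = gD p n (fun j => ψ (v j)) (MvPowerSeries.map ψ δ) N := by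
  rw [gD, gD, map_fadd_C ψ v const_X1 (const_fp_iter _ h0 N), map_fp_iter_C ψ v h0]
  congr 1
  exact map_X ψ ()

theorem gD_sub_mem {M : Ideal S} {v w : ℕ → S} (h : ∀ j, v j - w j ∈ M) {δ : PowerSeries S}
    (h0 : constantCoeff δ = 0) (N : ℕ) : gD p n v δ N - gD p n w δ N ∈ cI Unit M := by
  rw [mem_cI_iff_map, map_sub, map_gD _ v h0, map_gD _ w h0, mk_eq h, sub_self]

theorem IsHomS.gD {v : ℕ → S} {δ : PowerSeries S} (h : IsHomS p n v n v δ) (N : ℕ) :
    IsHomS p n v n v (gD p n v δ N) := by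
  exact isHomS_X.add (h.fp_iter N)

theorem ev1_gD (c : S →+* T) (J : Ideal T) [IsAdicComplete J T] (v : ℕ → S) {δ : PowerSeries S}
    (h0 : constantCoeff δ = 0) (N : ℕ) {a : T} (ha : a ∈ J.radical) :
    ev1 c a (gD p n v δ N) =
      fadd p n (fun j => c (v j)) a ((fp p n fun j => c (v j))^[N] (ev1 c a δ)) := by
  rw [gD, ev1_fadd_C c J ha v const_X1 (const_fp_iter _ h0 N), ev1_fp_iter_C c J ha v h0,
    ev1_X c (ok_one J ha)]

/-- The defect of `gD` is controlled by `p ^ N` times the defect of `δ`. -/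
theorem pErr_gD_mem (v : ℕ → S) {δ : PowerSeries S} (h0 : constantCoeff δ = 0) (N : ℕ)
    {M M' : Ideal S} (hδ : pErr p n v n v δ ∈ cI Unit M)
    (hM : ∀ ε : PowerSeries S, constantCoeff ε = 0 → ε ∈ cI Unit M →
      (fp p n fun j => C (v j))^[N] ε ∈ cI Unit M') :
    pErr p n v n v (gD p n v δ N) ∈ cI Unit M' := by
  let x : Pt p n (PI Unit (⊥ : Ideal S)) (fun j => C (v j)) := ⟨PowerSeries.X, rad0 const_X1⟩
  let d : Pt p n (PI Unit (⊥ : Ideal S)) (fun j => C (v j)) := ⟨δ, rad0 h0⟩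
  have c1 : constantCoeff (ev1 C (pser p n v) δ) = 0 := const_ev1 (constantCoeff_pser v) h0
  let d' : Pt p n (PI Unit (⊥ : Ideal S)) (fun j => C (v j)) := ⟨ev1 C (pser p n v) δ, rad0 c1⟩
  have hA : ev1 C (pser p n v) (gD p n v δ N) = (p • x + p ^ N • d').1 := by
    rw [ev1_gD C (PI Unit (⊥ : Ideal S)) v h0 N (rad0 (constantCoeff_pser v)), Pt.val_add,
      Pt.val_p_smul, Pt.val_pow_smul, ← pser_eq]
  have hB : ev1 C (gD p n v δ N) (pser p n v) = (p • (x + p ^ N • d)).1 := by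
    rw [Pt.val_p_smul, Pt.val_add, Pt.val_pow_smul, ← fp_C v (constantCoeff_gD v h0 N)]
    rfl
  have hε : (d' - p • d).1 ∈ cI Unit M := by
    rw [Pt.sub_mem_iff, Pt.val_p_smul, fp_C v h0]
    exact hδ
  have hε0 : constantCoeff (d' - p • d).1 = 0 := by
    rw [← mem_PI_bot, Pt.sub_mem_iff, Pt.val_p_smul]
    exact sub_mem (mem_PI_bot.mpr c1) (mem_PI_bot.mpr (const_fp _ h0))
  have e : (p • x + p ^ N • d') - p • (x + p ^ N • d) = p ^ N • (d' - p • d) := by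
    rw [smul_add, smul_sub, smul_comm p (p ^ N) d]; abel
  rw [pErr, hA, hB, ← Pt.sub_mem_iff, e, Pt.val_pow_smul]
  exact hM _ hε0 hε

/-- The estimate on the displacement of a point under `1 + p ^ N δ`. -/
theorem displacement {lo : ℕ} (hlo : 1 ≤ lo) {ϖ : S} (hp : (p : S) ∈ Ideal.span {ϖ}) {v : ℕ → S}
    (hv : GP n ϖ v) {δ : PowerSeries S} (h0 : constantCoeff δ = 0)
    (h1 : PowerSeries.coeff 1 δ = 0) (hδ : pErr p n (eH S n) n (eH S n) δ ∈ cI Unit (.span {ϖ}))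
    (N : ℕ) {M' : Ideal S} (hM1 : M' ≤ Ideal.span {ϖ}) (hM2 : ∃ r, Ideal.span {ϖ} ^ r ≤ M')
    (hM : ∀ ε : PowerSeries S, constantCoeff ε = 0 → ε ∈ cI Unit (Ideal.span {ϖ}) →
      (fp p n fun j => C (v j))^[N] ε ∈ cI Unit M')
    {a : Fin (n - lo) → S} (ha : ∀ i, a i ∈ Ideal.span {ϖ}) {k : PowerSeries S}
    (hk : IsHomS p n (sh n lo v a) n v k)
    (hkg : k - gD p n (eH S n) δ N ∈ cI Unit (Ideal.span {ϖ})) :
    (∀ i, a i ∈ M') ∧ k - gD p n v δ N ∈ cI Unit M' := by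
  have hδv : pErr p n v n v δ ∈ cI Unit (Ideal.span {ϖ}) := by
    rw [mem_cI_iff_map, map_pErr _ h0] at hδ ⊢
    rw [mk_eq (hv.sub_mem (gp_eH hv.pos ϖ))]
    exact hδ
  obtain ⟨r, hr⟩ := hM2
  have hsup : Ideal.span {ϖ} ^ (r + 1) ⊔ M' ≤ M' :=
    sup_le ((Ideal.pow_le_pow_right (Nat.le_succ r)).trans hr) le_rfl
  have hkk : gD p n v δ N - k ∈ cI Unit (Ideal.span {ϖ}) := by
    have := sub_mem (gD_sub_mem (p := p) (n := n) (hv.sub_mem (gp_eH hv.pos ϖ)) h0 N) hkg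
    have e : gD p n v δ N - k =
        gD p n v δ N - gD p n (eH S n) δ N - (k - gD p n (eH S n) δ N) := by ring
    rw [e]; exact this
  obtain ⟨h1', h2'⟩ := lt_unique hv.pos (hv.ltp hp) (hv.ltp hp) ((hv.sh ha).ltp hp) hM1
    (hv.sub_mem (hv.sh ha))
    (fun j hj => (sh_out v a (hj.imp (fun h => by omega) id)).symm)
    (constantCoeff_gD v h0 N) hk.const (by rw [coeff_one_gD v h0 h1]; exact isUnit_one) hkk
    (pErr_gD_mem v h0 N hδv hM) (by rw [hk.pErr_eq]; exact zero_mem _) r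
  refine ⟨fun i => ?_, ?_⟩
  · have := neg_mem (hsup (h1' (lo + i)))
    rw [sh_add] at this
    simpa using this
  · have := neg_mem (cI_mono hsup h2')
    simpa using this

end Vale.Agent.P217
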