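import Vale.Agent.P217.WCpl
import Vale.Agent.P217.GP

/-! The Dieudonne module of a point and an eigenvector of slope `1 / h`. -/

namespace Vale.Agent.P217

variable {A : Type*} [CommRing A]

/-- Frobenius on `A[φ] / A[φ] (p - ∑ v_j φ ^ j)` in the basis `1, φ, ..., φ ^ (n - 1)`. -/
def PhiM (p n : ℕ) (φA : A →+* A) (v : ℕ → A) (γ : ℕ → A) : ℕ → A := fun s =>
  (if s = 0 then 0 else φA (γ (s - 1))) + φA (γ (n - 1)) * if s = 0 then (p : A) else -v s

theorem PhiM_zero_mem (p n : ℕ) (φA : A →+* A) (v γ : ℕ → A) :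
    PhiM p n φA v γ 0 ∈ Ideal.span {(p : A)} := by
  simp only [PhiM, if_true, zero_add]
  exact Ideal.mul_mem_left _ _ (Ideal.mem_span_singleton_self _)

theorem PhiM_congr {p n : ℕ} (hn : 1 ≤ n) (φA : A →+* A) (v : ℕ → A) {γ γ' : ℕ → A}
    (h : ∀ s, s < n → γ s = γ' s) (k : ℕ) :
    ∀ s, s < n → (PhiM p n φA v)^[k] γ s = (PhiM p n φA v)^[k] γ' s := by
  induction k with
  | zero => exact h
  | succ k ih =>
    intro s hs
    simp only [Function.iterate_succ_apply', PhiM]
    rw [ih (s - 1) (by omega), ih (n - 1) (by omega)]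

/-- The action on solutions of the equation up to an error term `e`. -/
theorem phi_sum_eq {K : Type*} [CommRing K] {p n : ℕ} (hn : 1 ≤ n) (ι : A →+* K) (φA : A →+* A)
    (φ : K →+* K) (hφ : ∀ a, φ (ι a) = ι (φA a)) {v : ℕ → A} (hv : v n = 1) {b e : K}
    (hb : p * b = e + ∑ i ∈ Finset.Icc 1 n, ι (v i) * φ^[i] b) (γ : ℕ → A) :
    φ (∑ s ∈ Finset.range n, ι (γ s) * φ^[s] b) =
      ∑ s ∈ Finset.range n, ι (PhiM p n φA v γ s) * φ^[s] b - ι (φA (γ (n - 1))) * e := by
  obtain ⟨m, rfl⟩ : ∃ m, n = m + 1 := ⟨n - 1, by omega⟩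
  have h1 : ∑ i ∈ Finset.Icc 1 (m + 1), ι (v i) * φ^[i] b =
      ∑ i ∈ Finset.range m, ι (v (i + 1)) * φ^[i + 1] b + φ^[m + 1] b := by
    rw [← Finset.Ico_add_one_right_eq_Icc, Finset.sum_Ico_eq_sum_range,
      show m + 1 + 1 - 1 = m + 1 by omega, Finset.sum_range_succ, add_comm 1 m, hv, map_one,
      one_mul]
    simp only [add_comm 1]
  rw [h1] at hb
  have h2 : φ (∑ s ∈ Finset.range (m + 1), ι (γ s) * φ^[s] b) =
      ∑ s ∈ Finset.range m, ι (φA (γ s)) * φ^[s + 1] b + ι (φA (γ m)) * φ^[m + 1] b := by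
    rw [map_sum, Finset.sum_range_succ]
    simp only [map_mul, hφ, Function.iterate_succ_apply']
  rw [h2, Finset.sum_range_succ']
  simp only [PhiM, Nat.add_sub_cancel, Nat.succ_ne_zero, if_false, if_true, map_add, map_mul,
    map_neg, map_natCast, map_zero, zero_add, Function.iterate_zero, id, add_mul,
    Finset.sum_add_distrib, mul_assoc, ← Finset.mul_sum, neg_mul, Finset.sum_neg_distrib]
  linear_combination (-ι (φA (γ m))) * hb

namespace GamAux

variable {p n : ℕ} {φA : A →+* A} {v : ℕ → A}

theorem PhiM_iter_sum {α : Type*} (s : Finset α) (a : α → A) (γ : α → ℕ → A) (k : ℕ) :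
    (PhiM p n φA v)^[k] (fun r => ∑ i ∈ s, a i * γ i r) =
      fun r => ∑ i ∈ s, φA^[k] (a i) * (PhiM p n φA v)^[k] (γ i) r := by
  induction k with
  | zero => rfl
  | succ k ih =>
    funext r
    simp only [Function.iterate_succ_apply', ih, PhiM, map_sum, map_mul, mul_add,
      Finset.sum_add_distrib, Finset.sum_mul, mul_assoc]
    split_ifs <;> simp

theorem PhiM_iter_sub_mem (hn : 1 ≤ n) {J : Ideal A} (hJ : ∀ a ∈ J, φA a ∈ J) {γ γ' : ℕ → A}
    (h : ∀ s, s < n → γ s - γ' s ∈ J) (k : ℕ) :
    ∀ s, s < n → (PhiM p n φA v)^[k] γ s - (PhiM p n φA v)^[k] γ' s ∈ J := by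
  induction k with
  | zero => exact h
  | succ k ih =>
    intro s hs
    simp only [Function.iterate_succ_apply', PhiM]
    have h1 := hJ _ (ih (s - 1) (by omega))
    have h2 := hJ _ (ih (n - 1) (by omega))
    rw [map_sub] at h1 h2
    split_ifs
    · simpa [sub_mul] using J.mul_mem_right (p : A) h2
    · convert add_mem h1 (J.mul_mem_right (-v s) h2) using 1; ring

/-- The class of `φ ^ t`. -/
def ee (p n : ℕ) (φA : A →+* A) (v : ℕ → A) (t : ℕ) : ℕ → A :=
  (PhiM p n φA v)^[t] fun s => if s = 0 then 1 else 0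

theorem ee_succ (t : ℕ) : ee p n φA v (t + 1) = PhiM p n φA v (ee p n φA v t) :=
  Function.iterate_succ_apply' _ _ _

theorem ee_add (k t : ℕ) : ee p n φA v (k + t) = (PhiM p n φA v)^[k] (ee p n φA v t) :=
  Function.iterate_add_apply _ _ _ _

theorem ee_lt {t : ℕ} (ht : t < n) : ∀ s, s < n → ee p n φA v t s = if s = t then 1 else 0 := by
  induction t with
  | zero => intro s _; rfl
  | succ t ih =>
    intro s hs
    rw [ee_succ, PhiM, ih (by omega) (s - 1) (by omega), ih (by omega) (n - 1) (by omega),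
      if_neg (show ¬ n - 1 = t by omega), map_zero, zero_mul, add_zero]
    by_cases h0 : s = 0
    · rw [if_pos h0, if_neg (by omega)]
    · rw [if_neg h0]
      by_cases h1 : s = t + 1
      · rw [if_pos (by omega), if_pos h1, map_one]
      · rw [if_neg (by omega), if_neg h1, map_zero]

theorem ee_top (hn : 1 ≤ n) {s : ℕ} (hs : s < n) :
    ee p n φA v n s = if s = 0 then (p : A) else -v s := by
  obtain ⟨m, rfl⟩ : ∃ m, n = m + 1 := ⟨n - 1, by omega⟩
  rw [ee_succ, PhiM, ee_lt (by omega) (s - 1) (by omega), ee_lt (by omega) (m + 1 - 1) (by omega),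
    if_pos (show m + 1 - 1 = m by omega), map_one, one_mul]
  by_cases h0 : s = 0
  · simp [h0]
  · rw [if_neg h0, if_neg (by omega), map_zero, zero_add]

theorem ee_mem (hn : 1 ≤ n) {I : Ideal A} (hI : ∀ a ∈ I, φA a ∈ I) (hp : (p : A) ∈ I)
    (hv : ∀ s, s < n → v s ∈ I) (t : ℕ) :
    ∀ s, s < n → ee p n φA v t s ∈ I ^ ((t + n - 1 - s) / n) := by
  have hI' : ∀ k, ∀ a ∈ I ^ k, φA a ∈ I ^ k := fun k a ha => by
    have h1 : I.map φA ≤ I := Ideal.map_le_iff_le_comap.mpr hI
    exact Ideal.pow_right_mono h1 k (by rw [← Ideal.map_pow]; exact Ideal.mem_map_of_mem _ ha)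
  induction t with
  | zero =>
    intro s hs
    rw [Nat.div_eq_of_lt (by omega), pow_zero, Ideal.one_eq_top]; trivial
  | succ t ih =>
    intro s hs
    have h2 := hI' _ _ (ih (n - 1) (by omega))
    rw [show t + n - 1 - (n - 1) = t by omega] at h2
    have h3 : (t + 1 + n - 1 - s) / n ≤ t / n + 1 := by
      rw [← Nat.add_div_right t hn]; exact Nat.div_le_div_right (by omega)
    rw [ee_succ, PhiM]
    refine add_mem ?_ (I.pow_le_pow_right h3 ?_)
    · split_ifs with h0
      · exact zero_mem _
      · have := hI' _ _ (ih (s - 1) (by omega))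
        rwa [show t + n - 1 - (s - 1) = t + 1 + n - 1 - s by omega] at this
    · rw [pow_succ]
      refine Ideal.mul_mem_mul h2 ?_
      split_ifs
      · exact hp
      · exact neg_mem (hv s hs)

theorem ee_key {h : ℕ} (hh : 1 ≤ h) (hn : h < n) (hv0 : ∀ s, s < h → v s = 0) (hv1 : v n = 1)
    {s : ℕ} (hs : s < n) : ∑ i ∈ Finset.range (n - h + 1), v (h + i) * ee p n φA v (h + i) s =
      p * ee p n φA v 0 s := by
  rw [Finset.sum_range_succ, show h + (n - h) = n by omega, hv1, one_mul, ee_top (by omega) hs,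
    ee_lt (by omega) s hs, Finset.sum_congr rfl (g := fun i => if s = h + i then v s else 0)
      fun i hi => by
        rw [ee_lt (by have := Finset.mem_range.mp hi; omega) s hs]
        split_ifs with h1
        · rw [mul_one, h1]
        · rw [mul_zero]]
  by_cases h1 : s < h
  · rw [Finset.sum_eq_zero fun i _ => if_neg (by omega), hv0 s h1]
    split_ifs <;> simp
  · rw [Finset.sum_eq_single (s - h) (fun i _ hi => if_neg (by omega))
      (fun hi => absurd (Finset.mem_range.mpr (by omega)) hi), if_pos (by omega),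
      if_neg (by omega), if_neg (by omega)]
    ring

theorem sum_sub_sum_mem {J : Ideal A} {f : ℕ → A} {a b : ℕ} (ha : ∀ i, a ≤ i → f i ∈ J)
    (hb : ∀ i, b ≤ i → f i ∈ J) :
    ∑ i ∈ Finset.range a, f i - ∑ i ∈ Finset.range b, f i ∈ J := by
  have h1 := Finset.sum_range_add f a b
  have h2 := Finset.sum_range_add f b a
  rw [add_comm b a, h1] at h2
  have e : ∑ i ∈ Finset.range a, f i - ∑ i ∈ Finset.range b, f i =
      ∑ i ∈ Finset.range a, f (b + i) - ∑ i ∈ Finset.range b, f (a + i) := by
    linear_combination h2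
  rw [e]
  exact sub_mem (J.sum_mem fun i _ => hb _ (by omega)) (J.sum_mem fun i _ => ha _ (by omega))

/-- Recursive solution of a triangular system. -/
def gam (sol : A → A → A) (g0 : A) (w : ℕ → ℕ → A) : ℕ → A
  | 0 => g0
  | t + 1 => sol (w (t + 1) 0) (∑ s : Fin (t + 1), gam sol g0 w s * w s (t + 1 - s))

theorem exists_eigen {h : ℕ} (hh : 1 ≤ h) (hn : h < n) (I : Ideal A) [IsAdicComplete I A]
    (hI : ∀ a ∈ I, φA a ∈ I) (hp : (p : A) ∈ I) (hv : ∀ s, s < n → v s ∈ I)
    (hv0 : ∀ s, s < h → v s = 0) (hv1 : v n = 1) (hv2 : ∀ s, n < s → v s = 0) (γ : ℕ → A)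
    (hγ : ∀ t, φA^[h] (γ t) = ∑ s ∈ Finset.range (t + 1), γ s * φA^[s] (v (h + (t - s)))) :
    ∃ γ' : ℕ → A, (∀ k, γ' 0 - γ 0 ∈ I ^ k ⊔ Ideal.span {(p : A)}) ∧
      ∀ s, s < n → (PhiM p n φA v)^[h] γ' s = p * γ' s := by
  have hn1 : 1 ≤ n := by omega
  have hI' : ∀ k, ∀ a ∈ I ^ k, φA a ∈ I ^ k := fun k a ha => by
    have h1 : I.map φA ≤ I := Ideal.map_le_iff_le_comap.mpr hI
    exact Ideal.pow_right_mono h1 k (by rw [← Ideal.map_pow]; exact Ideal.mem_map_of_mem _ ha)
  have hsm : ∀ k t s, s < n → n * k ≤ t → ee p n φA v t s ∈ I ^ k := fun k t s hs ht =>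
    I.pow_le_pow_right ((Nat.le_div_iff_mul_le hn1).mpr (by rw [mul_comm]; omega))
      (ee_mem hn1 hI hp hv t s hs)
  let S : ℕ → ℕ → A := fun T r => ∑ t ∈ Finset.range T, γ t * ee p n φA v t r
  have hlim : ∀ r, r < n → ∃ L, ∀ k, L - S (n * k) r ∈ I ^ k := fun r hr =>
    exists_lim I (fun k => S (n * k) r) fun k => by
      simp only [S]
      rw [mul_add, Finset.sum_range_add, add_sub_cancel_left]
      exact Ideal.sum_mem _ fun i _ => Ideal.mul_mem_left _ _ (hsm k _ r hr (by omega))
  choose! L hL using hlim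
  refine ⟨L, fun k => ?_, fun r hr => eq_of_sub_mem_pow I fun k => ?_⟩
  · have h1 := I.pow_le_pow_right (Nat.le_succ k) (hL 0 hn1 (k + 1))
    have h2 : S (n * (k + 1)) 0 - γ 0 ∈ Ideal.span {(p : A)} := by
      simp only [S]
      rw [show n * (k + 1) = (n * (k + 1) - 1) + 1 by
        have : 0 < n * (k + 1) := by positivity
        omega, Finset.sum_range_succ', ee_lt hn1 0 hn1, if_pos rfl, mul_one, add_sub_cancel_right]
      exact Ideal.sum_mem _ fun i _ => Ideal.mul_mem_left _ _ (by
        rw [ee_succ]; exact PhiM_zero_mem _ _ _ _ _)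
    simpa using add_mem (Ideal.mem_sup_left h1) (Ideal.mem_sup_right h2)
  · have h1 := PhiM_iter_sub_mem (p := p) (v := v) hn1 (hI' k) (fun s hs => hL s hs k) h r hr
    have h2 := (I ^ k).mul_mem_left (p : A) (hL r hr k)
    let F : ℕ → ℕ → A := fun s i => γ s * φA^[s] (v (h + i)) * ee p n φA v (s + (h + i)) r
    have h3 : (PhiM p n φA v)^[h] (S (n * k)) r =
        ∑ s ∈ Finset.range (n * k), ∑ i ∈ Finset.range (n * k - s), F s i := by
      rw [← Finset.sum_range_diag_flip]
      simp only [S]
      rw [PhiM_iter_sum]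
      refine Finset.sum_congr rfl fun t _ => ?_
      rw [hγ, Finset.sum_mul, ← ee_add]
      refine Finset.sum_congr rfl fun s hs => ?_
      have := Finset.mem_range.mp hs
      simp only [F]
      rw [show s + (h + (t - s)) = h + t by omega]
    have h4 : p * S (n * k) r =
        ∑ s ∈ Finset.range (n * k), ∑ i ∈ Finset.range (n - h + 1), F s i := by
      simp only [S, Finset.mul_sum]
      refine Finset.sum_congr rfl fun s _ => ?_
      have h5 := PhiM_congr (p := p) hn1 φA v (fun r hr => ee_key (p := p) (φA := φA) hh hn hv0 hv1 hr)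
        s r hr
      have h6 := congrFun (PhiM_iter_sum (p := p) (n := n) (φA := φA) (v := v) {0}
        (fun _ : ℕ => (p : A)) (fun _ => ee p n φA v 0) s) r
      simp only [Finset.sum_singleton] at h6
      rw [PhiM_iter_sum, h6, ← ee_add, ← RingHom.coe_pow, map_natCast, add_zero] at h5
      beta_reduce at h5
      simp only [F, mul_assoc, ← Finset.mul_sum, ee_add s]
      rw [← RingHom.coe_pow, h5]; ring
    have h5 : (PhiM p n φA v)^[h] (S (n * k)) r - p * S (n * k) r ∈ I ^ k := by
      rw [h3, h4, ← Finset.sum_sub_distrib]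
      refine Ideal.sum_mem _ fun s hs => sum_sub_sum_mem (fun i hi => ?_) fun i hi => ?_
      · exact Ideal.mul_mem_left _ _ (hsm k _ r hr (by have := Finset.mem_range.mp hs; omega))
      · simp only [F]
        rw [hv2 _ (by omega), ← RingHom.coe_pow, map_zero, mul_zero, zero_mul]
        exact zero_mem _
    convert sub_mem (add_mem h1 h5) h2 using 1; ring

end GamAux

open GamAux

variable {O : Type} [CommRing O] {p : ℕ} [Fact p.Prime] [CharP O p] [PerfectRing O p]
  [IsDomain O] {ϖ : O} [Good O ϖ] {n h : ℕ} {x : ℕ → O}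

omit [IsDomain O] in
theorem GamAux.cc_frob (a : WittVector p O) (t : ℕ) :
    WittVector.constantCoeff (WittVector.frobenius^[t] a) =
      WittVector.constantCoeff a ^ p ^ t := by
  induction t with
  | zero => simp
  | succ t ih =>
    rw [Function.iterate_succ_apply', sub_mem_p_iff.mp (frobenius_sub_mem _), map_pow, ih,
      ← pow_mul, pow_succ]

theorem exists_frob_sub_eq (ϖ : O) [Good O ϖ] (hh : 1 ≤ h) (u c : WittVector p O) :
    ∃ t : WittVector p O, WittVector.frobenius^[h] t - u * t = c := by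
  have hQ : 1 < p ^ h := Nat.one_lt_pow (by omega) (Fact.out : p.Prime).one_lt
  let T : (Unit → WittVector p O) →+ (Unit → WittVector p O) := AddMonoidHom.mk'
    (fun t _ => (WittVector.frobenius ^ h : WittVector p O →+* _) (t ()) - u * t ())
    fun a b => by funext _; simp only [Pi.add_apply, map_add]; ring
  have hs := surjective_of_mod (p : WittVector p O) T (fun t => by
    funext _
    simp only [T, AddMonoidHom.mk'_apply, Pi.smul_apply, smul_eq_mul, map_mul, map_natCast]
    ring) fun y => by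
    have hm : (Polynomial.X ^ p ^ h + -(Polynomial.C (WittVector.constantCoeff u) * Polynomial.X +
        Polynomial.C (WittVector.constantCoeff (y ()))) : Polynomial O).natDegree = p ^ h ∧
        (Polynomial.X ^ p ^ h + -(Polynomial.C (WittVector.constantCoeff u) * Polynomial.X +
        Polynomial.C (WittVector.constantCoeff (y ()))) : Polynomial O).Monic := by
      have hd : (-(Polynomial.C (WittVector.constantCoeff u) * Polynomial.X +
          Polynomial.C (WittVector.constantCoeff (y ()))) : Polynomial O).degree < (p ^ h : ℕ) := by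
        rw [Polynomial.degree_neg]
        exact Polynomial.degree_linear_le.trans_lt (by exact_mod_cast hQ)
      refine ⟨?_, Polynomial.monic_X_pow_add hd⟩
      rw [Polynomial.natDegree_add_eq_left_of_degree_lt (by rwa [Polynomial.degree_X_pow]),
        Polynomial.natDegree_X_pow]
    obtain ⟨t, ht⟩ := Good.root (ϖ := ϖ) _ hm.2 (by rw [hm.1]; omega)
    have h1 : T (fun _ => WittVector.teichmuller p t) () - y () ∈
        Ideal.span {(p : WittVector p O)} := by
      rw [sub_mem_p_iff]
      simp only [T, AddMonoidHom.mk'_apply, map_sub, map_mul, RingHom.coe_pow, cc_frob]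
      simp only [Polynomial.IsRoot, Polynomial.eval_add, Polynomial.eval_pow, Polynomial.eval_X,
        Polynomial.eval_neg, Polynomial.eval_mul, Polynomial.eval_C] at ht
      have : WittVector.constantCoeff (WittVector.teichmuller p t) = t := by simp
      rw [this]
      linear_combination ht
    obtain ⟨z, hz⟩ := Ideal.mem_span_singleton'.mp h1
    exact ⟨fun _ => WittVector.teichmuller p t, fun _ => z, funext fun _ => by
      simp only [Pi.add_apply, Pi.smul_apply, smul_eq_mul]; linear_combination -hz⟩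
  obtain ⟨t, ht⟩ := hs fun _ => c
  exact ⟨t (), by simpa only [T, AddMonoidHom.mk'_apply, RingHom.coe_pow] using congrFun ht ()⟩

theorem exists_gamma (hx : HP n h ϖ x) :
    ∃ γ : ℕ → WittVector p O, WittVector.constantCoeff (γ 0) ≠ 0 ∧ ∀ s, s < n →
      (PhiM p n WittVector.frobenius fun i => WittVector.teichmuller p (x i))^[h] γ s =
        p * γ s := by
  have hQ : 1 < p ^ h := Nat.one_lt_pow (by have := hx.hpos; omega) (Fact.out : p.Prime).one_lt
  obtain ⟨t0, ht0⟩ := Good.root (ϖ := ϖ) (Polynomial.X ^ (p ^ h - 1) - Polynomial.C (x h))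
    (Polynomial.monic_X_pow_sub_C _ (by omega))
    (by rw [Polynomial.natDegree_X_pow_sub_C]; omega)
  have ht1 : t0 ^ (p ^ h - 1) = x h := by simpa [sub_eq_zero] using ht0
  have ht2 : t0 ≠ 0 := by
    rintro rfl
    rw [zero_pow (by omega)] at ht1
    exact hx.ne ht1.symm
  choose sol hsol using exists_frob_sub_eq (p := p) ϖ hx.hpos
  let v : ℕ → WittVector p O := fun i => WittVector.teichmuller p (x i)
  let w : ℕ → ℕ → WittVector p O := fun s i => WittVector.frobenius^[s] (v (h + i))
  have hcc : ∀ y : O, WittVector.constantCoeff (WittVector.teichmuller p y) = y := fun y => by simp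
  obtain ⟨γ, h1, h2⟩ := exists_eigen (p := p) (φA := WittVector.frobenius) (v := v) hx.hpos hx.hlt
    (IA p ϖ) (fun a ha => by
      have := cc_frob a 1
      rw [Function.iterate_one, pow_one] at this
      rw [mem_IA, this]
      exact Ideal.pow_mem_of_mem _ (mem_IA.mp ha) _ (Fact.out : p.Prime).pos)
    (Ideal.subset_span (by simp)) (fun s hs => mem_IA.mpr (by rw [hcc]; exact hx.low s hs))
    (fun s hs => by simp only [v, hx.zero s hs, WittVector.teichmuller_zero])
    (by simp only [v, hx.top, map_one])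
    (fun s hs => by simp only [v, hx.supp s hs, WittVector.teichmuller_zero])
    (gam sol (WittVector.teichmuller p t0) w) (fun t => by
      cases t with
      | zero =>
        have h3 : ∀ k, WittVector.frobenius^[k] (WittVector.teichmuller p t0) =
            WittVector.teichmuller p t0 ^ p ^ k := fun k => by
          induction k with
          | zero => simp
          | succ k ih => rw [Function.iterate_succ_apply', ih, map_pow, frobenius_teich, ← pow_mul,
              pow_succ']
        simp only [gam, zero_add, Finset.sum_range_one, Function.iterate_zero, id, Nat.sub_zero,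
          add_zero, v, h3]
        rw [← ht1, map_pow, ← pow_succ', Nat.sub_add_cancel hQ.le]
      | succ t =>
        have h3 := hsol (w (t + 1) 0)
          (∑ s : Fin (t + 1), gam sol (WittVector.teichmuller p t0) w s * w s (t + 1 - s))
        have e : gam sol (WittVector.teichmuller p t0) w (t + 1) = sol (w (t + 1) 0)
          (∑ s : Fin (t + 1), gam sol (WittVector.teichmuller p t0) w s * w s (t + 1 - s)) := by
          rw [gam]
        rw [← e] at h3
        rw [Finset.sum_range_succ, Nat.sub_self, ← Fin.sum_univ_eq_sum_range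
          (fun s => gam sol (WittVector.teichmuller p t0) w s * w s (t + 1 - s)), ← h3]
        ring)
  refine ⟨γ, ?_, h2⟩
  have h3 : WittVector.constantCoeff (γ 0) = t0 := eq_of_sub_mem_pow (Ideal.span {ϖ}) fun k => by
    obtain ⟨a, ha, b, hb, hab⟩ := Submodule.mem_sup.mp (h1 k)
    have h4 := congrArg WittVector.constantCoeff hab
    rw [← sub_zero b, sub_mem_p_iff, map_zero] at hb
    rw [map_add, hb, add_zero, map_sub, gam, hcc] at h4
    rw [← h4]
    have h5 : (IA p ϖ).map WittVector.constantCoeff ≤ Ideal.span {ϖ} :=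
      Ideal.map_le_iff_le_comap.mpr fun a ha => mem_IA.mp ha
    exact Ideal.pow_right_mono h5 k (by rw [← Ideal.map_pow]; exact Ideal.mem_map_of_mem _ ha)
  rwa [h3]

end Vale.Agent.P217
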