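import Vale.Agent.P217.GP

/-! Limits `lim [p ^ r] (y r)` in characteristic `p`. -/

namespace Vale.Agent.P217

variable {S T : Type*} [CommRing S] [CommRing T]

/-- `z = lim [p ^ r] (y r)` for the `N`-adic topology. -/
def IsZ (p : ℕ) [Fact p.Prime] (n : ℕ) (v : ℕ → S) (N : Ideal S) (y : ℕ → S) (z : S) : Prop :=
  ∀ r, z - (fp p n v)^[r] (y r) ∈ N ^ (r + 1)

variable {p : ℕ} [Fact p.Prime] {n : ℕ} (I : Ideal S) [IsAdicComplete I S] {v : ℕ → S}
  {N : Ideal S} {y y' : ℕ → S} {z z' : S}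

theorem fp_iter_sub_mem (hp : (p : S) = 0) {a b : S} (ha : a ∈ I.radical) (hb : b ∈ I.radical)
    {k : ℕ} (hab : a - b ∈ N ^ (k + 1)) (r : ℕ) :
    (fp p n v)^[r] a - (fp p n v)^[r] b ∈ N ^ (k + 1 + r) := by
  induction r with
  | zero => exact hab
  | succ r ih =>
    rw [Function.iterate_succ_apply', Function.iterate_succ_apply']
    have h1 := fp_sub_fp_mem (p := p) (n := n) I hp (h := 1) le_rfl (v := v)
      (fun j h1 h2 => absurd h2 (by omega)) (fp_iter_mem I v ha ha r).1 (fp_iter_mem I v hb hb r).1 ih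
    rw [← pow_mul, pow_one] at h1
    refine Ideal.pow_le_pow_right ?_ h1
    have := (Fact.out : p.Prime).two_le
    nlinarith

theorem ZLimAux.step (hp : (p : S) = 0) (hy : ∀ r, y r ∈ I.radical)
    (hs : ∀ r, fp p n v (y (r + 1)) - y r ∈ N) (r : ℕ) :
    (fp p n v)^[r + 1] (y (r + 1)) - (fp p n v)^[r] (y r) ∈ N ^ (r + 1) := by
  have h1 := fp_iter_sub_mem (p := p) (n := n) (v := v) I hp (fp_mem I v (hy (r + 1)) (hy (r + 1)))
    (hy r) (k := 0) (N := N) (by simpa using hs r) r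
  rw [Function.iterate_succ_apply]
  rwa [zero_add, add_comm 1 r] at h1

theorem ZLimAux.iter_congr {a b : S} (ha : a ∈ I.radical) (hb : b ∈ I.radical) (h : a - b ∈ N)
    (r : ℕ) : (fp p n v)^[r] a - (fp p n v)^[r] b ∈ N := by
  induction r with
  | zero => exact h
  | succ r ih =>
    rw [Function.iterate_succ_apply', Function.iterate_succ_apply']
    exact fp_congr I v (fp_iter_mem I v ha ha r).1 (fp_iter_mem I v hb hb r).1 ih

theorem ZLimAux.iter_fadd {a b : S} (ha : a ∈ I.radical) (hb : b ∈ I.radical) (r : ℕ) :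
    (fp p n v)^[r] (fadd p n v a b) = fadd p n v ((fp p n v)^[r] a) ((fp p n v)^[r] b) := by
  have h := congrArg Pt.val (smul_add (p ^ r) (⟨a, ha⟩ : Pt p n I v) ⟨b, hb⟩)
  simpa only [Pt.val_add, Pt.val_pow_smul] using h

theorem exists_isZ (hp : (p : S) = 0) [IsAdicComplete N S] (hy : ∀ r, y r ∈ I.radical)
    (hs : ∀ r, fp p n v (y (r + 1)) - y r ∈ N) : ∃ z, IsZ p n v N y z := by
  obtain ⟨L, hL⟩ := exists_lim N (fun r => (fp p n v)^[r] (y r)) fun r =>
    Ideal.pow_le_pow_right (Nat.le_succ r) (ZLimAux.step I hp hy hs r)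
  refine ⟨L, fun r => ?_⟩
  have h1 := add_mem (hL (r + 1)) (ZLimAux.step I hp hy hs r)
  rwa [sub_add_sub_cancel] at h1

omit [IsAdicComplete I S] in
theorem IsZ.mem (h : IsZ p n v N y z) (hN : N ≤ I.radical) (hy : y 0 ∈ I.radical) :
    z ∈ I.radical := by
  have h1 := h 0
  rw [zero_add, pow_one] at h1
  simpa using add_mem (hN h1) hy

theorem IsZ.unique [IsAdicComplete N S] (h : IsZ p n v N y z) (h' : IsZ p n v N y z') :
    z = z' := by
  refine eq_of_sub_mem_pow N fun k => Ideal.pow_le_pow_right (Nat.le_succ k) ?_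
  simpa using sub_mem (h k) (h' k)

theorem IsZ.congr (hp : (p : S) = 0) (h : IsZ p n v N y z) (hy : ∀ r, y r ∈ I.radical)
    (hy' : ∀ r, y' r ∈ I.radical) (hyy : ∀ r, y r - y' r ∈ N) : IsZ p n v N y' z := by
  intro r
  have h1 := fp_iter_sub_mem (p := p) (n := n) (v := v) I hp (hy r) (hy' r) (k := 0) (N := N)
    (by simpa using hyy r) r
  rw [zero_add, add_comm 1 r] at h1
  simpa using add_mem (h r) h1

theorem isZ_zero : IsZ p n v N (fun _ => 0) 0 := by
  intro r
  have h0 : fp p n v 0 = 0 := by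
    rw [fp]
    refine (ev_zero _ _).trans ?_
    rw [constantCoeff_Pu, map_zero]
  rw [Function.iterate_fixed h0, sub_self]
  exact zero_mem _

theorem IsZ.fadd (hN : N ≤ I.radical) (h : IsZ p n v N y z) (h' : IsZ p n v N y' z')
    (hy : ∀ r, y r ∈ I.radical) (hy' : ∀ r, y' r ∈ I.radical) :
    IsZ p n v N (fun r => fadd p n v (y r) (y' r)) (fadd p n v z z') := by
  intro r
  rw [ZLimAux.iter_fadd I (hy r) (hy' r)]
  exact fadd_congr I v (h.mem I hN (hy 0)) (h'.mem I hN (hy' 0))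
    (fp_iter_mem I v (hy r) (hy r) r).1 (fp_iter_mem I v (hy' r) (hy' r) r).1 (h r) (h' r)

theorem IsZ.fp_iter (hN : N ≤ I.radical) (h : IsZ p n v N y z) (hy : ∀ r, y r ∈ I.radical)
    (k : ℕ) : IsZ p n v N (fun r => (fp p n v)^[k] (y r)) ((fp p n v)^[k] z) := by
  intro r
  rw [← Function.iterate_add_apply, add_comm r k, Function.iterate_add_apply]
  exact ZLimAux.iter_congr I (h.mem I hN (hy 0)) (fp_iter_mem I v (hy r) (hy r) r).1 (h r) k

theorem IsZ.shift (hp : (p : S) = 0) (hN : N ≤ I.radical) (hy : ∀ r, y r ∈ I.radical)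
    (hs : ∀ r, fp p n v (y (r + 1)) - y r ∈ N) (k : ℕ)
    (h : IsZ p n v N (fun r => y (k + r)) z) : IsZ p n v N y ((fp p n v)^[k] z) := by
  intro r
  have h1 := ZLimAux.iter_congr (p := p) (n := n) (v := v) I (h.mem I hN (hy _))
    (fp_iter_mem I v (hy (k + r)) (hy (k + r)) r).1 (h r) k
  rw [← Function.iterate_add_apply] at h1
  have h2 : ∀ k, (fp p n v)^[k + r] (y (k + r)) - (fp p n v)^[r] (y r) ∈ N ^ (r + 1) := by
    intro k
    induction k with
    | zero => simp
    | succ k ih =>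
      have h3 := Ideal.pow_le_pow_right (show r + 1 ≤ k + r + 1 by omega)
        (ZLimAux.step I hp hy hs (k + r))
      rw [show k + 1 + r = k + r + 1 by ring]
      simpa only [sub_add_sub_cancel] using add_mem h3 ih
  simpa only [sub_add_sub_cancel] using add_mem h1 (h2 k)

theorem IsZ.map (Ψ : S →+* T) (J : Ideal T) [IsAdicComplete J T] {M : Ideal T}
    (hM : ∀ a ∈ N, Ψ a ∈ M) (h : IsZ p n v N y z) (hy : ∀ r, y r ∈ I.radical)
    (hy' : ∀ r, Ψ (y r) ∈ J.radical) :
    IsZ p n (fun i => Ψ (v i)) M (fun r => Ψ (y r)) (Ψ z) := by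
  intro r
  rw [← map_fp_iter I v Ψ J (hy r) (hy' r), ← map_sub]
  have h1 := Ideal.mem_map_of_mem Ψ (h r)
  rw [Ideal.map_pow] at h1
  exact Ideal.pow_right_mono (Ideal.map_le_iff_le_comap.mpr hM) _ h1

theorem IsZ.hom {R : Type*} [CommRing R] (c : R →+* S) {m : ℕ} {v w : ℕ → R}
    {k : PowerSeries R} (hk : IsHomS p n v m w k) (hN : N ≤ I.radical)
    (h : IsZ p n (fun i => c (v i)) N y z) (hy : ∀ r, y r ∈ I.radical) :
    IsZ p m (fun i => c (w i)) N (fun r => ev1 c (y r) k) (ev1 c z k) := by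
  intro r
  rw [← hk.ev_fp_iter c I (hy r)]
  exact ev_sub_ev_mem c I (fun _ => h.mem I hN (hy 0))
    (fun _ => (fp_iter_mem I _ (hy r) (hy r) r).1) (fun _ => h r) k

/-- An exactly compatible system has limit its zeroth term. -/
theorem isZ_of_exact (hs : ∀ r, fp p n v (y (r + 1)) = y r) : IsZ p n v N y (y 0) := by
  intro r
  have h1 : (fp p n v)^[r] (y r) = y 0 := by
    induction r with
    | zero => rfl
    | succ r ih => rw [Function.iterate_succ_apply, hs, ih]
  rw [h1, sub_self]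
  exact zero_mem _

end Vale.Agent.P217
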