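import Vale.Agent.P217.Tors
import Vale.Agent.P217.ZLim

/-! Serre-Tate coordinates: existence and nondegeneracy. -/

namespace Vale.Agent.P217

open MvPowerSeries

variable {O : Type} [CommRing O] {p : ℕ} [Fact p.Prime] [CharP O p] [IsDomain O] {ϖ : O}
  [Good O ϖ] {n h : ℕ} {x : ℕ → O}

omit [IsDomain O] [CharP O p] [Good O ϖ] in
theorem JacAux.C_rad {σ : Type} {t : O} (ht : t ∈ (Ideal.span {ϖ}).radical) :
    (C t : MvPowerSeries σ O) ∈ (PI σ (Ideal.span {ϖ})).radical :=
  mem_PI_radical.mpr (by simpa using ht)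

omit [IsDomain O] in
theorem JacAux.coeff_C_X (a : O) : PowerSeries.coeff 1 (C a * PowerSeries.X : PowerSeries O) = a := by
  rw [show (C a : PowerSeries O) = PowerSeries.C a from rfl, PowerSeries.coeff_C_mul,
    PowerSeries.coeff_one_X, mul_one]

omit [IsDomain O] in
theorem JacAux.coeff_C (a : O) : PowerSeries.coeff 1 (C a : PowerSeries O) = 0 := by
  rw [show (C a : PowerSeries O) = PowerSeries.C a from rfl, PowerSeries.coeff_C, if_neg one_ne_zero]

omit [IsDomain O] [Fact p.Prime] in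
theorem JacAux.p_zero (σ : Type) : (p : MvPowerSeries σ O) = 0 := by
  rw [← map_natCast (C : O →+* MvPowerSeries σ O), CharP.cast_eq_zero, map_zero]

omit [IsDomain O] [CharP O p] in
theorem JacAux.ev_fp {σ τ : Type} [Finite σ] [Finite τ] {a : σ → MvPowerSeries τ O}
    (ha : ∀ i, constantCoeff (a i) = 0) (b : Fin (n - h) → MvPowerSeries σ O) {t : O}
    (ht : t ∈ (Ideal.span {ϖ}).radical) :
    ev C a (fp p n (sh n h (fun j => C (x j)) b) (C t)) =
      fp p n (sh n h (fun j => C (x j)) fun l => ev C a (b l)) (C t) := by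
  have hok : Ok a := Ok.of_const ha
  rw [map_fp (PI σ (Ideal.span {ϖ})) _ (ev C a) (PI τ (Ideal.span {ϖ})) (JacAux.C_rad ht)
    (by rw [ev_C _ hok]; exact JacAux.C_rad ht), map_sh]
  simp only [ev_C _ hok]

omit [IsDomain O] [CharP O p] in
theorem JacAux.const_fp {σ : Type} [Finite σ] {b : Fin (n - h) → MvPowerSeries σ O}
    (hb : ∀ l, constantCoeff (b l) = 0) {t : O} (ht : t ∈ (Ideal.span {ϖ}).radical) :
    constantCoeff (fp p n (sh n h (fun j => C (x j)) b) (C t)) = fp p n x t := by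
  rw [map_fp (PI σ (Ideal.span {ϖ})) _ constantCoeff (Ideal.span {ϖ}) (JacAux.C_rad ht)
    (by simpa using ht), map_sh]
  simp only [hb, constantCoeff_C, sh_zero]

omit [IsDomain O] in
theorem JacAux.coeff_ev {y : O} (hy : y ∈ (Ideal.span {ϖ}).radical)
    (G : PowerSeries (PowerSeries O)) :
    PowerSeries.coeff 1 (ev1 (RingHom.id _) (C y : PowerSeries O) G) =
      ev1 (RingHom.id O) y (PowerSeries.mk fun d => PowerSeries.coeff 1 (PowerSeries.coeff d G)) := by
  refine eq_of_sub_mem_pow (Ideal.span {ϖ}) fun k => ?_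
  obtain ⟨e, he⟩ := id hy
  have h0 : Ideal.span {y ^ (e * k)} ≤ Ideal.span {ϖ} ^ k := by
    rw [Ideal.span_singleton_le_iff_mem, pow_mul]
    exact Ideal.pow_mem_pow he k
  have hC : (C y : PowerSeries O) ∈ (PI Unit (Ideal.span {ϖ})).radical := JacAux.C_rad hy
  have h1 := ev1_sub_sum_mem (RingHom.id (PowerSeries O)) (a := C y)
    (ok_one (S := PowerSeries O) (PI Unit (Ideal.span {ϖ})) hC) G (e * k)
  have h2 := ev1_sub_sum_mem (RingHom.id O) (ok_one _ hy)
    (PowerSeries.mk fun d => PowerSeries.coeff 1 (PowerSeries.coeff d G)) (e * k)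
  have h1' : Ideal.span {(C y : PowerSeries O) ^ (e * k)} = cI Unit (Ideal.span {y ^ (e * k)}) := by
    rw [cI_span_singleton, map_pow]
  rw [h1'] at h1
  have h3 := mem_cI1.mp h1 1
  rw [map_sub, map_sum] at h3
  have h4 : ∀ d, PowerSeries.coeff 1 (RingHom.id _ (PowerSeries.coeff d G) *
      (C y : PowerSeries O) ^ d) = PowerSeries.coeff 1 (PowerSeries.coeff d G) * y ^ d := fun d => by
    rw [← map_pow]
    exact PowerSeries.coeff_mul_C _ _ _
  rw [Finset.sum_congr rfl fun d _ => h4 d] at h3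
  simp only [PowerSeries.coeff_mk, RingHom.id_apply] at h2
  have h5 := h0 (sub_mem h3 h2)
  rwa [sub_sub_sub_cancel_right] at h5

omit [IsDomain O] in
theorem JacAux.coeff_add (c : Fin (n - h) → O) {a b : Pt p n (Ideal.span {ϖ}) x} (ha : p • a = 0)
    (hb : p • b = 0) :
    PowerSeries.coeff 1 (fp p n (sh n h (fun j => (C (x j) : PowerSeries O))
      fun l => C (c l) * PowerSeries.X) (C (a + b).1)) =
    PowerSeries.coeff 1 (fp p n (sh n h (fun j => (C (x j) : PowerSeries O))
      fun l => C (c l) * PowerSeries.X) (C a.1)) +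
    PowerSeries.coeff 1 (fp p n (sh n h (fun j => (C (x j) : PowerSeries O))
      fun l => C (c l) * PowerSeries.X) (C b.1)) := by
  set w := sh n h (fun j => (C (x j) : PowerSeries O)) fun l => C (c l) * PowerSeries.X with hw
  let J : Ideal (PowerSeries O) := PI Unit (Ideal.span {ϖ})
  have hb0 : ∀ l, constantCoeff (C (c l) * PowerSeries.X : PowerSeries O) = 0 := fun l => by
    rw [map_mul, HomAux.const_X1, mul_zero]
  have hA : (C a.1 : PowerSeries O) ∈ J.radical := JacAux.C_rad a.2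
  have hB : (C b.1 : PowerSeries O) ∈ J.radical := JacAux.C_rad b.2
  have hX : ∀ t : Pt p n (Ideal.span {ϖ}) x, p • t = 0 →
      fp p n w (C t.1) ∈ Ideal.span {(PowerSeries.X : PowerSeries O)} := fun t ht => by
    rw [Ideal.mem_span_singleton, PowerSeries.X_dvd_iff]
    change constantCoeff _ = 0
    rw [hw, JacAux.const_fp hb0 t.2, ← Pt.val_p_smul, ht, Pt.val_zero]
  have h1 : fadd p n w (C a.1) (C b.1) - C (a + b).1 ∈
      Ideal.span {(PowerSeries.X : PowerSeries O)} := by
    rw [Pt.val_add, map_fadd (Ideal.span {ϖ}) x C J a.2 b.2 hA hB]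
    refine fadd_congr_param J w (fun j => ?_) hA hB
    simp only [hw, sh, add_sub_cancel_left]
    split_ifs
    · exact Ideal.mul_mem_left _ _ (Ideal.mem_span_singleton_self _)
    · exact zero_mem _
  have h2 := fp_sub_fp_mem (p := p) (n := n) J (JacAux.p_zero Unit) (h := 1) le_rfl (v := w)
    (fun j h1 h2 => absurd h2 (by omega)) (fadd_mem J w hA hB hA hB) (JacAux.C_rad (a + b).2) h1
  have h3 := Ideal.pow_le_pow_right
    (show 2 ≤ p ^ 1 by simpa using (Fact.out : p.Prime).two_le) h2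
  obtain ⟨g, hg⟩ := fadd_eq (p := p) (n := n) J w (fp_mem (p := p) (n := n) J w hA hA)
    (fp_mem (p := p) (n := n) J w hB hB)
  have h4 := ZLimAux.iter_fadd (p := p) (n := n) (v := w) J hA hB 1
  simp only [Function.iterate_one] at h4
  have h5 : fp p n w (C a.1) * fp p n w (C b.1) * g ∈
      Ideal.span {(PowerSeries.X : PowerSeries O)} ^ 2 := by
    rw [pow_two]
    exact Ideal.mul_mem_right _ _ (Ideal.mul_mem_mul (hX a ha) (hX b hb))
  have h6 := sub_mem h3 h5
  rw [h4, hg, Ideal.span_singleton_pow, Ideal.mem_span_singleton, PowerSeries.X_pow_dvd_iff] at h6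
  have h7 := h6 1 (by norm_num)
  simp only [map_sub, map_add] at h7
  linear_combination -h7

theorem JacAux.main (hx : HP n h ϖ x) {s : Fin (n - h) → ℕ → O} (hs : TS p n ϖ x s)
    (c : Fin (n - h) → O) (hc0 : ∃ l, c l ∉ (Ideal.span {ϖ}).radical)
    (hc : ∀ i, PowerSeries.coeff 1 (fp p n
      (sh n h (fun j => (C (x j) : PowerSeries O)) fun l => C (c l) * PowerSeries.X)
      (C (s i 1))) = 0) : False := by
  classical
  have hp : p.Prime := Fact.out
  set w := sh n h (fun j => (C (x j) : PowerSeries O)) fun l => C (c l) * PowerSeries.X with hw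
  let J : Ideal (PowerSeries O) := PI Unit (Ideal.span {ϖ})
  obtain ⟨l, hl, hmin⟩ := WellFounded.has_min (wellFounded_lt (α := Fin (n - h)))
    {l | c l ∉ (Ideal.span {ϖ}).radical} hc0
  have hlt := l.2
  have hw0 : ∀ j, 1 ≤ j → j < h → w j = 0 := fun j _ hj => by
    rw [hw, sh_out _ _ (Or.inl hj), hx.zero j hj, map_zero]
  let g : PowerSeries O :=
    PowerSeries.mk fun d => PowerSeries.coeff 1 (PowerSeries.coeff d (Pq p n h w))
  have hg : PowerSeries.coeff (p ^ (l : ℕ)) g ∉ (Ideal.span {ϖ}).radical := by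
    intro hg
    have h1 := (coeff_pser_sub_mem (p := p) (n := n) (I := PI Unit (Ideal.span {ϖ}).radical)
      (N := Ideal.span {(PowerSeries.X : PowerSeries O)}) (by
        rw [JacAux.p_zero Unit]; exact zero_mem _) le_rfl (i := h + l)
      (by have := hx.hpos; omega) (by omega) (v := fun j => C (x j)) (w := w)
      (fun j _ hj => mem_PI.mpr (by simpa using Ideal.le_radical (hx.low j (by omega))))
      (fun j => by
        simp only [hw, sh, add_sub_cancel_left]
        split_ifs
        · exact Ideal.mul_mem_left _ _ (Ideal.mem_span_singleton_self _)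
        · exact zero_mem _)
      fun j _ hj => by
        simp only [hw, sh, add_sub_cancel_left]
        split_ifs with h2
        · refine Ideal.mul_mem_mul (mem_PI.mpr ?_) (Ideal.mem_span_singleton_self _)
          rw [constantCoeff_C]
          by_contra h3
          exact hmin _ h3 (Fin.lt_def.mpr (by simp only; omega))
        · exact zero_mem _).2
    obtain ⟨z, hz, hz'⟩ := Ideal.mem_mul_span_singleton.mp h1
    have h2 := congrArg (PowerSeries.coeff 1) hz'
    have h3 : PowerSeries.coeff (p ^ (h + l)) (pser p n w) =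
        PowerSeries.coeff (p ^ (l : ℕ)) (Pq p n h w) := by
      rw [pser_eq_expand (JacAux.p_zero Unit) hx.hpos hw0]
      have := coeff_expand_smul (p ^ h) (pow_ne_zero h hp.ne_zero) (Pq p n h w)
        (Finsupp.single () (p ^ (l : ℕ)))
      rwa [Finsupp.smul_single, smul_eq_mul, ← pow_add] at this
    have h4 : PowerSeries.coeff (p ^ (h + l)) (pser p n fun j => (C (x j) : PowerSeries O)) =
        C (PowerSeries.coeff (p ^ (h + l)) (pser p n x)) := by
      rw [← map_pser]
      exact coeff_map _ _ _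
    have h6 : w (h + l) - C (x (h + l)) = C (c l) * PowerSeries.X := by
      rw [hw, sh_add, add_sub_cancel_left]
    rw [h6, PowerSeries.coeff_succ_mul_X, map_sub, map_sub, map_sub, h3, h4, JacAux.coeff_C,
      JacAux.coeff_C_X, sub_zero,
      PowerSeries.coeff_zero_eq_constantCoeff_apply] at h2
    rw [PowerSeries.coeff_mk] at hg
    refine hl ?_
    have h5 := sub_mem hg (show PowerSeries.constantCoeff z ∈ (Ideal.span {ϖ}).radical from hz)
    rw [h2] at h5
    simpa using h5
  let t : Fin (n - h) → Pt p n (Ideal.span {ϖ}) x := fun i => toPt p n _ x (s i 1)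
  have ht : ∀ i, p • t i = 0 := fun i => Pt.ext (by
    rw [Pt.val_p_smul, val_toPt (hs.mem i 1), hs.succ, hs.zero, Pt.val_zero])
  let Z : AddSubmonoid (Pt p n (Ideal.span {ϖ}) x) :=
    { carrier := {a | p • a = 0 ∧ PowerSeries.coeff 1 (fp p n w (C a.1)) = 0}
      add_mem' := fun {a b} ha hb => ⟨by rw [smul_add, ha.1, hb.1, add_zero], by
        rw [hw, JacAux.coeff_add c ha.1 hb.1, ← hw, ha.2, hb.2, add_zero]⟩
      zero_mem' := ⟨smul_zero _, by
        have h1 := JacAux.coeff_add (h := h) (x := x) (ϖ := ϖ) c (a := 0) (b := 0) (nsmul_zero p)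
          (nsmul_zero p)
        rw [add_zero] at h1
        exact left_eq_add.mp h1⟩ }
  have hZ : ∀ e : Fin (n - h) → Fin p, ∑ i, (e i : ℕ) • t i ∈ Z := fun e =>
    sum_mem fun i _ => nsmul_mem (show t i ∈ Z from ⟨ht i, by
      simp only [t, val_toPt (hs.mem i 1)]
      exact hc i⟩) _
  let F : (Fin (n - h) → Fin p) → O := fun e => (∑ i, (e i : ℕ) • t i).1 ^ p ^ h
  have hF : Function.Injective F := by
    intro e e' hee
    have h1 : ∑ i, (e i : ℕ) • t i = ∑ i, (e' i : ℕ) • t i :=
      Pt.ext (iterateFrobenius_inj O p h hee)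
    have h2 := hs.ind (fun i => e i + (p - 1) * e' i) (by
      simp only [add_smul, mul_smul, Finset.sum_add_distrib, ← Finset.smul_sum]
      change ∑ i, (e i : ℕ) • t i + (p - 1) • ∑ i, (e' i : ℕ) • t i = 0
      rw [h1, add_comm, ← succ_nsmul, Nat.sub_add_cancel hp.one_le]
      exact (hZ e').1)
    funext i
    have h3 : (e i : ℕ) + (p - 1) * e' i + e' i ≡ 0 + e' i [MOD p] :=
      Nat.ModEq.add_right _ ((Nat.modEq_zero_iff_dvd).mpr (h2 i))
    have h4 : (e i : ℕ) + (p - 1) * e' i + e' i = e i + p * e' i := by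
      obtain ⟨q, hq⟩ : ∃ q, p = q + 1 := ⟨p - 1, (Nat.sub_add_cancel hp.one_le).symm⟩
      generalize (e i : ℕ) = u
      generalize (e' i : ℕ) = u'
      rw [hq]
      simp only [Nat.add_sub_cancel]
      ring
    rw [h4, zero_add, Nat.ModEq, Nat.add_mul_mod_self_left, Nat.mod_eq_of_lt (e i).2,
      Nat.mod_eq_of_lt (e' i).2] at h3
    exact Fin.ext h3
  have h1 := card_zeros_le (Ideal.span {ϖ}) g _ hg (Finset.univ.image F) fun y hy => by
    obtain ⟨e, -, rfl⟩ := Finset.mem_image.mp hy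
    have h2 := Ideal.pow_mem_of_mem _ (∑ i, (e i : ℕ) • t i).2 _ (pow_pos hp.pos h)
    refine ⟨h2, ?_⟩
    rw [← JacAux.coeff_ev h2, map_pow,
      ← fp_eq_Pq J (JacAux.p_zero Unit) hx.hpos hw0 (JacAux.C_rad (∑ i, (e i : ℕ) • t i).2)]
    exact (hZ e).2
  rw [Finset.card_image_of_injective _ hF] at h1
  simp only [Finset.card_univ, Fintype.card_pi, Fintype.card_fin, Finset.prod_const] at h1
  exact absurd ((Nat.pow_le_pow_iff_right hp.one_lt).mp h1) (by omega)

/-- No nonzero tangent vector kills all the torsion points. -/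
theorem tangent_inj (hx : HP n h ϖ x) {s : Fin (n - h) → ℕ → O} (hs : TS p n ϖ x s)
    (c : Fin (n - h) → O)
    (hc : ∀ i, PowerSeries.coeff 1 (fp p n
      (sh n h (fun j => (C (x j) : PowerSeries O)) fun l => C (c l) * PowerSeries.X)
      (C (s i 1))) = 0) : ∀ l, c l = 0 := by
  by_contra hne
  obtain ⟨l0, hl0⟩ := not_forall.mp hne
  have : Nonempty (Fin (n - h)) := ⟨l0⟩
  obtain ⟨i0, hi0⟩ := Good.exists_dvd_all ϖ c
  have hγ : c i0 ≠ 0 := fun h0 => hl0 (zero_dvd_iff.mp (h0 ▸ hi0 l0))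
  choose c' hc' using hi0
  have h1 : c' i0 = 1 := mul_left_cancel₀ hγ (by rw [← hc', mul_one])
  refine JacAux.main hx hs c' ⟨i0, fun h2 => Good.not_isUnit ϖ ?_⟩ fun i => ?_
  · rw [h1, ← Ideal.eq_top_iff_one, Ideal.radical_eq_top, Ideal.span_singleton_eq_top] at h2
    exact h2
  · have ha : constantCoeff (C (c i0) * PowerSeries.X : PowerSeries O) = 0 := by
      rw [map_mul, HomAux.const_X1, mul_zero]
    have h2 := JacAux.ev_fp (p := p) (n := n) (h := h) (x := x) (fun _ : Unit => ha)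
      (fun l => C (c' l) * PowerSeries.X) (hs.mem i 1)
    have h3 : (fun l => ev1 C (C (c i0) * PowerSeries.X) (C (c' l) * PowerSeries.X)) =
        fun l => (C (c l) * PowerSeries.X : PowerSeries O) := funext fun l => by
      rw [map_mul, ev_C _ (Ok.of_const fun _ => ha), ev1_X _ (Ok.of_const fun _ => ha), hc' l,
        map_mul]
      ring
    have h4 := hc i
    rw [← h3, ← h2, coeff_one_ev1 ha, JacAux.coeff_C_X] at h4
    exact (mul_eq_zero.mp h4).resolve_right hγ

omit [IsDomain O] in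
theorem JacAux.coeff_one_ev {σ : Type} [Fintype σ] {a : σ → PowerSeries O}
    (ha : ∀ i, constantCoeff (a i) = 0) (f : MvPowerSeries σ O) :
    PowerSeries.coeff 1 (ev C a f) =
      ∑ l, coeff (Finsupp.single l 1) f * PowerSeries.coeff 1 (a l) := by
  have h1 := ev_taylor (C : O →+* PowerSeries O) (PI Unit ⊥) (a := fun _ => 0) (b := a)
    (fun _ => zero_mem _) (fun i => HomAux.rad0 (ha i)) f
  have h2 : Ideal.span (Set.range a) ≤ PI Unit (⊥ : Ideal O) :=
    Ideal.span_le.mpr (by rintro _ ⟨i, rfl⟩; exact mem_PI_bot.mpr (ha i))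
  have h3 := GPAux.mem_PI1_pow.mp (Ideal.pow_right_mono h2 2 h1) 1 (by norm_num)
  simp only [zero_add, ev_zero, map_sub, map_sum, JacAux.coeff_C, sub_zero] at h3
  rw [sub_eq_zero.mp h3]
  refine Finset.sum_congr rfl fun l _ => ?_
  rw [← coeff_zero_eq_constantCoeff_apply, coeff_pderiv, zero_add]
  refine (PowerSeries.coeff_mul_C _ _ _).trans ?_
  simp [mul_comm]

theorem exists_W (hx : HP n h ϖ x) {s : Fin (n - h) → ℕ → O} (hs : TS p n ϖ x s) :
    ∃ W : Fin (n - h) → MvPowerSeries (Fin (n - h)) O,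
      (∀ i, IsZ p n (sh n h (fun j => C (x j)) X) (PI (Fin (n - h)) ⊥) (fun r => C (s i r)) (W i)) ∧
      (Matrix.of fun i l => coeff (Finsupp.single l 1) (W i)).det ≠ 0 := by
  have hX : ∀ l, constantCoeff (X l : MvPowerSeries (Fin (n - h)) O) = 0 := constantCoeff_X
  have hW : ∀ i, ∃ W, IsZ p n (sh n h (fun j => C (x j)) X) (PI (Fin (n - h)) ⊥)
      (fun r => C (s i r)) W := fun i =>
    exists_isZ (PI (Fin (n - h)) (Ideal.span {ϖ})) (JacAux.p_zero _)
      (fun r => JacAux.C_rad (hs.mem i r)) fun r => mem_PI_bot.mpr (by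
        rw [map_sub, JacAux.const_fp hX (hs.mem i _), hs.succ, constantCoeff_C, sub_self])
  choose W hW using hW
  refine ⟨W, hW, fun hdet => ?_⟩
  obtain ⟨c, hc0, hc⟩ := Matrix.exists_mulVec_eq_zero_iff.mpr hdet
  refine hc0 (funext (tangent_inj hx hs c fun i => ?_))
  have ha : ∀ l, constantCoeff (C (c l) * PowerSeries.X : PowerSeries O) = 0 := fun l => by
    rw [map_mul, HomAux.const_X1, mul_zero]
  have h1 := JacAux.ev_fp (p := p) (n := n) (h := h) (x := x) ha X (hs.mem i 1)
  simp only [ev_X _ (Ok.of_const ha)] at h1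
  have h0 : (Matrix.of fun i l => coeff (Finsupp.single l 1) (W i)).mulVec c i = 0 :=
    congrFun hc i
  rw [← h1, JacAux.coeff_one_ev ha, ← h0, Matrix.mulVec, dotProduct]
  refine Finset.sum_congr rfl fun l _ => ?_
  have h2 := mem_PI_bot_pow.mp (hW i 1) (Finsupp.single l 1) (by simp)
  rw [map_sub, sub_eq_zero, Function.iterate_one] at h2
  rw [JacAux.coeff_C_X, Matrix.of_apply, h2]

end Vale.Agent.P217
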