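import Vale.Agent.P217.Desc
import Vale.Agent.P217.Hom2

/-! The Zariski closure of a submonoid of points of a power of the Honda group. -/

namespace Vale.Agent.P217

open MvPowerSeries

variable {p : ℕ} [Fact p.Prime] {O : Type} [CommRing O] [IsDomain O] [CharP O p] {h : ℕ}
  {κ : Type} [Field κ]

/-- A submonoid of `H(ϖ O) ^ σ`. -/
structure Mon (p : ℕ) [Fact p.Prime] (h : ℕ) (ϖ : O) {σ : Type} (Λ : Set (σ → O)) : Prop where
  zero : (fun _ => 0) ∈ Λ
  add : ∀ a ∈ Λ, ∀ b ∈ Λ, (fun i => fadd p h (eH O h) (a i) (b i)) ∈ Λ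
  mem : ∀ a ∈ Λ, ∀ i, a i ∈ Ideal.span {ϖ}

variable {ϖ : O} [Good O ϖ] {ι : κ →+* O}

omit [IsDomain O] [CharP O p] [Good O ϖ] in
theorem Mon.rad {σ : Type} {Λ : Set (σ → O)} (hΛ : Mon p h ϖ Λ) {a : σ → O} (ha : a ∈ Λ) (i : σ) :
    a i ∈ (Ideal.span {ϖ}).radical := Ideal.le_radical (hΛ.mem a ha i)

omit [IsDomain O] [CharP O p] in
theorem LemSAux.nsmul_mem {σ : Type} {Λ : Set (σ → O)} (hΛ : Mon p h ϖ Λ) {a : σ → O} (ha : a ∈ Λ)
    (m : ℕ) : (fun i => (m • (⟨a i, hΛ.rad ha i⟩ : Pt p h (Ideal.span {ϖ}) (eH O h))).1) ∈ Λ := by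
  induction m with
  | zero => simpa only [zero_smul, Pt.val_zero] using hΛ.zero
  | succ m ih => simpa only [succ_nsmul, Pt.val_add] using hΛ.add _ ih a ha

/-- Descent for integral series vanishing on a submonoid. -/
theorem Mon.descent (hh : 1 ≤ h) (hκ : KD (p ^ h) ι) {σ : Type} [Finite σ] {Λ : Set (σ → O)}
    (hΛ : Mon p h ϖ Λ) (G : MvPowerSeries σ O) (hG : ∀ a ∈ Λ, ev (RingHom.id O) a G = 0)
    {d0 : σ →₀ ℕ} (hd : coeff d0 G ≠ 0) :
    ∃ f : MvPowerSeries σ κ, coeff d0 f ≠ 0 ∧ ∀ a ∈ Λ, ev ι a f = 0 := by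
  refine Vale.Agent.P217.descent (ϖ := ϖ) hh hκ
    (MvPowerSeries.map (algebraMap O (FractionRing O)) G) ?_ Λ hΛ.mem fun a ha => ?_
  · rw [coeff_map]
    exact fun h0 => hd (IsFractionRing.injective O (FractionRing O) (h0.trans (map_zero _).symm))
  · refine av_of_ev (pow_ne_zero _ (Fact.out : p.Prime).ne_zero) (hΛ.mem a ha) fun N => hG _ ?_
    have h1 := LemSAux.nsmul_mem hΛ ha (p ^ N)
    simp only [Pt.val_pow_smul] at h1
    have e : ∀ i, (fp p h (eH O h))^[N] (a i) = a i ^ (p ^ h) ^ N := fun i =>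
      fp_eH_iter (Ideal.span {ϖ}) (CharP.cast_eq_zero O p) hh (hΛ.rad ha i) N
    simpa only [e] using h1

theorem LemSAux.coeff_euler {L σ : Type} [CommRing L] (i : σ) (g : MvPowerSeries σ L)
    (e : σ →₀ ℕ) : coeff e (X i * pderiv L i g) = (e i : L) * coeff e g := by
  rw [X, coeff_monomial_mul]
  split_ifs with h
  · have h1 : 1 ≤ e i := by simpa using h i
    rw [one_mul, coeff_pderiv, tsub_add_cancel_of_le h, Finsupp.tsub_apply, Finsupp.single_eq_same,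
      Nat.cast_sub h1, Nat.cast_one, sub_add_cancel, mul_comm]
  · rw [Finsupp.single_le_iff] at h
    rw [show e i = 0 by omega, Nat.cast_zero, zero_mul]

theorem LemSAux.exists_proj {L : Type} [Field L] [CharP L p] {σ : Type}
    (J : Ideal (MvPowerSeries σ L)) (hd : ∀ f ∈ J, ∀ i, pderiv L i f ∈ J) (s : Finset σ)
    {f : MvPowerSeries σ L} (hf : f ∈ J) :
    ∃ g ∈ J, (∀ e : σ →₀ ℕ, (∀ i ∈ s, p ∣ e i) → coeff e g = coeff e f) ∧
      ∀ e : σ →₀ ℕ, (∃ i ∈ s, ¬ p ∣ e i) → coeff e g = 0 := by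
  classical
  have hp : p.Prime := Fact.out
  have hE : ∀ (i : σ) (g : MvPowerSeries σ L), g ∈ J → ∀ k : ℕ, ∃ g' ∈ J,
      ∀ e : σ →₀ ℕ, coeff e g' = (e i : L) ^ k * coeff e g := fun i g hg k => by
    induction k with
    | zero => exact ⟨g, hg, fun e => by rw [pow_zero, one_mul]⟩
    | succ k ih =>
      obtain ⟨g', hg', he⟩ := ih
      exact ⟨X i * pderiv L i g', J.mul_mem_left _ (hd _ hg' i), fun e => by
        rw [LemSAux.coeff_euler, he, pow_succ', mul_assoc]⟩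
  induction s using Finset.induction_on with
  | empty => exact ⟨f, hf, fun _ _ => rfl, by simp⟩
  | insert i s _ ih =>
    obtain ⟨g, hg, h1, h2⟩ := ih
    obtain ⟨g', hg', he⟩ := hE i g hg (p - 1)
    refine ⟨g - g', sub_mem hg hg', fun e h => ?_, fun e ⟨j, hj, h⟩ => ?_⟩
    · rw [map_sub, he, (CharP.cast_eq_zero_iff L p _).2 (h i (Finset.mem_insert_self _ _)),
        zero_pow (by have := hp.two_le; omega), zero_mul, sub_zero,
        h1 e fun j hj => h j (Finset.mem_insert_of_mem hj)]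
    · rw [map_sub, he]
      rcases Finset.mem_insert.1 hj with rfl | hj
      · have h3 : (e j : L) ≠ 0 := fun h3 => h ((CharP.cast_eq_zero_iff L p _).1 h3)
        have h4 : (e j : L) ^ p = e j := map_natCast (frobenius L p) (e j)
        have h5 : (e j : L) ^ (p - 1) = 1 := mul_right_cancel₀ h3 (by
          rw [← pow_succ, Nat.sub_add_cancel hp.one_le, h4, one_mul])
        rw [h5, one_mul, sub_self]
      · rw [h2 e ⟨j, hj, h⟩, mul_zero, sub_zero]

/-- A radical ideal without constant terms stable under all derivatives vanishes. -/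
theorem eq_bot_of_pderiv {L : Type} [Field L] [CharP L p] (hL : ∀ c : L, ∃ b, b ^ p = c)
    {σ : Type} [Finite σ] (J : Ideal (MvPowerSeries σ L)) (h0 : ∀ f ∈ J, constantCoeff f = 0)
    (hrad : ∀ f, f ^ p ∈ J → f ∈ J) (hd : ∀ f ∈ J, ∀ i, pderiv L i f ∈ J) : J = ⊥ := by
  have hp : p.Prime := Fact.out
  have key : ∀ m : ℕ, ∀ f ∈ J, f ∈ PI σ (⊥ : Ideal L) ^ (m + 1) := fun m => by
    induction m with
    | zero => exact fun f hf => by rw [zero_add, pow_one]; exact mem_PI_of_zero _ (h0 f hf)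
    | succ m ih =>
      refine fun f hf => mem_PI_bot_pow.2 fun d hdeg => ?_
      by_cases hi : ∃ i, ¬ p ∣ d i
      · obtain ⟨i, hi⟩ := hi
        have h1 : X i * pderiv L i f ∈ PI σ (⊥ : Ideal L) ^ (m + 1 + 1) := by
          rw [pow_succ']
          exact Ideal.mul_mem_mul (mem_PI_of_zero _ (constantCoeff_X i)) (ih _ (hd f hf i))
        have h2 := mem_PI_bot_pow.1 h1 d hdeg
        rw [LemSAux.coeff_euler] at h2
        exact (mul_eq_zero.1 h2).resolve_left fun h3 => hi ((CharP.cast_eq_zero_iff L p _).1 h3)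
      · have := Fintype.ofFinite σ
        obtain ⟨g, hg, hg1, hg2⟩ := LemSAux.exists_proj (p := p) J hd Finset.univ hf
        obtain ⟨g1, e1⟩ := exists_expand hp.ne_zero (f := g) fun e ⟨i, hi⟩ =>
          hg2 e ⟨i, Finset.mem_univ i, hi⟩
        choose r hr using hL
        let g2 : MvPowerSeries σ L := fun e => r (coeff e g1)
        have e2 : MvPowerSeries.map (frobenius L p) g2 = g1 := MvPowerSeries.ext fun e => hr _
        rw [← e2, ← map_expand, map_frobenius_expand] at e1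
        have h1 := Ideal.pow_mem_pow (ih _ (hrad g2 (e1 ▸ hg))) p
        rw [← pow_mul, ← e1] at h1
        have h2 : m + 1 + 1 ≤ (m + 1) * p := by nlinarith [hp.two_le]
        rw [← hg1 d fun i _ => not_not.1 fun h => hi ⟨i, h⟩]
        exact mem_PI_bot_pow.1 (Ideal.pow_le_pow_right h2 h1) d hdeg
  exact eq_bot_iff.2 fun f hf => eq_zero_of_mem_pow (PI σ (⊥ : Ideal L)) fun k =>
    Ideal.pow_le_pow_right k.le_succ (key k f hf)

omit [IsDomain O] [CharP O p] [Good O ϖ] in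
theorem LemSAux.const_eq {σ : Type} [Finite σ] {Λ : Set (σ → O)} [Nontrivial O] (hΛ : Mon p h ϖ Λ)
    {g : MvPowerSeries σ κ} (hg : ∀ a ∈ Λ, ev ι a g = 0) : constantCoeff g = 0 := by
  have := hg _ hΛ.zero
  rwa [ev_zero, map_eq_zero_iff _ ι.injective] at this

theorem LemSAux.ev_translate {R S σ : Type} [CommRing R] [CommRing S] [Finite σ] {n : ℕ}
    (c : R →+* S) (I : Ideal S) [IsAdicComplete I S] (v : ℕ → S) {x a : σ → S}
    (hx : ∀ i, x i ∈ I.radical) (ha : ∀ i, a i ∈ I.radical) (f : MvPowerSeries σ R) :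
    ev (RingHom.id S) a (ev ((C : S →+* MvPowerSeries σ S).comp c)
      (fun i => fadd p n (fun l => C (v l)) (C (x i)) (X i)) f) =
      ev c (fun i => fadd p n v (x i) (a i)) f := by
  have ha' := Ok.of_rad I ha
  have h1 : ∀ i, (C (x i) : MvPowerSeries σ S) ∈ (PI σ I).radical := fun i => by
    rw [mem_PI_radical, constantCoeff_C]
    exact hx i
  have h2 : ∀ i, (X i : MvPowerSeries σ S) ∈ (PI σ I).radical := fun i =>
    mem_PI_radical_of_zero _ (constantCoeff_X i)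
  have e : ∀ i, ev (RingHom.id S) a (fadd p n (fun l => C (v l)) (C (x i)) (X i)) =
      fadd p n v (x i) (a i) := fun i => by
    rw [map_fadd (PI σ I) _ _ I (h1 i) (h2 i) (by rw [ev_C _ ha']; exact hx i)
      (by rw [ev_X _ ha']; exact ha i)]
    simp only [ev_C _ ha', ev_X _ ha', RingHom.id_apply]
  rw [map_ev _ _ (Ok.of_rad (PI σ I) fun i => fadd_mem _ _ (h1 i) (h2 i) (h1 i) (h2 i))
    (Ok.of_rad I fun i => by rw [e]; exact fadd_mem _ _ (hx i) (ha i) (hx i) (ha i))]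
  simp only [e]
  congr 2
  exact RingHom.ext fun r => ev_C _ ha' _

theorem Mon.exists_linear (hh : 1 ≤ h) (hκ : KD (p ^ h) ι) {σ : Type} [Finite σ]
    {Λ : Set (σ → O)} (hΛ : Mon p h ϖ Λ) {f : MvPowerSeries σ κ} (hf : f ≠ 0)
    (hv : ∀ a ∈ Λ, ev ι a f = 0) :
    ∃ (g : MvPowerSeries σ κ) (i : σ), coeff (Finsupp.single i 1) g ≠ 0 ∧
      ∀ a ∈ Λ, ev ι a g = 0 := by
  by_contra hcon
  have : CharP κ p := (ι.charP_iff_charP p).2 inferInstance
  let J : Ideal (MvPowerSeries σ κ) := ⨅ a ∈ Λ, RingHom.ker (ev ι a)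
  have hJ : ∀ g, g ∈ J ↔ ∀ a ∈ Λ, ev ι a g = 0 := fun g => by
    simp only [J, Ideal.mem_iInf, RingHom.mem_ker]
  have e := eq_bot_of_pderiv (p := p) (fun c => ⟨c ^ p ^ (h - 1), by
      rw [← pow_mul, ← pow_succ, Nat.sub_add_cancel hh, hκ.fix]⟩) J
    (fun g hg => LemSAux.const_eq hΛ ((hJ g).1 hg))
    (fun g hg => (hJ g).2 fun a ha => eq_zero_of_pow_eq_zero (n := p) (by
      rw [← map_pow, (hJ _).1 hg a ha]))
    fun g hg j => (hJ _).2 fun x hx => ?_
  · exact hf (Ideal.mem_bot.1 (e ▸ (hJ f).2 hv))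
  · obtain ⟨u, hu, he⟩ := coeff_ev_translate (p := p) (n := h) ι (Ideal.span {ϖ}) (eH O h)
      (hΛ.rad hx) g j
    by_contra hne
    obtain ⟨g', hg1, hg2⟩ := hΛ.descent hh hκ _ (fun a ha => by
      rw [LemSAux.ev_translate ι (Ideal.span {ϖ}) _ (hΛ.rad hx) (hΛ.rad ha)]
      exact (hJ g).1 hg _ (hΛ.add x hx a ha)) (he ▸ mul_ne_zero hu.ne_zero hne)
    exact hcon ⟨g', j, hg1, hg2⟩

/-- The defect of additivity. -/
noncomputable def LemSAux.dfc (p : ℕ) [Fact p.Prime] (h : ℕ) {T σ : Type} [CommRing T]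
    (c : κ →+* T) (a b : σ → T) (φ : MvPowerSeries σ κ) : T :=
  ev c (fun i => fadd p h (eH T h) (a i) (b i)) φ - fadd p h (eH T h) (ev c a φ) (ev c b φ)

theorem LemSAux.map_dfc {B T σ : Type} [CommRing B] [CommRing T] [Finite σ] (Ψ : B →+* T)
    (K : Ideal B) [IsAdicComplete K B] (J : Ideal T) [IsAdicComplete J T] (c : κ →+* B)
    {x y : σ → B} (hx : ∀ i, x i ∈ K.radical) (hy : ∀ i, y i ∈ K.radical)
    (hx' : ∀ i, Ψ (x i) ∈ J.radical) (hy' : ∀ i, Ψ (y i) ∈ J.radical) {φ : MvPowerSeries σ κ}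
    (h0 : constantCoeff φ = 0) : Ψ (LemSAux.dfc p h c x y φ) =
      LemSAux.dfc p h (Ψ.comp c) (fun i => Ψ (x i)) (fun i => Ψ (y i)) φ := by
  have e : ∀ i, Ψ (fadd p h (eH B h) (x i) (y i)) = fadd p h (eH T h) (Ψ (x i)) (Ψ (y i)) :=
    fun i => by rw [map_fadd K _ Ψ J (hx i) (hy i) (hx' i) (hy' i), map_eH]
  have ex := map_ev Ψ c (Ok.of_rad K hx) (Ok.of_rad J hx') φ
  have ey := map_ev Ψ c (Ok.of_rad K hy) (Ok.of_rad J hy') φ
  rw [LemSAux.dfc, LemSAux.dfc, map_sub, map_fadd K _ Ψ J (ev_mem c (Ok.of_rad K hx) hx h0)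
    (ev_mem c (Ok.of_rad K hy) hy h0) (ex ▸ ev_mem _ (Ok.of_rad J hx') hx' h0)
    (ey ▸ ev_mem _ (Ok.of_rad J hy') hy' h0), map_eH, ex, ey,
    map_ev Ψ c (Ok.of_rad K fun i => fadd_mem _ _ (hx i) (hy i) (hx i) (hy i))
      (Ok.of_rad J fun i => by rw [e]; exact fadd_mem _ _ (hx' i) (hy' i) (hx' i) (hy' i))]
  simp only [e]

/-- Additivity at all points. -/
def LemSAux.FAdd (p : ℕ) [Fact p.Prime] (h : ℕ) {σ : Type} (φ : MvPowerSeries σ κ) : Prop :=
  ∀ (T : Type) [CommRing T] (c : κ →+* T) (J : Ideal T) [IsAdicComplete J T] (a b : σ → T),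
    (∀ i, a i ∈ J.radical) → (∀ i, b i ∈ J.radical) → LemSAux.dfc p h c a b φ = 0

theorem LemSAux.universal (hh : 1 ≤ h) (hκ : KD (p ^ h) ι) {σ : Type} [Finite σ]
    {Λ : Set (σ → O)} (hΛ : Mon p h ϖ Λ)
    (hd : ∀ f : MvPowerSeries σ κ, (∀ a ∈ Λ, ev ι a f = 0) → f = 0)
    {φ : MvPowerSeries σ κ} (h0 : constantCoeff φ = 0)
    (hφ : ∀ a ∈ Λ, ∀ b ∈ Λ, ev ι (fun i => fadd p h (eH O h) (a i) (b i)) φ =
      fadd p h (eH O h) (ev ι a φ) (ev ι b φ)) : LemSAux.FAdd p h φ := by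
  let D : MvPowerSeries σ (MvPowerSeries σ κ) :=
    LemSAux.dfc p h (C.comp C) (fun i => C (X i)) X φ
  have key : ∀ (T : Type) [CommRing T] (c : κ →+* T) (J : Ideal T) [IsAdicComplete J T]
      (a b : σ → T), (∀ i, a i ∈ J.radical) → (∀ i, b i ∈ J.radical) →
      ev (ev c a) b D = LemSAux.dfc p h c a b φ := by
    intro T _ c J _ a b ha hb
    have ha' := Ok.of_rad J ha
    have hb' := Ok.of_rad J hb
    rw [LemSAux.map_dfc (ev (ev c a) b) (PI σ (PI σ ⊥)) J _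
      (fun i => by
        rw [mem_PI_radical, constantCoeff_C]
        exact mem_PI_radical_of_zero _ (constantCoeff_X i))
      (fun i => mem_PI_radical_of_zero _ (constantCoeff_X i))
      (fun i => by rw [ev_C _ hb', ev_X _ ha']; exact ha i)
      (fun i => by rw [ev_X _ hb']; exact hb i) h0]
    simp only [ev_C _ hb', ev_X _ ha', ev_X _ hb']
    congr 1
    exact RingHom.ext fun r => by
      rw [RingHom.comp_apply, RingHom.comp_apply, ev_C _ hb', ev_C _ ha']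
  have hD : D = 0 := MvPowerSeries.ext fun d => hd _ fun a ha => by
    by_contra hne
    obtain ⟨f, hf1, hf2⟩ := hΛ.descent hh hκ (MvPowerSeries.map (ev ι a) D) (fun b hb => by
      rw [ev_map _ _ (Ok.of_rad _ (hΛ.rad hb)), RingHom.id_comp,
        key O ι _ a b (hΛ.rad ha) (hΛ.rad hb), LemSAux.dfc, hφ a ha b hb, sub_self]) (d0 := d) hne
    exact hf1 (by rw [hd f hf2, map_zero])
  intro T _ c J _ a b ha hb
  rw [← key T c J a b ha hb, hD, map_zero]

/-- The homomorphism on points given by an additive series. -/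
noncomputable def LemSAux.hom {σ : Type} [Finite σ] {φ : MvPowerSeries σ κ}
    (h0 : constantCoeff φ = 0) (hA : LemSAux.FAdd p h φ) {T : Type} [CommRing T] (c : κ →+* T)
    (J : Ideal T) [IsAdicComplete J T] : (σ → Pt p h J (eH T h)) →+ Pt p h J (eH T h) :=
  AddMonoidHom.mk' (fun x => ⟨ev c (fun i => (x i).1) φ,
      ev_mem c (Ok.of_rad J fun i => (x i).2) (fun i => (x i).2) h0⟩)
    fun x y => Pt.ext (sub_eq_zero.1 (hA T c J _ _ (fun i => (x i).2) fun i => (y i).2))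

/-- If `Λ` is Zariski dense, a series additive on `Λ` is a sum of endomorphisms. -/
theorem Mon.additive (hh : 1 ≤ h) (hκ : KD (p ^ h) ι) {σ : Type} [Fintype σ]
    {Λ : Set (σ → O)} (hΛ : Mon p h ϖ Λ)
    (hd : ∀ f : MvPowerSeries σ κ, (∀ a ∈ Λ, ev ι a f = 0) → f = 0)
    {φ : MvPowerSeries σ κ} (h0 : constantCoeff φ = 0)
    (hφ : ∀ a ∈ Λ, ∀ b ∈ Λ, ev ι (fun i => fadd p h (eH O h) (a i) (b i)) φ =
      fadd p h (eH O h) (ev ι a φ) (ev ι b φ)) :
    ∃ ε : σ → PowerSeries κ, (∀ i, IsHomS p h (eH κ h) h (eH κ h) (ε i)) ∧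
      ∀ a : σ → O, (∀ i, a i ∈ Ideal.span {ϖ}) →
        toPt p h (Ideal.span {ϖ}) (eH O h) (ev ι a φ) =
          ∑ i, toPt p h (Ideal.span {ϖ}) (eH O h) (ev1 ι (a i) (ε i)) := by
  classical
  have hA := LemSAux.universal hh hκ hΛ hd h0 hφ
  have hs : ∀ i j : σ, constantCoeff
      ((Pi.single i PowerSeries.X : σ → PowerSeries κ) j) = 0 := fun i j => by
    rcases eq_or_ne j i with rfl | hj
    · rw [Pi.single_eq_same]
      exact constantCoeff_X ()
    · rw [Pi.single_eq_of_ne hj, map_zero]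
  have hε : ∀ (T : Type) [CommRing T] (c : κ →+* T) (J : Ideal T) [IsAdicComplete J T] (i : σ)
      (y : Pt p h J (eH T h)), (LemSAux.hom h0 hA c J (Pi.single i y)).1 =
      ev1 c y.1 (ev C (Pi.single i PowerSeries.X : σ → PowerSeries κ) φ) := by
    intro T _ c J _ i y
    rw [ev_ev_C c J (fun _ => y.2) (hs i)]
    refine congrArg (fun a => ev c a φ) (funext fun j => ?_)
    rcases eq_or_ne j i with rfl | hj
    · rw [Pi.single_eq_same, Pi.single_eq_same, ev1_X _ (ok_one J y.2)]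
    · rw [Pi.single_eq_of_ne hj, Pi.single_eq_of_ne hj, map_zero, Pt.val_zero]
  refine ⟨fun i => ev C (Pi.single i PowerSeries.X : σ → PowerSeries κ) φ,
    fun i => ⟨constantCoeff_ev_eq_zero _ (hs i) h0, ?_⟩, fun a ha => ?_⟩
  · let y : Fin 2 → Pt p h (PI (Fin 2) ⊥) (eH (MvPowerSeries (Fin 2) κ) h) := fun l =>
      ⟨X l, mem_PI_radical_of_zero _ (constantCoeff_X l)⟩
    have e := congrArg Pt.val (map_add (LemSAux.hom h0 hA C (PI (Fin 2) ⊥)) (Pi.single i (y 0))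
      (Pi.single i (y 1)))
    rw [← Pi.single_add, Pt.val_add, hε, hε, hε, Pt.val_add] at e
    rw [homErr, Fv_eq, map_eH, sub_eq_zero]
    exact e
  · let x : σ → Pt p h (Ideal.span {ϖ}) (eH O h) := fun i => ⟨a i, Ideal.le_radical (ha i)⟩
    have e := congrArg (LemSAux.hom h0 hA ι (Ideal.span {ϖ})) (Finset.univ_sum_single x)
    rw [map_sum] at e
    refine (toPt_val (LemSAux.hom h0 hA ι (Ideal.span {ϖ}) x)).trans
      (e.symm.trans (Finset.sum_congr rfl fun i _ => ?_))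
    rw [← toPt_val (LemSAux.hom h0 hA ι (Ideal.span {ϖ}) (Pi.single i (x i))), hε]

omit [CharP O p] in
theorem LemSAux.solve {σ : Type} [Fintype σ] {Λ : Set (σ → O)} (hΛ : Mon p h ϖ Λ)
    {g : MvPowerSeries σ κ} {i0 : σ} (hg1 : coeff (Finsupp.single i0 1) g ≠ 0)
    (hg : ∀ a ∈ Λ, ev ι a g = 0) :
    ∃ φ : MvPowerSeries {i // i ≠ i0} κ, ∀ a ∈ Λ, ev ι (fun i : {i // i ≠ i0} => a i.1) φ = a i0 := by
  classical
  let w : σ → MvPowerSeries σ κ := fun i => if i = i0 then g else X i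
  have hw : ∀ i, constantCoeff (w i) = 0 := fun i => by
    simp only [w]
    split_ifs
    exacts [LemSAux.const_eq hΛ hg, constantCoeff_X i]
  have hM : (Matrix.of fun i j => coeff (Finsupp.single j 1) (w i)) =
      (1 : Matrix σ σ κ).updateRow i0 fun j => coeff (Finsupp.single j 1) g := by
    ext i j
    rw [Matrix.of_apply, Matrix.updateRow_apply]
    simp only [w]
    split_ifs
    · rfl
    · rw [coeff_index_single_X, Matrix.one_apply]
      simp only [eq_comm]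
  obtain ⟨Φ, hΦ⟩ := ev_surjective w hw (by
    rw [hM, ← Matrix.cramer_transpose_apply, Matrix.transpose_one, Matrix.cramer_one]
    exact hg1.isUnit) (X i0)
  let z : σ → MvPowerSeries {i // i ≠ i0} κ := fun i => if hi : i = i0 then 0 else X ⟨i, hi⟩
  have hz : ∀ i, constantCoeff (z i) = 0 := fun i => by
    simp only [z]
    split_ifs
    exacts [map_zero _, constantCoeff_X _]
  refine ⟨ev C z Φ, fun a ha => ?_⟩
  have ha1 := Ok.of_rad _ (hΛ.rad ha)
  have ha2 : ∀ i : {i // i ≠ i0}, a i.1 ∈ (Ideal.span {ϖ}).radical := fun i => hΛ.rad ha i.1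
  rw [ev_ev_C ι _ ha2 hz, ← ev_X ι ha1 i0, ← hΦ, ev_ev_C ι _ (hΛ.rad ha) hw]
  refine congrArg (fun b => ev ι b Φ) (funext fun i => ?_)
  simp only [z, w]
  split_ifs
  · rw [map_zero, hg a ha]
  · rw [ev_X _ ha1, ev_X _ (Ok.of_rad _ ha2)]

theorem Mon.relation (hh : 1 ≤ h) (hκ : KD (p ^ h) ι) (σ : Type) [Fintype σ]
    {Λ : Set (σ → O)} (hΛ : Mon p h ϖ Λ) {f : MvPowerSeries σ κ} (hf : f ≠ 0)
    (hv : ∀ a ∈ Λ, ev ι a f = 0) :
    ∃ (ε : σ → PowerSeries κ) (i0 : σ), (∀ i, IsHomS p h (eH κ h) h (eH κ h) (ε i)) ∧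
      PowerSeries.coeff 1 (ε i0) ≠ 0 ∧
      ∀ a ∈ Λ, ∑ i, toPt p h (Ideal.span {ϖ}) (eH O h) (ev1 ι (a i) (ε i)) = 0 := by
  classical
  induction hm : Fintype.card σ using Nat.strong_induction_on generalizing σ with
  | _ m ih =>
    obtain ⟨g, i0, hg1, hg⟩ := hΛ.exists_linear hh hκ hf hv
    obtain ⟨φ, hφ⟩ := LemSAux.solve hΛ hg1 hg
    let Λ' : Set ({i // i ≠ i0} → O) := (fun a i => a i.1) '' Λ
    have hΛ' : Mon p h ϖ Λ' := by
      refine ⟨⟨_, hΛ.zero, rfl⟩, ?_, ?_⟩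
      · rintro _ ⟨a, ha, rfl⟩ _ ⟨b, hb, rfl⟩
        exact ⟨_, hΛ.add a ha b hb, rfl⟩
      · rintro _ ⟨a, ha, rfl⟩ i
        exact hΛ.mem a ha i.1
    have hext : ∀ (e0 : PowerSeries κ) (ε' : {i // i ≠ i0} → PowerSeries κ),
        IsHomS p h (eH κ h) h (eH κ h) e0 → (∀ i, IsHomS p h (eH κ h) h (eH κ h) (ε' i)) →
        ∃ ε : σ → PowerSeries κ, (∀ i, IsHomS p h (eH κ h) h (eH κ h) (ε i)) ∧ ε i0 = e0 ∧
          ∀ i : {i // i ≠ i0}, ε i.1 = ε' i := fun e0 ε' h1 h2 =>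
      ⟨fun i => if hi : i = i0 then e0 else ε' ⟨i, hi⟩, fun i => by
        beta_reduce
        split_ifs
        exacts [h1, h2 _], dif_pos rfl, fun i => dif_neg i.2⟩
    by_cases hd : ∀ f' : MvPowerSeries {i // i ≠ i0} κ, (∀ a ∈ Λ', ev ι a f' = 0) → f' = 0
    · have h0 : constantCoeff φ = 0 := by
        have := hφ _ hΛ.zero
        rwa [ev_zero, map_eq_zero_iff _ ι.injective] at this
      obtain ⟨ε', h1, h2⟩ := hΛ'.additive hh hκ hd h0 (by
        rintro _ ⟨a, ha, rfl⟩ _ ⟨b, hb, rfl⟩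
        rw [hφ a ha, hφ b hb]
        exact hφ _ (hΛ.add a ha b hb))
      have hX : (PowerSeries.X : PowerSeries κ) ∈ (PI Unit ⊥).radical :=
        mem_PI_radical_of_zero _ (constantCoeff_X ())
      obtain ⟨ε, h3, h4, h5⟩ := hext _ ε' isHomS_X.neg h1
      refine ⟨ε, i0, h3, ?_, fun a ha => ?_⟩
      · obtain ⟨u, hu⟩ := fneg_eq (p := p) (n := h) (PI Unit ⊥) (fun j => C (eH κ h j)) hX
        rw [h4, hu, map_add, map_neg, PowerSeries.coeff_one_X, PowerSeries.coeff_X_pow_mul',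
          if_neg (by omega), add_zero]
        exact neg_ne_zero.2 one_ne_zero
      · have hok := ok_one _ (hΛ.rad ha i0)
        rw [Fintype.sum_eq_add_sum_subtype_ne _ i0, h4, map_fneg (PI Unit ⊥) _ _ (Ideal.span {ϖ}) hX
          (by rw [ev1_X _ hok]; exact hΛ.rad ha i0), ev1_X _ hok]
        simp only [h5, ev_C _ hok]
        rw [map_eH, ← h2 (fun i => a i.1) fun i => hΛ.mem a ha i.1, hφ a ha]
        let y : Pt p h (Ideal.span {ϖ}) (eH O h) := ⟨a i0, hΛ.rad ha i0⟩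
        exact (congrArg₂ (· + ·) (toPt_val (-y)) (toPt_val y)).trans (neg_add_cancel y)
    · push Not at hd
      obtain ⟨f', hf1, hf2⟩ := hd
      obtain ⟨ε', i1, h1, h2, h6⟩ := ih _ (hm ▸ Fintype.card_subtype_lt (x := i0) (by simp)) _ hΛ'
        hf2 hf1 rfl
      obtain ⟨ε, h3, h4, h5⟩ := hext _ ε' isHomS_zero h1
      refine ⟨ε, i1.1, h3, by rwa [h5], fun a ha => ?_⟩
      rw [Fintype.sum_eq_add_sum_subtype_ne _ i0, h4, map_zero]
      simp only [h5]
      rw [h6 _ ⟨a, ha, rfl⟩, add_zero]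
      exact toPt_val 0

end Vale.Agent.P217
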