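import Mathlib

/-! Limits in adically complete rings. -/

namespace Vale.Agent.P217

variable {S : Type*} [CommRing S]

theorem eq_zero_of_mem_pow (I : Ideal S) [IsAdicComplete I S] {x : S} (h : ∀ k, x ∈ I ^ k) :
    x = 0 := by
  refine IsHausdorff.haus (I := I) inferInstance x fun k => ?_
  rw [SModEq.zero, smul_eq_mul, Ideal.mul_top]
  exact h k

theorem eq_of_sub_mem_pow (I : Ideal S) [IsAdicComplete I S] {x y : S}
    (h : ∀ k, x - y ∈ I ^ k) : x = y :=
  sub_eq_zero.mp (eq_zero_of_mem_pow I h)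

theorem sub_mem_pow_of_succ (I : Ideal S) (x : ℕ → S) (hx : ∀ k, x (k + 1) - x k ∈ I ^ k)
    {k l : ℕ} (hkl : k ≤ l) : x l - x k ∈ I ^ k := by
  induction l, hkl using Nat.le_induction with
  | base => simp
  | succ l hl ih =>
    have := I.pow_le_pow_right hl (hx l)
    have e : x (l + 1) - x k = (x (l + 1) - x l) + (x l - x k) := by ring
    rw [e]; exact add_mem this ih

theorem exists_lim (I : Ideal S) [IsAdicComplete I S] (x : ℕ → S)
    (hx : ∀ k, x (k + 1) - x k ∈ I ^ k) : ∃ L, ∀ k, L - x k ∈ I ^ k := by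
  obtain ⟨L, hL⟩ := IsPrecomplete.prec (I := I) (M := S) inferInstance (f := x) (by
    intro m n hmn
    rw [SModEq.sub_mem, smul_eq_mul, Ideal.mul_top]
    have := sub_mem_pow_of_succ I x hx hmn
    simpa using neg_mem this)
  refine ⟨L, fun k => ?_⟩
  have := hL k
  rw [SModEq.sub_mem, smul_eq_mul, Ideal.mul_top] at this
  simpa using neg_mem this

theorem isAdicComplete_of (I : Ideal S) (h1 : ∀ x : S, (∀ k, x ∈ I ^ k) → x = 0)
    (h2 : ∀ x : ℕ → S, (∀ k, x (k + 1) - x k ∈ I ^ k) → ∃ L, ∀ k, L - x k ∈ I ^ k) :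
    IsAdicComplete I S where
  haus' x hx := h1 x fun k => by
    have := hx k
    rwa [SModEq.zero, smul_eq_mul, Ideal.mul_top] at this
  prec' f hf := by
    obtain ⟨L, hL⟩ := h2 f fun k => by
      have := hf (Nat.le_succ k)
      rw [SModEq.sub_mem, smul_eq_mul, Ideal.mul_top] at this
      simpa using neg_mem this
    refine ⟨L, fun k => ?_⟩
    rw [SModEq.sub_mem, smul_eq_mul, Ideal.mul_top]
    simpa using neg_mem (hL k)

/-- Completeness only depends on the adic topology. -/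
theorem isAdicComplete_of_pow_le (I J : Ideal S) [IsAdicComplete I S] {a b : ℕ}
    (h1 : I ^ a ≤ J) (h2 : J ^ b ≤ I) : IsAdicComplete J S := by
  have hJI : ∀ k, J ^ (b * k) ≤ I ^ k := fun k => by
    rw [pow_mul]; exact Ideal.pow_right_mono h2 k
  have hIJ : ∀ k, I ^ (a * k) ≤ J ^ k := fun k => by
    rw [pow_mul]; exact Ideal.pow_right_mono h1 k
  refine isAdicComplete_of J (fun x hx => eq_zero_of_mem_pow I fun k => hJI k (hx _)) ?_
  intro x hx
  obtain ⟨L, hL⟩ := exists_lim I (fun k => x ((b + 1) * k)) fun k => by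
    have h3 : (b + 1) * k ≤ (b + 1) * (k + 1) := by nlinarith
    have := sub_mem_pow_of_succ J x hx h3
    exact hJI k (J.pow_le_pow_right (by nlinarith) this)
  refine ⟨L, fun k => ?_⟩
  have h4 := hIJ k (I.pow_le_pow_right (show a * k ≤ (a + 1) * k by nlinarith) (hL ((a + 1) * k)))
  have h5 : k ≤ (b + 1) * ((a + 1) * k) := by nlinarith [Nat.zero_le (a * k), Nat.zero_le (b * ((a + 1) * k))]
  have h6 := sub_mem_pow_of_succ J x hx h5
  have e : L - x k = (L - x ((b + 1) * ((a + 1) * k))) + (x ((b + 1) * ((a + 1) * k)) - x k) := by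
    ring
  rw [e]; exact add_mem h4 h6

theorem isAdicComplete_of_nilpotent (I : Ideal S) {a : ℕ} (h : I ^ a = ⊥) :
    IsAdicComplete I S :=
  isAdicComplete_of_pow_le ⊥ I (a := 1) (b := a) (by simp) h.le

theorem isUnit_one_add_of_mem_radical (I : Ideal S) [IsAdicComplete I S] {a : S}
    (ha : a ∈ I.radical) : IsUnit (1 + a) := by
  have h1 : I.radical ≤ (⊥ : Ideal S).jacobson :=
    (Ideal.isRadical_jacobson ⊥).radical_le_iff.mpr (IsAdicComplete.le_jacobson_bot I)
  have := Ideal.mem_jacobson_bot.mp (h1 ha) 1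
  simpa [add_comm] using this

theorem isUnit_of_sub_mem_radical (I : Ideal S) [IsAdicComplete I S] {a u : S} (hu : IsUnit u)
    (ha : a - u ∈ I.radical) : IsUnit a := by
  obtain ⟨u, rfl⟩ := hu
  have := isUnit_one_add_of_mem_radical I (I.radical.mul_mem_left (↑u⁻¹ : S) ha)
  have e : a = u * (1 + (↑u⁻¹ : S) * (a - u)) := by
    rw [mul_add, ← mul_assoc, Units.mul_inv]; ring
  rw [e]; exact u.isUnit.mul this

/-- Successive approximation for families indexed by an arbitrary type. -/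
theorem exists_approx {ι : Type*} (I : Ideal S) [IsAdicComplete I S]
    (P : ℕ → (ι → S) → Prop) (x0 : ι → S) (h0 : P 0 x0)
    (step : ∀ k x, P k x → ∃ x', P (k + 1) x' ∧ ∀ i, x' i - x i ∈ I ^ (k + 1)) :
    ∃ L : ι → S, (∀ i, L i - x0 i ∈ I) ∧
      ∀ k, ∃ x, P k x ∧ ∀ i, L i - x i ∈ I ^ (k + 1) := by
  choose! nx hP hd using step
  let x : ℕ → ι → S := fun k => Nat.rec x0 (fun k y => nx k y) k
  have hx : ∀ k, P k (x k) := fun k => by
    induction k with
    | zero => exact h0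
    | succ k ih => exact hP k _ ih
  have hc : ∀ i k, x (k + 1) i - x k i ∈ I ^ (k + 1) := fun i k => hd k _ (hx k) i
  have : ∀ i, ∃ L, ∀ k, L - x k i ∈ I ^ k := fun i =>
    exists_lim I (fun k => x k i) fun k => I.pow_le_pow_right (Nat.le_succ k) (hc i k)
  choose L hL using this
  have key : ∀ k i, L i - x k i ∈ I ^ (k + 1) := fun k i => by
    have e : L i - x k i = (L i - x (k + 1) i) + (x (k + 1) i - x k i) := by ring
    rw [e]; exact add_mem (hL i (k + 1)) (hc i k)
  exact ⟨L, fun i => by have := key 0 i; rwa [zero_add, pow_one] at this, fun k => ⟨x k, hx k, key k⟩⟩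

/-- Contraction principle. -/
theorem exists_fix {ι : Type*} (I : Ideal S) [IsAdicComplete I S] (T : (ι → S) → (ι → S))
    (x0 : ι → S) (h0 : ∀ i, T x0 i - x0 i ∈ I)
    (hT : ∀ k (a b : ι → S), (∀ i, a i - x0 i ∈ I) → (∀ i, b i - x0 i ∈ I) →
      (∀ i, a i - b i ∈ I ^ (k + 1)) → ∀ i, T a i - T b i ∈ I ^ (k + 2)) :
    ∃ a : ι → S, (∀ i, a i - x0 i ∈ I) ∧ T a = a := by
  have hclose : ∀ a : ι → S, (∀ i, a i - x0 i ∈ I) → ∀ i, T a i - x0 i ∈ I := fun a ha i => by
    have h1 := hT 0 a x0 ha (by simp) (by simpa using ha) i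
    have e : T a i - x0 i = (T a i - T x0 i) + (T x0 i - x0 i) := by ring
    rw [e]; exact add_mem (I.pow_le_self (by norm_num) h1) (h0 i)
  obtain ⟨L, hL0, hL⟩ := exists_approx I
    (fun k x => (∀ i, x i - x0 i ∈ I) ∧ ∀ i, T x i - x i ∈ I ^ (k + 1)) x0
    ⟨by simp, by simpa using h0⟩ (fun k x hx =>
      ⟨T x, ⟨hclose x hx.1, hT k _ _ (hclose x hx.1) hx.1 hx.2⟩, hx.2⟩)
  refine ⟨L, hL0, funext fun i => eq_of_sub_mem_pow I fun k => ?_⟩
  obtain ⟨x, ⟨hx1, hx2⟩, hx3⟩ := hL k
  have h1 := hT k L x hL0 hx1 hx3 i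
  have e : T L i - L i = (T L i - T x i) + (T x i - x i) - (L i - x i) := by ring
  rw [e]
  exact sub_mem (add_mem (I.pow_le_pow_right (by omega) h1) (I.pow_le_pow_right (by omega) (hx2 i)))
    (I.pow_le_pow_right (by omega) (hx3 i))

/-- An additive map commuting with `π` and surjective modulo `π` is surjective. -/
theorem surjective_of_mod {ι : Type*} (π : S) [IsAdicComplete (Ideal.span {π}) S]
    (T : (ι → S) →+ (ι → S)) (hπ : ∀ x, T (π • x) = π • T x)
    (hs : ∀ y, ∃ x z : ι → S, T x = y + π • z) : Function.Surjective T := by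
  intro y
  have hπk : ∀ k x, T (π ^ k • x) = π ^ k • T x := fun k => by
    induction k with
    | zero => simp
    | succ k ih => intro x; rw [pow_succ, mul_smul, ih, hπ, mul_smul]
  obtain ⟨x0, z0, h0⟩ := hs y
  obtain ⟨L, -, hL⟩ := exists_approx (Ideal.span {π})
    (fun k x => ∃ z : ι → S, T x = y + π ^ (k + 1) • z) x0 ⟨z0, by simpa using h0⟩ (by
      rintro k x ⟨z, hz⟩
      obtain ⟨x1, z1, h1⟩ := hs (-z)
      refine ⟨x + π ^ (k + 1) • x1, ⟨z1, ?_⟩, fun i => ?_⟩
      · rw [map_add, hz, hπk, h1, smul_add, smul_neg, pow_succ π (k + 1), mul_smul]; abel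
      · rw [Ideal.span_singleton_pow]
        simp only [Pi.add_apply, Pi.smul_apply, smul_eq_mul, add_sub_cancel_left]
        exact Ideal.mul_mem_right _ _ (Ideal.mem_span_singleton_self _))
  refine ⟨L, funext fun i => eq_of_sub_mem_pow (Ideal.span {π}) fun k => ?_⟩
  obtain ⟨x, ⟨z, hz⟩, hx⟩ := hL k
  have : ∀ j, ∃ w, π ^ (k + 1) * w = L j - x j := fun j => by
    have := hx j
    rw [Ideal.span_singleton_pow, Ideal.mem_span_singleton'] at this
    obtain ⟨w, hw⟩ := this
    exact ⟨w, by rw [mul_comm, hw]⟩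
  choose w hw using this
  have e : L = x + π ^ (k + 1) • w := funext fun j => by simp [hw j]
  rw [e, map_add, hz, hπk, Ideal.span_singleton_pow]
  simp only [Pi.add_apply, Pi.smul_apply, smul_eq_mul]
  have e2 : y i + π ^ (k + 1) * z i + π ^ (k + 1) * T w i - y i = π ^ k * (π * (z i + T w i)) := by
    ring
  rw [e2]
  exact Ideal.mul_mem_right _ _ (Ideal.mem_span_singleton_self _)

end Vale.Agent.P217
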