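import Vale.Agent.P217.PerA
import Vale.Agent.P217.GH

/-! Periods of approximately compatible systems of points. -/

namespace Vale.Agent.P217

open MvPowerSeries Filter Topology

variable {O : Type} [CommRing O] {B : Type} [NormedCommRing B]

/-- Systems of points compatible with `y ↦ y ^ q` modulo `ϖ`. -/
structure AC (q : ℕ) (ϖ : O) (y : ℕ → O) : Prop where
  zero : y 0 ∈ Ideal.span {ϖ}
  succ : ∀ r, y (r + 1) ^ q - y r ∈ Ideal.span {ϖ}

theorem PerBAux.pow_sub {N : Ideal O} {a b : O} (h : a - b ∈ N) (e : ℕ) : a ^ e - b ^ e ∈ N := by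
  obtain ⟨w, hw⟩ := sub_dvd_pow_sub_pow a b e
  rw [hw]
  exact N.mul_mem_right _ h

theorem AC.pow_mem {q : ℕ} {ϖ : O} {y : ℕ → O} (h : AC q ϖ y) (r : ℕ) :
    y r ^ q ^ r ∈ Ideal.span {ϖ} := by
  induction r with
  | zero => simpa using h.zero
  | succ r ih =>
    have h1 := PerBAux.pow_sub (h.succ r) (q ^ r)
    rw [← pow_mul, ← pow_succ'] at h1
    simpa using add_mem h1 ih

theorem AC.mem {q : ℕ} {ϖ : O} {y : ℕ → O} (h : AC q ϖ y) (r : ℕ) :
    y r ∈ (Ideal.span {ϖ}).radical := ⟨_, h.pow_mem r⟩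

theorem AC.congr {q : ℕ} {ϖ : O} {y y' : ℕ → O} (h : AC q ϖ y)
    (h' : ∀ r, y r - y' r ∈ Ideal.span {ϖ}) : AC q ϖ y' := by
  refine ⟨by simpa using sub_mem h.zero (h' 0), fun r => ?_⟩
  convert add_mem (sub_mem (h.succ r) (PerBAux.pow_sub (h' (r + 1)) q)) (h' r) using 1
  ring

theorem AC.mul_pow {q : ℕ} {ϖ : O} {y : ℕ → O} (h : AC q ϖ y) {a : O} (ha : a ^ q = a) {e : ℕ}
    (he : e ≠ 0) : AC q ϖ fun r => a * y r ^ e := by
  refine ⟨Ideal.mul_mem_left _ _ (Ideal.pow_mem_of_mem _ h.zero _ (Nat.pos_of_ne_zero he)),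
    fun r => ?_⟩
  rw [_root_.mul_pow, ha, ← mul_sub, ← pow_mul, mul_comm e q, pow_mul]
  exact Ideal.mul_mem_left _ _ (PerBAux.pow_sub (h.succ r) e)

/-- The period of a system. -/
noncomputable def Lam (p : ℕ) [Fact p.Prime] (j : WittVector p O →+* B) (v : ℕ → O)
    (y : ℕ → O) : B :=
  limUnder atTop fun r : ℕ => (p : B) ^ r * lT p j v (y r)

variable {p : ℕ} [Fact p.Prime] [CharP O p] [IsDomain O] {ϖ : O} [Good O ϖ] {n : ℕ}

omit [IsDomain O] in
theorem PerBAux.fp_sub_pow {v : ℕ → O} (hv : GP n ϖ v) {a : O}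
    (ha : a ∈ (Ideal.span {ϖ}).radical) : fp p n v a - a ^ p ^ n ∈ Ideal.span {ϖ} :=
  fp_sub_pow_mem (Ideal.span {ϖ}) hv.pos
    (hv.ltp (by rw [CharP.cast_eq_zero O p]; exact zero_mem _)) ha

omit [IsDomain O] in
theorem PerBAux.fp_sub {v : ℕ → O} (hv : GP n ϖ v) {y : ℕ → O} (h : AC (p ^ n) ϖ y) (r : ℕ) :
    fp p n v (y (r + 1)) - y r ∈ Ideal.span {ϖ} := by
  simpa using add_mem (PerBAux.fp_sub_pow (p := p) hv (h.mem (r + 1))) (h.succ r)

omit [IsDomain O] in
theorem PerBAux.ac_of_fp {v : ℕ → O} (hv : GP n ϖ v) {y : ℕ → O} (h0 : y 0 ∈ Ideal.span {ϖ})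
    (hy : ∀ r, y r ∈ (Ideal.span {ϖ}).radical)
    (h : ∀ r, fp p n v (y (r + 1)) - y r ∈ Ideal.span {ϖ}) : AC (p ^ n) ϖ y :=
  ⟨h0, fun r => by simpa using sub_mem (h r) (PerBAux.fp_sub_pow (p := p) hv (hy (r + 1)))⟩

theorem AC.fadd {v : ℕ → O} (hv : GP n ϖ v) {y y' : ℕ → O} (h : AC (p ^ n) ϖ y)
    (h' : AC (p ^ n) ϖ y') : AC (p ^ n) ϖ fun r => fadd p n v (y r) (y' r) := by
  refine PerBAux.ac_of_fp hv (fadd_mem _ v (h.mem 0) (h'.mem 0) h.zero h'.zero)
    (fun r => fadd_mem _ v (h.mem r) (h'.mem r) (h.mem r) (h'.mem r)) fun r => ?_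
  have h1 := congrArg Pt.val (smul_add p (⟨y (r + 1), h.mem _⟩ : Pt p n (Ideal.span {ϖ}) v)
    ⟨y' (r + 1), h'.mem _⟩)
  simp only [Pt.val_add, Pt.val_p_smul] at h1
  rw [h1]
  exact fadd_congr _ v (fp_mem _ v (h.mem _) (h.mem _)) (fp_mem _ v (h'.mem _) (h'.mem _))
    (h.mem r) (h'.mem r) (PerBAux.fp_sub hv h r) (PerBAux.fp_sub hv h' r)

theorem AC.hom {R : Type} [CommRing R] (c : R →+* O) {m : ℕ} {v w : ℕ → R}
    (hv : GP n ϖ fun i => c (v i)) (hw : GP m ϖ fun i => c (w i)) {k : PowerSeries R}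
    (hk : IsHomS p n v m w k) {y : ℕ → O} (h : AC (p ^ n) ϖ y) :
    AC (p ^ m) ϖ fun r => ev1 c (y r) k := by
  refine PerBAux.ac_of_fp hw (ev_mem c (ok_one _ (h.mem 0)) (fun _ => h.zero) hk.const)
    (fun r => HomAux.ev1_rad c _ (h.mem r) hk.const) fun r => ?_
  rw [← hk.ev_fp c _ (h.mem (r + 1))]
  exact ev_sub_ev_mem c (Ideal.span {ϖ}) (fun _ => fp_mem _ _ (h.mem _) (h.mem _))
    (fun _ => h.mem r) (fun _ => PerBAux.fp_sub hv h r) k

variable [PerfectRing O p] [CompleteSpace B] [IsUltrametricDist B] [PNorm p B]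
  {j : WittVector p O →+* B} {φ : B →+* B} (P : Per p ϖ j φ) {v : ℕ → O} (hv : GP n ϖ v)

include P hv

omit P hv [CompleteSpace B] [IsUltrametricDist B] in
theorem PerBAux.tendsto_zero {x : ℕ → B} (C : ℝ) (h : ∀ r, ‖x r‖ ≤ (1 / 2) ^ r * C) :
    Tendsto x atTop (𝓝 0) := by
  refine squeeze_zero_norm h ?_
  simpa using (tendsto_pow_atTop_nhds_zero_of_lt_one (r := (1 / 2 : ℝ)) (by norm_num)
    (by norm_num)).mul_const C

omit P hv [CompleteSpace B] [IsUltrametricDist B] in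
theorem PerBAux.eq_of_close {x x' : ℕ → B} {a b : B} (hx : Tendsto x atTop (𝓝 a))
    (hx' : Tendsto x' atTop (𝓝 b)) (C : ℝ) (h : ∀ r, ‖x r - x' r‖ ≤ (1 / 2) ^ r * C) : a = b :=
  sub_eq_zero.mp (tendsto_nhds_unique (hx.sub hx') (PerBAux.tendsto_zero C h))

omit hv [CompleteSpace B] [IsUltrametricDist B] in
theorem PerBAux.norm_p_j (r : WittVector p O) : ‖(p : B) * j r‖ ≤ 1 / 2 := by
  rw [PNorm.norm_p_mul]
  linarith [P.norm_le_one r]

theorem PerBAux.step {y : ℕ → O} (h : AC (p ^ n) ϖ y) (r : ℕ) :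
    ‖(p : B) ^ (r + 1) * lT p j v (y (r + 1)) - (p : B) ^ r * lT p j v (y r)‖ ≤
      (1 / 2) ^ r * (1 / 2) := by
  obtain ⟨a, ha⟩ := lT_fp P hv.supp (h.mem (r + 1))
  have h1 := norm_lT_sub_le P v (fp_mem _ v (h.mem _) (h.mem _)) (PerBAux.fp_sub hv h r)
  have h2 := IsUltrametricDist.norm_add_le_max
    (lT p j v (fp p n v (y (r + 1))) - lT p j v (y r)) (-((p : B) * j a))
  rw [norm_neg] at h2
  rw [pow_succ, mul_assoc, ← mul_sub, norm_p_pow_mul]
  refine mul_le_mul_of_nonneg_left ?_ (by positivity)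
  have e : (p : B) * lT p j v (y (r + 1)) - lT p j v (y r) =
      lT p j v (fp p n v (y (r + 1))) - lT p j v (y r) + -((p : B) * j a) := by
    rw [← ha]
    ring
  rw [e]
  exact h2.trans (max_le h1 (PerBAux.norm_p_j P a))

omit hv [CompleteSpace B] [IsUltrametricDist B] in
theorem PerBAux.tendsto_phi {x : ℕ → B} {a : B}
    (h : Tendsto (fun r : ℕ => (p : B) ^ r * x r) atTop (𝓝 a)) (s : ℕ) :
    Tendsto (fun r : ℕ => (p : B) ^ r * φ^[s] (x r)) atTop (𝓝 (φ^[s] a)) := by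
  refine (((P.continuous.iterate s).tendsto a).comp h).congr fun r => ?_
  rw [Function.comp_apply, ← RingHom.coe_pow, map_mul, map_pow, map_natCast]

theorem tendsto_Lam {y : ℕ → O} (h : AC (p ^ n) ϖ y) :
    Tendsto (fun r : ℕ => (p : B) ^ r * lT p j v (y r)) atTop (𝓝 (Lam p j v y)) := by
  refine CauchySeq.tendsto_limUnder
    (NonarchimedeanAddGroup.cauchySeq_of_tendsto_sub_nhds_zero ?_)
  exact PerBAux.tendsto_zero 1 fun r => (PerBAux.step P hv h r).trans
    (mul_le_mul_of_nonneg_left (by norm_num) (by positivity))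

theorem norm_Lam_le {y : ℕ → O} (h : AC (p ^ n) ϖ y) : ‖Lam p j v y‖ ≤ 1 / 2 := by
  refine le_of_tendsto' (tendsto_Lam P hv h).norm fun r => ?_
  induction r with
  | zero =>
    have h1 := norm_lT_sub_le P v (y' := 0) (h.mem 0) (by simpa using h.zero)
    rwa [lT_zero P, sub_zero, ← one_mul (lT p j v (y 0)), ← pow_zero (p : B)] at h1
  | succ r ih =>
    have h1 := IsUltrametricDist.norm_add_le_max
      ((p : B) ^ (r + 1) * lT p j v (y (r + 1)) - (p : B) ^ r * lT p j v (y r))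
      ((p : B) ^ r * lT p j v (y r))
    rw [sub_add_cancel] at h1
    refine h1.trans (max_le ((PerBAux.step P hv h r).trans ?_) ih)
    exact mul_le_of_le_one_left (by norm_num) (pow_le_one₀ (by norm_num) (by norm_num))

theorem Lam_congr {y y' : ℕ → O} (h : AC (p ^ n) ϖ y) (h' : ∀ r, y r - y' r ∈ Ideal.span {ϖ}) :
    Lam p j v y = Lam p j v y' := by
  refine PerBAux.eq_of_close (tendsto_Lam P hv h) (tendsto_Lam P hv (h.congr h')) (1 / 2)
    fun r => ?_
  rw [← mul_sub, norm_p_pow_mul]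
  exact mul_le_mul_of_nonneg_left (norm_lT_sub_le P v (h.mem r) (h' r)) (by positivity)

omit P hv [CharP O p] [IsDomain O] [Good O ϖ] [PerfectRing O p] in
theorem PerBAux.ac_zero : AC (p ^ n) ϖ fun _ => 0 :=
  ⟨zero_mem _, fun _ => by simp [(Fact.out : p.Prime).ne_zero]⟩

theorem Lam_zero : Lam p j v (fun _ => 0) = 0 := by
  refine tendsto_nhds_unique (tendsto_Lam P hv (PerBAux.ac_zero)) ?_
  simp only [lT_zero P, mul_zero]
  exact tendsto_const_nhds

theorem Lam_fadd {y y' : ℕ → O} (h : AC (p ^ n) ϖ y) (h' : AC (p ^ n) ϖ y') :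
    Lam p j v (fun r => fadd p n v (y r) (y' r)) = Lam p j v y + Lam p j v y' := by
  refine PerBAux.eq_of_close (tendsto_Lam P hv (h.fadd hv h'))
    ((tendsto_Lam P hv h).add (tendsto_Lam P hv h')) (1 / 2) fun r => ?_
  obtain ⟨a, ha⟩ := lT_fadd P hv.supp (h.mem r) (h'.mem r)
  rw [← mul_add, ← mul_sub, norm_p_pow_mul, ← sub_sub, ha]
  exact mul_le_mul_of_nonneg_left (PerBAux.norm_p_j P a) (by positivity)

theorem Lam_sum {α : Type} (s : Finset α) {y : α → ℕ → O} (h : ∀ i ∈ s, AC (p ^ n) ϖ (y i)) :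
    AC (p ^ n) ϖ (fun r => (∑ i ∈ s, toPt p n (Ideal.span {ϖ}) v (y i r)).1) ∧
      Lam p j v (fun r => (∑ i ∈ s, toPt p n (Ideal.span {ϖ}) v (y i r)).1) =
        ∑ i ∈ s, Lam p j v (y i) := by
  classical
  induction s using Finset.induction_on with
  | empty =>
    simp only [Finset.sum_empty, Pt.val_zero]
    exact ⟨PerBAux.ac_zero, Lam_zero P hv⟩
  | insert i s hi ih =>
    obtain ⟨h1, h2⟩ := ih fun k hk => h k (Finset.mem_insert_of_mem hk)
    have h3 := h i (Finset.mem_insert_self _ _)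
    simp only [Finset.sum_insert hi, Pt.val_add, val_toPt (h3.mem _)]
    exact ⟨h3.fadd hv h1, by rw [Lam_fadd P hv h3 h1, h2]⟩

theorem Lam_FE {y : ℕ → O} (h : AC (p ^ n) ϖ y) :
    p * Lam p j v y =
      ∑ i ∈ Finset.Icc 1 n, j (WittVector.teichmuller p (v i)) * φ^[i] (Lam p j v y) := by
  have h1 := tendsto_Lam P hv h
  refine PerBAux.eq_of_close (h1.const_mul (p : B))
    (tendsto_finsetSum _ fun i _ => (PerBAux.tendsto_phi P h1 i).const_mul
      (j (WittVector.teichmuller p (v i)))) (1 / 2) fun r => ?_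
  rw [mul_left_comm, lT_FE P hv.supp (h.mem r), mul_add, Finset.mul_sum]
  simp only [mul_left_comm ((p : B) ^ r) (j _), add_sub_cancel_right]
  rw [norm_p_pow_mul]
  exact mul_le_mul_of_nonneg_left (PerBAux.norm_p_j P _) (by positivity)

omit hv in
theorem Lam_eH_mul (hn : 1 ≤ n) {a : O} (ha : a ^ p ^ n = a) (t : ℕ) {y : ℕ → O}
    (h : AC (p ^ n) ϖ y) : Lam p j (eH O n) (fun r => a * y r ^ p ^ t) =
      j (WittVector.teichmuller p a) * φ^[t] (Lam p j (eH O n) y) := by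
  refine tendsto_nhds_unique (tendsto_Lam P (gp_eH hn ϖ)
    (h.mul_pow ha (pow_ne_zero t (Fact.out : p.Prime).ne_zero))) ?_
  refine ((PerBAux.tendsto_phi P (tendsto_Lam P (gp_eH hn ϖ) h) t).const_mul
    (j (WittVector.teichmuller p a))).congr fun r => ?_
  rw [lT_eH_mul P hn ha t (h.mem r), mul_left_comm]

omit hv in
theorem Lam_eH_phi (hn : 1 ≤ n) {y : ℕ → O} (h : AC (p ^ n) ϖ y) :
    φ^[n] (Lam p j (eH O n) y) = p * Lam p j (eH O n) y := by
  rw [Lam_FE P (gp_eH hn ϖ) h, Finset.sum_eq_single n]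
  · simp [eH]
  · intro i _ hi
    simp [eH, hi]
  · intro hn'
    exact absurd (Finset.mem_Icc.mpr ⟨hn, le_rfl⟩) hn'

omit hv in
theorem PerBAux.hasSum_phi (w : ℕ → O) {y : O} (hy : y ∈ (Ideal.span {ϖ}).radical) (i : ℕ) :
    HasSum (fun t => (if i ≤ t then
      φ^[i] (ll p (fun l => j (WittVector.teichmuller p (w l))) (t - i)) else 0) *
        j (WittVector.teichmuller p y) ^ p ^ t) (φ^[i] (lT p j w y)) := by
  have hint := intSeq_ll (p := p) (ι := j) PNorm.unit fun l => WittVector.teichmuller p (w l)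
  have h2 := (summable_lg P (hint.iterate P.fed i) (Ideal.pow_mem_of_mem _ (teich_mem_radical hy)
    (p ^ i) (pow_pos (Fact.out : p.Prime).pos _))).hasSum
  rw [lT, phi_lg P hint hy, ← hasSum_nat_add_iff' i, Finset.sum_eq_zero fun t ht => by
    rw [if_neg (not_le.mpr (Finset.mem_range.mp ht)), zero_mul], sub_zero]
  refine PerAAux.hasSum_congr h2 fun t => ?_
  rw [if_pos (Nat.le_add_left i t), Nat.add_sub_cancel, map_pow, ← pow_mul, ← pow_add,
    add_comm i t]

omit hv [CompleteSpace B] in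
theorem PerBAux.tendsto_err (hn : 1 ≤ n) {δ : ℕ → B} (hδ : Tendsto δ atTop (𝓝 0)) {y : ℕ → O}
    (hy : AC (p ^ n) ϖ y) : Tendsto (fun r : ℕ => ∑' t, (p : B) ^ r *
      (Ring.inverse (p : B) ^ (t / n) * (δ t * j (WittVector.teichmuller p (y r)) ^ p ^ t)))
      atTop (𝓝 0) := by
  have hb : ∀ r t k : ℕ, WittVector.teichmuller p (y r) ^ p ^ t ∈ IA p ϖ ^ k → ‖(p : B) ^ r *
      (Ring.inverse (p : B) ^ (t / n) * (δ t * j (WittVector.teichmuller p (y r)) ^ p ^ t))‖ ≤
      (1 / 2) ^ r * (2 ^ (t / n) * (‖δ t‖ * (1 / 2) ^ k)) := fun r t k hk => by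
    rw [norm_p_pow_mul, norm_inv_pow_mul, ← map_pow]
    gcongr
    exact (norm_mul_le _ _).trans (mul_le_mul_of_nonneg_left (P.norm_le k _ hk) (norm_nonneg _))
  have hb2 : ∀ r t : ℕ, WittVector.teichmuller p (y r) ^ p ^ t ∈ IA p ϖ ^ (t / n - r) := by
    intro r t
    rcases le_or_gt (t / n) r with h | h
    · simp [Nat.sub_eq_zero_of_le h]
    · have h1 : WittVector.teichmuller p (y r) ^ (p ^ n) ^ r ∈ IA p ϖ :=
        mem_IA.mpr (by rw [map_pow]; simpa using hy.pow_mem r)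
      have h2 := Nat.div_add_mod t n
      obtain ⟨m, hm⟩ := Nat.exists_eq_add_of_lt h
      have h3 : t = n * r + (n * (m + 1) + t % n) := by rw [← h2, hm]; simp; ring
      have h4 : t / n - r ≤ p ^ (n * (m + 1) + t % n) := by
        refine le_trans ?_ (Nat.lt_pow_self (Fact.out : p.Prime).one_lt).le
        have : m + 1 ≤ n * (m + 1) := Nat.le_mul_of_pos_left _ hn
        omega
      refine Ideal.pow_le_pow_right h4 ?_
      conv_rhs => rw [h3]
      rw [pow_add p (n * r), pow_mul, pow_mul p]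
      exact Ideal.pow_mem_pow h1 _
  rw [NormedAddGroup.tendsto_nhds_zero]
  intro ε hε
  obtain ⟨t0, h0⟩ := eventually_atTop.mp (NormedAddGroup.tendsto_nhds_zero.mp hδ (ε / 2)
    (by positivity))
  have h1 : ∀ t ∈ Finset.range t0, ∀ᶠ r : ℕ in atTop,
      (1 / 2 : ℝ) ^ r * (2 ^ (t / n) * (‖δ t‖ * (1 / 2) ^ 0)) ≤ ε / 2 := fun t _ => by
    have h2 := (tendsto_pow_atTop_nhds_zero_of_lt_one (r := (1 / 2 : ℝ)) (by norm_num)
      (by norm_num)).mul_const (2 ^ (t / n) * (‖δ t‖ * (1 / 2) ^ 0))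
    rw [zero_mul] at h2
    exact h2.eventually (ge_mem_nhds (by positivity))
  filter_upwards [(Finset.eventually_all _).mpr h1] with r hr
  refine lt_of_le_of_lt (IsUltrametricDist.norm_tsum_le_of_forall_le_of_nonneg (C := ε / 2)
    (by positivity) fun t => ?_) (half_lt_self hε)
  rcases lt_or_ge t t0 with ht | ht
  · exact (hb r t 0 (by simp)).trans (hr t (Finset.mem_range.mpr ht))
  · refine (hb r t _ (hb2 r t)).trans (le_trans ?_ (h0 t ht).le)
    have h2 : (2 : ℝ) ^ (t / n) ≤ 2 ^ (r + (t / n - r)) :=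
      pow_le_pow_right₀ (by norm_num) (by omega)
    calc (1 / 2 : ℝ) ^ r * (2 ^ (t / n) * (‖δ t‖ * (1 / 2) ^ (t / n - r)))
        ≤ (1 / 2 : ℝ) ^ r * (2 ^ (r + (t / n - r)) * (‖δ t‖ * (1 / 2) ^ (t / n - r))) := by gcongr
      _ = ((1 / 2 : ℝ) * 2) ^ (r + (t / n - r)) * ‖δ t‖ := by rw [mul_pow, pow_add (1 / 2 : ℝ)]; ring
      _ = ‖δ t‖ := by norm_num

/-- The period matrix. -/
theorem Lam_per : ∃ M : ℕ → ℕ → B,
    (∀ ω : ℕ → B, (∀ i, i < n → ∑ s ∈ Finset.range n, ω s * M s i = 0) → ∀ s, s < n → ω s = 0) ∧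
    ∀ y : ℕ → O, AC (p ^ n) ϖ y → ∀ s, s < n →
      φ^[s] (Lam p j v y) = ∑ i ∈ Finset.range n, M s i * φ^[i] (Lam p j (eH O n) y) := by
  have hn := hv.pos
  have hu : IsUnit (p : B) := PNorm.unit
  let V : ℕ → B := fun i => j (WittVector.teichmuller p (v i))
  let c : ℕ → ℕ → B := fun s t => if s ≤ t then φ^[s] (ll p V (t - s)) else 0
  have hc : ∀ s, s < n → Rec p n V (c s) := fun s hs =>
    rec_shift hu (fun i hi => by simp [V, hv.supp i hi]) (by simp [V, hv.top]) φ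
      (fun i => by simp only [V]; rw [P.comm, frobenius_teich, map_pow]) hs
  have hV : ∀ i, 1 ≤ i → i < n → Tendsto (fun e : ℕ => V i ^ e) atTop (𝓝 0) := fun i _ hi =>
    P.tendsto_pow (teich_mem_radical (Ideal.le_radical (hv.low i hi)))
  have hM : ∀ s i, ∃ d, s < n → i < n →
      Tendsto (fun k : ℕ => (p : B) ^ k * c s (n * k + i)) atTop (𝓝 d) := fun s i => by
    by_cases h : s < n ∧ i < n
    · obtain ⟨d, hd⟩ := gh_lim hn (hc s h.1) hV h.2
      exact ⟨d, fun _ _ => hd⟩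
    · exact ⟨0, fun h1 h2 => absurd ⟨h1, h2⟩ h⟩
  choose M hM using hM
  refine ⟨M, fun ω hω => ?_, fun y hy s hs => ?_⟩
  · have h1 := gh_inj hn (Rec.sum (Finset.range n) ω fun s hs => hc s (Finset.mem_range.mp hs)) hV
      fun i hi => by
        rw [← hω i hi]
        refine (tendsto_finsetSum _ fun s hs =>
          (hM s i (Finset.mem_range.mp hs) hi).const_mul (ω s)).congr fun k => ?_
        rw [Finset.mul_sum]
        exact Finset.sum_congr rfl fun s _ => mul_left_comm _ _ _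
    intro t
    induction t using Nat.strong_induction_on with
    | _ t ih =>
      intro ht
      have h2 := h1 t
      rw [Finset.sum_eq_single t] at h2
      · have h3 : φ^[t] (1 : B) = 1 := by rw [← RingHom.coe_pow, map_one]
        simpa [c, ll_zero, h3] using h2
      · intro s hs hst
        rcases lt_or_gt_of_ne hst with h3 | h3
        · rw [ih s h3 (Finset.mem_range.mp hs), zero_mul]
        · simp [c, not_le.mpr h3]
      · intro h3
        exact absurd (Finset.mem_range.mpr ht) h3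
  · let δ : ℕ → B := fun t => (p : B) ^ (t / n) * c s t - M s (t % n)
    have hδ : Tendsto δ atTop (𝓝 0) := by
      rw [NormedAddGroup.tendsto_nhds_zero]
      intro ε hε
      have h1 : ∀ i ∈ Finset.range n, ∀ᶠ k : ℕ in atTop,
          ‖(p : B) ^ k * c s (n * k + i) - M s i‖ < ε := fun i hi =>
        NormedAddGroup.tendsto_nhds_zero.mp
          (tendsto_sub_nhds_zero_iff.mpr (hM s i hs (Finset.mem_range.mp hi))) ε hε
      obtain ⟨K, hK⟩ := eventually_atTop.mp ((Finset.eventually_all _).mpr h1)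
      refine eventually_atTop.mpr ⟨K * n, fun t ht => ?_⟩
      have h2 := hK (t / n) ((Nat.le_div_iff_mul_le hn).mpr ht) (t % n)
        (Finset.mem_range.mpr (Nat.mod_lt _ hn))
      rwa [Nat.div_add_mod] at h2
    have h1 := (PerBAux.tendsto_phi P (tendsto_Lam P hv hy) s).sub
      (tendsto_finsetSum (Finset.range n) fun i _ =>
        (PerBAux.tendsto_phi P (tendsto_Lam P (gp_eH hn ϖ) hy) i).const_mul (M s i))
    refine sub_eq_zero.mp (tendsto_nhds_unique h1
      ((PerBAux.tendsto_err P hn hδ hy).congr fun r => HasSum.tsum_eq ?_))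
    have h2 := ((PerBAux.hasSum_phi P v (hy.mem r) s).mul_left ((p : B) ^ r)).sub
      (hasSum_sum fun i (_ : i ∈ Finset.range n) =>
        ((PerBAux.hasSum_phi P (eH O n) (hy.mem r) i).mul_left ((p : B) ^ r)).mul_left (M s i))
    refine PerAAux.hasSum_congr h2 fun t => ?_
    rw [PerAAux.teich_eH, Finset.sum_eq_single (t % n)]
    · have h3 : φ^[t % n] (ll p (eH B n) (t - t % n)) = ll p (eH B n) (t - t % n) :=
        Function.iterate_fixed (by rw [map_ll φ hu, map_eH]) _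
      have h4 : t - t % n = n * (t / n) := by have := Nat.div_add_mod t n; omega
      rw [if_pos (Nat.mod_le t n), h3, ll_eH hu hn, h4, if_pos (dvd_mul_right _ _),
        Nat.mul_div_cancel_left _ hn]
      have h5 : Ring.inverse (p : B) ^ (t / n) * (p : B) ^ (t / n) = 1 := by
        rw [← mul_pow, Ring.inverse_mul_cancel _ hu, one_pow]
      simp only [δ, c, V]
      linear_combination ((p : B) ^ r * (if s ≤ t then φ^[s] (ll p (fun i =>
        j (WittVector.teichmuller p (v i))) (t - s)) else 0) *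
        j (WittVector.teichmuller p (y r)) ^ p ^ t) * h5
    · intro i hi hit
      have hi' := Finset.mem_range.mp hi
      split_ifs with h3
      · have h4 : φ^[i] (ll p (eH B n) (t - i)) = ll p (eH B n) (t - i) :=
          Function.iterate_fixed (by rw [map_ll φ hu, map_eH]) _
        rw [h4, ll_eH hu hn, if_neg, zero_mul, mul_zero, mul_zero]
        rintro ⟨k, hk⟩
        refine hit ?_
        rw [show t = i + n * k by omega, Nat.add_mul_mod_self_left, Nat.mod_eq_of_lt hi']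
      · rw [zero_mul, mul_zero, mul_zero]
    · intro h3
      exact absurd (Finset.mem_range.mpr (Nat.mod_lt _ hn)) h3

end Vale.Agent.P217
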