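import Vale.Agent.P217.Gam
import Vale.Agent.P217.PerB

/-! The homomorphism to the Honda group of height `h`. -/

namespace Vale.Agent.P217

open MvPowerSeries Filter Topology

theorem ThetaAux.coeff_one_Lg {K : Type*} [CommRing K] {p : ℕ} [Fact p.Prime] (c : ℕ → K)
    {ψ : PowerSeries K} (hψ : constantCoeff ψ = 0) :
    PowerSeries.coeff 1 (Lg p c ψ) = c 0 * PowerSeries.coeff 1 ψ := by
  have h := GPAux.mem_PI1_pow.mp (Lg_sub_sum_mem (p := p) c hψ 1) 1
    (by rw [pow_one]; exact (Fact.out : p.Prime).one_lt)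
  rw [Finset.sum_range_one, pow_zero, pow_one, map_sub, sub_eq_zero] at h
  exact h.trans (PowerSeries.coeff_C_mul _ _ _)

theorem ThetaAux.const_pow {K σ : Type*} [CommRing K] {p : ℕ} [Fact p.Prime]
    {ψ : MvPowerSeries σ K} (hψ : constantCoeff ψ = 0) (s : ℕ) :
    constantCoeff (ψ ^ p ^ s) = 0 := by
  rw [map_pow, hψ, zero_pow (pow_ne_zero _ (Fact.out : p.Prime).ne_zero)]

open ThetaAux

variable {O : Type} [CommRing O] {B : Type} [NormedCommRing B]
  {p : ℕ} [Fact p.Prime] [CharP O p] [IsDomain O] {ϖ : O} [Good O ϖ] {n h : ℕ} {x : ℕ → O}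
  [PerfectRing O p] [CompleteSpace B] [IsUltrametricDist B] [PNorm p B]
  {j : WittVector p O →+* B} {φ : B →+* B} (P : Per p ϖ j φ)

include P

theorem exists_theta_lift (hx : HP n h ϖ x) {γ : ℕ → WittVector p O}
    (hγ : ∀ s, s < n →
      (PhiM p n WittVector.frobenius fun i => WittVector.teichmuller p (x i))^[h] γ s = p * γ s) :
    ∃ θ : PowerSeries (WittVector p O), constantCoeff θ = 0 ∧
      Lg p (ll p (eH B h)) (MvPowerSeries.map j θ) =
        ∑ s ∈ Finset.range n, C (j (γ s)) *
          Lg p (fun t => φ^[s] (ll p (fun i => j (WittVector.teichmuller p (x i))) t))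
            (PowerSeries.X ^ p ^ s) := by
  set v : ℕ → WittVector p O := fun i => WittVector.teichmuller p (x i) with hv
  set l : ℕ → B := ll p fun i => j (v i) with hl
  let b : MvPowerSeries Unit B := Lg p l (X ())
  let g : (ℕ → WittVector p O) → MvPowerSeries Unit B := fun γ =>
    ∑ s ∈ Finset.range n, (C.comp j) (γ s) * (phi p φ)^[s] b
  have hb : (p : MvPowerSeries Unit B) * b = (p : MvPowerSeries Unit B) * X () +
      ∑ i ∈ Finset.Icc 1 n, (C.comp j) (v i) * (phi p φ)^[i] b := by
    simp only [b, FglAux.phi_iter, RingHom.comp_apply]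
    exact Lg_FE2 (PNorm.unit) (fun i hi => by
      simp only [hv, hx.supp i hi, WittVector.teichmuller_zero, map_zero]) φ
      (fun i => by rw [P.comm, hv, frobenius_teich, map_pow]) (constantCoeff_X ())
  have h1 : ∀ γ, phi p φ (g γ) = g (PhiM p n WittVector.frobenius v γ) -
      (C.comp j) (WittVector.frobenius (γ (n - 1))) * ((p : MvPowerSeries Unit B) * X ()) :=
    fun γ =>
    phi_sum_eq hx.pos (C.comp j) WittVector.frobenius (phi p φ)
      (fun a => by rw [RingHom.comp_apply, phi_C, P.comm, RingHom.comp_apply])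
      (by simp only [hv, hx.top, map_one]) hb γ
  have h2 : ∀ k, PInt p j ((phi p φ)^[k] (g γ) -
      g ((PhiM p n WittVector.frobenius v)^[k] γ)) := fun k => by
    induction k with
    | zero => simpa using PInt.zero
    | succ k ih =>
      have h3 := ih.phi P.fed
      have h4 : PInt p j ((p : MvPowerSeries Unit B) * X ()) := ⟨X (), by rw [map_X]⟩
      rw [map_sub, h1] at h3
      rw [Function.iterate_succ_apply', Function.iterate_succ_apply']
      convert h3.sub (h4.C_mul (WittVector.frobenius
        ((PhiM p n WittVector.frobenius v)^[k] γ (n - 1)))) using 1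
      rw [RingHom.comp_apply]; ring
  have h3 : g ((PhiM p n WittVector.frobenius v)^[h] γ) = p * g γ := by
    simp only [g, Finset.mul_sum]
    refine Finset.sum_congr rfl fun s hs => ?_
    rw [hγ s (Finset.mem_range.mp hs), map_mul, map_natCast, mul_assoc]
  have hg0 : constantCoeff (g γ) = 0 := by
    simp only [g, map_sum, map_mul]
    refine Finset.sum_eq_zero fun s _ => ?_
    rw [FEAux.constantCoeff_iterate (constantCoeff_Lg _ (constantCoeff_X ())), mul_zero]
  obtain ⟨θ, hθ0, hθ⟩ := exists_Lg_eq P.fed (n := h) (v := eH (WittVector p O) h)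
    (fun i hi => by simp [eH, hi.ne'])
    (fun i => by
      simp only [eH]
      split_ifs
      · rw [map_one, one_pow]
      · rw [map_zero, zero_pow (Fact.out : p.Prime).ne_zero]) hg0 (by
      rw [Finset.sum_eq_single h (fun i _ hi => by simp [eH, hi])
        (fun hh => absurd (Finset.mem_Icc.mpr ⟨hx.hpos, le_rfl⟩) hh)]
      have h4 := (h2 h).neg
      rw [h3] at h4
      simpa [eH] using h4)
  refine ⟨θ, hθ0, ?_⟩
  rw [map_eH] at hθ
  rw [hθ]
  simp only [g, b, FglAux.phi_iter, RingHom.comp_apply]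
  rfl

theorem exists_theta (hx : HP n h ϖ x) :
    ∃ (θ : PowerSeries O) (γ : ℕ → WittVector p O), IsHomS p n x h (eH O h) θ ∧
      PowerSeries.coeff 1 θ ≠ 0 ∧ WittVector.constantCoeff (γ 0) ≠ 0 ∧
      ∀ y : ℕ → O, AC (p ^ n) ϖ y →
        Lam p j (eH O h) (fun r => ev1 (RingHom.id O) (y r) θ) =
          ∑ s ∈ Finset.range n, j (γ s) * φ^[s] (Lam p j x y) := by
  obtain ⟨γ, hγ0, hγ⟩ := exists_gamma (p := p) hx
  obtain ⟨θ, hθ0, hθ⟩ := exists_theta_lift P hx hγ
  set v : ℕ → WittVector p O := fun i => WittVector.teichmuller p (x i) with hv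
  set l : ℕ → B := ll p fun i => j (v i) with hl
  have hcc : ∀ y : O, WittVector.constantCoeff (WittVector.teichmuller p y) = y := fun y => by simp
  have hc : IntSeq p j (ll p (eH B h)) := by
    rw [← map_eH j]; exact intSeq_ll PNorm.unit _
  have hlI : IntSeq p j l := intSeq_ll PNorm.unit _
  have hθ1 : constantCoeff (MvPowerSeries.map j θ) = 0 := HomAux.const_map j hθ0
  have key : ∀ y : MvPowerSeries (Fin 2) B, constantCoeff y = 0 →
      Lg p (ll p (eH B h)) (ev1 C y (MvPowerSeries.map j θ)) =
        ∑ s ∈ Finset.range n, C (j (γ s)) * Lg p (fun t => φ^[s] (l t)) (y ^ p ^ s) := by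
    intro y hy
    have ok : Ok fun _ : Unit => y := Ok.of_const fun _ => hy
    have hC : ∀ r, ev1 C y (C r) = C (RingHom.id B r) := fun r => ev_C _ ok r
    have e := hom_Lg (p := p) (ev1 C y) (RingHom.id B) hC (ll p (eH B h)) hθ1
      (HomAux.const_ev1 hy hθ1)
    simp only [RingHom.id_apply] at e
    rw [← e, hθ, map_sum]
    refine Finset.sum_congr rfl fun s _ => ?_
    have e1 : ev1 C y (PowerSeries.X ^ p ^ s) = y ^ p ^ s := by rw [map_pow, ev1_X _ ok]
    rw [map_mul, hC, hom_Lg (p := p) (ev1 C y) (RingHom.id B) hC _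
      (const_pow HomAux.const_X1 s) (by rw [e1]; exact const_pow hy s), e1]
    rfl
  have hom : IsHomS p n x h (eH O h) (MvPowerSeries.map WittVector.constantCoeff θ) := by
    refine ⟨HomAux.const_map _ hθ0, ?_⟩
    have e := map_homErr (p := p) (n := n) (m := h) (v := v) (w := eH _ h)
      WittVector.constantCoeff hθ0
    rw [map_eH] at e
    simp only [hv, hcc] at e
    rw [← e]
    have hX0 := HomAux.const_ev1 (constantCoeff_X (R := WittVector p O) (0 : Fin 2)) hθ0
    have hX1 := HomAux.const_ev1 (constantCoeff_X (R := WittVector p O) (1 : Fin 2)) hθ0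
    have hF := HomAux.const_Fv (p := p) (n := n) v
    have h1 := sub_mem_of_pInt P.inj PNorm.unit hc (ll_zero _) (HomAux.const_ev1 hF hθ0)
      (HomAux.const_fadd (p := p) (n := h) (fun i => C (eH (WittVector p O) h i)) hX0 hX1) (by
        have e2 : (fun i => (C (j (eH (WittVector p O) h i)) : MvPowerSeries (Fin 2) B)) =
            fun i => C (eH B h i) := funext fun i => by rw [← map_eH j]
        rw [HomAux.map_ev1 j hF, HomAux.map_fadd_C j _ hX0 hX1, e2,
          Lg_fadd PNorm.unit (fun i hi => by simp [eH, hi.ne']) (HomAux.const_map j hX0)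
            (HomAux.const_map j hX1), HomAux.map_ev1 j (constantCoeff_X 0),
          HomAux.map_ev1 j (constantCoeff_X 1), map_X, map_X, key _ (HomAux.const_map j hF),
          key _ (constantCoeff_X 0), key _ (constantCoeff_X 1), ← Finset.sum_add_distrib,
          ← Finset.sum_sub_distrib]
        refine PInt.sum fun s _ => ?_
        rw [← mul_add, ← mul_sub]
        refine PInt.C_mul ?_ _
        have h2 := (phi_Lg_pInt P.fed hlI hF s).neg
        have h3 : Lg p l (MvPowerSeries.map j (Fv p n v)) = Lg p l (X 0) + Lg p l (X 1) := by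
          rw [Fv_eq, HomAux.map_fadd_C j _ (constantCoeff_X 0) (constantCoeff_X 1), map_X, map_X]
          exact Lg_fadd PNorm.unit (fun i hi => by
            simp only [hv, hx.supp i hi, WittVector.teichmuller_zero, map_zero])
            (constantCoeff_X 0) (constantCoeff_X 1)
        rw [h3, iterate_map_add, FglAux.phi_iter, FglAux.phi_iter, neg_sub] at h2
        exact h2)
    obtain ⟨r, hr⟩ := Ideal.mem_span_singleton'.mp h1
    rw [homErr, ← hr, map_mul, map_natCast, ← map_natCast (C : O →+* MvPowerSeries (Fin 2) O),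
      CharP.cast_eq_zero, map_zero, mul_zero]
  have hc1 : PowerSeries.coeff 1 θ = γ 0 := by
    apply P.inj
    have e := congrArg (PowerSeries.coeff 1) hθ
    rw [coeff_one_Lg _ hθ1, ll_zero, one_mul, map_sum, Finset.sum_eq_single 0] at e
    · rw [pow_zero, pow_one] at e
      have e1 := PowerSeries.coeff_C_mul 1 (Lg p (fun t => φ^[0] (l t)) PowerSeries.X) (j (γ 0))
      rw [coeff_one_Lg _ HomAux.const_X1, PowerSeries.coeff_one_X, Function.iterate_zero, id,
        hl, ll_zero, mul_one, mul_one] at e1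
      exact e.trans e1
    · intro s _ hs
      have e1 := PowerSeries.coeff_C_mul 1
        (Lg p (fun t => φ^[s] (l t)) (PowerSeries.X ^ p ^ s)) (j (γ s))
      rw [coeff_one_Lg _ (const_pow HomAux.const_X1 s), PowerSeries.coeff_X_pow,
        if_neg (Nat.one_lt_pow hs (Fact.out : p.Prime).one_lt).ne, mul_zero, mul_zero] at e1
      exact e1
    · intro h0
      exact absurd (Finset.mem_range.mpr hx.pos) h0
  refine ⟨_, γ, hom, ?_, hγ0, fun y hy => ?_⟩
  · have : PowerSeries.coeff 1 (MvPowerSeries.map WittVector.constantCoeff θ) =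
        WittVector.constantCoeff (PowerSeries.coeff 1 θ) := coeff_map _ _ _
    rwa [this, hc1]
  have pt : ∀ y ∈ (Ideal.span {ϖ}).radical, ∃ r,
      lT p j (eH O h) (ev1 (RingHom.id O) y (MvPowerSeries.map WittVector.constantCoeff θ)) -
        ∑ s ∈ Finset.range n, j (γ s) * φ^[s] (lT p j x y) = p * j r := by
    intro y hy
    have hy' := teich_mem_radical (p := p) hy
    have ok : Ok fun _ : Unit => y := Ok.of_rad _ fun _ => hy
    have ok' : Ok fun _ : Unit => WittVector.teichmuller p y := Ok.of_rad _ fun _ => hy'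
    have e1 : (fun i => j (WittVector.teichmuller p (eH O h i))) = eH B h := funext fun i => by
      simp only [eH]; split_ifs <;> simp
    have ha := HomAux.ev1_rad (RingHom.id _) _ hy' hθ0
    obtain ⟨r, hr⟩ := lg_sub_eq P hc
      (teich_mem_radical (HomAux.ev1_rad (RingHom.id _) _ hy hom.const)) ha (by
        rw [sub_mem_p_iff, hcc, map_ev _ _ ok' (by simpa only [hcc] using ok), ev_map _ _ ok]
        simp only [hcc, RingHom.comp_id, RingHom.id_comp])
    refine ⟨r, ?_⟩
    rw [← hr, lT, e1, sub_right_inj]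
    have hs : ∀ s, IntSeq p j fun t => -j (γ s) * φ^[s] (l t) := fun s t => by
      obtain ⟨a, ha⟩ := hlI.iterate P.fed s t
      exact ⟨-γ s * a, by rw [map_mul, map_neg, ← ha]; ring⟩
    have e2 := lg_eval P (α := Option (Fin n)) (σ := Unit)
      (fun o => o.elim (ll p (eH B h)) fun s t => -j (γ s) * φ^[s] (l t))
      (fun o => by cases o with | none => exact hc | some s => exact hs s)
      (fun o => o.elim θ fun s => PowerSeries.X ^ p ^ (s : ℕ))
      (fun o => by cases o with | none => exact hθ0 | some s => exact const_pow HomAux.const_X1 _)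
      (by
        rw [Fintype.sum_option]
        simp only [Option.elim]
        rw [hθ, ← Fin.sum_univ_eq_sum_range, ← Finset.sum_add_distrib]
        refine Finset.sum_eq_zero fun s _ => ?_
        have e3 : MvPowerSeries.map j (PowerSeries.X ^ p ^ (s : ℕ)) =
            PowerSeries.X ^ p ^ (s : ℕ) := by rw [map_pow, PowerSeries.X, map_X]; rfl
        rw [e3, Lg_mul _ _ (const_pow HomAux.const_X1 _), map_neg, neg_mul, add_neg_cancel])
      (a := fun _ => WittVector.teichmuller p y) fun _ => hy'
    rw [Fintype.sum_option] at e2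
    simp only [Option.elim] at e2
    rw [← Fin.sum_univ_eq_sum_range, eq_comm, ← add_neg_eq_zero, ← Finset.sum_neg_distrib, ← e2]
    congr 1
    refine Finset.sum_congr rfl fun s _ => ?_
    have e3 : ev (RingHom.id _) (fun _ : Unit => WittVector.teichmuller p y)
        (PowerSeries.X ^ p ^ (s : ℕ)) = WittVector.teichmuller p y ^ p ^ (s : ℕ) := by
      rw [map_pow, ev1_X _ ok']
    rw [e3, lT, phi_lg P hlI hy, lg, lg, ← neg_mul, ← (summable_lg P (hlI.iterate P.fed s)
      (Ideal.pow_mem_of_mem _ hy' _ (pow_pos (Fact.out : p.Prime).pos _))).tsum_mul_left]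
    simp only [mul_assoc]
  have hy' := AC.hom (RingHom.id O) hx.toGP (gp_eH hx.hpos ϖ) hom hy
  have t1 := tendsto_Lam P (gp_eH hx.hpos ϖ) hy'
  have t2 : Tendsto (fun r : ℕ => ∑ s ∈ Finset.range n,
      j (γ s) * φ^[s] ((p : B) ^ r * lT p j x (y r))) atTop
      (𝓝 (∑ s ∈ Finset.range n, j (γ s) * φ^[s] (Lam p j x y))) :=
    tendsto_finset_sum _ fun s _ => (((P.continuous.iterate s).tendsto _).comp
      (tendsto_Lam P hx.toGP hy)).const_mul _
  refine tendsto_nhds_unique t1 ?_
  have t3 : Tendsto (fun r : ℕ => (p : B) ^ r * lT p j (eH O h) (ev1 (RingHom.id O) (y r)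
      (MvPowerSeries.map WittVector.constantCoeff θ)) - ∑ s ∈ Finset.range n,
      j (γ s) * φ^[s] ((p : B) ^ r * lT p j x (y r))) atTop (𝓝 0) := by
    refine squeeze_zero_norm (fun r => ?_)
      (tendsto_pow_atTop_nhds_zero_of_lt_one (r := 1 / 2) (by norm_num) (by norm_num))
    obtain ⟨a, ha⟩ := pt _ (hy.mem r)
    have e : ∀ s, φ^[s] ((p : B) ^ r * lT p j x (y r)) = (p : B) ^ r * φ^[s] (lT p j x (y r)) :=
      fun s => by rw [← RingHom.coe_pow, map_mul, map_pow, map_natCast]
    simp only [e, mul_left_comm _ ((p : B) ^ r), ← Finset.mul_sum]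
    rw [← mul_sub, ha, norm_p_pow_mul, PNorm.norm_p_mul]
    have := P.norm_le_one a
    have h2 : (0 : ℝ) ≤ (1 / 2) ^ r := by positivity
    nlinarith [norm_nonneg (j a)]
  simpa using t3.add t2

end Vale.Agent.P217
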