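import Vale.Agent.P217.End
import Vale.Agent.P217.Theta
import Vale.Agent.P217.ZLim

/-! There is no linear relation between the Serre-Tate coordinates of the orbit. -/

namespace Vale.Agent.P217

open MvPowerSeries

variable {O : Type} [CommRing O] {p : ℕ} [Fact p.Prime] [CharP O p] [IsDomain O] {ϖ : O}
  [Good O ϖ] {n h : ℕ} {x : ℕ → O}

namespace NoRelAux

theorem gf_pow (hn : 1 ≤ n) (a : GaloisField p n) : a ^ p ^ n = a := by
  let _ := Fintype.ofFinite (GaloisField p n)
  have hc : Fintype.card (GaloisField p n) = p ^ n := by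
    rw [← Nat.card_eq_fintype_card, GaloisField.card p n (by omega)]
  rw [← hc]; exact FiniteField.pow_card a

omit [IsDomain O] in
theorem cc_frob [PerfectRing O p] (a : WittVector p O) (t : ℕ) :
    WittVector.constantCoeff ((WittVector.frobenius ^ t : WittVector p O →+* _) a) =
      WittVector.constantCoeff a ^ p ^ t := by
  induction t with
  | zero => simp
  | succ t ih =>
    rw [pow_succ', RingHom.coe_mul, Function.comp_apply,
      sub_mem_p_iff.mp (frobenius_sub_mem _), map_pow, ih, ← pow_mul, pow_succ]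

section

variable {B : Type} [NormedCommRing B] {j : WittVector p O →+* B} {φ : B →+* B}

omit [CharP O p] [IsDomain O] [Good O ϖ] in
theorem phi_pow_j (P : Per p ϖ j φ) (a : WittVector p O) (t : ℕ) :
    (φ ^ t) (j a) = j ((WittVector.frobenius ^ t : WittVector p O →+* _) a) := by
  induction t with
  | zero => simp
  | succ t ih => rw [pow_succ', pow_succ', RingHom.coe_mul, RingHom.coe_mul, Function.comp_apply,
      Function.comp_apply, ih, P.comm]

omit [IsDomain O] [Good O ϖ] in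
theorem phi_pow_teich [PerfectRing O p] (P : Per p ϖ j φ) (a : O) (t : ℕ) :
    (φ ^ t) (j (WittVector.teichmuller p a)) = j (WittVector.teichmuller p a) ^ p ^ t := by
  induction t with
  | zero => simp
  | succ t ih => rw [pow_succ', RingHom.coe_mul, Function.comp_apply, ih, map_pow, P.comm,
      frobenius_teich, map_pow, ← pow_mul, pow_succ']

end

end NoRelAux

open NoRelAux

section

variable {B : Type} [NormedCommRing B] [PerfectRing O p] [CompleteSpace B] [IsUltrametricDist B]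
  [PNorm p B] {j : WittVector p O →+* B} {φ : B →+* B} (P : Per p ϖ j φ)

include P

/-- The linear algebra at the end of the argument. -/
theorem no_rel_lin (hx : GP n ϖ x) (κ0 : GaloisField p n →+* O) {m : ℕ} {s : Fin m → ℕ → O}
    (hs : TS p n ϖ x s) (Γ : Fin m → ℕ → WittVector p O)
    (H : ∀ (a : GaloisField p n) (t : ℕ), 1 ≤ t → ∑ i, ∑ l ∈ Finset.range n,
      j (Γ i l) * φ^[l] (Lam p j x fun r => κ0 a * s i r ^ p ^ t) = 0) (i : Fin m) :
    WittVector.constantCoeff (Γ i 0) = 0 := by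
  have hn := hx.pos
  obtain ⟨M, hM, hper⟩ := Lam_per P hx
  obtain ⟨β, hβ, hind⟩ := TS.exists_beta P hx hs
  let y : Fin m → B := fun i => Lam p j (eH O n) (s i)
  let ω : ℕ → ℕ → B := fun l t => ∑ i, j (Γ i l) * (φ ^ t) (y i)
  have h1 : ∀ t, 1 ≤ t → ∀ u, u < n → ∑ l ∈ Finset.range n, ω l (u + t) * M l u = 0 := by
    intro t ht
    refine vandermonde_zero p hn (j.comp (WittVector.map κ0))
      (fun u => ∑ l ∈ Finset.range n, ω l (u + t) * M l u) fun a => ?_
    have ha : κ0 a ^ p ^ n = κ0 a := by rw [← map_pow, gf_pow hn]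
    rw [← H a t ht]
    have e : ∀ i, ∀ l ∈ Finset.range n,
        j (Γ i l) * φ^[l] (Lam p j x fun r => κ0 a * s i r ^ p ^ t) =
        ∑ u ∈ Finset.range n, j (WittVector.teichmuller p (κ0 a)) ^ p ^ u *
          (j (Γ i l) * (φ ^ (u + t)) (y i) * M l u) := fun i l hl => by
      rw [hper _ ((hs.ac hx i).mul_pow ha (pow_ne_zero _ (Fact.out : p.Prime).ne_zero)) l
        (Finset.mem_range.mp hl), Lam_eH_mul P hn ha t (hs.ac hx i), Finset.mul_sum]
      refine Finset.sum_congr rfl fun u _ => ?_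
      rw [← RingHom.coe_pow, ← RingHom.coe_pow, map_mul, phi_pow_teich P, pow_add, RingHom.coe_mul,
        Function.comp_apply]
      ring
    rw [Finset.sum_congr rfl fun i _ => Finset.sum_congr rfl (e i)]
    simp only [RingHom.comp_apply, WittVector.map_teichmuller, ω, Finset.mul_sum, Finset.sum_mul]
    rw [Finset.sum_comm]
    conv_rhs => rw [Finset.sum_comm]
    refine Finset.sum_congr rfl fun l _ => ?_
    rw [Finset.sum_comm]
  have h2 : ∀ t, n ≤ t → ω 0 t = 0 := fun t ht =>
    hM (fun l => ω l t) (fun u hu => by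
      have := h1 (t - u) (by omega) u hu
      rwa [show u + (t - u) = t by omega] at this) 0 hn
  have h3 : ∀ t, ω 0 t = 0 := fun t => by
    refine eq_zero_of_p_pow_mul (p := p) (k := 1) ?_
    rw [← h2 (t + n) (by omega)]
    simp only [ω, Finset.mul_sum]
    refine Finset.sum_congr rfl fun i _ => ?_
    have := Lam_eH_phi P hn (hs.ac hx i)
    rw [← RingHom.coe_pow] at this
    rw [pow_add, RingHom.coe_mul, Function.comp_apply, this, map_mul, map_natCast]
    ring
  refine moore_zero p (fun i => WittVector.constantCoeff (β i)) hind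
    (fun i => WittVector.constantCoeff (Γ i 0)) (fun t => ?_) i
  have h4 : ∑ i, Γ i 0 * (WittVector.frobenius ^ t : WittVector p O →+* _) (β i) = 0 := by
    refine P.inj ?_
    rw [map_zero]
    refine eq_zero_of_p_pow_mul (p := p) (k := 1) ?_
    have e : ∀ i, (p : B) ^ 1 * j (Γ i 0 * (WittVector.frobenius ^ t : WittVector p O →+* _) (β i)) =
        ∑ u ∈ Finset.range n, (φ ^ t) (M 0 u) * (j (Γ i 0) * (φ ^ (t + u)) (y i)) := fun i => by
      have h5 := congrArg (φ ^ t) (hper _ (hs.ac hx i) 0 hn)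
      rw [Function.iterate_zero, id, hβ, map_mul, map_natCast, phi_pow_j P, map_sum] at h5
      rw [map_mul, pow_one, mul_left_comm, h5, Finset.mul_sum]
      refine Finset.sum_congr rfl fun u _ => ?_
      rw [map_mul, ← RingHom.coe_pow, pow_add, RingHom.coe_mul, Function.comp_apply]
      ring
    rw [map_sum, Finset.mul_sum, Finset.sum_congr rfl fun i _ => e i, Finset.sum_comm]
    refine Finset.sum_eq_zero fun u _ => ?_
    rw [← Finset.mul_sum]
    exact mul_eq_zero_of_right _ (h3 (t + u))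
  have h5 := congrArg WittVector.constantCoeff h4
  simpa only [map_sum, map_mul, cc_frob, map_zero] using h5

/-- A relation between points gives a relation between periods. -/
theorem Lam_rel (hh : 1 ≤ h) {κ : Type} [Field κ] (ι : κ →+* O) {m : ℕ}
    {ε : Fin m → PowerSeries κ} (hε : ∀ i, IsHomS p h (eH κ h) h (eH κ h) (ε i))
    {y : Fin m → ℕ → O} (hy : ∀ i, AC (p ^ h) ϖ (y i)) {lam : Fin m → O}
    (hz : ∀ i, IsZ p h (eH O h) (Ideal.span {ϖ}) (y i) (lam i))
    (H : ∑ i, toPt p h (Ideal.span {ϖ}) (eH O h) (ev1 ι (lam i) (ε i)) = 0) :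
    ∑ i, Lam p j (eH O h) (fun r => ev1 ι (y i r) (ε i)) = 0 := by
  set I : Ideal O := Ideal.span {ϖ} with hI
  have hp0 : (p : O) = 0 := CharP.cast_eq_zero O p
  have hIr : I ≤ I.radical := Ideal.le_radical
  have hg := gp_eH hh ϖ
  have hs : ∀ i r, fp p h (eH O h) (y i (r + 1)) - y i r ∈ I := fun i r => by
    rw [fp_eH I hp0 hh ((hy i).mem _)]; exact (hy i).succ r
  have hex : ∀ i k, ∃ z, IsZ p h (eH O h) I (fun r => y i (k + r)) z := fun i k =>
    exists_isZ I hp0 (fun r => (hy i).mem _) fun r => hs i (k + r)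
  choose z hzz using hex
  have hz1 : ∀ i k, y i k - z i k ∈ I := fun i k => by
    have := hzz i k 0
    simp only [Function.iterate_zero, id, zero_add, pow_one, add_zero] at this
    simpa using neg_mem this
  have hz2 : ∀ i k, (fp p h (eH O h))^[k] (z i k) = lam i := fun i k =>
    (IsZ.shift I hp0 hIr (hy i).mem (hs i) k (hzz i k)).unique (hz i)
  have hac : ∀ i, AC (p ^ h) ϖ (z i) := fun i => (hy i).congr (hz1 i)
  have he : (fun l => ι (eH κ h l)) = eH O h := map_eH ι h
  have hac1 : ∀ i, AC (p ^ h) ϖ fun r => ev1 ι (y i r) (ε i) := fun i =>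
    AC.hom ι (he ▸ hg) (he ▸ hg) (hε i) (hy i)
  have hac2 : ∀ i, AC (p ^ h) ϖ fun r => ev1 ι (z i r) (ε i) := fun i =>
    AC.hom ι (he ▸ hg) (he ▸ hg) (hε i) (hac i)
  have h1 : ∀ i, Lam p j (eH O h) (fun r => ev1 ι (y i r) (ε i)) =
      Lam p j (eH O h) (fun r => ev1 ι (z i r) (ε i)) := fun i =>
    Lam_congr P hg (hac1 i) fun r => ev_sub_ev_mem ι I (fun _ => (hy i).mem r)
      (fun _ => (hac i).mem r) (fun _ => hz1 i r) _
  simp only [h1]
  rw [← (Lam_sum P hg Finset.univ fun i _ => hac2 i).2, ← Lam_zero P hg]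
  congr 1; funext r
  have h2 : p ^ r • ∑ i, toPt p h I (eH O h) (ev1 ι (z i r) (ε i)) = 0 := by
    rw [← H, Finset.smul_sum]
    refine Finset.sum_congr rfl fun i _ => Pt.ext ?_
    have h3 := (hε i).ev_fp_iter ι I ((hac i).mem r) r
    rw [he, hz2] at h3
    have h4 : lam i ∈ I.radical := IsZ.mem I (hz i) hIr ((hy i).mem 0)
    rw [Pt.val_pow_smul, val_toPt ((hac2 i).mem r), ← h3,
      val_toPt (ev_mem ι (ok_one I h4) (fun _ => h4) (hε i).const)]
  have h3 := congrArg Pt.val h2
  rw [Pt.val_pow_smul, fp_eH_iter I hp0 hh (Pt.mem _), Pt.val_zero] at h3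
  exact pow_eq_zero_iff (pow_ne_zero _ (pow_ne_zero _ (Fact.out : p.Prime).ne_zero)) |>.mp h3

omit [CompleteSpace B] [IsUltrametricDist B] [PNorm p B] [IsDomain O] [Good O ϖ] [CharP O p]
  [PerfectRing O p] in
theorem phi_iter_sum (hn : 1 ≤ n) {v : ℕ → WittVector p O} (hv : v n = 1) {b : B}
    (hb : p * b = ∑ i ∈ Finset.Icc 1 n, j (v i) * φ^[i] b) (γ : ℕ → WittVector p O) (u : ℕ) :
    φ^[u] (∑ s ∈ Finset.range n, j (γ s) * φ^[s] b) =
      ∑ s ∈ Finset.range n, j ((PhiM p n WittVector.frobenius v)^[u] γ s) * φ^[s] b := by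
  induction u with
  | zero => rfl
  | succ u ih =>
    rw [Function.iterate_succ_apply', ih, Function.iterate_succ_apply',
      phi_sum_eq hn j WittVector.frobenius φ P.comm hv (e := 0) (by rw [zero_add]; exact hb),
      mul_zero, sub_zero]

end

theorem exists_norel (hx : HP n h ϖ x) (κ0 : GaloisField p n →+* O) {κ : Type} [Field κ]
    {ι : κ →+* O} (hκ : KD (p ^ h) ι) {m : ℕ} {s : Fin m → ℕ → O} (hs : TS p n ϖ x s) :
    ∃ θ : PowerSeries O, IsHomS p n x h (eH O h) θ ∧ PowerSeries.coeff 1 θ ≠ 0 ∧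
      ∀ (ε : Fin m → PowerSeries κ) (i0 : Fin m),
        (∀ i, IsHomS p h (eH κ h) h (eH κ h) (ε i)) → PowerSeries.coeff 1 (ε i0) ≠ 0 →
        ¬ ∀ (a : GaloisField p n) (t : ℕ) (z : Fin m → O), 1 ≤ t →
          (∀ i, IsZ p n x (Ideal.span {ϖ}) (fun r => κ0 a * s i r ^ p ^ t) (z i)) →
          ∑ i, toPt p h (Ideal.span {ϖ}) (eH O h)
            (ev1 ι (ev1 (RingHom.id O) (z i) θ) (ε i)) = 0 := by
  have := Good.perfectRing ϖ p
  obtain ⟨B, _, _, _, _, j, φ, P⟩ := exists_per p ϖ
  obtain ⟨θ, γ, hθ, hθ1, hγ, hL⟩ := exists_theta P hx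
  refine ⟨θ, hθ, hθ1, fun ε i0 hε hε1 H => ?_⟩
  set I : Ideal O := Ideal.span {ϖ} with hI
  have hp0 : (p : O) = 0 := CharP.cast_eq_zero O p
  have hIr : I ≤ I.radical := Ideal.le_radical
  have hn := hx.pos
  choose c hc0 hc using fun i => Lam_end P hx.hpos hκ (hε i)
  let v : ℕ → WittVector p O := fun i => WittVector.teichmuller p (x i)
  have hv : v n = 1 := by simp only [v, hx.top, map_one]
  let Γ : Fin m → ℕ → WittVector p O := fun i l =>
    ∑ u ∈ Finset.range h, c i u * (PhiM p n WittVector.frobenius v)^[u] γ l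
  have h1 := no_rel_lin P hx.toGP κ0 hs Γ (fun a t ht => by
    have ha : κ0 a ^ p ^ n = κ0 a := by rw [← map_pow, gf_pow hn]
    have hac : ∀ i, AC (p ^ n) ϖ fun r => κ0 a * s i r ^ p ^ t := fun i =>
      (hs.ac hx.toGP i).mul_pow ha (pow_ne_zero _ (Fact.out : p.Prime).ne_zero)
    have hex : ∀ i, ∃ z, IsZ p n x I (fun r => κ0 a * s i r ^ p ^ t) z := fun i =>
      exists_isZ I hp0 (hac i).mem fun r => by
        have h2 := fp_sub_pow_mem I hn (hx.toGP.ltp (hp0 ▸ zero_mem _)) ((hac i).mem (r + 1))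
        simpa using add_mem h2 ((hac i).succ r)
    choose z hz using hex
    have hac' : ∀ i, AC (p ^ h) ϖ fun r => ev1 (RingHom.id O) (κ0 a * s i r ^ p ^ t) θ := fun i =>
      AC.hom (RingHom.id O) hx.toGP (gp_eH hx.hpos ϖ) hθ (hac i)
    have h2 := Lam_rel P hx.hpos ι hε hac'
      (fun i => IsZ.hom I (RingHom.id O) hθ hIr (hz i) (hac i).mem) (H a t z ht hz)
    rw [← h2]
    refine Finset.sum_congr rfl fun i _ => ?_
    rw [hc i _ (hac' i), hL _ (hac i)]
    simp only [phi_iter_sum P hn hv (Lam_FE P hx.toGP (hac i)), Γ, map_sum, map_mul,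
      Finset.mul_sum, Finset.sum_mul]
    rw [Finset.sum_comm]
    simp only [mul_assoc]) i0
  obtain ⟨h', rfl⟩ : ∃ h', h = h' + 1 := ⟨h - 1, by have := hx.hpos; omega⟩
  simp only [Γ, Finset.sum_range_succ', map_add, map_sum, map_mul, Function.iterate_zero, id,
    hc0] at h1
  rw [Finset.sum_eq_zero fun u _ => ?_, zero_add] at h1
  · exact mul_ne_zero ((map_ne_zero ι).mpr hε1) hγ h1
  · have := PhiM_zero_mem p n WittVector.frobenius v ((PhiM p n WittVector.frobenius v)^[u] γ)
    rw [← sub_zero (PhiM _ _ _ _ _ _), sub_mem_p_iff, map_zero] at this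
    rw [Function.iterate_succ_apply', this, mul_zero]

end Vale.Agent.P217
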