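import Vale.Agent.P217.Lim

/-! Complete normed rings attached to a `p`-adic filtration. -/

namespace Vale.Agent.P217

open Filter Topology

/-- Normed rings in which multiplication by `p` halves the norm. -/
class PNorm (p : ℕ) (B : Type) [NormedCommRing B] : Prop where
  unit : IsUnit (p : B)
  norm_p_mul : ∀ b : B, ‖(p : B) * b‖ = ‖b‖ / 2
  norm_one : ‖(1 : B)‖ ≤ 1

section

variable {p : ℕ} {B : Type} [NormedCommRing B] [PNorm p B]

theorem norm_p_pow_mul (k : ℕ) (b : B) : ‖(p : B) ^ k * b‖ = (1 / 2) ^ k * ‖b‖ := by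
  induction k with
  | zero => simp
  | succ k ih => rw [pow_succ', mul_assoc, PNorm.norm_p_mul, ih]; ring

theorem norm_inv_pow_mul (k : ℕ) (b : B) : ‖Ring.inverse (p : B) ^ k * b‖ = 2 ^ k * ‖b‖ := by
  have h1 := norm_p_pow_mul (p := p) k (Ring.inverse (p : B) ^ k * b)
  rw [← mul_assoc, ← mul_pow, Ring.mul_inverse_cancel _ PNorm.unit, one_pow, one_mul] at h1
  rw [h1, ← mul_assoc, ← mul_pow]
  norm_num

theorem eq_zero_of_p_pow_mul {k : ℕ} {b : B} (h : (p : B) ^ k * b = 0) : b = 0 := by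
  exact ((PNorm.unit (p := p) (B := B)).pow k).mul_right_eq_zero.mp h

end

theorem NormAux.exists_seminorm (p : ℕ) {K : Type} [CommRing K] (R : Subring K) (u : Kˣ)
    (hu : (u : K) = p) (hR : ∀ b : K, ∃ k : ℕ, (p : K) ^ k * b ∈ R) :
    ∃ f : RingSeminorm K, (∀ a b, f (a + b) ≤ max (f a) (f b)) ∧
      (∀ (b : K) (k : ℤ), f b ≤ (1 / 2) ^ k ↔ ((u ^ (-k) : Kˣ) : K) * b ∈ R) ∧
      ∀ (b : K) (x c : ℝ), 0 ≤ c →
        (∀ k : ℤ, ((u ^ (-k) : Kˣ) : K) * b ∈ R → x ≤ c * (1 / 2) ^ k) → x ≤ c * f b := by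
  let F : ℤ → K → Prop := fun k b => ((u ^ (-k) : Kˣ) : K) * b ∈ R
  let S : K → Set ℝ := fun b => {x | ∃ k : ℤ, F k b ∧ x = (1 / 2) ^ k}
  have hnat : ∀ k : ℕ, ((u ^ (k : ℤ) : Kˣ) : K) = (p : K) ^ k := fun k => by
    rw [zpow_natCast, Units.val_pow_eq_pow_val, hu]
  have hmono : ∀ {k l : ℤ} {b : K}, k ≤ l → F l b → F k b := by
    intro k l b hkl h
    obtain ⟨m, rfl⟩ := Int.le.dest hkl
    have h1 := R.mul_mem (R.pow_mem (natCast_mem R p) m) h
    rw [← hnat, ← mul_assoc, ← Units.val_mul, ← zpow_add] at h1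
    simpa [F] using h1
  have hne : ∀ b, (S b).Nonempty := fun b => by
    obtain ⟨k, hk⟩ := hR b
    exact ⟨_, -k, by simpa only [F, neg_neg, hnat] using hk, rfl⟩
  have hbdd : ∀ b, BddBelow (S b) := fun b => ⟨0, by rintro _ ⟨k, -, rfl⟩; positivity⟩
  have hle : ∀ {k : ℤ} {b : K}, F k b → sInf (S b) ≤ (1 / 2) ^ k := fun {k b} h =>
    csInf_le (hbdd b) ⟨k, h, rfl⟩
  have hanti : StrictAnti fun k : ℤ => (1 / 2 : ℝ) ^ k :=
    zpow_right_strictAnti₀ (by norm_num) (by norm_num)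
  have hlt : ∀ {b : K} {y : ℝ}, sInf (S b) < y → ∃ k, F k b ∧ (1 / 2 : ℝ) ^ k < y := by
    intro b y h
    obtain ⟨_, ⟨k, hk, rfl⟩, h1⟩ := exists_lt_of_csInf_lt (hne b) h
    exact ⟨k, hk, h1⟩
  have hiff : ∀ (b : K) (k : ℤ), sInf (S b) ≤ (1 / 2) ^ k ↔ F k b := fun b k => by
    refine ⟨fun h => ?_, hle⟩
    obtain ⟨l, hl, h1⟩ := hlt (h.trans_lt (hanti (sub_one_lt k)))
    exact hmono (by have := hanti.lt_iff_gt.mp h1; omega) hl
  have hprin : ∀ (b : K) (x c : ℝ), 0 ≤ c → (∀ k : ℤ, F k b → x ≤ c * (1 / 2) ^ k) →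
      x ≤ c * sInf (S b) := by
    intro b x c hc h
    rcases hc.eq_or_lt with rfl | hc
    · obtain ⟨_, k, hk, rfl⟩ := hne b
      simpa using h k hk
    · rw [← div_le_iff₀' hc]
      refine le_csInf (hne b) ?_
      rintro _ ⟨k, hk, rfl⟩
      rw [div_le_iff₀' hc]
      exact h k hk
  have hnn : ∀ b, 0 ≤ sInf (S b) := fun b =>
    le_csInf (hne b) (by rintro _ ⟨k, -, rfl⟩; positivity)
  have hmax : ∀ a b, sInf (S (a + b)) ≤ max (sInf (S a)) (sInf (S b)) := by
    intro a b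
    by_contra h
    rw [not_le, max_lt_iff] at h
    obtain ⟨k, hk, h1⟩ := hlt h.1
    obtain ⟨l, hl, h2⟩ := hlt h.2
    have h3 : F (min k l) (a + b) := by
      have := R.add_mem (hmono (min_le_left k l) hk) (hmono (min_le_right k l) hl)
      simpa only [F, mul_add] using this
    have h4 := hle h3
    rcases min_choice k l with h5 | h5 <;> rw [h5] at h4 <;> linarith
  refine ⟨⟨⟨fun b => sInf (S b), ?_, fun a b => ?_, fun a => ?_⟩, fun a b => ?_⟩, hmax, hiff, hprin⟩
  · refine le_antisymm (le_of_forall_pos_le_add fun ε hε => ?_) (hnn 0)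
    obtain ⟨k, hk⟩ := exists_pow_lt_of_lt_one hε (show (1 / 2 : ℝ) < 1 by norm_num)
    have h1 : F k 0 := by simpa only [F, mul_zero] using R.zero_mem
    have h2 := hle h1
    rw [zpow_natCast] at h2
    linarith
  · exact (hmax a b).trans (max_le_add_of_nonneg (hnn a) (hnn b))
  · have : S (-a) = S a := by simp only [S, F, mul_neg, neg_mem_iff]
    simp only [this]
  · refine hprin b _ _ (hnn a) fun k hk => ?_
    rw [mul_comm (sInf (S a))]
    refine hprin a _ _ (by positivity) fun l hl => ?_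
    rw [← zpow_add₀ (by norm_num)]
    refine hle ?_
    have h1 := R.mul_mem hk hl
    simp only [F, neg_add, zpow_add, Units.val_mul]
    convert h1 using 1
    ring

theorem NormAux.completion (p : ℕ) (K : Type) [SeminormedCommRing K]
    (hu : ∀ a b : K, ‖a + b‖ ≤ max ‖a‖ ‖b‖) (hp : IsUnit (p : K)) (h1 : ‖(1 : K)‖ ≤ 1)
    (h2 : ∀ b : K, ‖(p : K) * b‖ = ‖b‖ / 2) :
    ∃ (B : Type) (_ : NormedCommRing B) (_ : CompleteSpace B) (_ : IsUltrametricDist B)
      (_ : PNorm p B) (ι : K →+* B), DenseRange ι ∧ (∀ b, ‖ι b‖ = ‖b‖) ∧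
      ∀ φ : K →+* K, (∀ b, ‖φ b‖ ≤ ‖b‖) →
        ∃ Φ : B →+* B, (∀ b, ‖Φ b‖ ≤ ‖b‖) ∧ ∀ b, Φ (ι b) = ι (φ b) := by
  open UniformSpace UniformSpace.Completion in
  have hpc : ((p : K) : Completion K) = (p : Completion K) :=
    map_natCast (coeRingHom : K →+* Completion K) p
  open UniformSpace UniformSpace.Completion in
  refine ⟨Completion K, inferInstance, inferInstance, ?_, ⟨?_, fun b => ?_, ?_⟩, coeRingHom,
    denseRange_coe, fun b => norm_coe b, fun φ hφ => ?_⟩
  · refine IsUltrametricDist.isUltrametricDist_of_isNonarchimedean_norm fun a b => ?_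
    induction a, b using UniformSpace.Completion.induction_on₂ with
    | hp => apply isClosed_le <;> fun_prop
    | ih a b => simpa only [← UniformSpace.Completion.coe_add, UniformSpace.Completion.norm_coe]
        using hu a b
  · rw [← hpc]
    exact hp.map (UniformSpace.Completion.coeRingHom : K →+* UniformSpace.Completion K)
  · induction b using UniformSpace.Completion.induction_on with
    | hp => apply isClosed_eq <;> fun_prop
    | ih b =>
      rw [← hpc, ← UniformSpace.Completion.coe_mul, UniformSpace.Completion.norm_coe,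
        UniformSpace.Completion.norm_coe, h2]
  · rw [← UniformSpace.Completion.coe_one, UniformSpace.Completion.norm_coe]
    exact h1
  · have hc : Continuous φ :=
      AddMonoidHomClass.continuous_of_bound φ 1 fun b => by rw [one_mul]; exact hφ b
    refine ⟨UniformSpace.Completion.mapRingHom φ hc, fun b => ?_,
      fun b => UniformSpace.Completion.mapRingHom_coe hc b⟩
    induction b using UniformSpace.Completion.induction_on with
    | hp =>
      refine isClosed_le ?_ (by fun_prop)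
      exact continuous_norm.comp UniformSpace.Completion.continuous_map
    | ih b =>
      rw [UniformSpace.Completion.mapRingHom_coe hc, UniformSpace.Completion.norm_coe,
        UniformSpace.Completion.norm_coe]
      exact hφ b

/-- Completion of `K = R[1/p]` for the filtration by the `p ^ k R`. -/
theorem exists_completion (p : ℕ) (K : Type) [CommRing K] (R : Subring K) (hp : IsUnit (p : K))
    (hR : ∀ b : K, ∃ k : ℕ, (p : K) ^ k * b ∈ R) :
    ∃ (B : Type) (_ : NormedCommRing B) (_ : CompleteSpace B) (_ : IsUltrametricDist B)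
      (_ : PNorm p B) (ι : K →+* B), DenseRange ι ∧
      (∀ (b : K) (k : ℕ), ‖ι b‖ ≤ (1 / 2) ^ k ↔ ∃ r ∈ R, b = (p : K) ^ k * r) ∧
      ∀ φ : K →+* K, (∀ r ∈ R, φ r ∈ R) →
        ∃ Φ : B →+* B, (∀ b, ‖Φ b‖ ≤ ‖b‖) ∧ ∀ b, Φ (ι b) = ι (φ b) := by
  obtain ⟨u, hu⟩ := hp
  obtain ⟨f, hf1, hf2, hf3⟩ := NormAux.exists_seminorm p R u hu hR
  have hnat : ∀ k : ℕ, ((u ^ (k : ℤ) : Kˣ) : K) = (p : K) ^ k := fun k => by
    rw [zpow_natCast, Units.val_pow_eq_pow_val, hu]
  have h1 : f 1 ≤ 1 := by simpa using (hf2 1 0).mpr (by simpa using R.one_mem)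
  have h2 : f (p : K) ≤ 1 / 2 := by
    simpa using (hf2 (p : K) 1).mpr (by rw [← hu]; simpa using R.one_mem)
  have h3 : f ((u⁻¹ : Kˣ) : K) ≤ 2 := by
    simpa using (hf2 ((u⁻¹ : Kˣ) : K) (-1)).mpr (by simpa using R.one_mem)
  have h4 : ∀ b, f ((p : K) * b) = f b / 2 := fun b => by
    have h5 := map_mul_le_mul f (p : K) b
    have h6 := map_mul_le_mul f ((u⁻¹ : Kˣ) : K) ((p : K) * b)
    rw [← mul_assoc, ← hu, Units.inv_mul, one_mul, hu] at h6
    have h7 := apply_nonneg f b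
    have h8 := apply_nonneg f ((p : K) * b)
    apply le_antisymm <;> nlinarith
  letI : SeminormedCommRing K := { f.toSeminormedRing with mul_comm := mul_comm }
  obtain ⟨B, i1, i2, i3, i4, ι, hd, hn, hφ⟩ := NormAux.completion p K hf1 ⟨u, hu⟩ h1 h4
  refine ⟨B, i1, i2, i3, i4, ι, hd, fun b k => ?_, fun φ hφR => hφ φ fun b => ?_⟩
  · rw [hn]
    change f b ≤ _ ↔ _
    rw [← zpow_natCast, hf2]
    constructor
    · intro h
      refine ⟨_, h, ?_⟩
      rw [← hnat, ← mul_assoc, ← Units.val_mul, ← zpow_add, add_neg_cancel, zpow_zero,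
        Units.val_one, one_mul]
    · rintro ⟨r, hr, rfl⟩
      rwa [← hnat, ← mul_assoc, ← Units.val_mul, ← zpow_add, neg_add_cancel, zpow_zero,
        Units.val_one, one_mul]
  · change f (φ b) ≤ f b
    rw [← one_mul (f b)]
    refine hf3 b _ 1 zero_le_one fun k hk => ?_
    have h5 : Units.map (φ : K →* K) u = u := Units.ext (by simp [hu])
    have h6 : φ ((u ^ (-k) : Kˣ) : K) = ((u ^ (-k) : Kˣ) : K) := by
      conv_rhs => rw [← h5, ← map_zpow]
      rfl
    rw [one_mul, hf2, ← h6, ← map_mul]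
    exact hφR _ hk

/-- The `p`-adic completion of `R[1/p]` for a `p`-torsion free ring `R`. -/
theorem exists_pnorm (p : ℕ) (R : Type) [CommRing R] (hp : (p : R) ∈ nonZeroDivisors R) :
    ∃ (B : Type) (_ : NormedCommRing B) (_ : CompleteSpace B) (_ : IsUltrametricDist B)
      (_ : PNorm p B) (j : R →+* B),
      (∀ (a : R) (k : ℕ), ‖j a‖ ≤ (1 / 2) ^ k ↔ a ∈ Ideal.span {(p : R) ^ k}) ∧
      (IsAdicComplete (Ideal.span {(p : R)}) R → ∀ b : B, ∃ (k : ℕ) (a : R),
        (p : B) ^ k * b = j a) := by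
  have hu : IsUnit (p : Localization.Away (p : R)) := by
    simpa using IsLocalization.Away.algebraMap_isUnit (S := Localization.Away (p : R)) (p : R)
  have hinj : Function.Injective (algebraMap R (Localization.Away (p : R))) :=
    IsLocalization.injective _ (M := Submonoid.powers (p : R)) ((Submonoid.powers_le).mpr hp)
  have hR : ∀ b : Localization.Away (p : R), ∃ k : ℕ, (p : Localization.Away (p : R)) ^ k * b ∈
      (algebraMap R (Localization.Away (p : R))).range := fun b => by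
    obtain ⟨k, a, h⟩ := IsLocalization.Away.surj (p : R) b
    exact ⟨k, a, by rw [← h, map_natCast, mul_comm]⟩
  obtain ⟨B, i1, i2, i3, i4, ι, hd, hn, -⟩ := exists_completion p (Localization.Away (p : R))
    (algebraMap R (Localization.Away (p : R))).range hu hR
  have hj : ∀ (a : R) (k : ℕ), ‖ι.comp (algebraMap R (Localization.Away (p : R))) a‖ ≤ (1 / 2) ^ k ↔
      a ∈ Ideal.span {(p : R) ^ k} := fun a k => by
    rw [RingHom.comp_apply, hn, Ideal.mem_span_singleton]
    constructor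
    · rintro ⟨_, ⟨r, rfl⟩, h⟩
      exact ⟨r, hinj (by rw [h, map_mul, map_pow, map_natCast])⟩
    · rintro ⟨r, rfl⟩
      exact ⟨_, ⟨r, rfl⟩, by rw [map_mul, map_pow, map_natCast]⟩
  refine ⟨B, i1, i2, i3, i4, ι.comp (algebraMap R (Localization.Away (p : R))), hj, fun hc b => ?_⟩
  set j := ι.comp (algebraMap R (Localization.Away (p : R))) with hjdef
  have happ : ∀ (b : B) (m : ℕ), ∃ x, ‖b - ι x‖ ≤ (1 / 2) ^ m := fun b m => by
    obtain ⟨x, hx⟩ := hd.exists_dist_lt b (show (0 : ℝ) < (1 / 2) ^ m by positivity)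
    exact ⟨x, by rw [← dist_eq_norm]; exact hx.le⟩
  have hsub : ∀ (x y : B) (c : ℝ), ‖x‖ ≤ c → ‖y‖ ≤ c → ‖x - y‖ ≤ c := fun x y c hx hy => by
    rw [sub_eq_add_neg]
    exact (IsUltrametricDist.norm_add_le_max x (-y)).trans (max_le hx (by rwa [norm_neg]))
  have hone : ∀ b : B, ‖b‖ ≤ 1 → ∃ a, b = j a := by
    intro b hb
    have h1 : ∀ m : ℕ, ∃ a, ‖b - j a‖ ≤ (1 / 2) ^ m := fun m => by
      obtain ⟨x, hx⟩ := happ b m
      have h2 : ‖ι x‖ ≤ (1 / 2) ^ 0 := by
        have := hsub _ _ 1 hb (hx.trans (pow_le_one₀ (by norm_num) (by norm_num)))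
        simpa using this
      obtain ⟨_, ⟨a, rfl⟩, h3⟩ := (hn x 0).mp h2
      rw [pow_zero, one_mul] at h3
      exact ⟨a, by rwa [h3] at hx⟩
    choose a ha using h1
    obtain ⟨L, hL⟩ := exists_lim (Ideal.span {(p : R)}) a fun m => by
      rw [Ideal.span_singleton_pow, ← hj, map_sub]
      have := hsub _ _ _ (ha m) ((ha (m + 1)).trans
        (pow_le_pow_of_le_one (by norm_num) (by norm_num) (Nat.le_succ m)))
      simpa using this
    refine ⟨L, sub_eq_zero.mp (norm_le_zero_iff.mp (le_of_forall_pos_le_add fun ε hε => ?_))⟩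
    obtain ⟨m, hm⟩ := exists_pow_lt_of_lt_one hε (show (1 / 2 : ℝ) < 1 by norm_num)
    have h2 := hL m
    rw [Ideal.span_singleton_pow, ← hj, map_sub] at h2
    have h3 := hsub _ _ _ (ha m) h2
    rw [sub_sub_sub_cancel_right] at h3
    linarith
  obtain ⟨x, hx⟩ := happ b 0
  obtain ⟨k, a, ha⟩ := hR x
  obtain ⟨a', ha'⟩ := hone ((p : B) ^ k * (b - ι x)) (by
    rw [norm_p_pow_mul]
    exact mul_le_one₀ (pow_le_one₀ (by norm_num) (by norm_num)) (norm_nonneg _) (by simpa using hx))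
  refine ⟨k, a' + a, ?_⟩
  rw [map_add, ← ha', hjdef, RingHom.comp_apply, ha, map_mul, map_pow, map_natCast]
  ring

end Vale.Agent.P217
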