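import Vale.Agent.P217.WCpl
import Vale.Agent.P217.GP

/-! Evaluation of logarithms in the period ring. -/

namespace Vale.Agent.P217

open MvPowerSeries Filter Topology

/-- The value `∑ c_t b ^ (p ^ t)`. -/
noncomputable def lg (p : ℕ) {B : Type} [NormedCommRing B] (c : ℕ → B) (b : B) : B :=
  ∑' t, c t * b ^ p ^ t

variable {O : Type} [CommRing O] {B : Type} [NormedCommRing B]

/-- The logarithm with Teichmueller parameters at a Teichmueller point. -/
noncomputable def lT (p : ℕ) [Fact p.Prime] (j : WittVector p O →+* B) (v : ℕ → O) (y : O) : B :=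
  lg p (ll p fun i => j (WittVector.teichmuller p (v i))) (j (WittVector.teichmuller p y))

variable {p : ℕ} [Fact p.Prime] [CharP O p] [PerfectRing O p] [IsDomain O] {ϖ : O} [Good O ϖ]
  [CompleteSpace B] [IsUltrametricDist B] [PNorm p B] {j : WittVector p O →+* B} {φ : B →+* B}
  (P : Per p ϖ j φ)

include P

omit P [CompleteSpace B] [IsUltrametricDist B] in
theorem PerAAux.hasSum_congr {f g : ℕ → B} {a : B} (h : HasSum f a) (hg : ∀ t, g t = f t) :
    HasSum g a := by
  rw [funext hg]; exact h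

omit P in
theorem PerAAux.sq_le (t : ℕ) : (t + 4) ^ 2 ≤ 2 ^ (t + 4) := by
  induction t with
  | zero => norm_num
  | succ t ih =>
    rw [show t + 1 + 4 = t + 4 + 1 by ring, pow_succ 2 (t + 4)]
    nlinarith [Nat.zero_le t, Nat.zero_le (t * t)]

omit [CompleteSpace B] [IsUltrametricDist B] in
theorem PerAAux.tendsto_zero {J : Ideal (WittVector p O)} {e : ℕ} (hJ : J ^ e ≤ IA p ϖ)
    (a : ℕ → WittVector p O) (ha : ∀ T, a T ∈ J ^ p ^ T) {x : ℕ → B}
    (hx : ∀ T, (p : B) ^ T * x T = j (a T)) : Tendsto x atTop (𝓝 0) := by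
  rw [NormedAddGroup.tendsto_nhds_zero]
  intro ε hε
  obtain ⟨K, hK⟩ := exists_pow_lt_of_lt_one hε (show (1 / 2 : ℝ) < 1 by norm_num)
  refine eventually_atTop.mpr ⟨2 * e + K + 4, fun T hT => ?_⟩
  obtain ⟨t, rfl⟩ : ∃ t, T = t + 4 := ⟨T - 4, by omega⟩
  have h1 : e * (t + 4 + K) ≤ p ^ (t + 4) := by
    have h2 := PerAAux.sq_le t
    have h3 : 2 ^ (t + 4) ≤ p ^ (t + 4) := Nat.pow_le_pow_left (Fact.out : p.Prime).two_le _
    have h4 : e * (t + 4 + K) ≤ (t + 4) ^ 2 := by
      have h5 : 2 * e ≤ t + 4 := by omega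
      have h6 : K ≤ t + 4 := by omega
      nlinarith
    omega
  have h2 := Ideal.pow_le_pow_right h1 (ha (t + 4))
  rw [pow_mul] at h2
  have h3 := P.norm_le _ _ (Ideal.pow_right_mono hJ _ h2)
  rw [← hx, norm_p_pow_mul, pow_add (1 / 2 : ℝ) (t + 4) K] at h3
  exact (le_of_mul_le_mul_left h3 (by positivity)).trans_lt hK

omit [CompleteSpace B] [IsUltrametricDist B] in
theorem PerAAux.norm_c_le {c : ℕ → B} (hc : IntSeq p j c) (t : ℕ) (b : B) :
    (1 / 2) ^ t * ‖c t * b‖ ≤ ‖b‖ := by
  obtain ⟨a, ha⟩ := hc t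
  rw [← norm_p_pow_mul (p := p), ← mul_assoc, ha]
  exact (norm_mul_le _ _).trans (mul_le_of_le_one_left (norm_nonneg _) (P.norm_le_one a))

omit [CompleteSpace B] [IsUltrametricDist B] in
theorem PerAAux.exists_of_tendsto {x : ℕ → B} {L : B} (h : Tendsto x atTop (𝓝 L))
    (hx : ∀ T, ∃ r, x T = p * j r) : ∃ r, L = p * j r := by
  have hu : IsUnit (p : B) := PNorm.unit
  obtain ⟨r, hr⟩ := P.closed.mem_of_tendsto (h.const_mul (Ring.inverse (p : B)))
    (Eventually.of_forall fun T => by
      obtain ⟨r, hr⟩ := hx T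
      exact ⟨r, by rw [hr, ← mul_assoc, Ring.inverse_mul_cancel _ hu, one_mul]⟩)
  exact ⟨r, by rw [hr, ← mul_assoc, Ring.mul_inverse_cancel _ hu, one_mul]⟩

theorem summable_lg {c : ℕ → B} (hc : IntSeq p j c) {a : WittVector p O}
    (ha : a ∈ (IA p ϖ).radical) : Summable fun t => c t * j a ^ p ^ t := by
  refine NonarchimedeanAddGroup.summable_of_tendsto_cofinite_zero ?_
  rw [Nat.cofinite_eq_atTop]
  choose m hm using hc
  obtain ⟨e, he⟩ := ha
  refine PerAAux.tendsto_zero P (J := Ideal.span {a}) (e := e)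
    (by rwa [Ideal.span_singleton_pow, Ideal.span_singleton_le_iff_mem])
    (fun t => m t * a ^ p ^ t)
    (fun t => Ideal.mul_mem_left _ _ (Ideal.pow_mem_pow (Ideal.mem_span_singleton_self a) _))
    fun t => ?_
  rw [← mul_assoc, hm, map_mul, map_pow]

/-- Formal identities between logarithms can be evaluated. -/
theorem lg_eval {α σ : Type} [Fintype α] [Finite σ] (c : α → ℕ → B) (hc : ∀ i, IntSeq p j (c i))
    (ψ : α → MvPowerSeries σ (WittVector p O)) (hψ : ∀ i, constantCoeff (ψ i) = 0)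
    (h : ∑ i, Lg p (c i) (MvPowerSeries.map j (ψ i)) = 0) {a : σ → WittVector p O}
    (ha : ∀ i, a i ∈ (IA p ϖ).radical) :
    ∑ i, lg p (c i) (j (ev (RingHom.id _) a (ψ i))) = 0 := by
  have hok : Ok a := Ok.of_rad (IA p ϖ) ha
  choose m hm using id hc
  have hle : Ideal.span (Set.range a) ≤ (IA p ϖ).radical :=
    Ideal.span_le.mpr (by rintro _ ⟨i, rfl⟩; exact ha i)
  obtain ⟨e, he⟩ := Ideal.exists_pow_le_of_le_radical_of_fg hle
    (Submodule.fg_span (Set.finite_range a))
  let E : ℕ → MvPowerSeries σ (WittVector p O) := fun T =>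
    ∑ i, ∑ t ∈ Finset.range T, C ((p : WittVector p O) ^ (T - t) * m i t) * ψ i ^ p ^ t
  have hpm : ∀ i T t, t ∈ Finset.range T →
      j ((p : WittVector p O) ^ (T - t) * m i t) = (p : B) ^ T * c i t := fun i T t ht => by
    rw [map_mul, map_pow, map_natCast, ← hm, ← mul_assoc, ← pow_add,
      Nat.sub_add_cancel (Finset.mem_range.mp ht).le]
  have hE : ∀ T, E T ∈ PI σ (⊥ : Ideal (WittVector p O)) ^ p ^ T := fun T => by
    have h1 : ∑ i, (Lg p (c i) (MvPowerSeries.map j (ψ i)) - ∑ t ∈ Finset.range T,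
        C (c i t) * MvPowerSeries.map j (ψ i) ^ p ^ t) ∈ PI σ (⊥ : Ideal B) ^ p ^ T :=
      sum_mem fun i _ => Lg_sub_sum_mem _ (FEAux.const_map (hψ i)) T
    rw [Finset.sum_sub_distrib, h, zero_sub, neg_mem_iff] at h1
    have h2 := Ideal.mul_mem_left _ (C ((p : B) ^ T)) h1
    have h3 : MvPowerSeries.map j (E T) = C ((p : B) ^ T) * ∑ i, ∑ t ∈ Finset.range T,
        C (c i t) * MvPowerSeries.map j (ψ i) ^ p ^ t := by
      simp only [E, map_sum, Finset.mul_sum]
      refine Finset.sum_congr rfl fun i _ => Finset.sum_congr rfl fun t ht => ?_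
      rw [map_mul, map_C, hpm i T t ht, map_pow, map_mul, mul_assoc]
    rw [← h3] at h2
    refine mem_PI_bot_pow.mpr fun d hd => P.inj ?_
    rw [← coeff_map, mem_PI_bot_pow.mp h2 d hd, map_zero]
  have h1 : Tendsto (fun T => ∑ i, ∑ t ∈ Finset.range T,
      c i t * j (ev (RingHom.id _) a (ψ i)) ^ p ^ t) atTop (𝓝 0) := by
    refine PerAAux.tendsto_zero P he (fun T => ev (RingHom.id _) a (E T)) (fun T => ?_) fun T => ?_
    · have h2 := Ideal.mem_map_of_mem (ev (RingHom.id _) a) (hE T)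
      rw [Ideal.map_pow] at h2
      refine Ideal.pow_right_mono (Ideal.map_le_iff_le_comap.mpr fun g hg => ?_) _ h2
      exact ev_mem _ hok (fun i => Ideal.subset_span (Set.mem_range_self i)) (mem_PI_bot.mp hg)
    · simp only [E, map_sum, Finset.mul_sum]
      refine Finset.sum_congr rfl fun i _ => Finset.sum_congr rfl fun t ht => ?_
      rw [map_mul, ev_C _ hok, RingHom.id_apply, map_mul j, hpm i T t ht, map_pow, map_pow,
        mul_assoc]
  refine tendsto_nhds_unique (tendsto_finsetSum _ fun i _ => ?_) h1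
  exact (summable_lg P (hc i) (ev_mem _ hok ha (hψ i))).hasSum.tendsto_sum_nat

theorem norm_lg_sub_le {c : ℕ → B} (hc : IntSeq p j c) {a b : WittVector p O}
    (ha : a ∈ (IA p ϖ).radical) (hb : b ∈ (IA p ϖ).radical) (hab : a - b ∈ IA p ϖ) :
    ‖lg p c (j a) - lg p c (j b)‖ ≤ 1 / 2 := by
  rw [lg, lg, ← (summable_lg P hc ha).tsum_sub (summable_lg P hc hb)]
  refine IsUltrametricDist.norm_tsum_le_of_forall_le_of_nonneg (by norm_num) fun t => ?_
  have h1 := pow_p_pow_sub_mem (p := p) (N := IA p ϖ)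
    (Ideal.subset_span (Set.mem_insert _ _)) (k := 0) (a := a) (b := b) (by simpa using hab) t
  have h2 := P.norm_le _ _ h1
  have h3 := PerAAux.norm_c_le P hc t (j (a ^ p ^ t - b ^ p ^ t))
  rw [← mul_sub, ← map_pow, ← map_pow, ← map_sub]
  have h4 := h3.trans h2
  rw [zero_add, add_comm 1 t, pow_succ] at h4
  exact le_of_mul_le_mul_left h4 (by positivity)

theorem lg_sub_eq {c : ℕ → B} (hc : IntSeq p j c) {a b : WittVector p O}
    (ha : a ∈ (IA p ϖ).radical) (hb : b ∈ (IA p ϖ).radical)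
    (hab : a - b ∈ Ideal.span {(p : WittVector p O)}) :
    ∃ r, lg p c (j a) - lg p c (j b) = p * j r := by
  refine PerAAux.exists_of_tendsto P
    ((summable_lg P hc ha).hasSum.sub (summable_lg P hc hb).hasSum).tendsto_sum_nat fun T => ?_
  induction T with
  | zero => exact ⟨0, by simp⟩
  | succ T ih =>
    obtain ⟨r, hr⟩ := ih
    have h1 := pow_p_pow_sub_mem (p := p) (N := Ideal.span {(p : WittVector p O)})
      (Ideal.mem_span_singleton_self _) (k := 0) (a := a) (b := b) (by simpa using hab) T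
    rw [Ideal.span_singleton_pow, Ideal.mem_span_singleton] at h1
    obtain ⟨s, hs⟩ := h1
    obtain ⟨x, hx⟩ := hc T
    refine ⟨r + x * s, ?_⟩
    rw [Finset.sum_range_succ, hr, ← mul_sub, ← map_pow, ← map_pow, ← map_sub, hs, map_add,
      map_mul, map_mul, ← hx, map_pow, map_natCast]
    ring

omit [CompleteSpace B] [IsUltrametricDist B] [PNorm p B] [Good O ϖ] [IsDomain O] in
theorem PerAAux.phi_teich (y : O) (s : ℕ) :
    φ^[s] (j (WittVector.teichmuller p y)) = j (WittVector.teichmuller p y ^ p ^ s) := by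
  induction s with
  | zero => simp
  | succ s ih =>
    rw [Function.iterate_succ_apply', ih, P.comm, map_pow WittVector.frobenius, frobenius_teich,
      ← pow_mul, ← pow_succ']

theorem phi_lg {c : ℕ → B} (hc : IntSeq p j c) {y : O} (hy : y ∈ (Ideal.span {ϖ}).radical)
    (s : ℕ) : φ^[s] (lg p c (j (WittVector.teichmuller p y))) =
      lg p (fun t => φ^[s] (c t)) (j (WittVector.teichmuller p y ^ p ^ s)) := by
  have h1 := (summable_lg P hc (teich_mem_radical hy)).hasSum.map (φ ^ s)
    (by rw [RingHom.coe_pow]; exact P.continuous.iterate s)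
  rw [RingHom.coe_pow] at h1
  refine (HasSum.tsum_eq (PerAAux.hasSum_congr h1 fun t => ?_)).symm
  rw [Function.comp_apply, ← PerAAux.phi_teich P, ← RingHom.coe_pow, map_mul, map_pow]

theorem lT_zero (v : ℕ → O) : lT p j v 0 = 0 := by
  simp [lT, lg, (Fact.out : p.Prime).ne_zero]

theorem norm_lT_sub_le (v : ℕ → O) {y y' : O} (hy : y ∈ (Ideal.span {ϖ}).radical)
    (h : y - y' ∈ Ideal.span {ϖ}) : ‖lT p j v y - lT p j v y'‖ ≤ 1 / 2 := by
  have hy' : y' ∈ (Ideal.span {ϖ}).radical := by
    simpa using sub_mem hy (Ideal.le_radical h)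
  exact norm_lg_sub_le P (intSeq_ll PNorm.unit _) (teich_mem_radical hy) (teich_mem_radical hy')
    (mem_IA.mpr (by rw [map_sub]; simpa using h))

theorem PerAAux.eval_lin {α σ : Type} [Fintype α] [Finite σ] {c : ℕ → B} (hc : IntSeq p j c)
    (w : α → WittVector p O) (ψ : α → MvPowerSeries σ (WittVector p O))
    (hψ : ∀ i, constantCoeff (ψ i) = 0)
    (h : ∑ i, C (j (w i)) * Lg p c (MvPowerSeries.map j (ψ i)) = 0) {a : σ → WittVector p O}
    (ha : ∀ i, a i ∈ (IA p ϖ).radical) :
    ∑ i, j (w i) * lg p c (j (ev (RingHom.id _) a (ψ i))) = 0 := by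
  have h1 := lg_eval P (fun i t => j (w i) * c t) (fun i t => by
    obtain ⟨x, hx⟩ := hc t
    exact ⟨w i * x, by rw [map_mul, ← hx]; ring⟩) ψ hψ (by
      rw [← h]
      exact Finset.sum_congr rfl fun i _ => Lg_mul _ _ (FEAux.const_map (hψ i))) ha
  rw [← h1]
  refine Finset.sum_congr rfl fun i _ => ?_
  rw [lg, lg, ← (summable_lg P hc (ev_mem _ (Ok.of_rad _ ha) ha (hψ i))).tsum_mul_left]
  simp only [mul_assoc]

theorem lT_fadd {n : ℕ} {v : ℕ → O} (hv : ∀ i, n < i → v i = 0) {y y' : O}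
    (hy : y ∈ (Ideal.span {ϖ}).radical) (hy' : y' ∈ (Ideal.span {ϖ}).radical) :
    ∃ r, lT p j v (fadd p n v y y') - lT p j v y - lT p j v y' = p * j r := by
  let V : ℕ → WittVector p O := fun i => WittVector.teichmuller p (v i)
  have hY := teich_mem_radical (p := p) hy
  have hY' := teich_mem_radical (p := p) hy'
  have hr : ∀ i, ![WittVector.teichmuller p y, WittVector.teichmuller p y'] i ∈
      (IA p ϖ).radical := fun i => by fin_cases i <;> simpa
  have h1 := PerAAux.eval_lin P (intSeq_ll PNorm.unit V) ![1, -1, -1] ![Fv p n V, X 0, X 1]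
    (fun i => by fin_cases i <;> simp [HomAux.const_Fv]) (by
      simp only [Fin.sum_univ_three, Matrix.cons_val_zero, Matrix.cons_val_one, Matrix.cons_val]
      rw [map_Fv, Fv_eq, Lg_fadd PNorm.unit (fun i hi => by simp [V, hv i hi]) (by simp) (by simp)]
      simp) hr
  simp only [Fin.sum_univ_three, Matrix.cons_val_zero, Matrix.cons_val_one, Matrix.cons_val,
    ev_X _ (Ok.of_rad _ hr), ← fadd_eq_ev (IA p ϖ) V hY hY', map_one, map_neg, one_mul,
    neg_mul] at h1
  obtain ⟨r, hr⟩ := lg_sub_eq P (intSeq_ll PNorm.unit V)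
    (teich_mem_radical (fadd_mem (p := p) (n := n) _ v hy hy' hy hy'))
    (fadd_mem (p := p) (n := n) _ V hY hY' hY hY') (sub_mem_p_iff.mpr (by
      rw [map_fadd (IA p ϖ) V WittVector.constantCoeff (Ideal.span {ϖ}) hY hY'
        (by simpa using hy) (by simpa using hy')]
      simp [V]))
  refine ⟨r, ?_⟩
  rw [← hr, lT, lT, lT]
  linear_combination h1

theorem lT_fp {n : ℕ} {v : ℕ → O} (hv : ∀ i, n < i → v i = 0) {y : O}
    (hy : y ∈ (Ideal.span {ϖ}).radical) :
    ∃ r, lT p j v (fp p n v y) - p * lT p j v y = p * j r := by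
  let V : ℕ → WittVector p O := fun i => WittVector.teichmuller p (v i)
  have hY := teich_mem_radical (p := p) hy
  have h1 := PerAAux.eval_lin P (σ := Unit) (intSeq_ll PNorm.unit V) ![1, -p]
    ![pser p n V, PowerSeries.X]
    (fun i => by
      fin_cases i
      · exact constantCoeff_pser V
      · exact HomAux.const_X1) (by
      have hX : MvPowerSeries.map j (PowerSeries.X : PowerSeries (WittVector p O)) =
          PowerSeries.X := map_X _ ()
      simp only [Fin.sum_univ_two, Matrix.cons_val_zero, Matrix.cons_val_one]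
      rw [map_pser, HomAux.pser_eq, Lg_fp PNorm.unit (fun i hi => by simp [V, hv i hi])
        HomAux.const_X1, hX]
      simp) (a := fun _ => WittVector.teichmuller p y) fun _ => hY
  simp only [Fin.sum_univ_two, Matrix.cons_val_zero, Matrix.cons_val_one] at h1
  rw [← fp_eq_ev (IA p ϖ) V hY, ev1_X _ (ok_one _ hY), map_one, one_mul, map_neg,
    map_natCast] at h1
  obtain ⟨r, hr⟩ := lg_sub_eq P (intSeq_ll PNorm.unit V)
    (teich_mem_radical (fp_mem (p := p) (n := n) _ v hy hy))
    (fp_mem (p := p) (n := n) _ V hY hY) (sub_mem_p_iff.mpr (by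
      rw [map_fp (IA p ϖ) V WittVector.constantCoeff (Ideal.span {ϖ}) hY (by simpa using hy)]
      simp [V]))
  refine ⟨r, ?_⟩
  rw [← hr, lT, lT]
  linear_combination h1

theorem eq_zero_of_lT (v : ℕ → O) {y : O} (hy : y ∈ (Ideal.span {ϖ}).radical)
    {r : WittVector p O} (h : lT p j v y = p * j r) : y = 0 := by
  by_contra hy0
  let V : ℕ → WittVector p O := fun i => WittVector.teichmuller p (v i)
  set Y := WittVector.teichmuller p y with hYdef
  have hY : Y ∈ (IA p ϖ).radical := teich_mem_radical hy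
  obtain ⟨c, w, hw⟩ := Good.dvd (ϖ := ϖ) (y ^ 2) (pow_ne_zero 2 hy0)
  have h1 := (summable_lg P (intSeq_ll PNorm.unit V) hY).hasSum.tendsto_sum_nat
  change Tendsto _ _ (𝓝 (lT p j v y)) at h1
  rw [h, Metric.tendsto_atTop] at h1
  obtain ⟨T, hT⟩ := h1 ((1 / 2) ^ (c + 1)) (by positivity)
  have h2 := hT (T + 1) (Nat.le_succ T)
  let z : WittVector p O := ∑ t ∈ Finset.range T,
    (p : WittVector p O) ^ (T - (t + 1)) * ml p V (t + 1) * Y ^ p ^ (t + 1)
  have h3 : j ((p : WittVector p O) ^ T * (Y - p * r) + z) = (p : B) ^ T *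
      (∑ t ∈ Finset.range (T + 1), ll p (fun i => j (V i)) t * j Y ^ p ^ t - p * j r) := by
    rw [Finset.sum_range_succ', ll_zero, mul_sub (_ : B), mul_add, Finset.mul_sum, map_add, map_sum,
      Finset.sum_congr rfl fun t ht => show j ((p : WittVector p O) ^ (T - (t + 1)) *
        ml p V (t + 1) * Y ^ p ^ (t + 1)) =
        (p : B) ^ T * (ll p (fun i => j (V i)) (t + 1) * j Y ^ p ^ (t + 1)) by
          rw [map_mul, map_mul, map_ml, ← pow_mul_ll PNorm.unit, map_pow, map_pow, map_natCast,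
            ← mul_assoc, ← pow_add, Nat.sub_add_cancel (Finset.mem_range.mp ht), mul_assoc]]
    simp only [map_mul, map_pow, map_sub, map_natCast]
    ring
  have h4 := P.ex ((p : WittVector p O) ^ T * (Y - p * r) + z) (T + (c + 1)) (by
    rw [h3, norm_p_pow_mul, pow_add, ← dist_eq_norm]
    exact mul_le_mul_of_nonneg_left h2.le (by positivity)) c (by omega)
  have h5 : Ideal.span {WittVector.teichmuller p ϖ ^ c} ≤
      Ideal.span {WittVector.teichmuller p (y ^ 2)} := by
    rw [Ideal.span_singleton_le_span_singleton, ← map_pow, hw, map_mul]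
    exact dvd_mul_right _ _
  have h6 : z ∈ Ideal.span {WittVector.teichmuller p (y ^ 2)} := by
    refine sum_mem fun t _ => Ideal.mul_mem_left _ _ (Ideal.mem_span_singleton.mpr ?_)
    rw [map_pow]
    exact pow_dvd_pow _ ((Fact.out : p.Prime).two_le.trans (Nat.le_self_pow (by omega) p))
  have h7 := sub_mem (sup_le_sup_right h5 _ h4) (Ideal.mem_sup_left h6)
  rw [add_sub_cancel_right, show T + (c + 1) - c = T + 1 by omega] at h7
  obtain ⟨a, ha, b, hb, hab⟩ := Submodule.mem_sup.mp (cancel_p_pow h7 (pow_ne_zero 2 hy0))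
  obtain ⟨a, rfl⟩ := Ideal.mem_span_singleton'.mp ha
  obtain ⟨b, rfl⟩ := Ideal.mem_span_singleton'.mp hb
  have h8 := congrArg WittVector.constantCoeff hab
  simp only [map_add, map_mul, map_sub, map_pow, map_natCast, CharP.cast_eq_zero, hYdef,
    WittVector.constantCoeff_apply (WittVector.teichmuller p _),
    WittVector.teichmuller_coeff_zero] at h8
  have h9 := isUnit_one_add_of_mem_radical (Ideal.span {ϖ})
    (Ideal.mul_mem_left _ (-WittVector.constantCoeff a) hy)
  refine hy0 (h9.mul_right_eq_zero.mp ?_)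
  linear_combination -h8

theorem lT_FE {n : ℕ} {v : ℕ → O} (hv : ∀ i, n < i → v i = 0) {y : O}
    (hy : y ∈ (Ideal.span {ϖ}).radical) :
    p * lT p j v y = p * j (WittVector.teichmuller p y) +
      ∑ i ∈ Finset.Icc 1 n, j (WittVector.teichmuller p (v i)) * φ^[i] (lT p j v y) := by
  let V : ℕ → WittVector p O := fun i => WittVector.teichmuller p (v i)
  set l : ℕ → B := ll p fun i => j (V i) with hl
  have hint : IntSeq p j l := intSeq_ll PNorm.unit V
  set Y := WittVector.teichmuller p y with hYdef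
  have hY : Y ∈ (IA p ϖ).radical := teich_mem_radical hy
  have h0 : HasSum (fun t => l t * j Y ^ p ^ t) (lT p j v y) := (summable_lg P hint hY).hasSum
  have h1 : ∀ i, HasSum (fun t => (if i ≤ t then j (V i) * φ^[i] (l (t - i)) else 0) * j Y ^ p ^ t)
      (j (V i) * φ^[i] (lT p j v y)) := fun i => by
    have h2 := (summable_lg P (hint.iterate P.fed i) (Ideal.pow_mem_of_mem _ hY (p ^ i)
      (pow_pos (Fact.out : p.Prime).pos _))).hasSum.mul_left (j (V i))
    rw [lT, phi_lg P hint hy, ← hasSum_nat_add_iff' i, Finset.sum_eq_zero fun t ht => by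
      rw [if_neg (not_le.mpr (Finset.mem_range.mp ht)), zero_mul], sub_zero]
    refine PerAAux.hasSum_congr h2 fun t => ?_
    rw [if_pos (Nat.le_add_left i t), Nat.add_sub_cancel, map_pow, ← pow_mul, ← pow_add,
      add_comm i t, mul_assoc]
  have h2 : HasSum (fun t => (if t = 0 then (p : B) else 0) * j Y ^ p ^ t) (p * j Y) := by
    convert hasSum_single (f := fun t => (if t = 0 then (p : B) else 0) * j Y ^ p ^ t) 0
      (fun t ht => by rw [if_neg ht, zero_mul]) using 1
    simp
  refine (h0.mul_left (p : B)).unique ?_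
  refine PerAAux.hasSum_congr (h2.add (hasSum_sum fun i (_ : i ∈ Finset.Icc 1 n) => h1 i)) fun t => ?_
  rw [← mul_assoc, ← Finset.sum_mul, ← add_mul]
  congr 1
  cases t with
  | zero =>
    rw [if_pos rfl, hl, ll_zero, mul_one, Finset.sum_eq_zero, add_zero]
    intro i hi
    exact if_neg (by have := (Finset.mem_Icc.mp hi).1; omega)
  | succ t =>
    rw [if_neg (Nat.succ_ne_zero t), zero_add, hl, ll_succ' PNorm.unit _ φ
      (fun i => by rw [P.comm, frobenius_teich, map_pow]), ← hl, ← Finset.sum_filter,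
      Finset.sum_congr rfl fun i _ => show j (V (i + 1)) * φ^[i + 1] (l (t - i)) =
        j (V (i + 1)) * φ^[i + 1] (l (t + 1 - (i + 1))) by rw [Nat.add_sub_add_right],
      Finset.range_eq_Ico,
      Finset.sum_Ico_add' (fun i => j (V i) * φ^[i] (l (t + 1 - i))) 0 (t + 1) 1]
    symm
    refine Finset.sum_subset (fun i hi => ?_) fun i hi hi' => ?_
    · simp only [Finset.mem_filter, Finset.mem_Icc, Finset.mem_Ico] at hi ⊢
      omega
    · simp only [Finset.mem_filter, Finset.mem_Icc, Finset.mem_Ico] at hi hi'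
      simp [V, hv i (by omega)]

omit P [CharP O p] [PerfectRing O p] [IsDomain O] [Good O ϖ] [CompleteSpace B]
  [IsUltrametricDist B] [PNorm p B] in
theorem PerAAux.teich_eH (n : ℕ) :
    (fun i => j (WittVector.teichmuller p (eH O n i))) = eH B n := by
  funext i
  simp only [eH]
  split_ifs <;> simp

theorem lT_eH_mul {n : ℕ} (hn : 1 ≤ n) {a : O} (ha : a ^ p ^ n = a) (t : ℕ) {y : O}
    (hy : y ∈ (Ideal.span {ϖ}).radical) :
    lT p j (eH O n) (a * y ^ p ^ t) =
      j (WittVector.teichmuller p a) * φ^[t] (lT p j (eH O n) y) := by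
  have hint := intSeq_ll (p := p) (ι := j) PNorm.unit fun i => WittVector.teichmuller p (eH O n i)
  have hY := Ideal.pow_mem_of_mem _ (teich_mem_radical (p := p) hy) (p ^ t)
    (pow_pos (Fact.out : p.Prime).pos _)
  rw [lT, lT, phi_lg P hint hy, lg, lg,
    ← (summable_lg P (hint.iterate P.fed t) hY).tsum_mul_left, PerAAux.teich_eH]
  refine tsum_congr fun s => ?_
  have h1 : φ^[t] (ll p (eH B n) s) = ll p (eH B n) s :=
    Function.iterate_fixed (by rw [map_ll φ PNorm.unit, map_eH]) t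
  rw [h1, map_mul, map_mul, mul_pow, map_pow (WittVector.teichmuller p) y, ll_eH PNorm.unit hn]
  split_ifs with hs
  · obtain ⟨k, rfl⟩ := hs
    have h2 : a ^ p ^ (n * k) = a := by
      clear h1
      induction k with
      | zero => simp
      | succ k ih => rw [mul_add, mul_one, pow_add, pow_mul, ih, ha]
    rw [← map_pow j (WittVector.teichmuller p a), ← map_pow (WittVector.teichmuller p) a, h2]
    ring
  · simp

end Vale.Agent.P217
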