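import Vale.Agent.P217.Fgl

/-! The `p`-series. -/

namespace Vale.Agent.P217

open MvPowerSeries

variable {R S T K : Type*} [CommRing R] [CommRing S] [CommRing T] [CommRing K] {σ τ : Type*}

open Classical in
/-- A point from an element of the ring (junk value `0` outside the radical). -/
noncomputable def toPt (p n : ℕ) (I : Ideal S) (v : ℕ → S) (a : S) : Pt p n I v :=
  if h : a ∈ I.radical then ⟨a, h⟩ else ⟨0, zero_mem _⟩

theorem val_toPt {p n : ℕ} {I : Ideal S} {v : ℕ → S} {a : S} (h : a ∈ I.radical) :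
    (toPt p n I v a).1 = a := by
  rw [toPt, dif_pos h]

theorem toPt_val {p n : ℕ} {I : Ideal S} {v : ℕ → S} (a : Pt p n I v) :
    toPt p n I v a.1 = a := by
  rw [toPt, dif_pos a.2]

variable (p : ℕ) [hp' : Fact p.Prime] (n : ℕ)

/-- The universal `p`-series. -/
noncomputable def Pu : PowerSeries UU :=
  (p • toPt p n (PI Unit ⊥) (fun j => (C (MvPolynomial.X j) : PowerSeries UU)) PowerSeries.X).1

/-- The `p`-series with parameters `v`. -/
noncomputable def pser (v : ℕ → S) : PowerSeries S := MvPowerSeries.map (spec v) (Pu p n)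

/-- Multiplication by `p` on points. -/
noncomputable def fp (v : ℕ → S) (a : S) : S := ev1 (spec v) a (Pu p n)

/-- In characteristic `p` and height `≥ h` the `p`-series is `Pq (X ^ p ^ h)`. -/
noncomputable def Pq (h : ℕ) (v : ℕ → S) : PowerSeries S :=
  (∑ j ∈ Finset.Icc h n, toPt p n (PI Unit ⊥) (fun j => (C (v j) : PowerSeries S))
    (C (v j) * PowerSeries.X ^ p ^ (j - h))).1

/-- Parameters of Lubin-Tate type modulo `I`. -/
structure LTp (p n : ℕ) (I : Ideal S) (v : ℕ → S) : Prop where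
  hp : (p : S) ∈ I
  low : ∀ j, 1 ≤ j → j < n → v j ∈ I
  top : v n = 1

variable {p n}

namespace PserAux

omit hp' in
theorem val0 (v : ℕ → MvPowerSeries σ S) {a : MvPowerSeries σ S} (ha : constantCoeff a = 0) :
    (toPt p n (PI σ ⊥) v a).1 = a :=
  val_toPt (S := MvPowerSeries σ S) (mem_PI_radical_of_zero ⊥ ha)

omit hp' in
theorem valX (v : ℕ → PowerSeries S) : (toPt p n (PI Unit ⊥) v PowerSeries.X).1 = PowerSeries.X :=
  val0 v (constantCoeff_X ())

theorem const_nsmul [Finite σ] (v : ℕ → MvPowerSeries σ S) (m : ℕ) {a : MvPowerSeries σ S}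
    (ha : constantCoeff a = 0) : constantCoeff (m • toPt p n (PI σ ⊥) v a).1 = 0 := by
  have h : toPt p n (PI σ ⊥) v a ∈ Pt.sub p n (PI σ ⊥) v (PI σ ⊥) := by
    rw [Pt.mem_sub, val0 v ha]
    exact mem_PI_bot.2 ha
  exact mem_PI_bot.1 (nsmul_mem h m)

theorem ev_rad [Finite σ] (c : R →+* S) (I : Ideal S) [IsAdicComplete I S] {a : σ → S}
    (ha : ∀ i, a i ∈ I.radical) (x : MvPowerSeries σ R) (hx : x ∈ (PI σ (⊥ : Ideal R)).radical) :
    ev c a x ∈ I.radical := by
  obtain ⟨k, hk⟩ := hx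
  have h := ev_mem c (Ok.of_rad I ha) ha (mem_PI_bot.1 hk)
  rw [map_pow] at h
  exact Ideal.mem_radical_of_pow_mem h

theorem map_rad (ψ : R →+* S) (x : MvPowerSeries σ R)
    (hx : x ∈ (PI σ (⊥ : Ideal R)).radical) :
    MvPowerSeries.map ψ x ∈ (PI σ (⊥ : Ideal S)).radical := by
  obtain ⟨k, hk⟩ := hx
  exact ⟨k, by rw [← map_pow]; exact mem_PI_bot.2 (FglAux.const_map (mem_PI_bot.1 hk))⟩

theorem map_toPt {I : Ideal S} [IsAdicComplete I S] {v : ℕ → S} (Ψ : S →+* T) {J : Ideal T}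
    [IsAdicComplete J T] {w : ℕ → T} (hΨ : ∀ a ∈ I.radical, Ψ a ∈ J.radical)
    (hv : ∀ j, Ψ (v j) = w j) {a : S} (ha : a ∈ I.radical) :
    Pt.map Ψ hΨ hv (toPt p n I v a) = toPt p n J w (Ψ a) :=
  Pt.ext (by rw [Pt.val_map, val_toPt ha, val_toPt (hΨ a ha)])

theorem X_rad : (PowerSeries.X : PowerSeries S) ∈ (PI Unit (⊥ : Ideal S)).radical :=
  mem_PI_radical_of_zero _ (constantCoeff_X ())

theorem const_term (r : S) (j : ℕ) :
    constantCoeff (C r * PowerSeries.X ^ p ^ j : PowerSeries S) = 0 := by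
  have h : constantCoeff (PowerSeries.X : PowerSeries S) = 0 := constantCoeff_X ()
  rw [map_mul, map_pow, h, zero_pow (pow_ne_zero _ hp'.out.ne_zero), mul_zero]

theorem val_p_smul {I : Ideal S} [IsAdicComplete I S] {v : ℕ → S} (a : Pt p n I v) :
    (p • a).1 = fp p n v a.1 := by
  have hv : ∀ j, ev1 (spec v) a.1 (C (MvPolynomial.X j)) = v j := fun j => by
    rw [ev_C _ (ok_one I a.2), spec_X]
  have h := map_nsmul (Pt.map (p := p) (n := n) (ev1 (spec v) a.1)
    (ev_rad (spec v) I fun _ => a.2) hv) p (toPt p n _ _ PowerSeries.X)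
  rw [map_toPt (S := PowerSeries UU) _ _ _ X_rad, ev1_X _ (ok_one I a.2), toPt_val] at h
  rw [← h]
  rfl

theorem pser_eq_fp (v : ℕ → S) :
    pser p n v = fp p n (fun j => (C (v j) : PowerSeries S)) PowerSeries.X := by
  rw [fp, ← comp_spec]
  exact (ev_C_comp_X _ _).symm

theorem pser_eq_smul (v : ℕ → S) : pser p n v =
    (p • toPt p n (PI Unit ⊥) (fun j => (C (v j) : PowerSeries S)) PowerSeries.X).1 := by
  rw [val_p_smul, valX, pser_eq_fp]

end PserAux

theorem constantCoeff_Pu : constantCoeff (Pu p n) = 0 := by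
  exact PserAux.const_nsmul _ p (constantCoeff_X ())

theorem constantCoeff_pser (v : ℕ → S) : constantCoeff (pser p n v) = 0 := by
  exact FglAux.const_map constantCoeff_Pu

theorem coeff_one_pser (v : ℕ → S) : PowerSeries.coeff 1 (pser p n v) = p := by
  have h := Pt.val_nsmul_sub_mem p
    (toPt p n (PI Unit ⊥) (fun j => (C (v j) : PowerSeries S)) PowerSeries.X)
  rw [← PserAux.pser_eq_smul, PserAux.valX] at h
  obtain ⟨g, hg⟩ := Ideal.mem_span_singleton.1 h
  have h2 := congrArg (PowerSeries.coeff 1) hg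
  rw [PowerSeries.coeff_X_pow_mul', if_neg (by norm_num), map_sub, sub_eq_zero] at h2
  rw [h2, ← nsmul_eq_mul, map_nsmul, PowerSeries.coeff_one_X, nsmul_one]

theorem map_pser (ψ : S →+* T) (v : ℕ → S) :
    MvPowerSeries.map ψ (pser p n v) = pser p n fun j => ψ (v j) := by
  rw [pser, pser, ← comp_spec, map_comp, RingHom.comp_apply]

theorem map_Fv (ψ : S →+* T) (v : ℕ → S) :
    MvPowerSeries.map ψ (Fv p n v) = Fv p n fun j => ψ (v j) := by
  rw [Fv, Fv, ← comp_spec, map_comp, RingHom.comp_apply]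

theorem pser_sub_pser_mem {N : Ideal S} {v w : ℕ → S} (h : ∀ j, v j - w j ∈ N) :
    pser p n v - pser p n w ∈ cI Unit N := by
  exact FglAux.map_spec_sub h _

theorem fp_C [Finite τ] (v : ℕ → S) {a : MvPowerSeries τ S} (ha : constantCoeff a = 0) :
    fp p n (fun j => C (v j)) a = ev1 C a (pser p n v) := by
  rw [fp, pser, ev_map _ _ (Ok.of_const fun _ => ha), comp_spec]

section

variable (I : Ideal S) [IsAdicComplete I S] (v : ℕ → S)

theorem Pt.val_p_smul {I : Ideal S} [IsAdicComplete I S] {v : ℕ → S} (a : Pt p n I v) :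
    (p • a).1 = fp p n v a.1 := by
  exact PserAux.val_p_smul a

theorem Pt.val_pow_smul {I : Ideal S} [IsAdicComplete I S] {v : ℕ → S} (a : Pt p n I v)
    (r : ℕ) : (p ^ r • a).1 = (fp p n v)^[r] a.1 := by
  induction r with
  | zero => simp
  | succ r ih => rw [pow_succ', mul_smul, Pt.val_p_smul, ih, Function.iterate_succ_apply']

theorem fp_eq_ev {a : S} (ha : a ∈ I.radical) :
    fp p n v a = ev1 (RingHom.id S) a (pser p n v) := by
  rw [fp, pser, ev_map _ _ (ok_one I ha), RingHom.id_comp]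

theorem fp_mem {a : S} (ha : a ∈ I.radical) {N : Ideal S} (ha' : a ∈ N) : fp p n v a ∈ N :=
  ev_mem _ (ok_one I ha) (fun _ => ha') constantCoeff_Pu

theorem fp_iter_mem {a : S} (ha : a ∈ I.radical) {N : Ideal S} (ha' : a ∈ N) (r : ℕ) :
    (fp p n v)^[r] a ∈ I.radical ∧ (fp p n v)^[r] a ∈ N := by
  induction r with
  | zero => exact ⟨ha, ha'⟩
  | succ r ih =>
    rw [Function.iterate_succ_apply']
    exact ⟨fp_mem I v ih.1 ih.1, fp_mem I v ih.1 ih.2⟩

theorem map_fp (Ψ : S →+* T) (J : Ideal T) [IsAdicComplete J T] {a : S} (ha : a ∈ I.radical)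
    (ha' : Ψ a ∈ J.radical) : Ψ (fp p n v a) = fp p n (fun j => Ψ (v j)) (Ψ a) := by
  rw [fp, map_ev Ψ _ (ok_one I ha) (ok_one J ha'), comp_spec, fp]

theorem map_fp_iter (Ψ : S →+* T) (J : Ideal T) [IsAdicComplete J T] {a : S}
    (ha : a ∈ I.radical) (ha' : Ψ a ∈ J.radical) (r : ℕ) :
    Ψ ((fp p n v)^[r] a) = (fp p n fun j => Ψ (v j))^[r] (Ψ a) := by
  induction r with
  | zero => rfl
  | succ r ih =>
    rw [Function.iterate_succ_apply', Function.iterate_succ_apply',
      map_fp I v Ψ J (fp_iter_mem I v ha ha r).1 (by rw [ih]; exact (fp_iter_mem J _ ha' ha' r).1),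
      ih]

theorem fp_eq {a : S} (ha : a ∈ I.radical) : ∃ g, fp p n v a = p * a + a ^ 2 * g := by
  have h := Pt.val_nsmul_sub_mem p (⟨a, ha⟩ : Pt p n I v)
  rw [Pt.val_p_smul] at h
  obtain ⟨g, hg⟩ := Ideal.mem_span_singleton.1 h
  exact ⟨g, by linear_combination hg⟩

theorem fp_congr {a b : S} (ha : a ∈ I.radical) (hb : b ∈ I.radical) {N : Ideal S}
    (h : a - b ∈ N) : fp p n v a - fp p n v b ∈ N := by
  exact ev_sub_ev_mem (spec v) I (fun _ => ha) (fun _ => hb) (fun _ => h) _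

omit I v hp' in
theorem PserAux.constU [Finite σ] (x : Pt p n (PI σ ⊥) (FglAux.VU σ)) : constantCoeff x.1 = 0 := by
  have h := mem_PI_radical.1 x.2
  rwa [Ideal.radical_bot_of_isReduced, Ideal.mem_bot] at h

omit I v in
theorem PserAux.univ_eq : Pu p n - (∑ j ∈ Finset.Icc 1 n, toPt p n (PI Unit ⊥) (FglAux.VU Unit)
    (C (MvPolynomial.X j) * PowerSeries.X ^ p ^ j)).1 ∈ Ideal.span {(p : PowerSeries UU)} := by
  obtain ⟨φ, D⟩ := FglAux.fed p
  let L : Pt p n (PI Unit ⊥) (FglAux.VU Unit) →+ PowerSeries (KU p) :=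
    AddMonoidHom.mk' (fun x => FglAux.LU p n x.1) fun x y =>
      FglAux.LU_add (PserAux.constU x) (PserAux.constU y)
  have hL : ∀ x, L x = Lg p (lU p n) (MvPowerSeries.map (algebraMap UU (KU p)) x.1) := fun _ => rfl
  refine sub_mem_of_pInt D.inj D.unit (c := lU p n) (intSeq_ll D.unit _) (ll_zero _)
    constantCoeff_Pu (PserAux.constU _) ⟨PowerSeries.X, ?_⟩
  have hX : MvPowerSeries.map (algebraMap UU (KU p)) (PowerSeries.X : PowerSeries UU) =
      PowerSeries.X := map_X _ ()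
  have h := Lg_FE1 (σ := Unit) D.unit (n := n)
    (v := fun j => algebraMap UU (KU p) (tr n (MvPolynomial.X : ℕ → UU) j))
    (fun j hj => by simp only [FglAux.tr_high n j hj, map_zero]) (ψ := PowerSeries.X)
    (constantCoeff_X ())
  rw [Pu, ← hL, ← hL, map_nsmul, map_sum, hL, PserAux.valX, hX, nsmul_eq_mul, lU, h,
    add_sub_assoc, add_eq_left, sub_eq_zero]
  refine Finset.sum_congr rfl fun j hj => ?_
  rw [hL, PserAux.val0 _ (PserAux.const_term _ _), map_mul, map_pow, hX,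
    map_C, tr, if_pos (Finset.mem_Icc.1 hj).2, lU]

/-- `[p](a) = ∑^F v_j a ^ (p ^ j)` in characteristic `p`. -/
theorem Pt.p_smul_eq {I : Ideal S} [IsAdicComplete I S] {v : ℕ → S} (hp : (p : S) = 0)
    (a : Pt p n I v) : p • a = ∑ j ∈ Finset.Icc 1 n, toPt p n I v (v j * a.1 ^ p ^ j) := by
  have hv : ∀ j, ev1 (spec v) a.1 (C (MvPolynomial.X j)) = v j := fun j => by
    rw [ev_C _ (ok_one I a.2), spec_X]
  obtain ⟨r, hr⟩ := Ideal.mem_span_singleton.1 (PserAux.univ_eq (p := p) (n := n))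
  have h1 := congrArg (ev1 (spec v) a.1) hr
  rw [map_mul, map_natCast, hp, zero_mul, map_sub, sub_eq_zero] at h1
  have h2 := map_sum (Pt.map (p := p) (n := n) (ev1 (spec v) a.1)
    (PserAux.ev_rad (spec v) I fun _ => a.2) hv) (fun j => toPt p n _ _
      (C (MvPolynomial.X j) * PowerSeries.X ^ p ^ j)) (Finset.Icc 1 n)
  refine Pt.ext ?_
  rw [Pt.val_p_smul, fp, h1]
  refine (congrArg Pt.val h2).trans (congrArg Pt.val (Finset.sum_congr rfl fun j _ => ?_))
  rw [PserAux.map_toPt (S := PowerSeries UU) _ _ _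
    (mem_PI_radical_of_zero ⊥ (PserAux.const_term _ _)), map_mul, map_pow, hv, ev1_X _ (ok_one I a.2)]

end

theorem Lg_fp [Finite σ] (hp : IsUnit (p : K)) {v : ℕ → K} (hv : ∀ j, n < j → v j = 0)
    {a : MvPowerSeries σ K} (ha : constantCoeff a = 0) :
    Lg p (ll p v) (fp p n (fun j => C (v j)) a) = (p : MvPowerSeries σ K) * Lg p (ll p v) a := by
  have h : ∀ m : ℕ, Lg p (ll p v) (m • toPt p n (PI σ ⊥) (fun j => C (v j)) a).1 =
      (m : MvPowerSeries σ K) * Lg p (ll p v) a := by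
    intro m
    induction m with
    | zero => rw [zero_nsmul, Pt.val_zero, Lg_zero, Nat.cast_zero, zero_mul]
    | succ m ih =>
      rw [succ_nsmul, Pt.val_add, PserAux.val0 _ ha,
        Lg_fadd hp hv (PserAux.const_nsmul _ m ha) ha, ih, Nat.cast_succ, add_mul, one_mul]
  rw [← h p, Pt.val_p_smul, PserAux.val0 _ ha]

end Vale.Agent.P217
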