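import Vale.Agent.P217.Pser

/-! The shape of the `p`-series. -/

namespace Vale.Agent.P217

open MvPowerSeries

variable {R S T K : Type*} [CommRing R] [CommRing S] [CommRing T] [CommRing K] {σ τ : Type*}
variable {p : ℕ} [hp' : Fact p.Prime] {n : ℕ}

theorem map_Pq (ψ : S →+* T) (h : ℕ) (v : ℕ → S) :
    MvPowerSeries.map ψ (Pq p n h v) = Pq p n h fun j => ψ (v j) := by
  have h2 := map_sum (Pt.map (p := p) (n := n) (S := PowerSeries S) (T := PowerSeries T)
    (I := PI Unit ⊥) (J := PI Unit ⊥) (v := fun j => C (v j)) (w := fun j => C (ψ (v j)))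
    (MvPowerSeries.map ψ) (PserAux.map_rad ψ) fun j => map_C ψ (v j))
    (fun j => toPt p n _ _ (C (v j) * PowerSeries.X ^ p ^ (j - h))) (Finset.Icc h n)
  refine (congrArg Pt.val h2).trans (congrArg Pt.val (Finset.sum_congr rfl fun j _ => ?_))
  have hX : MvPowerSeries.map ψ (PowerSeries.X : PowerSeries S) = PowerSeries.X := map_X _ ()
  rw [PserAux.map_toPt (S := PowerSeries S) _ _ _
    (mem_PI_radical_of_zero ⊥ (PserAux.const_term _ _)), map_mul, map_pow, map_C, hX]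

theorem constantCoeff_Pq (h : ℕ) (v : ℕ → S) : constantCoeff (Pq p n h v) = 0 := by
  refine mem_PI_bot.1 (Pt.mem_sub.1 (sum_mem fun j _ => ?_))
  rw [Pt.mem_sub, PserAux.val0 _ (PserAux.const_term _ _)]
  exact mem_PI_bot.2 (PserAux.const_term _ _)

theorem Pser2Aux.Pq_eq {h : ℕ} (hh : h ≤ n) (v : ℕ → S) :
    ∃ g, Pq p n h v = C (v h) * PowerSeries.X + PowerSeries.X ^ 2 * g := by
  have h1 := Pt.val_sum_sub_mem (Finset.Icc h n) (fun j => toPt p n (PI Unit ⊥)
    (fun j => (C (v j) : PowerSeries S)) (C (v j) * PowerSeries.X ^ p ^ (j - h)))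
    (N := Ideal.span {PowerSeries.X}) fun j _ => by
      rw [PserAux.val0 _ (PserAux.const_term _ _)]
      exact Ideal.mul_mem_left _ _ (Ideal.pow_mem_of_mem _ (Ideal.mem_span_singleton_self _) _
        (pow_pos hp'.out.pos _))
  simp only [PserAux.val0 _ (PserAux.const_term _ _)] at h1
  rw [Ideal.span_singleton_pow, ← Finset.add_sum_erase _
    (fun j => (C (v j) * PowerSeries.X ^ p ^ (j - h) : PowerSeries S))
    (Finset.mem_Icc.2 ⟨le_rfl, hh⟩), Nat.sub_self, pow_zero, pow_one] at h1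
  have h2 : ∑ j ∈ (Finset.Icc h n).erase h, (C (v j) * PowerSeries.X ^ p ^ (j - h) : PowerSeries S)
      ∈ Ideal.span {(PowerSeries.X : PowerSeries S) ^ 2} := by
    refine sum_mem fun j hj => Ideal.mul_mem_left _ _ (Ideal.mem_span_singleton.2 (pow_dvd_pow _ ?_))
    have h3 := Finset.mem_erase.1 hj
    have h4 := (Finset.mem_Icc.1 h3.2).1
    exact hp'.out.two_le.trans (Nat.le_self_pow (by omega) p)
  obtain ⟨g, hg⟩ := Ideal.mem_span_singleton.1 (add_mem h1 h2)
  exact ⟨g, by rw [Pq]; linear_combination hg⟩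

theorem coeff_one_Pq {h : ℕ} (hh : h ≤ n) (v : ℕ → S) :
    PowerSeries.coeff 1 (Pq p n h v) = v h := by
  obtain ⟨g, hg⟩ := Pser2Aux.Pq_eq (p := p) hh v
  rw [hg, map_add, PowerSeries.coeff_X_pow_mul', if_neg (by norm_num), add_zero]
  exact (PowerSeries.coeff_C_mul 1 _ (v h)).trans (by rw [PowerSeries.coeff_one_X, mul_one])

theorem pser_eq_expand (hp : (p : S) = 0) {h : ℕ} (hh : 1 ≤ h) {v : ℕ → S}
    (hv : ∀ j, 1 ≤ j → j < h → v j = 0) :
    pser p n v = expand (p ^ h) (pow_ne_zero h hp'.out.ne_zero) (Pq p n h v) := by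
  have hq : ∀ _ : Unit, (PowerSeries.X : PowerSeries S) ^ p ^ h ∈ (PI Unit (⊥ : Ideal S)).radical :=
    fun _ => Ideal.pow_mem_of_mem (PI Unit (⊥ : Ideal S)).radical PserAux.X_rad _
      (pow_pos hp'.out.pos _)
  have hok := Ok.of_rad (PI Unit (⊥ : Ideal S)) hq
  have h2 := map_sum (Pt.map (p := p) (n := n) (S := PowerSeries S) (T := PowerSeries S)
    (I := PI Unit ⊥) (J := PI Unit ⊥) (v := fun j => C (v j)) (w := fun j => C (v j))
    (ev1 C (PowerSeries.X ^ p ^ h)) (PserAux.ev_rad (C : S →+* PowerSeries S) (PI Unit ⊥) hq)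
    fun j => ev_C (C : S →+* PowerSeries S) hok (v j))
    (fun j => toPt p n _ _ (C (v j) * PowerSeries.X ^ p ^ (j - h))) (Finset.Icc h n)
  have hp2 : (p : PowerSeries S) = 0 := by rw [← map_natCast (C : S →+* PowerSeries S), hp, map_zero]
  have h4 := Pt.p_smul_eq (p := p) (n := n) (S := PowerSeries S) (I := PI Unit ⊥) hp2
    (toPt p n (PI Unit ⊥) (fun j => (C (v j) : PowerSeries S)) PowerSeries.X)
  rw [PserAux.valX] at h4
  rw [PserAux.pser_eq_smul, h4]
  refine Eq.trans ?_ (expand_eq_ev _ _).symm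
  refine Eq.trans (congrArg Pt.val ?_) (congrArg Pt.val h2).symm
  rw [← Finset.sum_subset (Finset.Icc_subset_Icc_left hh)]
  · refine Finset.sum_congr rfl fun j hj => ?_
    rw [PserAux.map_toPt (S := PowerSeries S) _ _ _
      (mem_PI_radical_of_zero ⊥ (PserAux.const_term _ _)), map_mul, map_pow,
      ev_C (C : S →+* PowerSeries S) hok, ev1_X (C : S →+* PowerSeries S) hok,
      ← pow_mul, ← pow_add, Nat.add_sub_cancel' (Finset.mem_Icc.1 hj).1]
  · intro j h1 h3
    rw [Finset.mem_Icc] at h1 h3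
    refine Pt.ext ?_
    rw [PserAux.val0 _ (PserAux.const_term _ _), hv j h1.1 (by omega), map_zero, zero_mul]
    rfl

theorem fp_eq_Pq (I : Ideal S) [IsAdicComplete I S] (hp : (p : S) = 0) {h : ℕ} (hh : 1 ≤ h)
    {v : ℕ → S} (hv : ∀ j, 1 ≤ j → j < h → v j = 0) {a : S} (ha : a ∈ I.radical) :
    fp p n v a = ev1 (RingHom.id S) (a ^ p ^ h) (Pq p n h v) := by
  rw [fp_eq_ev I v ha, pser_eq_expand hp hh hv]
  exact ev_expand _ I (fun _ => ha) _ _

theorem Pser2Aux.Pq_top {h : ℕ} (hh : h ≤ n) {v : ℕ → S}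
    (hv : ∀ j, h ≤ j → j < n → v j = 0) (hn : v n = 1) :
    Pq p n h v = PowerSeries.X ^ p ^ (n - h) := by
  rw [Pq, Finset.sum_eq_single_of_mem n (Finset.mem_Icc.2 ⟨hh, le_rfl⟩),
    PserAux.val0 _ (PserAux.const_term _ _), hn, map_one, one_mul]
  intro j hj hjn
  rw [Finset.mem_Icc] at hj
  refine Pt.ext ?_
  rw [PserAux.val0 _ (PserAux.const_term _ _), hv j hj.1 (by omega), map_zero, zero_mul]
  rfl

theorem Pser2Aux.pser_top (hp : (p : S) = 0) (hn : 1 ≤ n) {v : ℕ → S}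
    (hv : ∀ j, 1 ≤ j → j < n → v j = 0) (h1 : v n = 1) :
    pser p n v = PowerSeries.X ^ p ^ n := by
  rw [pser_eq_expand hp hn hv, Pser2Aux.Pq_top le_rfl (fun j h1 h2 => by omega) h1, Nat.sub_self,
    pow_zero, pow_one]
  exact expand_X _ _ ()

theorem Pq_sub_mem {N : Ideal S} {h : ℕ} (hh : h ≤ n) {v : ℕ → S}
    (hv : ∀ j, h ≤ j → j < n → v j ∈ N) (hn : v n = 1) :
    Pq p n h v - PowerSeries.X ^ p ^ (n - h) ∈ cI Unit N := by
  have hX : MvPowerSeries.map (Ideal.Quotient.mk N) (PowerSeries.X : PowerSeries S) =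
      PowerSeries.X := map_X _ ()
  rw [cI, RingHom.mem_ker, map_sub, map_Pq, map_pow, hX, sub_eq_zero]
  exact Pser2Aux.Pq_top hh (fun j h1 h2 => Ideal.Quotient.eq_zero_iff_mem.2 (hv j h1 h2))
    (by rw [hn, map_one])

omit hp' in
theorem Pser2Aux.p_zero {N : Ideal S} (hp : (p : S) ∈ N) : (p : S ⧸ N) = 0 := by
  rw [← map_natCast (Ideal.Quotient.mk N), Ideal.Quotient.eq_zero_iff_mem]
  exact hp

theorem pser_sub_mem (hn : 1 ≤ n) {I : Ideal S} {v : ℕ → S} (hv : LTp p n I v) :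
    pser p n v - PowerSeries.X ^ p ^ n ∈ cI Unit I := by
  have hX : MvPowerSeries.map (Ideal.Quotient.mk I) (PowerSeries.X : PowerSeries S) =
      PowerSeries.X := map_X _ ()
  rw [cI, RingHom.mem_ker, map_sub, map_pser, map_pow, hX, sub_eq_zero]
  exact Pser2Aux.pser_top (Pser2Aux.p_zero hv.hp) hn
    (fun j h1 h2 => Ideal.Quotient.eq_zero_iff_mem.2 (hv.low j h1 h2)) (by rw [hv.top, map_one])

theorem pser_eH (hp : (p : S) = 0) (hn : 1 ≤ n) :
    pser p n (eH S n) = PowerSeries.X ^ p ^ n := by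
  exact Pser2Aux.pser_top hp hn (fun j _ h => if_neg h.ne) (if_pos rfl)

theorem fp_eH (I : Ideal S) [IsAdicComplete I S] (hp : (p : S) = 0) (hn : 1 ≤ n) {a : S}
    (ha : a ∈ I.radical) : fp p n (eH S n) a = a ^ p ^ n := by
  rw [fp_eq_ev I _ ha, pser_eH hp hn, map_pow, ev1_X _ (ok_one I ha)]

theorem fp_eH_iter (I : Ideal S) [IsAdicComplete I S] (hp : (p : S) = 0) (hn : 1 ≤ n) {a : S}
    (ha : a ∈ I.radical) (r : ℕ) : (fp p n (eH S n))^[r] a = a ^ (p ^ n) ^ r := by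
  induction r with
  | zero => simp
  | succ r ih =>
    rw [Function.iterate_succ_apply', fp_eH I hp hn (fp_iter_mem I _ ha ha r).1, ih, ← pow_mul,
      ← pow_succ]

theorem fp_sub_pow_mem (I : Ideal S) [IsAdicComplete I S] (hn : 1 ≤ n) {π : S} {v : ℕ → S}
    (hv : LTp p n (Ideal.span {π}) v) {a : S} (ha : a ∈ I.radical) :
    fp p n v a - a ^ p ^ n ∈ Ideal.span {π} := by
  have h := ev_mem_of_cI (RingHom.id S) (ok_one I ha) (pser_sub_mem hn hv)
  rwa [map_sub, map_pow, ← fp_eq_ev I v ha, ev1_X _ (ok_one I ha)] at h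

/-- In characteristic `p` and height `≥ h`, multiplication by `p` contracts strongly. -/
theorem fp_sub_fp_mem (I : Ideal S) [IsAdicComplete I S] (hp : (p : S) = 0) {h : ℕ} (hh : 1 ≤ h)
    {v : ℕ → S} (hv : ∀ j, 1 ≤ j → j < h → v j = 0) {a b : S} (ha : a ∈ I.radical)
    (hb : b ∈ I.radical) {N : Ideal S} (hab : a - b ∈ N) :
    fp p n v a - fp p n v b ∈ N ^ p ^ h := by
  rw [fp_eq_Pq I hp hh hv ha, fp_eq_Pq I hp hh hv hb]
  have hq := pow_pos hp'.out.pos h
  refine ev_sub_ev_mem _ I (fun _ => Ideal.pow_mem_of_mem _ ha _ hq)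
    (fun _ => Ideal.pow_mem_of_mem _ hb _ hq) (fun _ => ?_) _
  rcases subsingleton_or_nontrivial S with _ | _
  · rw [Subsingleton.elim (a ^ p ^ h - b ^ p ^ h) 0]
    exact zero_mem _
  · have := (CharP.charP_iff_prime_eq_zero hp'.out).2 hp
    rw [← sub_pow_char_pow]
    exact Ideal.pow_mem_pow hab _

theorem fp_iter_mem_pow (I : Ideal S) [IsAdicComplete I S] (hp : (p : S) = 0) {h : ℕ}
    (hh : 1 ≤ h) {v : ℕ → S} (hv : ∀ j, 1 ≤ j → j < h → v j = 0) {a : S} (ha : a ∈ I.radical)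
    {N : Ideal S} (haN : a ∈ N) (r : ℕ) : (fp p n v)^[r] a ∈ N ^ (p ^ h) ^ r := by
  induction r with
  | zero => simpa using haN
  | succ r ih =>
    have h1 := fp_sub_fp_mem (n := n) I hp hh hv (fp_iter_mem (p := p) (n := n) I v ha ha r).1
      (zero_mem _) (N := N ^ (p ^ h) ^ r) (by rwa [sub_zero])
    have h2 : fp p n v 0 = 0 := Ideal.mem_bot.1 (fp_mem I v (zero_mem _) (zero_mem _))
    rwa [h2, sub_zero, ← pow_mul, ← pow_succ, ← Function.iterate_succ_apply' (fp p n v)] at h1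

theorem coeff_pser_mem {N : Ideal S} (hp : (p : S) ∈ N) {i : ℕ} (hi : 1 ≤ i) (hin : i ≤ n)
    {v : ℕ → S} (hv : ∀ j, 1 ≤ j → j < i → v j ∈ N) :
    (∀ d, d < p ^ i → PowerSeries.coeff d (pser p n v) ∈ N) ∧
      PowerSeries.coeff (p ^ i) (pser p n v) - v i ∈ N := by
  obtain ⟨g, hg⟩ := Pser2Aux.Pq_eq (p := p) hin fun j => Ideal.Quotient.mk N (v j)
  have h1 := pser_eq_expand (n := n) (Pser2Aux.p_zero hp) hi (v := fun j => Ideal.Quotient.mk N (v j))
    fun j h1 h2 => Ideal.Quotient.eq_zero_iff_mem.2 (hv j h1 h2)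
  have hX : expand (p ^ i) (pow_ne_zero i hp'.out.ne_zero) (PowerSeries.X : PowerSeries (S ⧸ N)) =
      PowerSeries.X ^ p ^ i := expand_X _ _ ()
  rw [hg, map_add, map_mul, map_mul, map_pow, hX, expand_C, ← pow_mul, ← map_pser] at h1
  have hq := pow_pos hp'.out.pos i
  have h2 : ∀ d, d ≤ p ^ i → Ideal.Quotient.mk N (PowerSeries.coeff d (pser p n v)) =
      Ideal.Quotient.mk N (v i) * if d = p ^ i then 1 else 0 := fun d hd => by
    have h3 := congrArg (PowerSeries.coeff d) h1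
    rw [map_add, PowerSeries.coeff_X_pow_mul', if_neg (by omega), add_zero] at h3
    exact h3.trans ((PowerSeries.coeff_C_mul d _ _).trans (by rw [PowerSeries.coeff_X_pow]))
  refine ⟨fun d hd => ?_, ?_⟩
  · rw [← Ideal.Quotient.eq_zero_iff_mem, h2 d hd.le, if_neg hd.ne, mul_zero]
  · rw [← Ideal.Quotient.eq, h2 _ le_rfl, if_pos rfl, mul_one]

/-- Triangularity of the variation of the `p`-series. -/
theorem coeff_pser_sub_mem {I N N' : Ideal S} (hp : (p : S) ∈ I) (hIN : I * N ≤ N') {i : ℕ}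
    (hi : 1 ≤ i) (hin : i ≤ n) {v w : ℕ → S} (hv : ∀ j, 1 ≤ j → j < i → v j ∈ I)
    (hw : ∀ j, w j - v j ∈ N) (hw' : ∀ j, 1 ≤ j → j < i → w j - v j ∈ N') :
    (∀ d, d < p ^ i → PowerSeries.coeff d (pser p n w - pser p n v) ∈ N') ∧
      PowerSeries.coeff (p ^ i) (pser p n w - pser p n v) - (w i - v i) ∈ N' := by
  let M : Ideal UU :=
    { carrier := {u | spec w u - spec v u ∈ N' ∧ spec v u ∈ I}
      add_mem' := fun {a b} ha hb => ⟨by
        rw [map_add, map_add, add_sub_add_comm]; exact add_mem ha.1 hb.1, by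
        rw [map_add]; exact add_mem ha.2 hb.2⟩
      zero_mem' := ⟨by simp, by simp⟩
      smul_mem' := fun r u hu => ⟨by
        have e : spec w (r • u) - spec v (r • u) =
            spec w r * (spec w u - spec v u) + spec v u * (spec w r - spec v r) := by
          rw [smul_eq_mul, map_mul, map_mul]; ring
        rw [e]
        exact add_mem (Ideal.mul_mem_left _ _ hu.1)
          (hIN (Ideal.mul_mem_mul hu.2 (spec_sub_mem hw r))), by
        rw [smul_eq_mul, map_mul]; exact Ideal.mul_mem_left _ _ hu.2⟩ }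
  have hM : ∀ u ∈ M, spec w u - spec v u ∈ N' := fun u hu => hu.1
  obtain ⟨h1, h2⟩ := coeff_pser_mem (p := p) (n := n) (N := M) ⟨by simp, by simpa using hp⟩ hi hin
    (v := MvPolynomial.X) fun j h1 h2 => ⟨by
      rw [spec_X, spec_X]; exact hw' j h1 h2, by rw [spec_X]; exact hv j h1 h2⟩
  have h3 : ∀ (z : ℕ → S) d, PowerSeries.coeff d (pser p n z) =
      spec z (PowerSeries.coeff d (pser p n MvPolynomial.X)) := fun z d => by
    have h4 := map_pser (p := p) (n := n) (spec z) MvPolynomial.X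
    simp only [spec_X] at h4
    rw [← h4]
    rfl
  refine ⟨fun d hd => ?_, ?_⟩
  · rw [map_sub, h3 w, h3 v]
    exact hM _ (h1 d hd)
  · have h5 := hM _ h2
    rw [map_sub, map_sub, spec_X, spec_X] at h5
    rw [map_sub, h3 w, h3 v, sub_sub_sub_comm]
    exact h5

end Vale.Agent.P217
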