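import Vale.Agent.P217.STA
import Vale.Agent.P217.NoRel
import Vale.Agent.P217.LemS

/-! Characteristic `p`: the orbit of a point of height `h` is dense in the height stratum. -/

namespace Vale.Agent.P217

open MvPowerSeries

variable {O : Type} [CommRing O] {p : ℕ} [Fact p.Prime] [CharP O p] [IsDomain O] {ϖ : O}
  [Good O ϖ] {n h : ℕ} {x : ℕ → O}

namespace STAux

theorem coeff_one_fadd {S : Type*} [CommRing S] (v : ℕ → S) {a b : PowerSeries S}
    (ha : constantCoeff a = 0) (hb : constantCoeff b = 0) :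
    PowerSeries.coeff 1 (fadd p n (fun j => C (v j)) a b) =
      PowerSeries.coeff 1 a + PowerSeries.coeff 1 b := by
  obtain ⟨g, hg⟩ := fadd_eq (p := p) (n := n) (PI Unit ⊥) (fun j => (C (v j) : PowerSeries S))
    (mem_PI_radical_of_zero _ ha) (mem_PI_radical_of_zero _ hb)
  have h2 : a * b * g ∈ PI Unit (⊥ : Ideal S) ^ 2 := by
    rw [pow_two]
    exact Ideal.mul_mem_right _ _ (Ideal.mul_mem_mul (mem_PI_bot.mpr ha) (mem_PI_bot.mpr hb))
  have h3 := mem_PI_bot_pow.mp h2 (Finsupp.single () 1) (by simp)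
  rw [hg, map_add, map_add]
  have : PowerSeries.coeff 1 (a * b * g) = 0 := h3
  rw [this, add_zero]

end STAux

theorem orbit_dense (hx : HP n h ϖ x) (κ0 : GaloisField p n →+* O)
    (f : MvPowerSeries (Fin (n - h)) O)
    (H : ∀ (δ : PowerSeries (GaloisField p n)) (N : ℕ),
      IsHomS p n (eH (GaloisField p n) n) n (eH (GaloisField p n) n) δ →
      PowerSeries.coeff 1 δ = 0 →
      ∃ (a : Fin (n - h) → O) (k : PowerSeries O), (∀ i, a i ∈ Ideal.span {ϖ}) ∧
        IsHomS p n (sh n h x a) n x k ∧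
        k - gD p n (eH O n) (MvPowerSeries.map κ0 δ) N ∈ cI Unit (Ideal.span {ϖ}) ∧
        ev (RingHom.id O) a f = 0) : f = 0 := by
  by_contra hf
  have hp0 : (p : O) = 0 := CharP.cast_eq_zero O p
  have hn : 1 ≤ n := hx.pos
  obtain ⟨κ, _, ι, hκ⟩ := exists_KD (O := O) p hx.hpos
  obtain ⟨s, hs⟩ := exists_TS p hx
  obtain ⟨θ, hθ, hθ1, hno⟩ := exists_norel hx κ0 hκ hs
  obtain ⟨G, hG0, hG⟩ := exists_G hx hs hθ hθ1 hf
  set I : Ideal O := Ideal.span {ϖ} with hI
  have hIr : I ≤ I.radical := Ideal.le_radical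
  let Λ : Set (Fin (n - h) → O) := {lam | ∃ (δ : PowerSeries (GaloisField p n))
    (z : Fin (n - h) → O), IsHomS p n (eH _ n) n (eH _ n) δ ∧ PowerSeries.coeff 1 δ = 0 ∧
      (∀ i, IsZ p n x I (fun r => ev1 κ0 (s i r) δ) (z i)) ∧
      lam = fun i => ev1 (RingHom.id O) (z i) θ}
  have hsd : ∀ {δ : PowerSeries (GaloisField p n)}, constantCoeff δ = 0 → ∀ i r,
      ev1 κ0 (s i r) δ ∈ I.radical := fun hδ i r =>
    ev_mem _ (ok_one I (hs.mem i r)) (fun _ => hs.mem i r) hδ
  have hzI : ∀ {δ : PowerSeries (GaloisField p n)} {z : O} {i}, constantCoeff δ = 0 →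
      IsZ p n x I (fun r => ev1 κ0 (s i r) δ) z → z ∈ I := fun {δ z i} hδ hz => by
    have h1 := hz 0
    simp only [Function.iterate_zero, id, zero_add, pow_one, hs.zero i] at h1
    rw [ev_zero, hδ, map_zero, sub_zero] at h1
    exact h1
  have hmon : Mon p h ϖ Λ := by
    refine ⟨⟨0, fun _ => 0, isHomS_zero, by simp, fun i => ?_, ?_⟩, ?_, ?_⟩
    · simpa only [map_zero] using isZ_zero
    · funext i; rw [ev_zero, hθ.const, map_zero]
    · rintro _ ⟨δ, z, hδ, hδ1, hz, rfl⟩ _ ⟨δ', z', hδ', hδ1', hz', rfl⟩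
      refine ⟨fadd p n (fun j => C (eH _ n j)) δ δ', fun i => fadd p n x (z i) (z' i), hδ.add hδ',
        by rw [STAux.coeff_one_fadd _ hδ.const hδ'.const, hδ1, hδ1', add_zero], fun i => ?_, ?_⟩
      · have h1 := IsZ.fadd I hIr (hz i) (hz' i) (hsd hδ.const i) (hsd hδ'.const i)
        refine IsZ.congr I hp0 h1 (fun r => fadd_mem I x (hsd hδ.const i r) (hsd hδ'.const i r)
          (hsd hδ.const i r) (hsd hδ'.const i r)) (hsd (hδ.add hδ').const i) fun r => ?_
        have h2 := map_fadd (p := p) (n := n) (PI Unit ⊥) (fun j => C (eH (GaloisField p n) n j))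
          (ev1 κ0 (s i r)) I (mem_PI_radical_of_zero _ hδ.const)
          (mem_PI_radical_of_zero _ hδ'.const) (hsd hδ.const i r) (hsd hδ'.const i r)
        rw [h2]
        simp only [ev_C κ0 (ok_one I (hs.mem i r)), map_eH]
        exact fadd_congr_param I x (hx.toGP.sub_mem (gp_eH hn ϖ)) (hsd hδ.const i r)
          (hsd hδ'.const i r)
      · funext i
        have := hθ.ev_fadd (RingHom.id O) I (hIr (hzI hδ.const (hz i))) (hIr (hzI hδ'.const (hz' i)))
        exact this.symm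
    · rintro _ ⟨δ, z, hδ, -, hz, rfl⟩ i
      have h1 := hzI hδ.const (hz i)
      exact ev_mem _ (ok_one I (hIr h1)) (fun _ => h1) hθ.const
  have hAV : ∀ a ∈ Λ, AV (p ^ h) ϖ G a := by
    rintro _ ⟨δ, z, hδ, hδ1, hz, rfl⟩
    refine hG (MvPowerSeries.map κ0 δ) z (by simp [hδ.const]) ?_ ?_ (fun i => ?_)
      fun N => H δ N hδ hδ1
    · change κ0 (PowerSeries.coeff 1 δ) = 0
      rw [hδ1, map_zero]
    · simpa only [map_eH] using hδ.map κ0
    · have : ∀ r, ev1 (RingHom.id O) (s i r) (MvPowerSeries.map κ0 δ) = ev1 κ0 (s i r) δ :=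
        fun r => ev_map κ0 _ (ok_one I (hs.mem i r)) δ
      simpa only [this] using hz i
  obtain ⟨d0, hd0⟩ : ∃ d0, coeff d0 G ≠ 0 := by
    by_contra hc
    push Not at hc
    exact hG0 (MvPowerSeries.ext hc)
  obtain ⟨f0, hf0, hv⟩ := descent hx.hpos hκ G hd0 Λ hmon.mem hAV
  obtain ⟨ε, i0, hε, hε1, hrel⟩ := hmon.relation hx.hpos hκ (Fin (n - h)) (f := f0)
    (fun h0 => hf0 (by rw [h0, map_zero])) hv
  refine hno ε i0 hε hε1 fun a t z ht hz => hrel _ ⟨C a * PowerSeries.X ^ p ^ t, z,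
    isHomS_eH (by simp) hn ?_ t, ?_, fun i => ?_, rfl⟩
  · let _ := Fintype.ofFinite (GaloisField p n)
    have hc : Fintype.card (GaloisField p n) = p ^ n := by
      rw [← Nat.card_eq_fintype_card, GaloisField.card p n (by omega)]
    rw [← hc]; exact FiniteField.pow_card a
  · have h1 : 1 < p ^ t := Nat.one_lt_pow (by omega) (Fact.out : p.Prime).one_lt
    change PowerSeries.coeff 1 (PowerSeries.C a * PowerSeries.X ^ p ^ t) = 0
    rw [PowerSeries.coeff_C_mul, PowerSeries.coeff_X_pow, if_neg h1.ne, mul_zero]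
  · have : ∀ r, ev1 κ0 (s i r) (C a * PowerSeries.X ^ p ^ t) = κ0 a * s i r ^ p ^ t := fun r => by
      rw [map_mul, map_pow, ev_C κ0 (ok_one I (hs.mem i r)), ev1_X κ0 (ok_one I (hs.mem i r))]
    simpa only [this] using hz i

end Vale.Agent.P217
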