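import Vale.Agent.P217.Desc

/-! The ring of bounded sequences modulo `(ϖ ^ (T Q ^ N))_N`. -/

namespace Vale.Agent.P217

namespace SeqAux

variable {O : Type} [CommRing O] [IsDomain O] (ϖ : O)

/-- Sequences with bounded denominators. -/
def Bdd : Subring (ℕ → FractionRing O) where
  carrier := {s | ∃ k : ℕ, ∀ N, ∃ o : O,
    algebraMap O (FractionRing O) ϖ ^ k * s N = algebraMap O (FractionRing O) o}
  mul_mem' := by
    rintro a b ⟨k, hk⟩ ⟨l, hl⟩
    refine ⟨k + l, fun N => ?_⟩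
    obtain ⟨o, ho⟩ := hk N
    obtain ⟨o', ho'⟩ := hl N
    exact ⟨o * o', by rw [map_mul, ← ho, ← ho', Pi.mul_apply]; ring⟩
  one_mem' := ⟨0, fun _ => ⟨1, by simp⟩⟩
  add_mem' := by
    rintro a b ⟨k, hk⟩ ⟨l, hl⟩
    refine ⟨k + l, fun N => ?_⟩
    obtain ⟨o, ho⟩ := hk N
    obtain ⟨o', ho'⟩ := hl N
    exact ⟨ϖ ^ l * o + ϖ ^ k * o', by
      rw [map_add, map_mul, map_mul, ← ho, ← ho', Pi.add_apply, map_pow, map_pow]; ring⟩
  zero_mem' := ⟨0, fun _ => ⟨0, by simp⟩⟩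
  neg_mem' := by
    rintro a ⟨k, hk⟩
    refine ⟨k, fun N => ?_⟩
    obtain ⟨o, ho⟩ := hk N
    exact ⟨-o, by rw [map_neg, ← ho, Pi.neg_apply]; ring⟩

/-- Integral sequences. -/
noncomputable def sq0 : (ℕ → O) →+* Bdd ϖ :=
  RingHom.codRestrict (RingHom.pi fun N =>
    (algebraMap O (FractionRing O)).comp (Pi.evalRingHom (fun _ => O) N)) (Bdd ϖ)
    fun a => ⟨0, fun N => ⟨a N, by simp⟩⟩

omit [IsDomain O] in
theorem sq0_apply (a : ℕ → O) (N : ℕ) :
    (sq0 ϖ a : ℕ → FractionRing O) N = algebraMap O (FractionRing O) (a N) := rfl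

theorem exists_den [Good O ϖ] (c : FractionRing O) : ∃ (k : ℕ) (o : O),
    algebraMap O (FractionRing O) ϖ ^ k * c = algebraMap O (FractionRing O) o := by
  obtain ⟨a, b, hb, rfl⟩ := IsFractionRing.div_surjective (A := O) c
  have hb0 : b ≠ 0 := nonZeroDivisors.ne_zero hb
  obtain ⟨k, e, he⟩ := Good.dvd (ϖ := ϖ) b hb0
  refine ⟨k, e * a, ?_⟩
  have : algebraMap O (FractionRing O) b ≠ 0 := by
    simpa using hb0
  rw [← map_pow, he, map_mul, map_mul]
  field_simp

/-- Constant sequences. -/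
noncomputable def cC0 [Good O ϖ] : FractionRing O →+* Bdd ϖ :=
  RingHom.codRestrict (RingHom.pi fun _ => RingHom.id _) (Bdd ϖ) fun c => by
    obtain ⟨k, o, h⟩ := exists_den ϖ c
    exact ⟨k, fun _ => ⟨o, h⟩⟩

theorem cC0_apply [Good O ϖ] (c : FractionRing O) (N : ℕ) :
    (cC0 ϖ c : ℕ → FractionRing O) N = c := rfl

end SeqAux

open SeqAux in
/-- An abstract description of the ring of bounded sequences in the fraction field modulo
`(ϖ ^ (T * Q ^ N))_N`. -/
theorem exists_seqRing {O : Type} [CommRing O] [IsDomain O] (ϖ : O) [Good O ϖ] (Q T : ℕ) :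
    ∃ (R : Type) (_ : CommRing R) (cC : FractionRing O →+* R) (sq : (ℕ → O) →+* R),
      (∀ o : O, cC (algebraMap O (FractionRing O) o) = sq fun _ => o) ∧
      (sq fun N => ϖ ^ Q ^ N) ^ T = 0 ∧
      (∀ (a : ℕ → O) (N0 : ℕ), (∀ N, N0 ≤ N → a N ∈ Ideal.span {ϖ ^ Q ^ N}) →
        sq a ∈ Ideal.span {sq fun N => ϖ ^ Q ^ N}) ∧
      ∀ {D : Type} (s : Finset D) (c : D → FractionRing O) (a : D → ℕ → O),
        ∑ d ∈ s, cC (c d) * sq (a d) = 0 → ∃ k : ℕ, ∀ N, ∃ o : O,
          algebraMap O (FractionRing O) ϖ ^ k *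
            ∑ d ∈ s, c d * algebraMap O (FractionRing O) (a d N) =
          algebraMap O (FractionRing O) (ϖ ^ (T * Q ^ N) * o) := by
  have hϖ : algebraMap O (FractionRing O) ϖ ≠ 0 := by simpa using Good.ne (ϖ := ϖ)
  let π : Bdd ϖ := sq0 ϖ fun N => ϖ ^ Q ^ N
  let J : Ideal (Bdd ϖ) := Ideal.span {π ^ T}
  refine ⟨Bdd ϖ ⧸ J, inferInstance, (Ideal.Quotient.mk J).comp (cC0 ϖ),
    (Ideal.Quotient.mk J).comp (sq0 ϖ), fun o => ?_, ?_, fun a N0 ha => ?_, ?_⟩
  · rfl
  · rw [RingHom.comp_apply, ← map_pow, Ideal.Quotient.eq_zero_iff_mem]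
    exact Ideal.mem_span_singleton_self _
  · let b : Bdd ϖ := ⟨fun N => algebraMap O (FractionRing O) (a N) /
      algebraMap O (FractionRing O) ϖ ^ Q ^ N, ∑ N ∈ Finset.range N0, Q ^ N, fun N => by
        by_cases hN : N0 ≤ N
        · obtain ⟨e, he⟩ := Ideal.mem_span_singleton'.mp (ha N hN)
          refine ⟨ϖ ^ (∑ N ∈ Finset.range N0, Q ^ N) * e, ?_⟩
          simp only [← he, map_mul, map_pow]
          field_simp
        · have h1 : Q ^ N ≤ ∑ N ∈ Finset.range N0, Q ^ N :=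
            Finset.single_le_sum (f := fun N => Q ^ N) (fun _ _ => Nat.zero_le _)
              (Finset.mem_range.mpr (not_le.mp hN))
          obtain ⟨e, he⟩ := Nat.exists_eq_add_of_le h1
          refine ⟨ϖ ^ e * a N, ?_⟩
          simp only [he, map_mul, map_pow, pow_add]
          field_simp⟩
    have : sq0 ϖ a = b * π := Subtype.ext (funext fun N => by
      change algebraMap O (FractionRing O) (a N) = algebraMap O (FractionRing O) (a N) /
        algebraMap O (FractionRing O) ϖ ^ Q ^ N * algebraMap O (FractionRing O) (ϖ ^ Q ^ N)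
      rw [map_pow]; field_simp)
    simp only [RingHom.comp_apply]
    rw [this, map_mul]
    exact Ideal.mul_mem_left _ _ (Ideal.mem_span_singleton_self _)
  · intro D s c a h
    simp only [RingHom.comp_apply, ← map_mul, ← map_sum, Ideal.Quotient.eq_zero_iff_mem] at h
    obtain ⟨⟨b, k, hb⟩, hb'⟩ := Ideal.mem_span_singleton'.mp h
    refine ⟨k, fun N => ?_⟩
    obtain ⟨o, ho⟩ := hb N
    refine ⟨o, ?_⟩
    have h1 := congrArg (fun u : Bdd ϖ => (u : ℕ → FractionRing O) N) hb'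
    simp only [Subring.coe_mul, Pi.mul_apply, SubmonoidClass.coe_pow, Pi.pow_apply,
      AddSubmonoidClass.coe_finsetSum, Finset.sum_apply, cC0_apply, sq0_apply, π] at h1
    rw [← h1, map_mul, ← ho, map_pow, map_pow, ← pow_mul, mul_comm (Q ^ N) T]
    ring

end Vale.Agent.P217
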