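import Vale.Agent.P217.Hom2

/-! Deformation and rigidity of solutions of `θ ([p] X) = θ (X) ^ (p ^ h)`. -/

namespace Vale.Agent.P217

open MvPowerSeries

variable {S : Type*} [CommRing S] {p : ℕ} [Fact p.Prime] {n h : ℕ}

open HomAux Hom2Aux

namespace ThUAux

theorem q_ne (p : ℕ) [hp' : Fact p.Prime] (h : ℕ) : p ^ h ≠ 0 := pow_ne_zero h hp'.out.ne_zero

theorem ev1_expand_arg {q : ℕ} (hq : q ≠ 0) {P : PowerSeries S} (hP : constantCoeff P = 0)
    (θ : PowerSeries S) : ev1 C (expand q hq P) θ = expand q hq (ev1 C P θ) := by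
  have hX : (PowerSeries.X ^ q : PowerSeries S) ∈ (PI Unit (⊥ : Ideal S)).radical :=
    Ideal.pow_mem_of_mem _ (rad0 const_X1) _ (Nat.pos_of_ne_zero hq)
  rw [expand_eq_ev, expand_eq_ev]
  exact (ev1_ev1 C (PI Unit (⊥ : Ideal S)) hX hP θ).symm

/-- The fixed point form of the equation. -/
theorem exists_T (hp : (p : S) = 0) (hh : 1 ≤ h) (hn : h ≤ n) {v : ℕ → S}
    (hv : ∀ j, 1 ≤ j → j < h → v j = 0) (hu : IsUnit (v h)) :
    ∃ T : PowerSeries S →+* PowerSeries S,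
      (∀ (M : Ideal S) (θ : PowerSeries S),
        ev1 C (pser p n v) θ - θ ^ p ^ h ∈ cI Unit M ↔ θ - T θ ∈ cI Unit M) ∧
      (∀ θ, constantCoeff (T θ) = constantCoeff θ ^ p ^ h) ∧
      ∀ (M : Ideal S) (θ : PowerSeries S), θ ∈ cI Unit M → T θ ∈ cI Unit (M ^ p ^ h) := by
  obtain ⟨ψ, hψ, hψ'⟩ := exists_frob hp h
  have hP := constantCoeff_Pq (p := p) (n := n) h v
  obtain ⟨P', hP', h1, h2⟩ := exists_inv (Pq p n h v) hP (by rw [coeff_one_Pq hn]; exact hu)
  refine ⟨(ev1 C P').comp (MvPowerSeries.map ψ), fun M θ => ?_, fun θ => ?_, fun M θ hθ => ?_⟩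
  · rw [pser_eq_expand hp hh hv, ev1_expand_arg _ hP, hψ' Unit θ, ← map_sub]
    have e1 : ev1 C P' (ev1 C (Pq p n h v) θ) = θ := by
      rw [ev1_ev1 C (PI Unit (⊥ : Ideal S)) (rad0 hP') hP, h2, ev1_C_X]
    have e2 : ∀ G : PowerSeries S, ev1 C (Pq p n h v) (ev1 C P' G) = G := fun G => by
      rw [ev1_ev1 C (PI Unit (⊥ : Ideal S)) (rad0 hP) hP', h1, ev1_C_X]
    constructor
    · intro h3
      have := ev_C_mem_cI (a := fun _ : Unit => P') (fun _ => hP') (mem_cI_of_expand _ h3)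
      rwa [map_sub, e1] at this
    · intro h3
      have h4 := ev_C_mem_cI (a := fun _ : Unit => Pq p n h v) (fun _ => hP) h3
      rw [map_sub, RingHom.comp_apply, e2] at h4
      rw [expand_eq_ev]
      exact ev_C_mem_cI (fun _ => by
        rw [map_pow, constantCoeff_X, zero_pow (q_ne p h)]) h4
  · rw [RingHom.comp_apply, constantCoeff_ev C (fun _ => hP'), constantCoeff_C, constantCoeff_map,
      hψ]
  · refine ev_C_mem_cI (a := fun _ : Unit => P') (fun _ => hP') (map_mem_cI ψ (fun r hr => ?_) hθ)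
    rw [hψ]; exact Ideal.pow_mem_pow hr _

theorem pow_le (N : Ideal S) (hh : 1 ≤ h) (k : ℕ) : (N ^ (k + 1)) ^ p ^ h ≤ N ^ (k + 2) := by
  have hq : 2 ≤ p ^ h := Nat.one_lt_pow (by omega) (Fact.out : p.Prime).one_lt
  rw [← pow_mul]
  exact Ideal.pow_le_pow_right (by nlinarith)

theorem cI_bot {f : PowerSeries S} : f ∈ cI Unit (⊥ : Ideal S) ↔ f = 0 := by
  rw [mem_cI]
  exact ⟨fun h => MvPowerSeries.ext fun d => by simpa using h d, fun h d => by simp [h]⟩

/-- Contraction principle for power series with the coefficientwise topology. -/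
theorem exists_fix_cI {σ : Type*} (N : Ideal S) [IsAdicComplete N S]
    (T : MvPowerSeries σ S → MvPowerSeries σ S) (x0 : MvPowerSeries σ S)
    (h0 : T x0 - x0 ∈ cI σ N)
    (hT : ∀ k (a b : MvPowerSeries σ S), a - b ∈ cI σ (N ^ (k + 1)) →
      T a - T b ∈ cI σ (N ^ (k + 2))) :
    ∃ a : MvPowerSeries σ S, a - x0 ∈ cI σ N ∧ T a = a := by
  obtain ⟨a, ha, hfix⟩ := exists_fix (ι := σ →₀ ℕ) N T x0 (mem_cI.mp h0)
    fun k a b _ _ hab => mem_cI.mp (hT k a b (mem_cI.mpr hab))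
  exact ⟨a, mem_cI.mpr ha, hfix⟩

end ThUAux

open ThUAux

theorem exists_theta_deform (N : Ideal S) [IsAdicComplete N S] (hp : (p : S) = 0) (hh : 1 ≤ h)
    (hn : h ≤ n) {v : ℕ → S} (hv : ∀ j, 1 ≤ j → j < h → v j = 0) (hu : IsUnit (v h))
    {θ0 : PowerSeries S} (h0 : constantCoeff θ0 = 0)
    (hθ : ev1 C (pser p n v) θ0 - θ0 ^ p ^ h ∈ cI Unit N) :
    ∃ θ : PowerSeries S, constantCoeff θ = 0 ∧ θ - θ0 ∈ cI Unit N ∧
      ev1 C (pser p n v) θ = θ ^ p ^ h := by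
  obtain ⟨T, h1, h2, h3⟩ := exists_T hp hh hn hv hu
  obtain ⟨θ, hc, hT⟩ := exists_fix_cI N (fun a => T a) θ0
    (by simpa using neg_mem ((h1 N θ0).mp hθ))
    (fun k a b hab => by
      have := cI_mono (pow_le N hh k) (h3 _ _ hab)
      rwa [map_sub] at this)
  replace hT : T θ = θ := hT
  refine ⟨θ, ?_, hc, ?_⟩
  · have h5 : ∀ k, constantCoeff θ ∈ N ^ (k + 1) := fun k => by
      induction k with
      | zero =>
        have := mem_cI.mp hc 0
        rw [coeff_zero_eq_constantCoeff_apply, map_sub, h0, sub_zero] at this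
        rwa [zero_add, pow_one]
      | succ k ih =>
        rw [← hT, h2]
        exact pow_le N hh k (Ideal.pow_mem_pow ih _)
    exact eq_zero_of_mem_pow N fun k => Ideal.pow_le_pow_right (Nat.le_succ k) (h5 k)
  · rw [← sub_eq_zero, ← cI_bot, h1, hT, sub_self]
    exact zero_mem _

theorem theta_unique (N : Ideal S) [IsAdicComplete N S] (hp : (p : S) = 0) (hh : 1 ≤ h)
    (hn : h ≤ n) {v : ℕ → S} (hv : ∀ j, 1 ≤ j → j < h → v j = 0) (hu : IsUnit (v h))
    {θ θ' : PowerSeries S} (hθ : ev1 C (pser p n v) θ = θ ^ p ^ h)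
    (hθ' : ev1 C (pser p n v) θ' = θ' ^ p ^ h) (hc : θ - θ' ∈ cI Unit N) : θ = θ' := by
  obtain ⟨T, h1, -, h3⟩ := exists_T hp hh hn hv hu
  have hT : ∀ θ : PowerSeries S, ev1 C (pser p n v) θ = θ ^ p ^ h → θ = T θ := fun θ hθ => by
    rw [← sub_eq_zero, ← cI_bot, ← h1, hθ, sub_self]
    exact zero_mem _
  have h5 : ∀ k, θ - θ' ∈ cI Unit (N ^ (k + 1)) := fun k => by
    induction k with
    | zero => rwa [zero_add, pow_one]
    | succ k ih =>
      rw [hT θ hθ, hT θ' hθ', ← map_sub]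
      exact cI_mono (pow_le N hh k) (h3 _ _ ih)
  refine MvPowerSeries.ext fun d => eq_of_sub_mem_pow N fun k => ?_
  have := mem_cI.mp (h5 k) d
  rw [map_sub] at this
  exact Ideal.pow_le_pow_right (Nat.le_succ k) this

end Vale.Agent.P217
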