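import Vale.Agent.P217.Jac
import Vale.Agent.P217.ThU
import Vale.Agent.P217.Seq

/-! Asymptotic vanishing in Serre-Tate coordinates. -/

namespace Vale.Agent.P217

open MvPowerSeries

variable {O : Type} [CommRing O] {p : ℕ} [Fact p.Prime] [CharP O p] [IsDomain O] {ϖ : O}
  [Good O ϖ] {n h : ℕ} {x : ℕ → O}

omit [IsDomain O] [Good O ϖ] in
theorem fp_iter_mem_charp (hx : HP n h ϖ x) (N : ℕ) (ε : PowerSeries O)
    (h0 : constantCoeff ε = 0) (hε : ε ∈ cI Unit (Ideal.span {ϖ})) :
    (fp p n fun j => C (x j))^[N] ε ∈ cI Unit (Ideal.span {ϖ ^ (p ^ h) ^ N}) := by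
  have hp : (p : PowerSeries O) = 0 := by
    rw [← map_natCast (C : O →+* PowerSeries O), CharP.cast_eq_zero, map_zero]
  have h1 := fp_iter_mem_pow (p := p) (n := n) (PI Unit ⊥) hp hx.hpos
    (v := fun j => (C (x j) : PowerSeries O)) (fun j _ hj => by rw [hx.zero j hj, map_zero])
    (mem_PI_radical_of_zero _ h0) hε N
  rw [← Ideal.span_singleton_pow]
  exact cI_pow_le _ _ h1

/-- The value of the coordinate functions at a displaced point. -/
theorem ev_W (hx : HP n h ϖ x) {s : ℕ → O} (hs0 : s 0 = 0)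
    (hs1 : ∀ r, s r ∈ (Ideal.span {ϖ}).radical) (hs2 : ∀ r, fp p n x (s (r + 1)) = s r)
    {W : MvPowerSeries (Fin (n - h)) O}
    (hW : IsZ p n (sh n h (fun j => C (x j)) X) (PI (Fin (n - h)) ⊥) (fun r => C (s r)) W)
    {δ : PowerSeries O} (h0 : constantCoeff δ = 0) {z : O}
    (hz : IsZ p n x (Ideal.span {ϖ}) (fun r => ev1 (RingHom.id O) (s r) δ) z) (N : ℕ)
    {a : Fin (n - h) → O} (ha : ∀ i, a i ∈ Ideal.span {ϖ}) {k : PowerSeries O}
    (hk : IsHomS p n (sh n h x a) n x k)
    (hkg : k - gD p n x δ N ∈ cI Unit (Ideal.span {ϖ})) :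
    ev1 (RingHom.id O) (ev (RingHom.id O) a W) k = (fp p n x)^[N] z := by
  set I : Ideal O := Ideal.span {ϖ} with hI
  have hp0 : (p : O) = 0 := CharP.cast_eq_zero O p
  have hIr : I ≤ I.radical := Ideal.le_radical
  have hok : Ok a := Ok.of_rad I fun i => hIr (ha i)
  have h1 := IsZ.map (PI (Fin (n - h)) I) (ev (RingHom.id O) a) I (M := I)
    (fun f hf => ev_mem _ hok ha (mem_PI_bot.mp hf)) hW
    (fun r => mem_PI_radical.mpr (by simpa using hs1 r))
    (fun r => by rw [ev_C _ hok]; exact hs1 r)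
  rw [map_sh] at h1
  simp only [ev_C _ hok, ev_X _ hok, RingHom.id_apply] at h1
  have h2 := IsZ.hom I (RingHom.id O) hk hIr h1 hs1
  have hd : ∀ r, ev1 (RingHom.id O) (s r) δ ∈ I.radical := fun r =>
    ev_mem _ (ok_one I (hs1 r)) (fun _ => hs1 r) h0
  have hd' : ∀ r, (fp p n x)^[N] (ev1 (RingHom.id O) (s r) δ) ∈ I.radical := fun r =>
    (fp_iter_mem I x (hd r) (hd r) N).1
  have h3 := IsZ.fadd I hIr (isZ_of_exact (N := I) hs2) (IsZ.fp_iter I hIr hz hd N) hs1 hd'
  have hzr : z ∈ I.radical := hz.mem I hIr (hd 0)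
  have hzN : (fp p n x)^[N] z ∈ I.radical := (fp_iter_mem I x hzr hzr N).1
  rw [hs0, fadd_comm I x (zero_mem _) hzN, fadd_zero I x hzN] at h3
  refine IsZ.unique (IsZ.congr I hp0 h2 (fun r => ev_mem _ (ok_one I (hs1 r)) (fun _ => hs1 r)
    hk.const) (fun r => fadd_mem I x (hs1 r) (hd' r) (hs1 r) (hd' r)) fun r => ?_) h3
  have h4 := ev1_gD (p := p) (n := n) (RingHom.id O) I x h0 N (hs1 r)
  simp only [RingHom.id_apply] at h4
  rw [← h4, ← map_sub]
  exact ev_mem_of_cI (RingHom.id O) (ok_one I (hs1 r)) hkg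

omit [CharP O p] [IsDomain O] in
/-- Evaluation in a quotient of a ring of sequences is computed termwise. -/
theorem ev_sq {R R0 : Type} [CommRing R] [CommRing R0] {σ : Type} [Finite σ]
    (sq : (ℕ → O) →+* R) (c : R0 →+* (ℕ → O)) {b : σ → ℕ → O}
    (hb : ∀ i N, b i N ∈ (Ideal.span {ϖ}).radical) (hb' : Ok fun i => sq (b i))
    (f : MvPowerSeries σ R0) :
    ev (sq.comp c) (fun i => sq (b i)) f =
      sq fun N => ev ((Pi.evalRingHom (fun _ => O) N).comp c) (fun i => b i N) f := by
  have hok : ∀ N, Ok fun i => b i N := fun N => Ok.of_rad _ fun i => hb i N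
  have := eq_ev (c := sq.comp c) hb' (Φ := sq.comp (RingHom.pi fun N =>
    ev ((Pi.evalRingHom (fun _ => O) N).comp c) fun i => b i N))
    (fun r => by
      simp only [RingHom.comp_apply]
      congr 1; funext N
      simp [ev_C _ (hok N)])
    (fun i => by
      simp only [RingHom.comp_apply]
      congr 1; funext N
      simp [ev_X _ (hok N)])
  rw [← this]; rfl

namespace STAAux

omit [IsDomain O] [Good O ϖ] in
theorem theta_eq (hx : HP n h ϖ x) {θ : PowerSeries O} (hθ : IsHomS p n x h (eH O h) θ) :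
    ev1 C (pser p n x) θ = θ ^ p ^ h := by
  have h1 := hθ.pErr_eq
  rw [pErr, sub_eq_zero, pser_eH (CharP.cast_eq_zero O p) hx.hpos, map_pow,
    ev1_X _ (Ok.of_const fun _ => hθ.const)] at h1
  exact h1

theorem map_ev1_C {S T : Type*} [CommRing S] [CommRing T] (ψ : S →+* T) {a : PowerSeries S}
    (ha : constantCoeff a = 0) (f : PowerSeries S) :
    MvPowerSeries.map ψ (ev1 C a f) = ev1 C (MvPowerSeries.map ψ a) (MvPowerSeries.map ψ f) :=
  map_ev_C ψ (fun _ => ha) f

theorem ev1_ev1_C {S : Type*} [CommRing S] {a b : PowerSeries S}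
    (ha : constantCoeff a = 0) (hb : constantCoeff b = 0) (f : PowerSeries S) :
    ev1 C b (ev1 C a f) = ev1 C (ev1 C b a) f :=
  ev_ev_C (σ := Unit) (τ := Unit) (C : S →+* PowerSeries S) (b := fun _ => b) (PI Unit ⊥)
    (fun _ => mem_PI_radical_of_zero _ hb) (a := fun _ => a) (fun _ => ha) f

omit [Good O ϖ] in
theorem exists_thetaU (hx : HP n h ϖ x) {θ : PowerSeries O} (hθ : IsHomS p n x h (eH O h) θ) :
    ∃ θu : PowerSeries (MvPowerSeries (Fin (n - h)) (FractionRing O)), constantCoeff θu = 0 ∧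
      θu - MvPowerSeries.map (C.comp (algebraMap O (FractionRing O))) θ ∈
        cI Unit (PI (Fin (n - h)) ⊥) ∧
      ev1 C (pser p n (sh n h (fun j => C (algebraMap O (FractionRing O) (x j))) X)) θu =
        θu ^ p ^ h := by
  set ι := algebraMap O (FractionRing O)
  have hp : (p : MvPowerSeries (Fin (n - h)) (FractionRing O)) = 0 := by
    rw [← map_natCast (C.comp ι), CharP.cast_eq_zero, map_zero]
  have hc : constantCoeff (MvPowerSeries.map (σ := Unit)
      ((C : _ →+* MvPowerSeries (Fin (n - h)) (FractionRing O)).comp ι) θ) = 0 := by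
    rw [constantCoeff_map, hθ.const, map_zero]
  refine exists_theta_deform (PI (Fin (n - h)) (⊥ : Ideal (FractionRing O))) hp hx.hpos hx.hlt.le
    (fun j _ hj => ?_) ?_ hc ?_
  · rw [sh_out _ _ (Or.inl hj), hx.zero j hj, map_zero, map_zero]
  · have := sh_add n h (fun j => (C (ι (x j)) : MvPowerSeries (Fin (n - h)) (FractionRing O))) X
      ⟨0, by have := hx.hlt; omega⟩
    simp only [add_zero] at this
    rw [this, isUnit_iff_constantCoeff]
    simpa [ι] using hx.ne
  · have h0 : constantCoeff (pser p n (sh n h (fun j =>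
        (C (ι (x j)) : MvPowerSeries (Fin (n - h)) (FractionRing O))) X)) = 0 :=
      constantCoeff_pser _
    have h1 : MvPowerSeries.map (σ := Unit) constantCoeff (ev1 C (pser p n (sh n h (fun j =>
        (C (ι (x j)) : MvPowerSeries (Fin (n - h)) (FractionRing O))) X))
          (MvPowerSeries.map (C.comp ι) θ) - MvPowerSeries.map (C.comp ι) θ ^ p ^ h) = 0 := by
      have e : MvPowerSeries.map (σ := Unit)
          (constantCoeff : MvPowerSeries (Fin (n - h)) (FractionRing O) →+* _)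
          (MvPowerSeries.map (C.comp ι) θ) = MvPowerSeries.map ι θ := by
        refine MvPowerSeries.ext fun d => ?_
        rw [coeff_map, coeff_map, coeff_map, RingHom.comp_apply, constantCoeff_C]
      rw [map_sub, map_pow, map_ev1_C _ h0, map_pser, map_sh, e]
      simp only [constantCoeff_C, constantCoeff_X, sh_zero]
      rw [← map_pser, ← map_ev1_C _ (constantCoeff_pser _), theta_eq hx hθ, map_pow, sub_self]
    exact mem_cI.mpr fun d => mem_PI_bot.mpr (congrArg (coeff d) h1)

theorem coeff_lin {S : Type*} [CommRing S] {σ : Type*} [Finite σ]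
    {θu : PowerSeries (MvPowerSeries σ S)} (h0 : constantCoeff θu = 0) {t : S}
    (h1 : constantCoeff (PowerSeries.coeff 1 θu) = t) {W : MvPowerSeries σ S}
    (hW : constantCoeff W = 0) (l : σ) :
    coeff (Finsupp.single l 1) (ev1 (RingHom.id _) W θu) = t * coeff (Finsupp.single l 1) W := by
  have h2 := ev1_sub_sum_mem (RingHom.id _) (Ok.of_const fun _ : Unit => hW) θu 2
  have hW' : W ∈ PI σ (⊥ : Ideal S) := mem_PI_bot.mpr hW
  have h3 : Ideal.span {W ^ 2} ≤ PI σ (⊥ : Ideal S) ^ 2 :=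
    (Ideal.span_singleton_le_iff_mem _).mpr (Ideal.pow_mem_pow hW' 2)
  have h4 : (PowerSeries.coeff 1 θu - C t) * W ∈ PI σ (⊥ : Ideal S) ^ 2 := by
    rw [pow_two]
    exact Ideal.mul_mem_mul (mem_PI_bot.mpr (by simp [h1])) hW'
  have h5 := add_mem (h3 h2) h4
  have h6 : PowerSeries.coeff 0 θu = 0 := by
    rw [PowerSeries.coeff_zero_eq_constantCoeff_apply]; exact h0
  simp only [Finset.sum_range_succ, Finset.range_zero, Finset.sum_empty, RingHom.id_apply, h6,
    zero_mul, zero_add, pow_one] at h5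
  have e : ev1 (RingHom.id _) W θu - PowerSeries.coeff 1 θu * W +
      (PowerSeries.coeff 1 θu - C t) * W = ev1 (RingHom.id _) W θu - C t * W := by ring
  rw [e] at h5
  have h7 := mem_PI_bot_pow.mp h5 (Finsupp.single l 1) (by simp)
  rwa [map_sub, coeff_C_mul, sub_eq_zero] at h7

omit [IsDomain O] [Good O ϖ] in
theorem coeff_gD_sub (hx : HP n h ϖ x) {δ : PowerSeries O} (h0 : constantCoeff δ = 0) {N d : ℕ}
    (hd : d ≤ N) : PowerSeries.coeff d (gD p n x δ N - PowerSeries.X) = 0 := by
  have hp : (p : PowerSeries O) = 0 := by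
    rw [← map_natCast (C : O →+* PowerSeries O), CharP.cast_eq_zero, map_zero]
  have hδ := mem_PI_radical_of_zero (⊥ : Ideal O) h0
  have h1 := fp_iter_mem_pow (p := p) (n := n) (PI Unit ⊥) hp hx.hpos
    (v := fun j => (C (x j) : PowerSeries O)) (fun j _ hj => by rw [hx.zero j hj, map_zero])
    hδ (mem_PI_bot.mpr h0) N
  have hX : (PowerSeries.X : PowerSeries O) ∈ (PI Unit (⊥ : Ideal O)).radical :=
    mem_PI_radical_of_zero _ (constantCoeff_X ())
  obtain ⟨g, hg⟩ := fadd_eq (p := p) (n := n) (PI Unit ⊥) (fun j => (C (x j) : PowerSeries O)) hX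
    (fp_iter_mem (p := p) (n := n) (PI Unit ⊥) (fun j => (C (x j) : PowerSeries O)) hδ hδ N).1
  have h2 : gD p n x δ N - PowerSeries.X ∈ PI Unit (⊥ : Ideal O) ^ (p ^ h) ^ N := by
    rw [gD, hg]
    have e : ∀ a b g : PowerSeries O, a + b + a * b * g - a = b * (1 + a * g) := fun a b g => by
      ring
    rw [e]; exact Ideal.mul_mem_right _ _ h1
  have h3 : N < (p ^ h) ^ N := Nat.lt_pow_self (Nat.one_lt_pow (by have := hx.hpos; omega)
    (Fact.out : p.Prime).one_lt)
  exact mem_PI_bot_pow.mp h2 (Finsupp.single () d) (by simp; omega)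

omit [CharP O p] [IsDomain O] in
theorem pErr_pi {m : ℕ} {v w : ℕ → ℕ → O} {k : ℕ → PowerSeries O}
    (hk : ∀ N, IsHomS p n (v N) m (w N) (k N)) (ks : PowerSeries (ℕ → O))
    (hks : ∀ N, MvPowerSeries.map (Pi.evalRingHom (fun _ => O) N) ks = k N) :
    constantCoeff ks = 0 ∧ pErr p n (fun j N => v N j) m (fun j N => w N j) ks = 0 := by
  have h0 : constantCoeff ks = 0 := funext fun N => by
    have := (hk N).const
    rw [← hks N, constantCoeff_map] at this
    exact this
  refine ⟨h0, MvPowerSeries.ext fun d => funext fun N => ?_⟩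
  have h1 := map_pErr (p := p) (n := n) (m := m) (v := fun j N => v N j) (w := fun j N => w N j)
    (Pi.evalRingHom (fun _ => O) N) h0
  rw [hks N] at h1
  have h2 : pErr p n (fun j => Pi.evalRingHom (fun _ => O) N fun N => v N j) m
      (fun j => Pi.evalRingHom (fun _ => O) N fun N => w N j) (k N) = 0 := (hk N).pErr_eq
  rw [h2] at h1
  exact congrArg (coeff d) h1

omit [Good O ϖ] in
/-- The rigidity argument in the ring of sequences. -/
theorem theta_rigid (hx : HP n h ϖ x) {θ : PowerSeries O} (hθ : IsHomS p n x h (eH O h) θ)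
    {θu : PowerSeries (MvPowerSeries (Fin (n - h)) (FractionRing O))}
    (hu1 : θu - MvPowerSeries.map (C.comp (algebraMap O (FractionRing O))) θ ∈
        cI Unit (PI (Fin (n - h)) ⊥))
    (hu2 : ev1 C (pser p n (sh n h (fun j => C (algebraMap O (FractionRing O) (x j))) X)) θu =
        θu ^ p ^ h)
    {R : Type} [CommRing R] (cC : FractionRing O →+* R) (N : Ideal R) [IsAdicComplete N R]
    {a : Fin (n - h) → R} (ha : ∀ i, a i ∈ N) {k : PowerSeries R} (hk0 : constantCoeff k = 0)
    (hk1 : k - PowerSeries.X ∈ cI Unit N)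
    (hk2 : pErr p n (sh n h (fun j => cC (algebraMap O (FractionRing O) (x j))) a) n
      (fun j => cC (algebraMap O (FractionRing O) (x j))) k = 0) :
    MvPowerSeries.map (ev cC a) θu =
      ev1 C k (MvPowerSeries.map (cC.comp (algebraMap O (FractionRing O))) θ) := by
  set ι := algebraMap O (FractionRing O)
  have hok : Ok a := Ok.of_rad N fun i => Ideal.le_radical (ha i)
  have hp : (p : R) = 0 := by rw [← map_natCast (cC.comp ι), CharP.cast_eq_zero, map_zero]
  have hv : (fun j => ev cC a (sh n h (fun j => C (ι (x j))) X j)) =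
      sh n h (fun j => cC (ι (x j))) a := by
    rw [map_sh]; simp only [ev_C _ hok, ev_X _ hok]
  have hθ' : ev1 C (pser p n fun j => cC (ι (x j))) (MvPowerSeries.map (cC.comp ι) θ) =
      MvPowerSeries.map (cC.comp ι) θ ^ p ^ h := by
    have := congrArg (MvPowerSeries.map (cC.comp ι)) (theta_eq hx hθ)
    rwa [map_ev1_C _ (constantCoeff_pser _), map_pser, map_pow] at this
  refine theta_unique N hp hx.hpos hx.hlt.le (v := sh n h (fun j => cC (ι (x j))) a)
    (fun j _ hj => ?_) ?_ ?_ ?_ ?_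
  · rw [sh_out _ _ (Or.inl hj), hx.zero j hj, map_zero, map_zero]
  · have := sh_add n h (fun j => cC (ι (x j))) a ⟨0, by have := hx.hlt; omega⟩
    simp only [add_zero] at this
    rw [this]
    refine isUnit_of_sub_mem_radical N (u := cC (ι (x h))) (IsUnit.map cC ?_) ?_
    · simpa [ι] using hx.ne
    · rw [add_sub_cancel_left]; exact Ideal.le_radical (ha _)
  · have := congrArg (MvPowerSeries.map (ev cC a)) hu2
    rwa [map_ev1_C _ (constantCoeff_pser _), map_pser, map_pow, hv] at this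
  · rw [pErr, sub_eq_zero] at hk2
    rw [ev1_ev1_C hk0 (constantCoeff_pser _), hk2, ← ev1_ev1_C (constantCoeff_pser _) hk0, hθ',
      map_pow]
  · have h1 : MvPowerSeries.map (ev cC a) θu - MvPowerSeries.map (cC.comp ι) θ ∈ cI Unit N := by
      have := map_mem_cI (ev cC a) (M := N) (fun f hf => ev_mem _ hok ha (mem_PI_bot.mp hf)) hu1
      rw [map_sub] at this
      convert this using 2
      refine MvPowerSeries.ext fun d => ?_
      rw [coeff_map, coeff_map, coeff_map, RingHom.comp_apply, RingHom.comp_apply, ev_C _ hok]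
    have h2 := ev_sub_ev_mem (σ := Unit) (C : R →+* PowerSeries R) (PI Unit ⊥)
      (a := fun _ => k) (b := fun _ => PowerSeries.X) (fun _ => mem_PI_radical_of_zero _ hk0)
      (fun _ => mem_PI_radical_of_zero _ (constantCoeff_X ())) (fun _ => hk1)
      (MvPowerSeries.map (cC.comp ι) θ)
    rw [ev1_C_X] at h2
    simpa using sub_mem h1 h2

/-- Vanishing of `G` at the sequence of points `lam ^ (Q ^ N)` in the ring of sequences. -/
theorem ev_G (hx : HP n h ϖ x) {θ : PowerSeries O} (hθ : IsHomS p n x h (eH O h) θ)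
    {θu : PowerSeries (MvPowerSeries (Fin (n - h)) (FractionRing O))} (hu0 : constantCoeff θu = 0)
    (hu1 : θu - MvPowerSeries.map (C.comp (algebraMap O (FractionRing O))) θ ∈
        cI Unit (PI (Fin (n - h)) ⊥))
    (hu2 : ev1 C (pser p n (sh n h (fun j => C (algebraMap O (FractionRing O) (x j))) X)) θu =
        θu ^ p ^ h)
    {W : Fin (n - h) → MvPowerSeries (Fin (n - h)) O} (hW0 : ∀ i, constantCoeff (W i) = 0)
    {f : MvPowerSeries (Fin (n - h)) O} {G : MvPowerSeries (Fin (n - h)) (FractionRing O)}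
    (hG : ev C (fun i => ev1 (RingHom.id _)
      (MvPowerSeries.map (algebraMap O (FractionRing O)) (W i)) θu) G =
      MvPowerSeries.map (algebraMap O (FractionRing O)) f)
    {a : ℕ → Fin (n - h) → O} {k : ℕ → PowerSeries O} {z : Fin (n - h) → O}
    (hz : ∀ i, z i ∈ Ideal.span {ϖ}) (ha : ∀ N i, a N i ∈ Ideal.span {ϖ ^ (p ^ h) ^ N})
    (hk : ∀ N, IsHomS p n (sh n h x (a N)) n x (k N))
    (hkX : ∀ d N, d ≤ N →
      PowerSeries.coeff d (k N - PowerSeries.X) ∈ Ideal.span {ϖ ^ (p ^ h) ^ N})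
    (hkW : ∀ N i, ev1 (RingHom.id O) (ev (RingHom.id O) (a N) (W i)) (k N) = (fp p n x)^[N] (z i))
    (hf : ∀ N, ev (RingHom.id O) (a N) f = 0)
    {R : Type} [CommRing R] (cC : FractionRing O →+* R) (sq : (ℕ → O) →+* R)
    (h1 : ∀ o : O, cC (algebraMap O (FractionRing O) o) = sq fun _ => o)
    (M : Ideal R) [IsAdicComplete M R]
    (h3 : ∀ (a : ℕ → O) (N0 : ℕ), (∀ N, N0 ≤ N → a N ∈ Ideal.span {ϖ ^ (p ^ h) ^ N}) → sq a ∈ M) :
    ev cC (fun i => sq fun N => ev1 (RingHom.id O) (z i) θ ^ (p ^ h) ^ N) G = 0 := by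
  set ι := algebraMap O (FractionRing O)
  set I : Ideal O := Ideal.span {ϖ} with hI
  have hp0 : (p : O) = 0 := CharP.cast_eq_zero O p
  have hQ : p ^ h ≠ 0 := pow_ne_zero _ (Fact.out : p.Prime).ne_zero
  have hle : ∀ N, Ideal.span {ϖ ^ (p ^ h) ^ N} ≤ I.radical := fun N =>
    ((Ideal.span_singleton_le_iff_mem _).mpr (Ideal.pow_mem_of_mem _
      (Ideal.mem_span_singleton_self ϖ) _ (Nat.pos_of_ne_zero (pow_ne_zero _ hQ)))).trans
      Ideal.le_radical
  let cs : O →+* (ℕ → O) := RingHom.pi fun _ => RingHom.id O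
  have hcs : cC.comp ι = sq.comp cs := RingHom.ext h1
  have hpr : ∀ N, (Pi.evalRingHom (fun _ => O) N).comp cs = RingHom.id O := fun N => rfl
  let as : Fin (n - h) → R := fun i => sq fun N => a N i
  have has : ∀ i, as i ∈ M := fun i => h3 _ 0 fun N _ => ha N i
  have hok : Ok as := Ok.of_rad M fun i => Ideal.le_radical (has i)
  have hoka : ∀ N, Ok (a N) := fun N => Ok.of_rad I fun i => hle N (ha N i)
  have hev : ∀ g : MvPowerSeries (Fin (n - h)) O, ev cC as (MvPowerSeries.map ι g) =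
      sq fun N => ev (RingHom.id O) (a N) g := fun g => by
    rw [ev_map ι cC hok, hcs, ev_sq (ϖ := ϖ) sq cs (b := fun i N => a N i)
      (fun i N => hle N (ha N i)) hok]
    rfl
  let ks : PowerSeries (ℕ → O) := fun d N => coeff d (k N)
  have hks : ∀ N, MvPowerSeries.map (Pi.evalRingHom (fun _ => O) N) ks = k N := fun N => rfl
  obtain ⟨hks0, hks1⟩ := pErr_pi hk ks hks
  have hks0' : constantCoeff (MvPowerSeries.map sq ks) = 0 := by
    rw [constantCoeff_map, hks0, map_zero]
  have hrig := theta_rigid hx hθ hu1 hu2 cC M has (k := MvPowerSeries.map sq ks) hks0'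
    (mem_cI1.mpr fun d => by
      have e : PowerSeries.coeff d (MvPowerSeries.map sq ks - PowerSeries.X) =
          sq fun N => PowerSeries.coeff d (k N - PowerSeries.X) := by
        change coeff _ (MvPowerSeries.map sq ks - X ()) = _
        rw [← map_X sq (), ← map_sub, coeff_map]
        congr 1; funext N
        change _ = coeff _ (k N - X ())
        rw [← hks N, ← map_X (Pi.evalRingHom (fun _ => O) N) (), ← map_sub]
        rfl
      rw [e]; exact h3 _ d fun N hN => hkX d N hN)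
    (by
      have := map_pErr (p := p) (n := n) (m := n) (v := fun j N => sh n h x (a N) j)
        (w := fun j _ => x j) sq hks0
      rw [hks1, map_zero] at this
      have e : (fun j => sq fun N => sh n h x (a N) j) = sh n h (fun j => cC (ι (x j))) as := by
        funext j
        simp only [sh, h1, as, ι]
        split_ifs
        · rw [← map_add]; rfl
        · simp only [add_zero]
      rw [e] at this
      simpa only [h1, ι] using this.symm)
  have hWa : ∀ N i, ev (RingHom.id O) (a N) (W i) ∈ Ideal.span {ϖ ^ (p ^ h) ^ N} := fun N i =>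
    ev_mem _ (hoka N) (ha N) (hW0 i)
  have hzN : ∀ N i, (fp p n x)^[N] (z i) ∈ Ideal.span {ϖ ^ (p ^ h) ^ N} := fun N i => by
    rw [← Ideal.span_singleton_pow]
    exact fp_iter_mem_pow I hp0 hx.hpos (fun j _ hj => hx.zero j hj) (Ideal.le_radical (hz i))
      (hz i) N
  have hW0' : ∀ i, constantCoeff (MvPowerSeries.map ι (W i)) = 0 := fun i => by
    rw [constantCoeff_map, hW0, map_zero]
  have hw : ∀ i, ev cC as (ev1 (RingHom.id _) (MvPowerSeries.map ι (W i)) θu) =
      sq fun N => ev1 (RingHom.id O) (z i) θ ^ (p ^ h) ^ N := fun i => by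
    have hWM : (sq fun N => ev (RingHom.id O) (a N) (W i)) ∈ M := h3 _ 0 fun N _ => hWa N i
    have hzM : (sq fun N => (fp p n x)^[N] (z i)) ∈ M := h3 _ 0 fun N _ => hzN N i
    have hokW := ok_one M (Ideal.le_radical hWM)
    have hokz := ok_one M (Ideal.le_radical hzM)
    rw [map_ev (ev cC as) (RingHom.id _) (Ok.of_const fun _ : Unit => hW0' i)
      (by simpa only [hev] using hokW)]
    simp only [hev]
    rw [RingHom.comp_id, ← RingHom.id_comp (ev cC as), ← ev_map (ev cC as) _ hokW, hrig,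
      ev_ev_C (RingHom.id R) M (fun _ => Ideal.le_radical hWM) (fun _ => hks0'),
      ev_map sq _ hokW, RingHom.id_comp]
    have e0 := ev_sq (ϖ := ϖ) sq (RingHom.id _) (b := fun _ N => ev (RingHom.id O) (a N) (W i))
        (fun _ N => hle N (hWa N i)) hokW ks
    rw [RingHom.comp_id] at e0
    rw [e0]
    have e : (fun N => ev ((Pi.evalRingHom (fun _ => O) N).comp (RingHom.id _))
        (fun _ : Unit => ev (RingHom.id O) (a N) (W i)) ks) = fun N => (fp p n x)^[N] (z i) := by
      funext N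
      rw [← hkW N i, ← hks N, ev_map _ _ (ok_one I (hle N (hWa N i)))]
      rfl
    rw [e, ev_map _ _ hokz, RingHom.id_comp, hcs,
      ev_sq (ϖ := ϖ) sq cs (b := fun _ N => (fp p n x)^[N] (z i)) (fun _ N => hle N (hzN N i)) hokz]
    congr 1; funext N
    have h5 := hθ.ev_fp_iter (RingHom.id O) I (Ideal.le_radical (hz i)) N
    simp only [RingHom.id_apply] at h5
    rw [hpr, h5]
    exact fp_eH_iter I hp0 hx.hpos (ev_mem _ (ok_one I (Ideal.le_radical (hz i)))
      (fun _ => Ideal.le_radical (hz i)) hθ.const) N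
  have h6 := congrArg (ev cC as) hG
  rw [ev_ev_C cC M (fun i => Ideal.le_radical (has i)) (fun i => ?_), hev] at h6
  · simp only [hw, hf] at h6
    rw [h6]; exact map_zero sq
  · exact mem_PI_bot.mp (ev_mem _ (Ok.of_const fun _ : Unit => hW0' i)
      (fun _ => mem_PI_bot.mpr (hW0' i)) hu0)

end STAAux

open STAAux in
/-- Construction of the series `G` expressing `f` in Serre-Tate coordinates, and its asymptotic
vanishing along the orbit. -/
theorem exists_G (hx : HP n h ϖ x) {s : Fin (n - h) → ℕ → O} (hs : TS p n ϖ x s)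
    {θ : PowerSeries O} (hθ : IsHomS p n x h (eH O h) θ) (hθ1 : PowerSeries.coeff 1 θ ≠ 0)
    {f : MvPowerSeries (Fin (n - h)) O} (hf : f ≠ 0) :
    ∃ G : MvPowerSeries (Fin (n - h)) (FractionRing O), G ≠ 0 ∧
      ∀ (δ : PowerSeries O) (z : Fin (n - h) → O), constantCoeff δ = 0 →
        PowerSeries.coeff 1 δ = 0 → IsHomS p n (eH O n) n (eH O n) δ →
        (∀ i, IsZ p n x (Ideal.span {ϖ}) (fun r => ev1 (RingHom.id O) (s i r) δ) (z i)) →
        (∀ N : ℕ, ∃ (a : Fin (n - h) → O) (k : PowerSeries O), (∀ i, a i ∈ Ideal.span {ϖ}) ∧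
          IsHomS p n (sh n h x a) n x k ∧
          k - gD p n (eH O n) δ N ∈ cI Unit (Ideal.span {ϖ}) ∧ ev (RingHom.id O) a f = 0) →
        AV (p ^ h) ϖ G fun i => ev1 (RingHom.id O) (z i) θ := by
  set ι := algebraMap O (FractionRing O) with hι
  have hp0 : (p : O) = 0 := CharP.cast_eq_zero O p
  have hQ : p ^ h ≠ 0 := pow_ne_zero _ (Fact.out : p.Prime).ne_zero
  obtain ⟨W, hW, hdet⟩ := exists_W hx hs
  obtain ⟨θu, hu0, hu1, hu2⟩ := exists_thetaU hx hθ
  have hW0 : ∀ i, constantCoeff (W i) = 0 := fun i => by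
    have := hW i 0
    simp only [Function.iterate_zero, id, hs.zero, map_zero, sub_zero, zero_add, pow_one] at this
    exact mem_PI_bot.mp this
  have hW0' : ∀ i, constantCoeff (MvPowerSeries.map ι (W i)) = 0 := fun i => by
    rw [constantCoeff_map, hW0, map_zero]
  have ht : constantCoeff (PowerSeries.coeff 1 θu) = ι (PowerSeries.coeff 1 θ) := by
    have := mem_PI_bot.mp (mem_cI1.mp hu1 1)
    rw [map_sub, map_sub, sub_eq_zero] at this
    rw [this]
    exact constantCoeff_C _
  obtain ⟨G, hG⟩ := ev_surjective (fun i => ev1 (RingHom.id _) (MvPowerSeries.map ι (W i)) θu)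
    (fun i => mem_PI_bot.mp (ev_mem _ (Ok.of_const fun _ : Unit => hW0' i)
      (fun _ => mem_PI_bot.mpr (hW0' i)) hu0))
    (by
      have e : (Matrix.of fun i j => coeff (Finsupp.single j 1)
          (ev1 (RingHom.id _) (MvPowerSeries.map ι (W i)) θu)) = ι (PowerSeries.coeff 1 θ) •
          ι.mapMatrix (Matrix.of fun i l => coeff (Finsupp.single l 1) (W i)) := by
        ext i j
        rw [Matrix.of_apply, coeff_lin hu0 ht (hW0' i)]
        rfl
      rw [e, Matrix.det_smul, ← RingHom.map_det, isUnit_iff_ne_zero]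
      exact mul_ne_zero (pow_ne_zero _ (by simpa [hι] using hθ1)) (by simpa [hι] using hdet))
    (MvPowerSeries.map ι f)
  refine ⟨G, fun h0 => hf ?_, fun δ z h0 h1 hδ hz H T => ?_⟩
  · rw [h0, map_zero] at hG
    refine MvPowerSeries.ext fun d => IsFractionRing.injective O (FractionRing O) ?_
    rw [map_zero, map_zero]
    exact (congrArg (coeff d) hG).symm
  choose a k ha hk hkg hfa using H
  have hdisp := fun N => displacement hx.hpos (hp0 ▸ zero_mem _) hx.toGP h0 h1
    (by rw [hδ.pErr_eq]; exact zero_mem _) N (M' := Ideal.span {ϖ ^ (p ^ h) ^ N})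
    ((Ideal.span_singleton_le_iff_mem _).mpr (Ideal.pow_mem_of_mem _
      (Ideal.mem_span_singleton_self ϖ) _ (Nat.pos_of_ne_zero (pow_ne_zero _ hQ))))
    ⟨_, (Ideal.span_singleton_pow _ _).le⟩ (fp_iter_mem_charp hx N) (ha N) (hk N) (hkg N)
  have hzI : ∀ i, z i ∈ Ideal.span {ϖ} := fun i => by
    have h2 := hz i 0
    simp only [Function.iterate_zero, id, zero_add, pow_one, hs.zero i] at h2
    rwa [ev_zero, h0, map_zero, sub_zero] at h2
  obtain ⟨R, _, cC, sq, h2, h3, h4, h5⟩ := exists_seqRing ϖ (p ^ h) T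
  set M : Ideal R := Ideal.span {sq fun N => ϖ ^ (p ^ h) ^ N} with hM
  have hMT : M ^ T = ⊥ := by rw [hM, Ideal.span_singleton_pow, h3, Ideal.span_singleton_eq_bot]
  have := isAdicComplete_of_nilpotent M hMT
  have h6 := ev_G hx hθ hu0 hu1 hu2 hW0 hG hzI (fun N => (hdisp N).1) hk
    (fun d N hd => by
      have := mem_cI1.mp (hdisp N).2 d
      have e : k N - PowerSeries.X = (k N - gD p n x δ N) + (gD p n x δ N - PowerSeries.X) := by
        ring
      rwa [e, map_add, coeff_gD_sub hx h0 hd, add_zero])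
    (fun N i => ev_W hx (hs.zero i) (hs.mem i) (hs.succ i) (hW i) h0 (hz i) N (ha N) (hk N) (by
      have e : k N - gD p n x δ N = (k N - gD p n (eH O n) δ N) -
        (gD p n x δ N - gD p n (eH O n) δ N) := by ring
      rw [e]
      exact sub_mem (hkg N) (gD_sub_mem (hx.toGP.sub_mem (gp_eH hx.pos ϖ)) h0 N)))
    hfa cC sq h2 M h4
  have hlam : ∀ i, (sq fun N => ev1 (RingHom.id O) (z i) θ ^ (p ^ h) ^ N) ∈ M := fun i =>
    h4 _ 0 fun N _ => by
      rw [← Ideal.span_singleton_pow]
      exact Ideal.pow_mem_pow (ev_mem _ (ok_one _ (Ideal.le_radical (hzI i))) (fun _ => hzI i)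
        hθ.const) _
  have h7 := ev_sub_sum_mem cC (Ok.of_rad M fun i => Ideal.le_radical (hlam i)) G T
  have h8 : Ideal.span (Set.range fun i => sq fun N =>
      ev1 (RingHom.id O) (z i) θ ^ (p ^ h) ^ N) ^ T ≤ ⊥ :=
    hMT ▸ Ideal.pow_right_mono (Ideal.span_le.mpr (by rintro _ ⟨i, rfl⟩; exact hlam i)) T
  have h9 := Ideal.mem_bot.mp (h8 h7)
  rw [h6, zero_sub, neg_eq_zero] at h9
  obtain ⟨e, he⟩ := h5 (degLT (Fin (n - h)) T) (fun d => coeff d G)
    (fun d N => d.prod fun i e => (ev1 (RingHom.id O) (z i) θ ^ (p ^ h) ^ N) ^ e) (by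
      rw [← h9]
      refine Finset.sum_congr rfl fun d _ => ?_
      congr 1
      simp only [Finsupp.prod, ← map_pow, ← map_prod]
      congr 1; funext N
      simp [Finset.prod_apply])
  refine ⟨e, fun N => ?_⟩
  obtain ⟨o, ho⟩ := he N
  refine ⟨o, ?_⟩
  rw [← ho]
  simp only [Finsupp.prod, map_prod, map_pow]

end Vale.Agent.P217
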