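import Mathlib

/-! Definitions used in the statement of Chai's invariant ideal question. -/

namespace Vale.Agent.P217

open MvPowerSeries

/-- The Lubin-Tate ring `E_0 = W(F_{p^n})[[u_1, ..., u_{n-1}]]`. -/
abbrev EE (p : ℕ) [Fact p.Prime] (n : ℕ) : Type :=
  MvPowerSeries (Fin (n - 1)) (WittVector p (GaloisField p n))

variable (p : ℕ) [Fact p.Prime] (n : ℕ)

instance instIsDomainEE : IsDomain (EE p n) := NoZeroDivisors.to_isDomain _

/-- `u_0 = p`, `u_j` the `j`-th variable for `1 ≤ j < n`, `u_n = 1`, `u_j = 0` for `j > n`. -/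
noncomputable def uu (j : ℕ) : EE p n :=
  if j = 0 then (p : EE p n)
  else if h : j - 1 < n - 1 then X ⟨j - 1, h⟩
  else if j = n then 1 else 0

/-- Hazewinkel's recursion `l_0 = 1`, `p l_t = ∑_{s < t} l_s u_{t-s}^{p^s}`. -/
noncomputable def hlog : ℕ → FractionRing (EE p n)
  | 0 => 1
  | t + 1 => (p : FractionRing (EE p n))⁻¹ *
      ∑ s : Fin (t + 1), hlog s *
        algebraMap (EE p n) (FractionRing (EE p n)) (uu p n (t + 1 - s)) ^ p ^ (s : ℕ)

/-- The logarithm `∑_t l_t X^{p^t}`. -/
noncomputable def logSeries : PowerSeries (FractionRing (EE p n)) :=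
  PowerSeries.mk fun d => if d = p ^ Nat.log p d then hlog p n (Nat.log p d) else 0

/-- `F` is the formal group law over `E_0` with logarithm `logSeries`. -/
def IsLT (F : FormalGroup (EE p n)) : Prop :=
  (logSeries p n).subst
      (F.toPowerSeries.map (algebraMap (EE p n) (FractionRing (EE p n)))) =
    (logSeries p n).subst (X 0 : MvPowerSeries (Fin 2) (FractionRing (EE p n))) +
      (logSeries p n).subst (X 1 : MvPowerSeries (Fin 2) (FractionRing (EE p n)))

/-- The residue map `E_0 → F_{p^n}`. -/
noncomputable def res : EE p n →+* GaloisField p n :=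
  WittVector.constantCoeff.comp MvPowerSeries.constantCoeff

/-- The height ideals: `I_0 = 0`, `I_h = (p, u_1, ..., u_{h-1})`. -/
noncomputable def htIdeal (h : ℕ) : Ideal (EE p n) :=
  Ideal.span {x | ∃ j, j < h ∧ x = uu p n j}

/-- The `m`-series `[m]_F(X)` of a formal group law. -/
noncomputable def mulSeries {R : Type} [CommRing R] (F : FormalGroup R) : ℕ → PowerSeries R
  | 0 => 0
  | m + 1 => F.toPowerSeries.subst ![mulSeries F m, PowerSeries.X]

/-- `h` is a homomorphism of formal group laws `F → G`. -/
def IsFGHom {R : Type} [CommRing R] (F G : FormalGroup R) (h : PowerSeries R) : Prop :=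
  PowerSeries.constantCoeff h = 0 ∧
    h.subst F.toPowerSeries =
      G.toPowerSeries.subst
        ![h.subst (X 0 : MvPowerSeries (Fin 2) R), h.subst (X 1 : MvPowerSeries (Fin 2) R)]

/-- `g` is an automorphism of the special fibre of `F`. -/
def IsAut (F : FormalGroup (EE p n)) (g : PowerSeries (GaloisField p n)) : Prop :=
  IsFGHom (F.map (res p n)) (F.map (res p n)) g ∧ PowerSeries.coeff 1 g ≠ 0

/-- `φ` is the automorphism of `E_0` attached to the element `(g, σ)` of the extended Morava
stabilizer group. -/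
def Acts (F : FormalGroup (EE p n)) (σ : GaloisField p n ≃+* GaloisField p n)
    (g : PowerSeries (GaloisField p n)) (φ : EE p n ≃+* EE p n) : Prop :=
  (∀ w, φ (C w) = C (WittVector.map (σ : GaloisField p n →+* GaloisField p n) w)) ∧
    ∃ h : PowerSeries (EE p n), PowerSeries.map (res p n) h = g ∧
      IsFGHom (F.map (φ : EE p n →+* EE p n)) F h

/-- `J` is invariant under the extended Morava stabilizer group. -/
def Invariant (F : FormalGroup (EE p n)) (J : Ideal (EE p n)) : Prop :=
  ∀ σ g φ, IsAut p n F g → Acts p n F σ g φ → J.map (φ : EE p n →+* EE p n) = J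

end Vale.Agent.P217
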