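import Vale.Agent.P217.Norm
import Vale.Agent.P217.Good
import Vale.Agent.P217.FE

/-! The ring `W(O)` and the period ring. -/

namespace Vale.Agent.P217

open Filter Topology

variable {O : Type} [CommRing O]

/-- The ideal `(p, [ϖ])` of `W(O)`. -/
noncomputable def IA (p : ℕ) [Fact p.Prime] (ϖ : O) : Ideal (WittVector p O) :=
  Ideal.span {(p : WittVector p O), WittVector.teichmuller p ϖ}

/-- The data of a period ring. -/
structure Per (p : ℕ) [Fact p.Prime] (ϖ : O) {B : Type} [NormedCommRing B]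
    (j : WittVector p O →+* B) (φ : B →+* B) : Prop where
  comm : ∀ a, φ (j a) = j (WittVector.frobenius a)
  norm_phi : ∀ b, ‖φ b‖ ≤ ‖b‖
  norm_le : ∀ (k : ℕ), ∀ a ∈ IA p ϖ ^ k, ‖j a‖ ≤ (1 / 2) ^ k
  ex : ∀ (a : WittVector p O) (k : ℕ), ‖j a‖ ≤ (1 / 2) ^ k → ∀ c, c ≤ k →
    a ∈ Ideal.span {WittVector.teichmuller p ϖ ^ c} ⊔ Ideal.span {(p : WittVector p O) ^ (k - c)}

variable {p : ℕ} [Fact p.Prime] [CharP O p] [PerfectRing O p] {ϖ : O}

theorem frobenius_teich (y : O) :
    WittVector.frobenius (WittVector.teichmuller p y) = WittVector.teichmuller p y ^ p := by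
  rw [WittVector.frobenius_eq_map_frobenius, WittVector.map_teichmuller, frobenius_def, map_pow]

theorem frobenius_sub_mem (a : WittVector p O) :
    WittVector.frobenius a - a ^ p ∈ Ideal.span {(p : WittVector p O)} := by
  rw [← WittVector.ker_constantCoeff, RingHom.mem_ker, map_sub, map_pow,
    WittVector.constantCoeff_apply, WittVector.constantCoeff_apply,
    WittVector.coeff_frobenius_charP, sub_self]

theorem sub_mem_p_iff {a b : WittVector p O} :
    a - b ∈ Ideal.span {(p : WittVector p O)} ↔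
      WittVector.constantCoeff a = WittVector.constantCoeff b := by
  rw [← WittVector.ker_constantCoeff, RingHom.mem_ker, map_sub, sub_eq_zero]

theorem mem_IA {a : WittVector p O} :
    a ∈ IA p ϖ ↔ WittVector.constantCoeff a ∈ Ideal.span {ϖ} := by
  constructor
  · intro h
    obtain ⟨u, v, rfl⟩ := Ideal.mem_span_pair.mp h
    rw [map_add, map_mul, map_mul, map_natCast, CharP.cast_eq_zero, mul_zero, zero_add]
    exact Ideal.mul_mem_left _ _ (Ideal.mem_span_singleton_self ϖ)
  · intro h
    obtain ⟨c, hc⟩ := Ideal.mem_span_singleton'.mp h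
    have h1 : a - WittVector.teichmuller p c * WittVector.teichmuller p ϖ ∈
        Ideal.span {(p : WittVector p O)} := by
      rw [sub_mem_p_iff, ← hc, ← map_mul]
      rfl
    obtain ⟨u, hu⟩ := Ideal.mem_span_singleton'.mp h1
    exact Ideal.mem_span_pair.mpr ⟨u, WittVector.teichmuller p c, by rw [hu]; ring⟩

theorem mem_IA_radical {a : WittVector p O} :
    a ∈ (IA p ϖ).radical ↔ WittVector.constantCoeff a ∈ (Ideal.span {ϖ}).radical := by
  simp only [Ideal.mem_radical_iff, mem_IA, map_pow]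

theorem teich_mem_radical {y : O} (hy : y ∈ (Ideal.span {ϖ}).radical) :
    WittVector.teichmuller p y ∈ (IA p ϖ).radical := mem_IA_radical.mpr (by simpa using hy)

variable [IsDomain O]

/-- `p` is regular modulo a Teichmueller element. -/
theorem cancel_p_pow {y : O} {a : WittVector p O} {i k : ℕ}
    (h : (p : WittVector p O) ^ i * a ∈ Ideal.span {WittVector.teichmuller p y} ⊔
      Ideal.span {(p : WittVector p O) ^ (i + k)}) (hy : y ≠ 0) :
    a ∈ Ideal.span {WittVector.teichmuller p y} ⊔ Ideal.span {(p : WittVector p O) ^ k} := by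
  induction i generalizing a with
  | zero => simpa using h
  | succ i ih =>
    apply ih
    obtain ⟨_, hu, _, hv, h1⟩ := Submodule.mem_sup.mp h
    obtain ⟨u, rfl⟩ := Ideal.mem_span_singleton'.mp hu
    obtain ⟨v, rfl⟩ := Ideal.mem_span_singleton'.mp hv
    have h2 : WittVector.constantCoeff u = 0 := by
      have h3 := congrArg WittVector.constantCoeff h1
      rw [show i + 1 + k = i + k + 1 by ring] at h3
      simp only [map_add, map_mul, pow_succ, map_natCast, CharP.cast_eq_zero, mul_zero,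
        zero_mul, add_zero] at h3
      exact (mul_eq_zero.mp h3).resolve_right hy
    rw [← RingHom.mem_ker, WittVector.ker_constantCoeff] at h2
    obtain ⟨u, rfl⟩ := Ideal.mem_span_singleton'.mp h2
    have h4 : (p : WittVector p O) ^ i * a =
        u * WittVector.teichmuller p y + v * (p : WittVector p O) ^ (i + k) := by
      rw [← sub_eq_zero]
      apply WittVector.eq_zero_of_p_mul_eq_zero
      linear_combination -h1
    rw [h4]
    exact Submodule.add_mem_sup (Ideal.mul_mem_left _ _ (Ideal.mem_span_singleton_self _))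
      (Ideal.mul_mem_left _ _ (Ideal.mem_span_singleton_self _))

namespace WCplAux

omit [CharP O p] [PerfectRing O p] in
theorem pow_le (c d : ℕ) : IA p ϖ ^ (c + d) ≤
    Ideal.span {WittVector.teichmuller p ϖ ^ c} ⊔ Ideal.span {(p : WittVector p O) ^ d} := by
  rw [IA, Ideal.span_insert, sup_comm, ← Ideal.span_singleton_pow, ← Ideal.span_singleton_pow]
  exact Ideal.sup_pow_add_le_pow_sup_pow

omit [CharP O p] [PerfectRing O p] in
theorem p_mem : (p : WittVector p O) ∈ IA p ϖ := Ideal.subset_span (by simp)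

omit [CharP O p] [PerfectRing O p] in
theorem teich_mem : WittVector.teichmuller p ϖ ∈ IA p ϖ := Ideal.subset_span (by simp)

omit [CharP O p] [PerfectRing O p] in
theorem le_pow (k : ℕ) :
    Ideal.span {WittVector.teichmuller p ϖ ^ k} ⊔ Ideal.span {(p : WittVector p O) ^ k} ≤
      IA p ϖ ^ k :=
  sup_le ((Ideal.span_singleton_le_iff_mem _).mpr (Ideal.pow_mem_pow teich_mem k))
    ((Ideal.span_singleton_le_iff_mem _).mpr (Ideal.pow_mem_pow p_mem k))

theorem frobenius_mem {k : ℕ} {a : WittVector p O} (ha : a ∈ IA p ϖ ^ k) :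
    WittVector.frobenius a ∈ IA p ϖ ^ k := by
  have h1 : (IA p ϖ).map WittVector.frobenius ≤ IA p ϖ := by
    rw [Ideal.map_le_iff_le_comap]
    intro x hx
    rw [Ideal.mem_comap, mem_IA, WittVector.constantCoeff_apply, WittVector.coeff_frobenius_charP]
    exact Ideal.pow_mem_of_mem _ (mem_IA.mp hx) p (Fact.out : p.Prime).pos
  have h2 := Ideal.mem_map_of_mem (WittVector.frobenius (p := p) (R := O)) ha
  rw [Ideal.map_pow] at h2
  exact Ideal.pow_right_mono h1 k h2

/-- The operator `s ↦ (s k - t * s (k + 1))`. -/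
def shiftOp {S : Type} [CommRing S] (t : S) : (ℕ → S) →+ (ℕ → S) where
  toFun s k := s k - t * s (k + 1)
  map_zero' := by ext k; simp
  map_add' a b := by ext k; simp only [Pi.add_apply]; ring

theorem shiftOp_smul {S : Type} [CommRing S] (t π : S) (x : ℕ → S) :
    shiftOp t (π • x) = π • shiftOp t x := by
  ext k
  change π * x k - t * (π * x (k + 1)) = π * (x k - t * x (k + 1))
  ring

theorem shiftOp_surj [IsAdicComplete (Ideal.span {ϖ}) O] :
    Function.Surjective (shiftOp (WittVector.teichmuller p ϖ)) := by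
  have h0 : Function.Surjective (shiftOp ϖ) :=
    surjective_of_mod ϖ _ (shiftOp_smul ϖ ϖ) fun y => ⟨y, fun k => -y (k + 1), by
      ext k
      change y k - ϖ * y (k + 1) = y k + ϖ * -y (k + 1)
      ring⟩
  refine surjective_of_mod (p : WittVector p O) _ (shiftOp_smul _ _) fun y => ?_
  obtain ⟨σ, hσ⟩ := h0 fun k => WittVector.constantCoeff (y k)
  have h1 : ∀ k, ∃ z, z * (p : WittVector p O) =
      shiftOp (WittVector.teichmuller p ϖ) (fun k => WittVector.teichmuller p (σ k)) k - y k :=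
    fun k => Ideal.mem_span_singleton'.mp (by
      rw [sub_mem_p_iff, ← congrFun hσ k]
      change WittVector.constantCoeff (WittVector.teichmuller p (σ k) -
        WittVector.teichmuller p ϖ * WittVector.teichmuller p (σ (k + 1))) = _
      rw [map_sub, map_mul]
      rfl)
  choose z hz using h1
  refine ⟨fun k => WittVector.teichmuller p (σ k), z, funext fun k => ?_⟩
  rw [Pi.add_apply, Pi.smul_apply, smul_eq_mul, mul_comm, hz]
  ring

theorem haus [Good O ϖ] (i : ℕ) : ∀ x : WittVector p O,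
    (∀ k, x ∈ Ideal.span {WittVector.teichmuller p ϖ ^ k} ⊔
      Ideal.span {(p : WittVector p O) ^ k}) → x ∈ Ideal.span {(p : WittVector p O)} ^ i := by
  induction i with
  | zero => simp
  | succ i ih =>
    intro x hx
    have h1 : WittVector.constantCoeff x = 0 := by
      refine eq_zero_of_mem_pow (Ideal.span {ϖ}) fun k => ?_
      obtain ⟨_, hu, _, hv, h1⟩ := Submodule.mem_sup.mp (hx (k + 1))
      obtain ⟨u, rfl⟩ := Ideal.mem_span_singleton'.mp hu
      obtain ⟨v, rfl⟩ := Ideal.mem_span_singleton'.mp hv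
      rw [← h1, map_add, map_mul, map_mul, map_pow, map_pow, map_natCast, CharP.cast_eq_zero,
        zero_pow (Nat.succ_ne_zero k), mul_zero, add_zero, Ideal.span_singleton_pow, pow_succ',
        ← mul_assoc]
      exact Ideal.mul_mem_left _ _ (Ideal.mem_span_singleton_self _)
    rw [← RingHom.mem_ker, WittVector.ker_constantCoeff] at h1
    obtain ⟨x, rfl⟩ := Ideal.mem_span_singleton'.mp h1
    rw [pow_succ]
    refine Ideal.mul_mem_mul (ih x fun k => ?_) (Ideal.mem_span_singleton_self _)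
    rw [← map_pow]
    refine cancel_p_pow (i := 1) ?_ (pow_ne_zero k (Good.ne (ϖ := ϖ)))
    have h2 := hx (1 + k)
    rw [pow_one, mul_comm, map_pow]
    have h3 : Ideal.span {WittVector.teichmuller p ϖ ^ (1 + k)} ≤
        Ideal.span {WittVector.teichmuller p ϖ ^ k} :=
      Ideal.span_singleton_le_span_singleton.mpr (pow_dvd_pow _ (Nat.le_add_left k 1))
    exact (sup_le_sup_right h3 _ :) h2

end WCplAux

variable [Good O ϖ]

instance isAdicComplete_IA : IsAdicComplete (IA p ϖ) (WittVector p O) := by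
  refine isAdicComplete_of _ (fun x hx => ?_) fun x hx => ?_
  · exact eq_zero_of_mem_pow (Ideal.span {(p : WittVector p O)}) fun i =>
      WCplAux.haus (ϖ := ϖ) i x fun k => WCplAux.pow_le k k (hx (k + k))
  · have h1 : ∀ k, ∃ a b : WittVector p O, a * WittVector.teichmuller p ϖ ^ k +
        b * (p : WittVector p O) ^ k = x (2 * (k + 1)) - x (2 * k) := fun k => by
      have h2 := sub_mem_pow_of_succ _ x hx (show 2 * k ≤ 2 * (k + 1) by omega)
      rw [two_mul k] at h2
      obtain ⟨_, hu, _, hv, h3⟩ := Submodule.mem_sup.mp (WCplAux.pow_le k k h2)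
      obtain ⟨u, rfl⟩ := Ideal.mem_span_singleton'.mp hu
      obtain ⟨v, rfl⟩ := Ideal.mem_span_singleton'.mp hv
      exact ⟨u, v, by rw [h3, two_mul k]⟩
    choose a b hab using h1
    obtain ⟨s, hs⟩ := WCplAux.shiftOp_surj (p := p) (ϖ := ϖ) a
    have hs' : ∀ k, s k - WittVector.teichmuller p ϖ * s (k + 1) = a k := congrFun hs
    obtain ⟨L, hL⟩ := exists_lim (Ideal.span {(p : WittVector p O)})
      (fun k => x (2 * k) + s k * WittVector.teichmuller p ϖ ^ k) fun k => by
        rw [Ideal.span_singleton_pow]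
        refine Ideal.mem_span_singleton'.mpr ⟨b k, ?_⟩
        linear_combination hab k + WittVector.teichmuller p ϖ ^ k * hs' k
    refine ⟨L, fun k => ?_⟩
    have h2 := hL k
    rw [Ideal.span_singleton_pow] at h2
    have h3 := sub_mem_pow_of_succ _ x hx (show k ≤ 2 * k by omega)
    have e : L - x k = (s k * WittVector.teichmuller p ϖ ^ k +
        (L - (x (2 * k) + s k * WittVector.teichmuller p ϖ ^ k))) + (x (2 * k) - x k) := by ring
    rw [e]
    exact add_mem (WCplAux.le_pow k (Submodule.add_mem_sup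
      (Ideal.mul_mem_left _ _ (Ideal.mem_span_singleton_self _)) h2)) h3

/-- The subring `⋃ p ^ (-i) I ^ i` of a ring in which `p` is inverted. -/
def WCplAux.blow (p : ℕ) {A K : Type} [CommRing A] [CommRing K] (ι : A →+* K) (I : Ideal A)
    (hp : (p : A) ∈ I) : Subring K where
  carrier := {b | ∃ i : ℕ, ∃ a ∈ I ^ i, (p : K) ^ i * b = ι a}
  mul_mem' := by
    rintro b b' ⟨i, a, ha, h⟩ ⟨i', a', ha', h'⟩
    refine ⟨i + i', a * a', by rw [pow_add]; exact Ideal.mul_mem_mul ha ha', ?_⟩
    rw [map_mul, ← h, ← h']; ring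
  one_mem' := ⟨0, 1, by simp, by simp⟩
  add_mem' := by
    rintro b b' ⟨i, a, ha, h⟩ ⟨i', a', ha', h'⟩
    refine ⟨i + i', a * (p : A) ^ i' + (p : A) ^ i * a', ?_, ?_⟩
    · rw [pow_add]
      exact add_mem (Ideal.mul_mem_mul ha (Ideal.pow_mem_pow hp i'))
        (Ideal.mul_mem_mul (Ideal.pow_mem_pow hp i) ha')
    · rw [map_add, map_mul, map_mul, map_pow, map_pow, map_natCast, ← h, ← h']; ring
  zero_mem' := ⟨0, 0, by simp, by simp⟩
  neg_mem' := by
    rintro b ⟨i, a, ha, h⟩
    exact ⟨i, -a, neg_mem ha, by rw [map_neg, ← h]; ring⟩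

theorem exists_per (p : ℕ) [Fact p.Prime] [CharP O p] [PerfectRing O p] (ϖ : O) [Good O ϖ] :
    ∃ (B : Type) (_ : NormedCommRing B) (_ : CompleteSpace B) (_ : IsUltrametricDist B)
      (_ : PNorm p B) (j : WittVector p O →+* B) (φ : B →+* B), Per p ϖ j φ := by
  let K := Localization.Away (p : WittVector p O)
  let ι : WittVector p O →+* K := algebraMap _ _
  have hu : IsUnit (p : K) := by
    simpa using IsLocalization.Away.algebraMap_isUnit (S := K) (p : WittVector p O)
  have hp : (p : WittVector p O) ∈ nonZeroDivisors (WittVector p O) :=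
    mem_nonZeroDivisors_iff_right.mpr WittVector.eq_zero_of_p_mul_eq_zero
  have hinj : Function.Injective ι :=
    IsLocalization.injective _ (M := Submonoid.powers (p : WittVector p O))
      ((Submonoid.powers_le).mpr hp)
  let R : Subring K := WCplAux.blow p ι (IA p ϖ) WCplAux.p_mem
  have hR : ∀ b : K, ∃ k : ℕ, (p : K) ^ k * b ∈ R := fun b => by
    obtain ⟨k, a, h⟩ := IsLocalization.Away.surj (p : WittVector p O) b
    exact ⟨k, 0, a, by simp, by rw [← h, map_natCast, pow_zero, one_mul, mul_comm]⟩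
  obtain ⟨B, i1, i2, i3, i4, κ, -, hn, hφ⟩ := exists_completion p K R hu hR
  let φ : K →+* K := IsLocalization.Away.lift (p : WittVector p O)
    (g := ι.comp WittVector.frobenius) (by simpa using hu)
  have hφι : ∀ a, φ (ι a) = ι (WittVector.frobenius a) := fun a =>
    IsLocalization.Away.lift_eq _ _ a
  obtain ⟨Φ, hΦ1, hΦ2⟩ := hφ φ (by
    rintro r ⟨i, a, ha, h⟩
    refine ⟨i, _, WCplAux.frobenius_mem ha, ?_⟩
    rw [← hφι, ← h, map_mul, map_pow, map_natCast])
  refine ⟨B, i1, i2, i3, i4, κ.comp ι, Φ, fun a => ?_, hΦ1, fun k a ha => ?_,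
    fun a k h c hc => ?_⟩
  · rw [RingHom.comp_apply, RingHom.comp_apply, hΦ2, hφι]
  · obtain ⟨r, hr⟩ := (hu.pow k).dvd (a := ι a)
    rw [RingHom.comp_apply, hn]
    exact ⟨r, ⟨k, a, ha, hr.symm⟩, hr⟩
  · rw [RingHom.comp_apply, hn] at h
    obtain ⟨r, ⟨i, a', ha', h1⟩, h2⟩ := h
    have h3 : (p : WittVector p O) ^ i * a = (p : WittVector p O) ^ k * a' := hinj (by
      rw [map_mul, map_mul, map_pow, map_pow, map_natCast, h2, ← h1]; ring)
    rw [← map_pow]
    refine cancel_p_pow (i := i) ?_ (pow_ne_zero c (Good.ne (ϖ := ϖ)))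
    rw [map_pow, h3]
    apply WCplAux.pow_le
    rw [show c + (i + (k - c)) = k + i by omega, pow_add]
    exact Ideal.mul_mem_mul (Ideal.pow_mem_pow WCplAux.p_mem k) ha'

variable {B : Type} [NormedCommRing B] {j : WittVector p O →+* B} {φ : B →+* B}

theorem Per.norm_le_one (P : Per p ϖ j φ) (a : WittVector p O) : ‖j a‖ ≤ 1 := by
  simpa using P.norm_le 0 a (by simp)

theorem Per.continuous (P : Per p ϖ j φ) : Continuous φ := by
  exact AddMonoidHomClass.continuous_of_bound φ 1 fun b => by rw [one_mul]; exact P.norm_phi b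

theorem Per.mem_pow (P : Per p ϖ j φ) {a : WittVector p O} {k : ℕ}
    (h : ‖j a‖ ≤ (1 / 2) ^ (2 * k)) : a ∈ IA p ϖ ^ k := by
  have h1 := P.ex a (2 * k) h k (by omega)
  rw [show 2 * k - k = k by omega] at h1
  exact WCplAux.le_pow k h1

theorem Per.inj (P : Per p ϖ j φ) : Function.Injective j := by
  rw [injective_iff_map_eq_zero]
  intro a ha
  exact eq_zero_of_mem_pow (IA p ϖ) fun k => P.mem_pow (by rw [ha, norm_zero]; positivity)

theorem Per.fed [PNorm p B] (P : Per p ϖ j φ) : FED p j WittVector.frobenius φ :=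
  ⟨P.inj, PNorm.unit, P.comm, frobenius_sub_mem⟩

/-- The image of `W(O)` is closed. -/
theorem Per.closed (P : Per p ϖ j φ) : IsClosed (Set.range j) := by
  refine isClosed_of_closure_subset fun b hb => ?_
  have h1 : ∀ m : ℕ, ∃ a, ‖b - j a‖ ≤ (1 / 2) ^ (2 * m + 1) := fun m => by
    obtain ⟨_, ⟨a, rfl⟩, ha⟩ := Metric.mem_closure_iff.mp hb ((1 / 2) ^ (2 * m + 1)) (by positivity)
    exact ⟨a, by rw [← dist_eq_norm]; exact ha.le⟩
  choose a ha using h1
  obtain ⟨L, hL⟩ := exists_lim (IA p ϖ) a fun m => P.mem_pow (by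
    have h2 := norm_sub_le (b - j (a m)) (b - j (a (m + 1)))
    have h3 : (1 / 2 : ℝ) ^ (2 * (m + 1) + 1) ≤ (1 / 2) ^ (2 * m + 1) :=
      pow_le_pow_of_le_one (by norm_num) (by norm_num) (by omega)
    have h4 := ha m
    have h5 := ha (m + 1)
    rw [sub_sub_sub_cancel_left, ← map_sub] at h2
    rw [pow_succ _ (2 * m)] at h3 h4
    linarith)
  refine ⟨L, (sub_eq_zero.mp (norm_le_zero_iff.mp
    (le_of_forall_pos_le_add fun ε hε => ?_))).symm⟩
  obtain ⟨m, hm⟩ := exists_pow_lt_of_lt_one (half_pos hε) (show (1 / 2 : ℝ) < 1 by norm_num)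
  have h2 := P.norm_le m _ (hL m)
  have h3 := norm_sub_le (b - j (a m)) (j (L - a m))
  have h4 : (1 / 2 : ℝ) ^ (2 * m + 1) ≤ (1 / 2) ^ m :=
    pow_le_pow_of_le_one (by norm_num) (by norm_num) (by omega)
  have h5 := ha m
  rw [map_sub, sub_sub_sub_cancel_right] at h3
  rw [map_sub] at h2
  linarith

theorem Per.tendsto_pow (P : Per p ϖ j φ) {a : WittVector p O} (ha : a ∈ (IA p ϖ).radical) :
    Tendsto (fun e : ℕ => j a ^ e) atTop (𝓝 0) := by
  obtain ⟨N, hN⟩ := ha
  have h1 : a ^ (N + 1) ∈ IA p ϖ := by rw [pow_succ]; exact Ideal.mul_mem_right _ _ hN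
  have h2 : Tendsto (fun e : ℕ => (1 / 2 : ℝ) ^ (e / (N + 1))) atTop (𝓝 0) :=
    (tendsto_pow_atTop_nhds_zero_of_lt_one (by norm_num) (by norm_num)).comp
      (Nat.tendsto_div_const_atTop (Nat.succ_ne_zero N))
  refine squeeze_zero_norm (fun e => ?_) h2
  rw [← map_pow]
  refine P.norm_le _ _ ?_
  conv => rhs; rw [← Nat.div_add_mod e (N + 1), pow_add, pow_mul]
  exact Ideal.mul_mem_right _ _ (Ideal.pow_mem_pow h1 _)

end Vale.Agent.P217
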